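import Crest.Agent.R165.C.Defs
import Crest.Agent.R165.A.Sign
import Crest.Agent.R165.B1.C

/-! # R165/C: auxiliary lemmas for the planar sign lemma with corner fermions (task R1a, helper43) -/

set_option autoImplicit false

set_option synthInstance.maxSize 5000 in
set_option maxRecDepth 5000 in
theorem Crest.Agent.R165.C.r1a_xor (a b c d s p q r t u : Prop) (h : ((p ↔ q) ↔ (r ↔ t)) ↔ ¬ u) :
    (((((a ∧ ¬ p ∨ p ∧ ¬ a) ↔ (b ∧ ¬ q ∨ q ∧ ¬ b)) ↔
      ((c ∧ ¬ r ∨ r ∧ ¬ c) ↔ (d ∧ ¬ t ∨ t ∧ ¬ d))) ↔ ¬ (s ∧ ¬ u ∨ u ∧ ¬ s)) ↔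
      (((a ↔ b) ↔ (c ↔ d)) ↔ ¬ s)) := by
  have key : ∀ P : Prop, ∃ B : Bool, P = (B = true) := fun P => by
    classical exact ⟨decide P, by simp⟩
  obtain ⟨a, rfl⟩ := key a
  obtain ⟨b, rfl⟩ := key b
  obtain ⟨c, rfl⟩ := key c
  obtain ⟨d, rfl⟩ := key d
  obtain ⟨s, rfl⟩ := key s
  obtain ⟨p, rfl⟩ := key p
  obtain ⟨q, rfl⟩ := key q
  obtain ⟨r, rfl⟩ := key r
  obtain ⟨t, rfl⟩ := key t
  obtain ⟨u, rfl⟩ := key u
  revert a b c d s p q r t u
  decide

noncomputable section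
open Classical

namespace Crest.Agent.R165.C
open BA

/-- the monomial of an edge set -/
def r1aT (γ : Finset Edge) : Gr HE := ((∏ e ∈ γ, eM id e : Ev HE) : Gr HE)
/-- a vector at the site `x` -/
def r1aV (x : Site) (a : Fin 4 → ℝ) : GV HE := ∑ β, a β • Finsupp.single (x, β) (1 : ℝ)
/-- `a = c θ_α + w`, where `w` contracts only with `θ_α` -/
def r1aLoc (a : Fin 4 → ℝ) (α : Fin 4) (c c' : ℝ) : Prop :=
  ∀ δ, ∑ β, (a β - if β = α then c else 0) * G0 β δ = if δ = α then c' else 0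

theorem r1a_iota_mem {S : Set HE} {x : Site} (a : Fin 4 → ℝ) (h : ∀ β, (x, β) ∈ S) :
    ExteriorAlgebra.ι ℝ (r1aV x a) ∈ supA S := by
  rw [r1aV, map_sum]
  refine Subalgebra.sum_mem _ fun β _ => ?_
  rw [map_smul]
  exact Subalgebra.smul_mem _ (th_mem_supA (h β)) _

theorem r1a_split (x : Site) (a : Fin 4 → ℝ) (α : Fin 4) (c : ℝ) :
    ExteriorAlgebra.ι ℝ (r1aV x a) =
      c • th ((x, α) : HE) + ExteriorAlgebra.ι ℝ (r1aV x fun β => a β - if β = α then c else 0) := by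
  have h : r1aV x a = c • Finsupp.single (x, α) (1 : ℝ) + r1aV x fun β => a β - if β = α then c else 0 := by
    simp only [r1aV, sub_smul, Finset.sum_sub_distrib, ite_smul, zero_smul, Finset.sum_ite_eq',
      Finset.mem_univ, if_true]
    abel
  rw [h, map_add, map_smul]
  rfl

theorem r1a_bil {a : Fin 4 → ℝ} {α : Fin 4} {c c' : ℝ} (h : r1aLoc a α c c') (x : Site) (k : HE) :
    bil g0 (r1aV x fun β => a β - if β = α then c else 0) (Finsupp.single k 1) =
      if k = (x, α) then c' else 0 := by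
  obtain ⟨y, δ⟩ := k
  simp only [r1aV, map_sum, map_smul, LinearMap.sum_apply, LinearMap.smul_apply,
    BA.bil_single antisym_g0, smul_eq_mul, g0]
  by_cases hy : x = y
  · subst hy
    simp only [if_true, Prod.mk.injEq, true_and]
    exact h δ
  · simp [hy, Ne.symm hy]

theorem r1a_abs {a : Fin 4 → ℝ} {α : Fin 4} {c c' : ℝ} (h : r1aLoc a α c c') (x : Site) {Z : Gr HE}
    (hZ : Z ∈ supA {k : HE | k ≠ (x, α)}) :
    gauss g0 (ExteriorAlgebra.ι ℝ (r1aV x a) * Z) = c * gauss g0 (th ((x, α) : HE) * Z) := by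
  rw [r1a_split x a α c, add_mul, map_add, gauss_iota_mul,
    contract_eq_zero _ (fun k hk => by rw [r1a_bil h, if_neg hk]) hZ, map_zero, add_zero,
    smul_mul_assoc, map_smul, smul_eq_mul]

theorem r1a_pres {a : Fin 4 → ℝ} {α : Fin 4} {c c' : ℝ} (h : r1aLoc a α c c') (x : Site) {Z : Gr HE}
    (hZ : Z ∈ supA {k : HE | k ≠ (x, α)}) :
    gauss g0 (ExteriorAlgebra.ι ℝ (r1aV x a) * (th ((x, α) : HE) * Z)) = c' * gauss g0 Z := by
  have h1 := ctr_iota_mul (bil g0 (r1aV x fun β => a β - if β = α then c else 0))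
    (Finsupp.single ((x, α) : HE) 1) Z
  have h2 : ctr (bil g0 (r1aV x fun β => a β - if β = α then c else 0)) Z = 0 :=
    contract_eq_zero _ (fun k hk => by rw [r1a_bil h, if_neg hk]) hZ
  rw [h2, mul_zero, sub_zero, r1a_bil h, if_pos rfl] at h1
  rw [r1a_split x a α c, add_mul, map_add, gauss_iota_mul, smul_mul_assoc, ← mul_assoc, th_sq,
    zero_mul, smul_zero, map_zero, zero_add]
  change gauss g0 (ctr _ (ExteriorAlgebra.ι ℝ (Finsupp.single ((x, α) : HE) (1 : ℝ)) * Z)) = _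
  rw [h1, map_smul, smul_eq_mul]

theorem r1a_sw (u v : GV HE) (Z : Gr HE) :
    ExteriorAlgebra.ι ℝ u * (ExteriorAlgebra.ι ℝ v * Z) =
      -(ExteriorAlgebra.ι ℝ v * (ExteriorAlgebra.ι ℝ u * Z)) := by
  rw [← mul_assoc, iota_swap, neg_mul, mul_assoc]

theorem r1a_sw' (u : GV HE) (i : HE) (Z : Gr HE) :
    ExteriorAlgebra.ι ℝ u * (th i * Z) = -(th i * (ExteriorAlgebra.ι ℝ u * Z)) := r1a_sw u _ Z

theorem r1a_T_insert {e : Edge} {γ : Finset Edge} (he : e ∉ γ) (M : Gr HE) :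
    M * r1aT (insert e γ) = th (he0 e) * (th (he1 e) * (M * r1aT γ)) := by
  rw [r1aT, Finset.prod_insert he, MulMemClass.coe_mul, ← mul_assoc, ← even_comm (eM id e) M, coe_eM, r1aT]
  simp only [mul_assoc]

theorem r1a_T_mem {i : HE} {γ : Finset Edge} (h : edgeOf i.1 i.2 ∉ γ) :
    r1aT γ ∈ supA {k : HE | k ≠ i} := by
  refine prod_mem_supA _ _ fun e he => eM_mem ?_ ?_
  · rintro rfl
    exact h (by rw [edgeOf_he0]; exact he)
  · rintro rfl
    exact h (by rw [edgeOf_he1]; exact he)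

theorem r1a_th_T {i : HE} {γ : Finset Edge} (h : edgeOf i.1 i.2 ∈ γ) (M : Gr HE) :
    th i * (M * r1aT γ) = 0 := by
  rw [← Finset.insert_erase h, r1a_T_insert (Finset.notMem_erase _ _)]
  rcases oppHE_cases i with h1 | h1
  · rw [h1.1, ← mul_assoc, th_sq, zero_mul]
  · rw [h1.1, th_sw, ← mul_assoc (th i), th_sq, zero_mul, mul_zero, neg_zero]

/-- turning around a site -/
theorem r1a_turn {a a' : Fin 4 → ℝ} {β : Fin 4} {c c' : ℝ} (h : r1aLoc a β c c')
    (h' : r1aLoc a' β (-c) c') (haa : ∀ δ, a δ - (if δ = β then 2 * c else 0) = a' δ) (x : Site)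
    {M : Gr HE} (hM : M ∈ supA {k : HE | k ≠ (x, β)}) (γ : Finset Edge) :
    gauss g0 (ExteriorAlgebra.ι ℝ (r1aV x a) * (M * r1aT γ)) =
      (if edgeOf x β ∈ γ then 1 else -1) *
        gauss g0 (ExteriorAlgebra.ι ℝ (r1aV x a') * (M * r1aT γ)) := by
  split_ifs with hb
  · rw [r1a_split x a β (2 * c), add_mul, smul_mul_assoc, r1a_th_T (i := (x, β)) hb, smul_zero,
      zero_add, one_mul, show (fun δ => a δ - if δ = β then 2 * c else 0) = a' from funext haa]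
  · have hZ := mul_mem hM (r1a_T_mem (i := (x, β)) hb)
    rw [r1a_abs h x hZ, r1a_abs h' x hZ]
    ring

theorem r1a_symmDiff_cases (γ : Finset Edge) (e : Edge) : ∃ γ₀ : Finset Edge, e ∉ γ₀ ∧
    ((γ = γ₀ ∧ symmDiff γ {e} = insert e γ₀) ∨ (γ = insert e γ₀ ∧ symmDiff γ {e} = γ₀)) := by
  by_cases he : e ∈ γ
  · refine ⟨γ.erase e, Finset.notMem_erase _ _, Or.inr ⟨(Finset.insert_erase he).symm, ?_⟩⟩
    ext e'
    simp only [Finset.mem_symmDiff, Finset.mem_singleton, Finset.mem_erase]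
    constructor
    · rintro (h | h)
      · exact ⟨h.2, h.1⟩
      · exact absurd (h.1 ▸ he) h.2
    · exact fun h => Or.inl ⟨h.2, h.1⟩
  · refine ⟨γ, he, Or.inl ⟨rfl, ?_⟩⟩
    ext e'
    simp only [Finset.mem_symmDiff, Finset.mem_singleton, Finset.mem_insert]
    constructor
    · rintro (h | h)
      · exact Or.inr h.1
      · exact Or.inl h.1
    · rintro (h | h)
      · exact Or.inr ⟨h, h ▸ he⟩
      · exact Or.inl ⟨h, fun h' => he (h' ▸ h)⟩

section cross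
variable {e : Edge} {x x' : Site} {α α' : Fin 4} {a a' : Fin 4 → ℝ} {c c' : ℝ}

/-- crossing an edge -/
theorem r1a_cross (h0 : he0 e = (x, α)) (h1 : he1 e = (x', α')) (hx : x ≠ x') (h : r1aLoc a α c c')
    (h' : r1aLoc a' α' (-c') c) {M : Gr HE} (hM : M ∈ supA {k : HE | k.1 ≠ x ∧ k.1 ≠ x'})
    (γ : Finset Edge) :
    gauss g0 (ExteriorAlgebra.ι ℝ (r1aV x a) * (M * r1aT γ)) =
      -gauss g0 (ExteriorAlgebra.ι ℝ (r1aV x' a') * (M * r1aT (symmDiff γ {e}))) := by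
  obtain ⟨γ₀, he, hγ⟩ := r1a_symmDiff_cases γ e
  have hY0 : M * r1aT γ₀ ∈ supA {k : HE | k ≠ (x, α)} :=
    mul_mem (supA_mono (fun k hk h => hk.1 (by rw [h])) hM)
      (r1a_T_mem (by rw [← h0, edgeOf_he0]; exact he))
  have hY1 : M * r1aT γ₀ ∈ supA {k : HE | k ≠ (x', α')} :=
    mul_mem (supA_mono (fun k hk h => hk.2 (by rw [h])) hM)
      (r1a_T_mem (by rw [← h1, edgeOf_he1]; exact he))
  have t0 : th ((x, α) : HE) ∈ supA {k : HE | k ≠ (x', α')} :=
    th_mem_supA fun h => hx (congrArg Prod.fst h)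
  have t1 : th ((x', α') : HE) ∈ supA {k : HE | k ≠ (x, α)} :=
    th_mem_supA fun h => hx (congrArg Prod.fst h).symm
  rcases hγ with ⟨h2, h3⟩ | ⟨h2, h3⟩
  · rw [h3, h2, r1a_T_insert he, h0, h1, r1a_abs h x hY0, th_sw, mul_neg, map_neg, neg_neg,
      r1a_pres h' x' (mul_mem t0 hY1)]
  · rw [h3, h2, r1a_T_insert he, h0, h1, r1a_pres h x (mul_mem t1 hY0), r1a_abs h' x' hY1]
    ring

/-- annihilation of two fermions across an edge -/
theorem r1a_ann (h0 : he0 e = (x, α)) (h1 : he1 e = (x', α')) (hx : x ≠ x') (h : r1aLoc a α c c')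
    (h' : r1aLoc a' α' (-c') c) {M : Gr HE} (hM : M ∈ supA {k : HE | k.1 ≠ x ∧ k.1 ≠ x'})
    (γ : Finset Edge) :
    gauss g0 (ExteriorAlgebra.ι ℝ (r1aV x a) * (ExteriorAlgebra.ι ℝ (r1aV x' a') * (M * r1aT γ))) =
      -(c * c') * gauss g0 (M * r1aT (symmDiff γ {e})) := by
  obtain ⟨γ₀, he, hγ⟩ := r1a_symmDiff_cases γ e
  have hY0 : M * r1aT γ₀ ∈ supA {k : HE | k ≠ (x, α)} :=
    mul_mem (supA_mono (fun k hk h => hk.1 (by rw [h])) hM)
      (r1a_T_mem (by rw [← h0, edgeOf_he0]; exact he))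
  have hY1 : M * r1aT γ₀ ∈ supA {k : HE | k ≠ (x', α')} :=
    mul_mem (supA_mono (fun k hk h => hk.2 (by rw [h])) hM)
      (r1a_T_mem (by rw [← h1, edgeOf_he1]; exact he))
  have t0 : th ((x, α) : HE) ∈ supA {k : HE | k ≠ (x', α')} :=
    th_mem_supA fun h => hx (congrArg Prod.fst h)
  have t1 : th ((x', α') : HE) ∈ supA {k : HE | k ≠ (x, α)} :=
    th_mem_supA fun h => hx (congrArg Prod.fst h).symm
  have t2 : ExteriorAlgebra.ι ℝ (r1aV x' a') ∈ supA {k : HE | k ≠ (x, α)} :=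
    r1a_iota_mem _ fun β h => hx (congrArg Prod.fst h).symm
  rcases hγ with ⟨h2, h3⟩ | ⟨h2, h3⟩
  · have e1 := r1a_sw' (r1aV x' a') (x, α) (M * r1aT γ₀)
    rw [h3, h2, r1a_T_insert he, h0, h1, r1a_abs h x (mul_mem t2 hY0), ← neg_neg (th (x, α) * _), ← e1,
      map_neg, r1a_abs h' x' (mul_mem t0 hY1), th_sw, map_neg]
    ring
  · rw [h3, h2, r1a_T_insert he, h0, h1, r1a_sw' (r1aV x' a'), mul_neg, map_neg,
      r1a_pres h x (mul_mem t2 (mul_mem t1 hY0)), r1a_pres h' x' hY1]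
    ring

end cross

/-! ### boundaries and gauges -/

theorem r1a_bd_iff (γ : Finset Edge) (S : Finset Site) : BdIs γ S ↔ ∀ x : Site,
    (((((x, 0) : Edge) ∈ γ ↔ ((x, 1) : Edge) ∈ γ) ↔
      (((x - (1, 0), 0) : Edge) ∈ γ ↔ ((x - (0, 1), 1) : Edge) ∈ γ)) ↔ x ∉ S) := by
  refine forall_congr' fun x => iff_congr ?_ Iff.rfl
  rw [Finset.card_filter, Fin.sum_univ_four]
  have e0 : edgeOf x 0 = (x, 0) := rfl
  have e1 : edgeOf x 1 = (x, 1) := rfl
  have e2 : edgeOf x 2 = (x - (1, 0), 0) := rfl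
  have e3 : edgeOf x 3 = (x - (0, 1), 1) := rfl
  rw [e0, e1, e2, e3]
  by_cases h0 : ((x, 0) : Edge) ∈ γ <;> by_cases h1 : ((x, 1) : Edge) ∈ γ <;>
    by_cases h2 : ((x - (1, 0), 0) : Edge) ∈ γ <;> by_cases h3 : ((x - (0, 1), 1) : Edge) ∈ γ <;>
    simp only [h0, h1, h2, h3, if_true, if_false] <;> decide

theorem r1a_bd_single (e : Edge) : BdIs {e} {e.1, e.1 + uv e.2} := by
  rw [r1a_bd_iff]
  rintro ⟨x, y⟩
  obtain ⟨⟨p, q⟩, j⟩ := e
  fin_cases j <;> simp [uv, Prod.ext_iff] <;> omega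

theorem r1a_bd_toggle (γ : Finset Edge) (S : Finset Site) (e : Edge) :
    BdIs (symmDiff γ {e}) (symmDiff S {e.1, e.1 + uv e.2}) ↔ BdIs γ S := by
  have h := (r1a_bd_iff _ _).1 (r1a_bd_single e)
  rw [r1a_bd_iff, r1a_bd_iff]
  refine forall_congr' fun x => ?_
  simp only [Finset.mem_symmDiff]
  exact r1a_xor _ _ _ _ _ _ _ _ _ _ (h x)

theorem r1a_prod_symmDiff {κ : Type} [DecidableEq κ] (f : κ → ℝ) (hf : ∀ k, f k * f k = 1) (S T : Finset κ) :
    ∏ k ∈ symmDiff S T, f k = (∏ k ∈ S, f k) * ∏ k ∈ T, f k := by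
  rw [← Finset.prod_inter_mul_prod_sdiff S T, ← Finset.prod_inter_mul_prod_sdiff T S,
    Finset.inter_comm T S, symmDiff_def, Finset.sup_eq_union, Finset.prod_union disjoint_sdiff_sdiff]
  have h : (∏ k ∈ S ∩ T, f k) * ∏ k ∈ S ∩ T, f k = 1 := by
    rw [← Finset.prod_mul_distrib]
    exact Finset.prod_eq_one fun k _ => hf k
  linear_combination (-((∏ v ∈ S \ T, f v) * ∏ v ∈ T \ S, f v)) * h

theorem r1a_ne_add (x : Site) (j : Fin 2) : x ≠ x + uv j := by
  fin_cases j <;> simp [uv, Prod.ext_iff]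

theorem r1a_gauge {σ : Site → ℝ} (hσ : IsSign σ) (γ : Finset Edge) : ∀ S : Finset Site, BdIs γ S →
    ∏ e ∈ γ, σ e.1 * σ (e.1 + uv e.2) = ∏ v ∈ S, σ v := by
  have hs : ∀ v, σ v * σ v = 1 := fun v => mul_self_eq_one_iff.2 (hσ v)
  induction γ using Finset.induction_on with
  | empty =>
    intro S hS
    have : S = ∅ := Finset.eq_empty_of_forall_notMem fun x => (hS x).1 (by simp)
    simp [this]
  | insert e γ he ih =>
    intro S hS
    have h1 : symmDiff (insert e γ) {e} = γ := by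
      ext e'
      simp only [Finset.mem_symmDiff, Finset.mem_singleton, Finset.mem_insert]
      constructor
      · rintro (h | h)
        · exact h.1.resolve_left h.2
        · exact absurd (Or.inl h.1) h.2
      · exact fun h => Or.inl ⟨Or.inr h, fun h' => he (h' ▸ h)⟩
    have h2 := (r1a_bd_toggle _ S e).2 hS
    rw [h1] at h2
    rw [Finset.prod_insert he, ih _ h2, r1a_prod_symmDiff σ hs, Finset.prod_pair (r1a_ne_add _ _)]
    linear_combination (∏ v ∈ S, σ v) * (σ e.1 * σ e.1) * hs (e.1 + uv e.2) + (∏ v ∈ S, σ v) * hs e.1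

/-- the statement carried through the induction -/
def r1aP (X : Gr HE) (S : Finset Site) : Prop :=
  ∃ ε : ℝ, (ε = 1 ∨ ε = -1) ∧ ∀ γ : Finset Edge,
    gauss g0 (X * r1aT γ) * ∏ e ∈ γ, eray S e = if BdIs γ S then ε else 0

theorem r1a_sign_mul {a b : ℝ} (ha : a = 1 ∨ a = -1) (hb : b = 1 ∨ b = -1) : a * b = 1 ∨ a * b = -1 := by
  rcases ha with rfl | rfl <;> rcases hb with rfl | rfl <;> simp

theorem r1a_sign_prod {κ : Type} (s : Finset κ) {f : κ → ℝ} (hf : ∀ k, f k = 1 ∨ f k = -1) :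
    ∏ k ∈ s, f k = 1 ∨ ∏ k ∈ s, f k = -1 :=
  Finset.prod_induction f (fun t => t = 1 ∨ t = -1) (fun _ _ => r1a_sign_mul) (Or.inl rfl)
    fun k _ => hf k

theorem r1a_step {X X' : Gr HE} {S : Finset Site} {d b : Edge} {s : ℝ} (hs : s = 1 ∨ s = -1)
    (hb : ({edgeB0 b, edgeB1 b} : Finset Site) = {d.1, d.1 + uv d.2})
    (h : ∀ γ, gauss g0 (X * r1aT γ) =
      s * (if b ∈ γ then 1 else -1) * gauss g0 (X' * r1aT (symmDiff γ {d})))
    (hP : r1aP X' (symmDiff S {d.1, d.1 + uv d.2})) : r1aP X S := by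
  obtain ⟨ε, hε, hP⟩ := hP
  obtain ⟨σ, hσ, hm⟩ := eray_move S b
  rw [hb] at hm
  set S' := symmDiff S {d.1, d.1 + uv d.2} with hS'
  have hsq : ∀ e, eray S' e * eray S' e = 1 := fun e => mul_self_eq_one_iff.2 (eray_sign S' e)
  refine ⟨-(s * ((∏ v ∈ S, σ v) * (eray S' d * ε))), ?_, fun γ => ?_⟩
  · rcases r1a_sign_mul hs (r1a_sign_mul (r1a_sign_prod S hσ) (r1a_sign_mul (eray_sign S' d) hε)) with
      h1 | h1 <;> rw [h1] <;> simp
  have h1 := hP (symmDiff γ {d})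
  rw [r1a_bd_toggle, r1a_prod_symmDiff _ hsq, Finset.prod_singleton] at h1
  have h2 : (∏ e ∈ γ, σ e.1 * σ (e.1 + uv e.2)) * ∏ e ∈ γ, eray S' e =
      (if b ∈ γ then -1 else 1) * ∏ e ∈ γ, eray S e := by
    rw [← Finset.prod_mul_distrib, Finset.prod_congr rfl fun e _ => hm e, Finset.prod_mul_distrib,
      Finset.prod_ite_eq' γ b fun _ => (-1 : ℝ)]
  rw [h γ]
  by_cases hγ : BdIs γ S
  · rw [if_pos hγ] at h1 ⊢
    rw [r1a_gauge hσ γ S hγ] at h2
    have h3 := hsq d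
    split_ifs at h2 ⊢
    · linear_combination (s * gauss g0 (X' * r1aT (symmDiff γ {d}))) * h2 -
        (s * (∏ v ∈ S, σ v) * eray S' d) * h1 + (s * (∏ v ∈ S, σ v) *
          gauss g0 (X' * r1aT (symmDiff γ {d})) * ∏ e ∈ γ, eray S' e) * h3
    · linear_combination (s * gauss g0 (X' * r1aT (symmDiff γ {d}))) * h2 -
        (s * (∏ v ∈ S, σ v) * eray S' d) * h1 + (s * (∏ v ∈ S, σ v) *
          gauss g0 (X' * r1aT (symmDiff γ {d})) * ∏ e ∈ γ, eray S' e) * h3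
  · rw [if_neg hγ] at h1 ⊢
    have h3 : (∏ e ∈ γ, eray S' e) * eray S' d ≠ 0 := by
      rcases r1a_sign_mul (r1a_sign_prod γ (eray_sign S')) (eray_sign S' d) with h4 | h4 <;>
        rw [h4] <;> norm_num
    rw [(mul_eq_zero.1 h1).resolve_right h3, mul_zero, zero_mul]

/-! ### the induction -/

/-- twice the corner fermion -/
def r1aF (v : Site) : GV HE := r1aV v ![1, 1, 1, -1]
def r1aW (l : List Site) : Gr HE := wedge (l.map r1aF)

theorem r1aW_cons (v : Site) (l : List Site) :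
    r1aW (v :: l) = ExteriorAlgebra.ι ℝ (r1aF v) * r1aW l := by
  rw [r1aW, List.map_cons, wedge_cons, r1aW]

theorem r1aW_mem {S : Set HE} (l : List Site) (h : ∀ v ∈ l, ∀ β, (v, β) ∈ S) : r1aW l ∈ supA S := by
  induction l with
  | nil => exact one_mem _
  | cons v l ih =>
    rw [r1aW_cons]
    exact mul_mem (r1a_iota_mem _ (h v (List.mem_cons_self ..)))
      (ih fun w hw => h w (List.mem_cons_of_mem _ hw))

theorem r1aW_perm {l l' : List Site} (h : l.Perm l') :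
    ∃ s : ℝ, (s = 1 ∨ s = -1) ∧ r1aW l = s • r1aW l' := by
  induction h with
  | nil => exact ⟨1, Or.inl rfl, (one_smul _ _).symm⟩
  | cons v _ ih =>
    obtain ⟨s, hs, h⟩ := ih
    exact ⟨s, hs, by rw [r1aW_cons, r1aW_cons, h, mul_smul_comm]⟩
  | swap v w l =>
    exact ⟨-1, Or.inr rfl, by rw [r1aW_cons, r1aW_cons, r1aW_cons, r1aW_cons, r1a_sw, neg_one_smul]⟩
  | trans _ _ ih ih' =>
    obtain ⟨s, hs, h⟩ := ih
    obtain ⟨s', hs', h'⟩ := ih'
    exact ⟨s * s', r1a_sign_mul hs hs', by rw [h, h', smul_smul]⟩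

theorem r1aP_perm {l l' : List Site} (h : l.Perm l') (hP : r1aP (r1aW l') l'.toFinset) :
    r1aP (r1aW l) l.toFinset := by
  obtain ⟨s, hs, h1⟩ := r1aW_perm h
  obtain ⟨ε, hε, hP⟩ := hP
  rw [List.toFinset_eq_of_perm _ _ h]
  refine ⟨s * ε, r1a_sign_mul hs hε, fun γ => ?_⟩
  rw [h1, smul_mul_assoc, map_smul, smul_eq_mul, mul_assoc, hP]
  split_ifs <;> simp

/-- local data of a step in the direction `j` -/
theorem r1a_data (x : Site) (j : Fin 2) : ∃ (a : Fin 4 → ℝ) (β α α' : Fin 4) (t c' : ℝ),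
    r1aLoc ![1, 1, 1, -1] β t 1 ∧ r1aLoc a β (-t) 1 ∧
    (∀ δ, (![1, 1, 1, -1] : Fin 4 → ℝ) δ - (if δ = β then 2 * t else 0) = a δ) ∧
    he0 (x, j) = (x, α) ∧ he1 (x, j) = (x + uv j, α') ∧ r1aLoc a α 1 c' ∧
    r1aLoc ![1, 1, 1, -1] α' (-c') 1 ∧ (c' = 1 ∨ c' = -1) ∧
    ({edgeB0 (edgeOf x β), edgeB1 (edgeOf x β)} : Finset Site) = {x, x + uv j} := by
  fin_cases j
  · refine ⟨![1, 1, 1, 1], 3, 0, 2, -1, -1, ?_, ?_, ?_, rfl, rfl, ?_, ?_, Or.inr rfl, ?_⟩
    iterate 2 intro δ; fin_cases δ <;> simp [Fin.sum_univ_four, G0] <;> norm_num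
    · intro δ; fin_cases δ <;> simp <;> norm_num
    iterate 2 intro δ; fin_cases δ <;> simp [Fin.sum_univ_four, G0] <;> norm_num
    · show ({x - (0, 1) + (0, 1), x - (0, 1) + (1, 1)} : Finset Site) = {x, x + (1, 0)}
      rw [sub_add_cancel, show x - (0, 1) + (1, 1) = x + (1, 0) by simp [Prod.ext_iff]]
  · refine ⟨![1, 1, -1, -1], 2, 1, 3, 1, 1, ?_, ?_, ?_, rfl, rfl, ?_, ?_, Or.inl rfl, ?_⟩
    iterate 2 intro δ; fin_cases δ <;> simp [Fin.sum_univ_four, G0] <;> norm_num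
    · intro δ; fin_cases δ <;> simp <;> norm_num
    iterate 2 intro δ; fin_cases δ <;> simp [Fin.sum_univ_four, G0] <;> norm_num
    · show ({x - (1, 0) + (1, 0), x - (1, 0) + (1, 1)} : Finset Site) = {x, x + (0, 1)}
      rw [sub_add_cancel, show x - (1, 0) + (1, 1) = x + (0, 1) by simp [Prod.ext_iff]]

theorem r1a_move (x : Site) (j : Fin 2) (l : List Site) (hx : x ∉ l) (hx' : x + uv j ∉ l)
    (hP : r1aP (r1aW ((x + uv j) :: l)) ((x + uv j) :: l).toFinset) :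
    r1aP (r1aW (x :: l)) (x :: l).toFinset := by
  obtain ⟨a, β, α, α', t, c', h1, h2, h3, h4, h5, h6, h7, h8, h9⟩ := r1a_data x j
  have hne := r1a_ne_add x j
  have hM : r1aW l ∈ supA {k : HE | k.1 ≠ x ∧ k.1 ≠ x + uv j} :=
    r1aW_mem l fun v hv _ => ⟨fun h => hx (h ▸ hv), fun h => hx' (h ▸ hv)⟩
  refine r1a_step (d := (x, j)) (b := edgeOf x β) (s := -1) (X' := r1aW ((x + uv j) :: l))
    (Or.inr rfl) h9 (fun γ => ?_) ?_
  · rw [r1aW_cons, r1aW_cons, mul_assoc _ (r1aW l), mul_assoc _ (r1aW l), r1aF, r1aF,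
      r1a_turn h1 h2 h3 x (supA_mono (fun k hk h => hk.1 (by rw [h])) hM),
      r1a_cross h4 h5 hne h6 h7 hM]
    ring
  · convert hP using 1
    ext v
    simp only [Finset.mem_symmDiff, List.toFinset_cons, Finset.mem_insert, List.mem_toFinset,
      Finset.mem_singleton]
    by_cases e1 : v = x
    · subst e1; simp [hne, hx]
    · by_cases e2 : v = x + uv j
      · subst e2; simp [e1, hx']
      · simp [e1, e2]

theorem r1a_kill (x : Site) (j : Fin 2) (l : List Site) (hx : x ∉ l) (hx' : x + uv j ∉ l)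
    (hP : r1aP (r1aW l) l.toFinset) :
    r1aP (r1aW (x :: (x + uv j) :: l)) (x :: (x + uv j) :: l).toFinset := by
  obtain ⟨a, β, α, α', t, c', h1, h2, h3, h4, h5, h6, h7, h8, h9⟩ := r1a_data x j
  have hne := r1a_ne_add x j
  have hM : r1aW l ∈ supA {k : HE | k.1 ≠ x ∧ k.1 ≠ x + uv j} :=
    r1aW_mem l fun v hv _ => ⟨fun h => hx (h ▸ hv), fun h => hx' (h ▸ hv)⟩
  have hM' : r1aW ((x + uv j) :: l) ∈ supA {k : HE | k ≠ (x, β)} :=
    r1aW_mem _ fun v hv δ h => by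
      have h' : v = x := congrArg Prod.fst h
      rcases List.mem_cons.1 hv with h'' | h''
      · exact hne (h'.symm.trans h'')
      · exact hx (h' ▸ h'')
  refine r1a_step (d := (x, j)) (b := edgeOf x β) (s := -c') (X' := r1aW l)
    (by rcases h8 with rfl | rfl <;> simp) h9 (fun γ => ?_) ?_
  · rw [r1aW_cons, mul_assoc, r1aF, r1a_turn h1 h2 h3 x hM', r1aW_cons, mul_assoc, r1aF,
      r1a_ann h4 h5 hne h6 h7 hM]
    ring
  · convert hP using 1
    ext v
    simp only [Finset.mem_symmDiff, List.toFinset_cons, Finset.mem_insert, List.mem_toFinset,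
      Finset.mem_singleton]
    by_cases e1 : v = x
    · subst e1; simp [hx]
    · by_cases e2 : v = x + uv j
      · subst e2; simp [hx']
      · simp [e1, e2]

theorem r1a_nil : r1aP (r1aW []) ([] : List Site).toFinset := by
  refine ⟨1, Or.inl rfl, fun γ => ?_⟩
  have h1 : ∏ e ∈ γ, eray ([] : List Site).toFinset e = 1 :=
    Finset.prod_eq_one fun e _ => by simp [eray]
  have h2 : BdIs γ ([] : List Site).toFinset ↔ EvenSub γ := forall_congr' fun x => by simp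
  rw [h1, mul_one, h2, r1aW, List.map_nil, wedge_nil, one_mul, r1aT, gauss_contour isKer_g0]

theorem r1a_main (X Y : ℤ) (N : ℕ) : ∀ l : List Site, l.Nodup → Even l.length →
    (∀ v ∈ l, v.1 ≤ X ∧ v.2 ≤ Y) → (l.map fun v => (X - v.1 + (Y - v.2)).toNat).sum = N →
    r1aP (r1aW l) l.toFinset := by
  induction N using Nat.strong_induction_on with
  | _ N ih =>
  intro l hl he hb hN
  by_cases hex : ∃ x ∈ l, x ≠ (X, Y)
  · obtain ⟨x, hx, hxne⟩ := hex
    obtain ⟨j, hj, hj'⟩ : ∃ j : Fin 2, ((x + uv j).1 ≤ X ∧ (x + uv j).2 ≤ Y) ∧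
        (X - (x + uv j).1 + (Y - (x + uv j).2)).toNat < (X - x.1 + (Y - x.2)).toNat := by
      have h1 := hb x hx
      by_cases h2 : x.1 < X
      · exact ⟨0, by simp [uv]; omega, by simp [uv]; omega⟩
      · have h3 : x.2 ≠ Y := fun h => hxne (Prod.ext (by simp only; omega) h)
        exact ⟨1, by simp [uv]; omega, by simp [uv]; omega⟩
    have p1 := List.perm_cons_erase hx
    have n1 := p1.nodup_iff.1 hl
    rw [List.nodup_cons] at n1
    have s1 := (p1.map fun v => (X - v.1 + (Y - v.2)).toNat).sum_eq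
    have l1 := p1.length_eq
    rw [List.map_cons, List.sum_cons] at s1
    rw [List.length_cons] at l1
    have hb1 : ∀ v ∈ l.erase x, v.1 ≤ X ∧ v.2 ≤ Y := fun v hv => hb v (List.mem_of_mem_erase hv)
    refine r1aP_perm p1 ?_
    by_cases hx' : x + uv j ∈ l.erase x
    · have p2 := List.perm_cons_erase hx'
      have n2 := p2.nodup_iff.1 n1.2
      rw [List.nodup_cons] at n2
      have s2 := (p2.map fun v => (X - v.1 + (Y - v.2)).toNat).sum_eq
      have l2 := p2.length_eq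
      rw [List.map_cons, List.sum_cons] at s2
      rw [List.length_cons] at l2
      refine r1aP_perm (p2.cons x) (r1a_kill x j _ (fun h => n1.1 (List.mem_of_mem_erase h)) n2.1
        (ih _ ?_ _ n2.2 ?_ (fun v hv => hb1 v (List.mem_of_mem_erase hv)) rfl))
      · omega
      · rw [l1, l2] at he
        obtain ⟨k, hk⟩ := he
        exact ⟨k - 1, by omega⟩
    · refine r1a_move x j _ n1.1 hx' (ih _ ?_ _ (List.nodup_cons.2 ⟨hx', n1.2⟩) ?_ ?_ rfl)
      · rw [List.map_cons, List.sum_cons]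
        omega
      · rw [List.length_cons, ← l1]
        exact he
      · intro v hv
        rcases List.mem_cons.1 hv with rfl | hv
        · exact hj
        · exact hb1 v hv
  · push Not at hex
    match l, hl, he, hex with
    | [], _, _, _ => exact r1a_nil
    | [_], _, he, _ => simp at he
    | v :: w :: l, hl, _, hex =>
      have h1 := hex v (by simp)
      have h2 := hex w (by simp)
      rw [h1, h2] at hl
      simp at hl

theorem r1a_all (l : List Site) (hl : l.Nodup) (he : Even l.length) : r1aP (r1aW l) l.toFinset := by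
  obtain ⟨X, hX⟩ := (l.toFinset.image fun v => max v.1 v.2).bddAbove
  refine r1a_main X X _ l hl he (fun v hv => ?_) rfl
  have := hX (Finset.mem_coe.2 (Finset.mem_image_of_mem _ (List.mem_toFinset.2 hv)))
  exact ⟨(le_max_left _ _).trans this, (le_max_right _ _).trans this⟩

theorem r1aF_eq (v : Site) : r1aF v = (2 : ℝ) • psiV v := by
  simp only [r1aF, r1aV, psiV, Finset.smul_sum, smul_smul]
  refine Finset.sum_congr rfl fun β _ => ?_
  congr 1
  fin_cases β <;> simp [vC] <;> norm_num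

theorem r1a_spD {n : ℕ} (v : Fin n → Site) : r1aW (List.ofFn v) = (2 : ℝ) ^ n • spD v := by
  have h := wedge_smul (List.ofFn v) (fun _ => (2 : ℝ)) psiV
  rw [r1aW, show r1aF = fun i => (2 : ℝ) • psiV i from funext r1aF_eq, h, spD, List.map_ofFn,
    List.map_ofFn]
  congr 1
  simp [Function.comp_def]

end Crest.Agent.R165.C
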