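import Crest.Agent.R165.C.Defs
import Crest.Agent.R165.A.Ising
import Crest.Agent.R165.B1.A

/-! # R165/C: high-temperature expansion, auxiliary lemmas (task R1b) -/

set_option autoImplicit false
noncomputable section
open Classical Filter Topology Metric Crest.ProbabilityR.IsingModel

namespace Crest.Agent.R165.C

theorem r1b_inc (z : Site) (e : Edge) : (∑ α : Fin 4, if edgeOf z α = e then 1 else 0 : ℕ) =
    (if z = e.1 then 1 else 0) + (if z = e.1 + uv e.2 then 1 else 0) := by
  obtain ⟨x, j⟩ := e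
  rw [Fin.sum_univ_four]
  fin_cases j <;> simp [edgeOf, uv, Prod.ext_iff, sub_eq_iff_eq_add]

theorem r1b_deg (γ : Finset Edge) (z : Site) : (Finset.univ.filter fun α : Fin 4 => edgeOf z α ∈ γ).card =
    ∑ e ∈ γ, ((if z = e.1 then 1 else 0) + (if z = e.1 + uv e.2 then 1 else 0)) := by
  simp only [← r1b_inc, Finset.card_filter]
  rw [Finset.sum_comm]
  simp only [Finset.sum_ite_eq]

theorem r1b_par (T S : Finset Site) (hS : S ⊆ T) (γ : Finset Edge) (hγ : ∀ e ∈ γ, e.1 ∈ T ∧ e.1 + uv e.2 ∈ T) :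
    ∑ σ : T → Bool, (∏ v ∈ S, spinSign (extendConfig T .free σ v)) *
      ∏ e ∈ γ, spinSign (extendConfig T .free σ e.1) * spinSign (extendConfig T .free σ (e.1 + uv e.2)) =
      if BdIs γ S then 2 ^ T.card else 0 := by
  set m : Site → ℕ := fun z => (if z ∈ S then 1 else 0) +
    (Finset.univ.filter fun α : Fin 4 => edgeOf z α ∈ γ).card with hm
  have h1 : ∀ s : Site → ℝ, (∏ v ∈ S, s v) * ∏ e ∈ γ, s e.1 * s (e.1 + uv e.2) = ∏ z ∈ T, s z ^ m z := fun s => by
    simp only [hm, r1b_deg, pow_add, Finset.prod_mul_distrib, ← Finset.prod_pow_eq_pow_sum, pow_ite, pow_one, pow_zero]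
    rw [Finset.prod_ite_mem, Finset.inter_eq_right.2 hS, Finset.prod_comm, Finset.prod_comm (s := T)]
    congr 2 <;> refine Finset.prod_congr rfl fun e he => ?_
    · rw [Finset.prod_ite_eq', if_pos (hγ e he).1]
    · rw [Finset.prod_ite_eq', if_pos (hγ e he).2]
  have h2 : ∀ σ : T → Bool, ∏ z ∈ T, spinSign (extendConfig T .free σ z) ^ m z = ∏ z : T, spinSign (σ z) ^ m z :=
    fun σ => by
      rw [← Finset.prod_coe_sort]
      exact Finset.prod_congr rfl fun z _ => by rw [extendConfig, dif_pos z.2]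
  simp only [h1 fun z => spinSign (extendConfig T .free _ z), h2]
  rw [← Fintype.piFinset_univ, ← Finset.prod_univ_sum (fun _ => Finset.univ) fun (z : T) b => spinSign b ^ m z]
  have h3 : ∀ z : T, ∑ b : Bool, spinSign b ^ m z = if Even (m z) then 2 else 0 := fun z => by
    rcases Nat.even_or_odd (m z) with h | h
    · norm_num [spinSign, h, h.neg_one_pow]
    · norm_num [spinSign, Nat.not_even_iff_odd.2 h, h.neg_one_pow]
  have h4 : ∀ z, Even (m z) ↔ (Even (Finset.univ.filter fun α : Fin 4 => edgeOf z α ∈ γ).card ↔ z ∉ S) := fun z => by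
    by_cases hz : z ∈ S <;> simp [hm, hz, Nat.even_add]
  simp only [h3]
  split_ifs with h
  · simp [fun z => (h4 z).2 (h z)]
  · obtain ⟨z, hz⟩ := not_forall.1 h
    refine Finset.prod_eq_zero (Finset.mem_univ ⟨z, by_contra fun hT => hz ?_⟩) (if_neg fun h' => hz ((h4 z).1 h'))
    rw [r1b_deg, Finset.sum_eq_zero fun e he => by
      rw [if_neg fun h : z = _ => hT (h ▸ (hγ e he).1), if_neg fun h : z = _ => hT (h ▸ (hγ e he).2), add_zero]]
    simpa using fun h => hT (hS h)

theorem r1b_sum (T S : Finset Site) (hS : S ⊆ T) (E : Finset Edge) (hE : ∀ e ∈ E, e.1 ∈ T ∧ e.1 + uv e.2 ∈ T)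
    (p q : Edge → ℝ) :
    ∑ σ : T → Bool, (∏ v ∈ S, spinSign (extendConfig T .free σ v)) * ∏ e ∈ E,
      (q e * (spinSign (extendConfig T .free σ e.1) * spinSign (extendConfig T .free σ (e.1 + uv e.2))) + p e) =
      2 ^ T.card * ∑ γ ∈ E.powerset.filter (fun γ => BdIs γ S), ∏ e ∈ E, if e ∈ γ then q e else p e := by
  simp only [Finset.prod_add, Finset.mul_sum, Finset.sum_filter]
  rw [Finset.sum_comm]
  refine Finset.sum_congr rfl fun γ hγ => ?_
  have hs := Finset.mem_powerset.1 hγ
  have := r1b_par T S hS γ fun e he => hE e (hs he)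
  rw [Finset.prod_ite, Finset.filter_mem_eq_inter, Finset.inter_eq_right.2 hs, ← Finset.sdiff_eq_filter]
  simp only [Finset.prod_mul_distrib (f := q), mul_right_comm (∏ e ∈ γ, q e), mul_left_comm (∏ v ∈ S, _)]
  rw [← Finset.mul_sum, this]
  split_ifs <;> ring

theorem r1b_exp {J : ℝ} (hJ : 0 < J) (x y : Bool) : Real.exp (criticalBeta J * J * (spinSign x * spinSign y)) =
    Real.exp (criticalBeta J * J) / (1 + tc) * (tc * (spinSign x * spinSign y) + 1) := by
  have h0 := tc_pos.1
  have h1 : Real.exp (-(criticalBeta J * J)) = Real.exp (criticalBeta J * J) * tc := by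
    rw [← exp_critical hJ, ← Real.exp_add]
    congr 1
    ring
  have h2 := tc_sq
  cases x <;> cases y <;> simp only [spinSign, if_true, Bool.false_eq_true, if_false, mul_one, mul_neg, neg_neg,
    h1] <;> field_simp <;> linarith

theorem r1b_energy (T : Finset Site) (E : Finset Edge) (hE : ∀ e, e ∈ E ↔ e.1 ∈ T ∧ e.1 + uv e.2 ∈ T) (J β : ℝ) (R : ℕ)
    (V : Finset Site → ℝ) (s : Site → Bool) : -β * domainEnergy T .free J 0 R V s =
      ∑ e ∈ E, β * J * (spinSign (s e.1) * spinSign (s (e.1 + uv e.2))) := by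
  have hu : unitVec = uv := by funext j; fin_cases j <;> rfl
  have : E = (T ×ˢ Finset.univ).filter fun e => e.1 + uv e.2 ∈ T := by ext e; simp [hE]
  rw [this, ← Finset.mul_sum, Finset.sum_filter, Finset.sum_product]
  simp [domainEnergy, hu, mul_assoc]

end Crest.Agent.R165.C
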