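import Crest.Agent.R165.C.T3
import Crest.Agent.R165.C.R1ax
import Crest.Agent.R165.C.R1bx

/-! # R165/C: representation of the mixed correlations (block C, owner helper83; statements FROZEN, add lemmas freely inside the namespace) -/

set_option autoImplicit false
noncomputable section
open Classical Filter Topology Metric Crest.ProbabilityR.IsingModel

namespace Crest.Agent.R165.C

/-! ### task R1a -/

/-- **planar sign lemma with corner fermions.** Local rules for `g₀` (`gauss_iota_mul`: the vector `A₀θ` at `(x, β)`, `Σ_γ A0 β γ θ_{x,γ}`, contracts only with `θ_{x,β}`):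
(R1) `gauss g₀ (A₀θ_{x,β} · M) = 0` if `M` does not contain `θ_{x,β}`; (R2) `gauss g₀ (A₀θ_{x,β} θ_{x,β} M) = ± gauss g₀ M`. With `ψ_α = Σ_β vC α β θ_β`: `ψ_α - ψ_{α-1} = θ_α`, `ψ_α + ψ_{α-1} = -A₀θ_α`.
(a) turning around the white site `x` across its edge `α` multiplies by `+1` if the edge is in `γ`, `-1` if not; (b) crossing the edge `e` from `x` to `x'` along the black site replaces `γ` by `γ Δ {e}` with a
fixed sign. East step `(x,2) → (x,3) → (x + e₀, 2)`, north step `(x,2) → (x,1) → (x + e₁, 2)` (`eray_move`; the gauge contributes `Π_{v ∈ ∂γ} σ v`); if the target site carries a fermion the two annihilate.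
Induction on `Σ_v ((X - v.1) + (Y - v.2))` for a far point `(X, Y)`; base case `gauss_contour`. State the induction for `Nodup` lists of sites up to permutation (a swap changes `ε`). -/
theorem sign_lemma {g₀ : HE → HE → ℝ} (h₀ : IsKer 0 g₀) {n : ℕ} (v : Fin n → Site) (hv : Function.Injective v) (hn : Even n) :
    ∃ ε : ℝ, (ε = 1 ∨ ε = -1) ∧ ∀ γ : Finset Edge,
      2 ^ n * gauss g₀ (spD v * ((∏ e ∈ γ, eM id e : Ev HE) : Gr HE)) * ∏ e ∈ γ, eray (spinsOf v) e =
        if BdIs γ (spinsOf v) then ε else 0 := by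
  obtain ⟨ε, hε, h⟩ := r1a_all (List.ofFn v) (List.nodup_ofFn.2 hv) (by simpa using hn)
  refine ⟨ε, hε, fun γ => ?_⟩
  have h1 : (List.ofFn v).toFinset = spinsOf v := by
    ext z
    simp [spinsOf, List.mem_ofFn]
  have h2 := h γ
  rw [h1, r1a_spD, smul_mul_assoc, map_smul, smul_eq_mul] at h2
  rw [BA.eq_g0 h₀]
  exact h2

/-! ### task R1b -/

/-- at `lam = 0` the potential is irrelevant -/
theorem domainExpect_lam0 (D : Set ℂ) (a : ℝ) (b : BoundaryCondition) (J : ℝ) (R : ℕ) (V : Finset Site → ℝ) (β : ℝ)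
    (f : (Site → Bool) → ℝ) : domainExpect D a b J 0 R V β f = domainExpect D a b J 0 R 0 β f := by
  simp only [domainExpect, domainEnergy, zero_mul]

/-- **high-temperature expansion**: `exp (K σσ') = cosh K (1 + tc σσ')` at `K = criticalBeta J * J` (`exp_critical`, `DU.tc_dual`),
`(σσ' - c)(1 + tc σσ') = (tc - c) + tc (tc + 2 - c) σσ'` (`1 / tc = tc + 2`), `Finset.prod_add`/`prod_one_add`, `Σ_σ Π_z σ_z^{m z} = 2^{|T|} [all m z even]`. -/
theorem ht_free {D : Set ℂ} {a : ℝ} (h : (domainSites D a).Finite) {J : ℝ} (hJ : 0 < J) (R : ℕ) (V : Finset Site → ℝ)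
    (S : Finset Site) (hS : ↑S ⊆ domainSites D a) {m : ℕ} (e : Fin m → Edge) (he : Function.Injective e)
    (heT : ∀ k, e k ∈ eDual (domainSites D a)) (c : Fin m → ℝ) :
    domainExpect D a .free J 0 R V (criticalBeta J) (fun σ => (∏ v ∈ S, spinSign (σ v)) *
        ∏ k, (spinSign (σ (e k).1) * spinSign (σ ((e k).1 + uv (e k).2)) - c k)) =
      (∑ γ ∈ (eDual_finite h).toFinset.powerset.filter (fun γ => BdIs γ S),
        tc ^ γ.card * ∏ k, (tc + 2 * (if e k ∈ γ then 1 else 0) - c k)) /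
      Zc (eDual_finite h).toFinset (wOf ↑(eDual_finite h).toFinset ∅) := by
  set E := (eDual_finite h).toFinset with hE
  have mE : ∀ e, e ∈ E ↔ e.1 ∈ h.toFinset ∧ e.1 + uv e.2 ∈ h.toFinset := fun e => by simp [hE, eDual]
  have hk : ∀ k ∈ Finset.univ, e k ∈ E := fun k _ => (eDual_finite h).mem_toFinset.2 (heT k)
  have n1 := r1b_sum h.toFinset S (fun v hv => h.mem_toFinset.2 (hS hv)) E (fun e => (mE e).1)
    (fun e' => ∏ k with e k = e', (tc - c k)) fun e' => tc * ∏ k with e k = e', (tc + 2 - c k)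
  have n2 := r1b_sum h.toFinset ∅ (Finset.empty_subset _) E (fun e => (mE e).1) (fun _ => 1) fun _ => tc
  have l1 : ∀ (e' : Edge) (x y : Bool), (∏ k with e k = e', (spinSign x * spinSign y - c k)) *
      (tc * (spinSign x * spinSign y) + 1) = (tc * ∏ k with e k = e', (tc + 2 - c k)) * (spinSign x * spinSign y) +
        ∏ k with e k = e', (tc - c k) := fun e' x y => by
    by_cases h' : ∃ k, e k = e'
    · obtain ⟨k, rfl⟩ := h'
      have : (Finset.univ.filter fun l => e l = e k) = {k} := by ext l; simp [he.eq_iff]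
      simp only [this, Finset.prod_singleton]
      cases x <;> cases y <;> simp only [spinSign, if_true, Bool.false_eq_true, if_false] <;> linarith [tc_sq]
    · simp [Finset.filter_eq_empty_iff.2 fun k _ hk => h' ⟨k, hk⟩]
  have l2 : ∀ s : Site → Bool, ∏ k, (spinSign (s (e k).1) * spinSign (s ((e k).1 + uv (e k).2)) - c k) =
      ∏ e' ∈ E, ∏ k with e k = e', (spinSign (s e'.1) * spinSign (s (e'.1 + uv e'.2)) - c k) := fun s => by
    rw [← Finset.prod_fiberwise_of_maps_to hk]
    exact Finset.prod_congr rfl fun e' _ => Finset.prod_congr rfl fun k hk => by rw [(Finset.mem_filter.1 hk).2]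
  have l3 : ∀ γ ∈ E.powerset.filter (fun γ => BdIs γ S), (∏ e' ∈ E, if e' ∈ γ then tc * ∏ k with e k = e', (tc + 2 - c k)
      else ∏ k with e k = e', (tc - c k)) = tc ^ γ.card * ∏ k, (tc + 2 * (if e k ∈ γ then 1 else 0) - c k) := fun γ hγ => by
    have hs := Finset.mem_powerset.1 (Finset.mem_filter.1 hγ).1
    rw [← Finset.prod_fiberwise_of_maps_to hk, ← Finset.prod_const, ← Finset.inter_eq_right.2 hs, ← Finset.prod_ite_mem,
      Finset.inter_eq_right.2 hs, ← Finset.prod_mul_distrib]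
    refine Finset.prod_congr rfl fun e' _ => ?_
    split_ifs with h'
    · exact congrArg _ (Finset.prod_congr rfl fun k hk => by simp [(Finset.mem_filter.1 hk).2, h'])
    · exact (Finset.prod_congr rfl fun k hk => by simp [(Finset.mem_filter.1 hk).2, h']).trans (one_mul _).symm
  have l4 : ∑ γ ∈ E.powerset.filter (fun γ => BdIs γ ∅), (∏ e' ∈ E, if e' ∈ γ then tc else 1) = Zc E (wOf ↑E ∅) := by
    refine Finset.sum_congr (Finset.filter_congr fun γ _ => by simp [BdIs, EvenSub]) fun γ hγ => ?_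
    have hs := Finset.mem_powerset.1 (Finset.mem_filter.1 hγ).1
    rw [Finset.prod_ite_mem, Finset.inter_eq_right.2 hs]
    exact Finset.prod_congr rfl fun e' he' => by simp [wOf, eray, hs he']
  rw [Finset.sum_congr rfl l3] at n1
  simp only [l4, Finset.prod_empty, one_mul] at n2
  simp only [← l1, Finset.prod_mul_distrib, ← l2] at n1
  simp only [← mul_assoc (∏ v ∈ S, _)] at n1
  have h0 : Real.exp (criticalBeta J * J) / (1 + tc) ≠ 0 := by have := tc_pos.1; positivity
  simp only [domainExpect, dif_pos h, r1b_energy _ E mE, Real.exp_sum, r1b_exp hJ, Finset.prod_mul_distrib,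
    Finset.prod_const]
  simp only [mul_left_comm _ (_ ^ E.card), ← Finset.mul_sum]
  rw [mul_div_mul_left _ _ (pow_ne_zero _ h0), n1, n2, mul_div_mul_left _ _ (by positivity)]

/-! ### task R1c -/

theorem r1c_ext {E : Finset Edge} {m : ℕ} (e : Fin m → Edge) (he : Function.Injective e) (heE : ∀ k, e k ∈ E)
    (p : Fin m → ℝ) (q : ℝ) : ∃ p' q' : Edge → ℝ, ∀ (M : Type) [CommMonoid M] (f : ℝ → ℝ → Edge → M),
      (∀ e', f 1 0 e' = 1) → ∏ k, f (p k) q (e k) = ∏ e' ∈ E, f (p' e') (q' e') e' := by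
  refine ⟨Function.extend e p 1, Function.extend e (fun _ => q) 0, fun M _ f hf => ?_⟩
  rw [← Finset.prod_subset (s₁ := Finset.univ.image e) (fun e' he' => ?_) fun e' _ he' => ?_,
    Finset.prod_image he.injOn]
  · simp only [he.extend_apply]
  · obtain ⟨k, -, rfl⟩ := Finset.mem_image.1 he'
    exact heE k
  · have : ¬∃ k, e k = e' := fun ⟨k, hk⟩ => he' (Finset.mem_image.2 ⟨k, Finset.mem_univ _, hk⟩)
    rw [Function.extend_apply' _ _ _ this, Function.extend_apply' _ _ _ this]
    exact hf e'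

theorem r1c_alg {E : Finset Edge} (w : Edge → ℝ) {m : ℕ} (e : Fin m → Edge) (he : Function.Injective e)
    (heE : ∀ k, e k ∈ E) (p : Fin m → ℝ) (q : ℝ) :
    (∏ e' ∈ E, (1 + w e' • eM id e') : Ev HE) * ∏ k, ((p k) • 1 + (q * w (e k)) • eM id (e k)) =
      ∑ γ ∈ E.powerset, ((∏ e' ∈ γ, w e') * ∏ k, (p k + q * (if e k ∈ γ then 1 else 0))) • ∏ e' ∈ γ, eM id e' := by
  obtain ⟨p', q', h⟩ := r1c_ext e he heE p q
  rw [h (Ev HE) (fun p q e => p • 1 + (q * w e) • eM id e) (by simp), ← Finset.prod_mul_distrib]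
  have h1 : ∀ e' ∈ E, (1 + w e' • eM id e' : Ev HE) * (p' e' • 1 + (q' e' * w e') • eM id e') =
      (w e' * (p' e' + q' e')) • eM id e' + p' e' • 1 := fun e' _ => by
    simp only [mul_add, add_mul, one_mul, mul_smul_comm, smul_mul_assoc, mul_one, BA.eM_sq, smul_zero, add_zero]
    module
  rw [Finset.prod_congr rfl h1, Finset.prod_add]
  refine Finset.sum_congr rfl fun γ hγ => ?_
  have hγ' := Finset.mem_powerset.1 hγ
  rw [h ℝ (fun p q e => p + q * (if e ∈ γ then 1 else 0)) (by simp), ← Finset.prod_sdiff hγ', Finset.prod_smul,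
    Finset.prod_smul, Finset.prod_const_one, mul_smul_comm, mul_one, smul_smul, Finset.prod_mul_distrib]
  have h2 : ∏ e' ∈ γ, (p' e' + q' e' * if e' ∈ γ then 1 else 0) = ∏ e' ∈ γ, (p' e' + q' e') :=
    Finset.prod_congr rfl fun e' he' => by rw [if_pos he', mul_one]
  have h3 : ∏ e' ∈ E \ γ, (p' e' + q' e' * if e' ∈ γ then 1 else 0) = ∏ e' ∈ E \ γ, p' e' :=
    Finset.prod_congr rfl fun e' he' => by rw [if_neg (Finset.mem_sdiff.1 he').2, mul_zero, add_zero]
  rw [h2, h3]
  congr 1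
  ring

/-- insertion of occupation variables: `Σ_γ w^γ Π_k (p k + q n_{e k}) θ_γ = Π_E (1 + w E) Π_k (p k + q w E)` (`prod_mul_hat` or directly, `eM² = 0`), then `gauss_edge_change` -/
theorem gauss_insert {E : Finset Edge} {w : Edge → ℝ} (hw : ∀ e, e ∉ E → w e = 0) {g : HE → HE → ℝ} (hg : IsKer w g) (X : Gr HE)
    {m : ℕ} (e : Fin m → Edge) (he : Function.Injective e) (heE : ∀ k, e k ∈ E) (p : Fin m → ℝ) (q : ℝ) :
    ∑ γ ∈ E.powerset, (∏ e' ∈ γ, w e') * (∏ k, (p k + q * (if e k ∈ γ then 1 else 0))) *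
        gauss BA.g0 (X * ((∏ e' ∈ γ, eM id e' : Ev HE) : Gr HE)) =
      Zc E w * gauss g (X * ((∏ k, ((p k) • 1 + (q * w (e k)) • eM id (e k)) : Ev HE) : Gr HE)) := by
  obtain ⟨s, hs⟩ := exists_supA (X * ((∏ k, ((p k) • 1 + (q * w (e k)) • eM id (e k)) : Ev HE) : Gr HE))
  rw [← BA.gauss_edge_change hg E s (fun e h1 h2 => absurd (hw e h1) h2) hs, ← mul_assoc, even_comm, mul_assoc,
    ← Subalgebra.coe_mul, r1c_alg w e he heE, AddSubmonoidClass.coe_finsetSum, Finset.mul_sum, map_sum]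
  refine Finset.sum_congr rfl fun γ _ => ?_
  rw [Subalgebra.coe_smul, mul_smul_comm, map_smul, smul_eq_mul]

theorem r1c_plus {D : Set ℂ} {a : ℝ} (h : (domainSites D a).Finite) (hc : ExtConn (domainSites D a)) {J : ℝ} (hJ : 0 < J)
    (R : ℕ) (V : Finset Site → ℝ) (S : Finset Site) {m : ℕ} (e : Fin m → Edge) (he : Function.Injective e)
    (heE : ∀ k, e k ∈ (ePlus_finite h).toFinset) (p : Fin m → ℝ) (q : ℝ) {g : HE → HE → ℝ}
    (hg : IsKer (wOf ↑(ePlus_finite h).toFinset S) g) :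
    domainExpect D a .plus J 0 R V (criticalBeta J)
        (fun σ => (∏ v ∈ S, spinSign (σ v)) * ∏ k, (p k + q * (if nOf σ (e k) = true then 1 else 0))) =
      Zc (ePlus_finite h).toFinset (wOf ↑(ePlus_finite h).toFinset S) /
        Zc (ePlus_finite h).toFinset (wOf ↑(ePlus_finite h).toFinset ∅) *
        gauss g ((∏ k, ((p k) • 1 + (q * wOf ↑(ePlus_finite h).toFinset S (e k)) • eM id (e k)) : Ev HE) : Gr HE) := by
  have hV : PotOK R 0 := ⟨fun _ h => absurd rfl h, fun _ h => absurd rfl h, fun _ _ => rfl, fun _ => rfl, fun _ => rfl⟩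
  rw [domainExpect_lam0, ising_plus h hc J 0 _ hV S fun n => ∏ k, (p k + q * (if n (e k) = true then 1 else 0)),
    exp_critical hJ]
  generalize (ePlus_finite h).toFinset = E at *
  have hw : ∀ S, ∀ γ ∈ E.powerset, ∏ e ∈ γ, wPlusT tc S e = ∏ e ∈ γ, wOf ↑E S e := fun S γ hγ =>
    Finset.prod_congr rfl fun e he => (if_pos (Finset.mem_coe.2 (Finset.mem_powerset.1 hγ he))).symm
  have h1 := gauss_insert (t3a_wOf_zero E S) hg 1 e he heE p q
  simp only [one_mul, gauss_contour BA.isKer_g0] at h1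
  rw [div_mul_eq_mul_div, ← h1]
  simp only [Zf, Zc, pertF, Pi.zero_apply, mul_zero, zero_mul, Real.exp_zero, Finset.prod_const_one, one_mul, mul_one,
    Finset.sum_filter, ind, decide_eq_true_eq]
  congr 1
  · refine Finset.sum_congr rfl fun γ hγ => ?_
    rw [hw S γ hγ]
    split_ifs <;> simp
  · exact Finset.sum_congr rfl fun γ hγ => by rw [hw ∅ γ hγ]

theorem r1c_bond (σ : Site → Bool) (z : Site) (j : Fin 2) : spinSign (σ z) * spinSign (σ (z + unitVec j)) =
    1 + (-2) * (if nOf σ (bondEdge z j) = true then 1 else 0) := by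
  have : unitVec j = uv j := by fin_cases j <;> rfl
  rw [nOf, (edgeB_bondEdge z j).1, (edgeB_bondEdge z j).2, this]
  cases σ z <;> cases σ (z + uv j) <;> norm_num [spinSign]

/-- **plus**: `domainExpect_lam0`, `ising_plus` (`PotOK R 0`, `pertF = 1`, `exp_critical`), `σσ' = 1 - 2 n_e` for `e = bondEdge z j`, `gauss_contour`, `gauss_insert` with `X = 1`
(first `m = 1`, `S = ∅` for the centring constant `1 - 2 tc g₀`), `gks` for the sign of `Zc E (wOf E S)`. -/
theorem rep_plus {D : Set ℂ} {a : ℝ} (h : (domainSites D a).Finite) (hc : ExtConn (domainSites D a)) {J : ℝ} (hJ : 0 < J) (R : ℕ)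
    (V : Finset Site → ℝ) {n m : ℕ} (x : Fin n → ℂ) (y : Fin m → ℂ) (j : Fin m → Fin 2)
    (hx : Function.Injective fun i => meshIndex a (x i)) (hy : Function.Injective fun k => bondEdge (meshIndex a (y k)) (j k))
    (hyT : ∀ k, meshIndex a (y k) ∈ domainSites D a) {g g₀ : HE → HE → ℝ}
    (hg : IsKer (wOf ↑(ePlus_finite h).toFinset (spinsOf fun i => meshIndex a (x i))) g)
    (hg₀ : IsKer (wOf ↑(ePlus_finite h).toFinset ∅) g₀) :
    domainMixedCorr D a .plus J 0 R V (criticalBeta J) x y j =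
      rho0 (ePlus_finite h).toFinset (spinsOf fun i => meshIndex a (x i)) * ((-2) ^ m *
        gauss g (enD (wOf ↑(ePlus_finite h).toFinset (spinsOf fun i => meshIndex a (x i))) g₀
          (fun k => bondEdge (meshIndex a (y k)) (j k)) : Gr HE)) := by
  have hE : ∀ k, bondEdge (meshIndex a (y k)) (j k) ∈ (ePlus_finite h).toFinset := fun k =>
    (Set.Finite.mem_toFinset _).2 (Or.inl ((edgeB_bondEdge _ _).1.symm ▸ hyT k))
  have hZ := Zc_pos (ePlus_finite h).toFinset
  have h1 : ∀ k, (domainExpect D a .plus J 0 R V (criticalBeta J) fun s' =>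
      spinSign (s' (meshIndex a (y k))) * spinSign (s' (meshIndex a (y k) + unitVec (j k)))) =
      1 - 2 * (tc * g₀ (he0 (bondEdge (meshIndex a (y k)) (j k))) (he1 (bondEdge (meshIndex a (y k)) (j k)))) := by
    intro k
    have := r1c_plus h hc hJ R V ∅ (fun _ : Fin 1 => bondEdge (meshIndex a (y k)) (j k))
      (Function.injective_of_subsingleton _) (fun _ => hE k) (fun _ => 1) (-2) hg₀
    simp only [Finset.prod_empty, one_mul, Fin.prod_univ_one, ← r1c_bond] at this
    rw [this, div_self hZ.ne', one_mul, Subalgebra.coe_add, Subalgebra.coe_smul, Subalgebra.coe_smul, map_add, map_smul,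
      map_smul, Subalgebra.coe_one, gauss_one, wOf, if_pos (Finset.mem_coe.2 (hE k)), eray_empty]
    change _ + _ • gauss g₀ (th _ * th _) = _
    rw [gauss_th_th hg₀.1]
    simp only [smul_eq_mul, id]
    ring
  have h2 := r1c_plus h hc hJ R V _ (Fin.elim0 : Fin 0 → Edge) (Function.injective_of_subsingleton _) (fun k => k.elim0)
    Fin.elim0 0 hg
  simp only [Finset.univ_eq_empty, Finset.prod_empty, mul_one, Subalgebra.coe_one, gauss_one] at h2
  have h3 := (gks h .plus (by simp) (J := J) (β := criticalBeta J) (by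
    refine mul_nonneg (div_nonneg (Real.log_nonneg ?_) (by positivity)) hJ.le
    linarith [Real.sqrt_nonneg 2]) R V (spinsOf fun i => meshIndex a (x i)) ∅ (by simp)).1
  rw [h2, le_div_iff₀ hZ, zero_mul] at h3
  have h4 := r1c_plus h hc hJ R V _ _ hy hE (fun k => 2 * (tc * g₀ (he0 (bondEdge (meshIndex a (y k)) (j k)))
    (he1 (bondEdge (meshIndex a (y k)) (j k))))) (-2) hg
  rw [rho0, abs_of_nonneg h3, ← smul_eq_mul ((-2 : ℝ) ^ m), ← map_smul, ← Subalgebra.coe_smul]
  refine Eq.trans ?_ (h4.trans ?_)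
  · unfold domainMixedCorr
    congr 1
    funext σ
    rw [spinsOf, Finset.prod_image hx.injOn]
    congr 1
    refine Finset.prod_congr rfl fun k _ => ?_
    rw [h1, r1c_bond]
    ring
  · congr 3
    rw [enD, ← Fin.prod_const, ← Finset.prod_smul]
    refine Finset.prod_congr rfl fun k _ => ?_
    module

/-! ### task R1d -/

theorem r1d_sum {E : Finset Edge} {S : Finset Site} {g : HE → HE → ℝ} (hg : IsKer (wOf ↑E S) g) (X : Gr HE) {c : ℝ}
    (hs : ∀ γ : Finset Edge, c * (gauss BA.g0 (X * ((∏ e ∈ γ, eM id e : Ev HE) : Gr HE)) * ∏ e ∈ γ, eray S e) =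
      if BdIs γ S then 1 else 0)
    {m : ℕ} (e : Fin m → Edge) (he : Function.Injective e) (heE : ∀ k, e k ∈ E) (b : Fin m → ℝ) :
    ∑ γ ∈ E.powerset.filter (fun γ => BdIs γ S), tc ^ γ.card * ∏ k, (tc + 2 * (if e k ∈ γ then 1 else 0) - b k) =
      c * (Zc E (wOf ↑E S) *
        gauss g (X * ((∏ k, ((tc - b k) • 1 + (2 * wOf ↑E S (e k)) • eM id (e k)) : Ev HE) : Gr HE))) := by
  rw [← gauss_insert (t3a_wOf_zero E S) hg X e he heE (fun k => tc - b k) 2, Finset.mul_sum, Finset.sum_filter]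
  refine Finset.sum_congr rfl fun γ hγ => ?_
  have h1 : ∏ e' ∈ γ, wOf ↑E S e' = tc ^ γ.card * ∏ e' ∈ γ, eray S e' := by
    rw [← Finset.prod_const, ← Finset.prod_mul_distrib]
    refine Finset.prod_congr rfl fun e' he' => ?_
    unfold wOf
    rw [if_pos (Finset.mem_coe.2 (Finset.mem_powerset.1 hγ he'))]
  have h2 : ∏ k, (tc + 2 * (if e k ∈ γ then (1 : ℝ) else 0) - b k) = ∏ k, (tc - b k + 2 * (if e k ∈ γ then (1 : ℝ) else 0)) :=
    Finset.prod_congr rfl fun k _ => by ring
  have h3 := hs γ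
  rw [h1, h2]
  generalize (∏ k, (tc - b k + 2 * (if e k ∈ γ then (1 : ℝ) else 0))) = A at *
  by_cases hb : BdIs γ S
  · rw [if_pos hb] at h3 ⊢
    linear_combination (-(tc ^ γ.card * A)) * h3
  · rw [if_neg hb] at h3 ⊢
    linear_combination (-(tc ^ γ.card * A)) * h3

theorem r1d_uv (j : Fin 2) : unitVec j = uv j := by
  fin_cases j <;> simp [unitVec, uv]

theorem r1d_centre {D : Set ℂ} {a : ℝ} (h : (domainSites D a).Finite) {J : ℝ} (hJ : 0 < J) (R : ℕ) (V : Finset Site → ℝ)
    {g₀ : HE → HE → ℝ} (hg₀ : IsKer (wOf ↑(eDual_finite h).toFinset ∅) g₀) {e : Edge} (he : e ∈ eDual (domainSites D a)) :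
    domainExpect D a .free J 0 R V (criticalBeta J) (fun σ => spinSign (σ e.1) * spinSign (σ (e.1 + uv e.2))) =
      tc + 2 * (tc * g₀ (he0 e) (he1 e)) := by
  have h1 := ht_free h hJ R V ∅ (by simp) (fun _ : Fin 1 => e) (Function.injective_of_subsingleton _) (fun _ => he) fun _ => 0
  have heE : e ∈ (eDual_finite h).toFinset := (Set.Finite.mem_toFinset _).2 he
  rw [r1d_sum hg₀ 1 (c := 1) (fun γ => by
    rw [one_mul, one_mul, gauss_contour BA.isKer_g0, Finset.prod_eq_one fun e _ => eray_empty e, mul_one]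
    simp [BdIs, EvenSub]) (fun _ : Fin 1 => e) (Function.injective_of_subsingleton _) (fun _ => heE)] at h1
  simp only [Finset.prod_empty, one_mul, Fin.prod_univ_one, sub_zero] at h1
  rw [h1, mul_div_cancel_left₀ _ (Zc_pos _).ne']
  have h2 : wOf (↑(eDual_finite h).toFinset) ∅ e = tc := by
    unfold wOf
    rw [if_pos (Finset.mem_coe.2 heE), eray_empty, mul_one]
  rw [h2, Subalgebra.coe_add, Subalgebra.coe_smul, Subalgebra.coe_smul, Subalgebra.coe_one, map_add, map_smul, map_smul,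
    gauss_one, BA.coe_eM, gauss_th_th hg₀.1]
  simp only [smul_eq_mul]
  ring

/-- **free**: `ht_free` (centring constant `tc + 2 tc g₀`: the case `S = ∅`, `m = 1` with `gauss_contour`), `tc ^ |γ| = Π w · Π eray`, `sign_lemma`, `gauss_insert` with `X = spD v`;
`ε` = (sign of `sign_lemma`) · (sign of `Zc E (wOf E S)`, `Zc_ne_zero`); positivity from `gks` and the case `m = 0`. -/
theorem rep_free {D : Set ℂ} {a : ℝ} (h : (domainSites D a).Finite) {J : ℝ} (hJ : 0 < J) (R : ℕ)
    (V : Finset Site → ℝ) {n m : ℕ} (hn : Even n) (x : Fin n → ℂ) (y : Fin m → ℂ) (j : Fin m → Fin 2)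
    (hx : Function.Injective fun i => meshIndex a (x i)) (hy : Function.Injective fun k => meshIndex a (y k))
    (hxT : ∀ i, meshIndex a (x i) ∈ domainSites D a) (hyT : ∀ k, (meshIndex a (y k), j k) ∈ eDual (domainSites D a))
    {g g₀ : HE → HE → ℝ} (hg : IsKer (wOf ↑(eDual_finite h).toFinset (spinsOf fun i => meshIndex a (x i))) g) (hf : FinRow g)
    (hg₀ : IsKer (wOf ↑(eDual_finite h).toFinset ∅) g₀) :
    ∃ ε : ℝ, (ε = 1 ∨ ε = -1) ∧ 0 ≤ ε * gauss g (spD fun i => meshIndex a (x i)) ∧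
      domainMixedCorr D a .free J 0 R V (criticalBeta J) x y j =
        rho0 (eDual_finite h).toFinset (spinsOf fun i => meshIndex a (x i)) * (ε * 2 ^ n * 2 ^ m *
          gauss g (spD (fun i => meshIndex a (x i)) *
            (enD (wOf ↑(eDual_finite h).toFinset (spinsOf fun i => meshIndex a (x i))) g₀
              (fun k => (meshIndex a (y k), j k)) : Gr HE))) := by
  obtain ⟨ε₀, hε₀, hs⟩ := sign_lemma BA.isKer_g0 (fun i => meshIndex a (x i)) hx hn
  have hε2 : ε₀ * ε₀ = 1 := by rcases hε₀ with rfl | rfl <;> norm_num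
  set E := (eDual_finite h).toFinset with hE
  set v : Fin n → Site := fun i => meshIndex a (x i) with hv
  have hZ : Zc E (wOf ↑E (spinsOf v)) ≠ 0 := Zc_ne_zero (t3a_wOf_zero E _) hg hf
  have hZ0 := Zc_pos E
  have hs' : ∀ γ : Finset Edge, (ε₀ * 2 ^ n) * (gauss BA.g0 (spD v * ((∏ e ∈ γ, eM id e : Ev HE) : Gr HE)) *
      ∏ e ∈ γ, eray (spinsOf v) e) = if BdIs γ (spinsOf v) then 1 else 0 := fun γ => by
    have h3 := hs γ
    by_cases hb : BdIs γ (spinsOf v)
    · rw [if_pos hb] at h3 ⊢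
      linear_combination ε₀ * h3 + hε2
    · rw [if_neg hb] at h3 ⊢
      linear_combination ε₀ * h3
  obtain ⟨s, hs1, hs2⟩ : ∃ s : ℝ, (s = 1 ∨ s = -1) ∧ Zc E (wOf ↑E (spinsOf v)) = s * |Zc E (wOf ↑E (spinsOf v))| := by
    rcases le_total 0 (Zc E (wOf ↑E (spinsOf v))) with h0 | h0
    · exact ⟨1, Or.inl rfl, by rw [abs_of_nonneg h0, one_mul]⟩
    · exact ⟨-1, Or.inr rfl, by rw [abs_of_nonpos h0]; ring⟩
  refine ⟨ε₀ * s, ?_, ?_, ?_⟩
  · rcases hε₀ with rfl | rfl <;> rcases hs1 with rfl | rfl <;> norm_num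
  · have h1 := r1d_sum hg (spD v) hs' (Fin.elim0 : Fin 0 → Edge) (Function.injective_of_subsingleton _) (fun k => k.elim0) fun _ => 0
    simp only [Finset.univ_eq_empty, Finset.prod_empty, mul_one, Subalgebra.coe_one] at h1
    have h2 : 0 ≤ ε₀ * 2 ^ n * (Zc E (wOf ↑E (spinsOf v)) * gauss g (spD v)) :=
      h1 ▸ Finset.sum_nonneg fun γ _ => pow_nonneg tc_pos.1.le _
    rw [hs2] at h2
    have h3 : (0 : ℝ) < 2 ^ n * |Zc E (wOf ↑E (spinsOf v))| := mul_pos (by positivity) (abs_pos.2 hZ)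
    refine nonneg_of_mul_nonneg_right (a := 2 ^ n * |Zc E (wOf ↑E (spinsOf v))|) ?_ h3
    linarith
  · have he : Function.Injective fun k => ((meshIndex a (y k), j k) : Edge) := fun k l hkl => hy (congrArg Prod.fst hkl)
    have heE : ∀ k, ((meshIndex a (y k), j k) : Edge) ∈ E := fun k => (Set.Finite.mem_toFinset _).2 (hyT k)
    have h1 := ht_free h hJ R V (spinsOf v) (by
      intro z hz
      obtain ⟨i, -, rfl⟩ := Finset.mem_image.1 (Finset.mem_coe.1 hz)
      exact hxT i) (fun k => ((meshIndex a (y k), j k) : Edge)) he hyT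
      fun k => tc + 2 * (tc * g₀ (he0 (meshIndex a (y k), j k)) (he1 (meshIndex a (y k), j k)))
    rw [r1d_sum hg (spD v) hs' _ he heE] at h1
    have h2 : (∏ k, ((tc - (tc + 2 * (tc * g₀ (he0 (meshIndex a (y k), j k)) (he1 (meshIndex a (y k), j k))))) • 1 +
        (2 * wOf ↑E (spinsOf v) (meshIndex a (y k), j k)) • eM id (meshIndex a (y k), j k)) : Ev HE) =
        (2 : ℝ) ^ m • enD (wOf ↑E (spinsOf v)) g₀ fun k => (meshIndex a (y k), j k) := by
      rw [enD, show (2 : ℝ) ^ m = ∏ _k : Fin m, (2 : ℝ) by simp, ← Finset.prod_smul]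
      refine Finset.prod_congr rfl fun k _ => ?_
      module
    rw [h2, Subalgebra.coe_smul, mul_smul_comm, map_smul, smul_eq_mul] at h1
    have h3 : domainMixedCorr D a .free J 0 R V (criticalBeta J) x y j =
        domainExpect D a .free J 0 R V (criticalBeta J) (fun σ => (∏ z ∈ spinsOf v, spinSign (σ z)) *
          ∏ k, (spinSign (σ (meshIndex a (y k))) * spinSign (σ (meshIndex a (y k) + uv (j k))) -
            (tc + 2 * (tc * g₀ (he0 (meshIndex a (y k), j k)) (he1 (meshIndex a (y k), j k)))))) := by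
      unfold domainMixedCorr
      congr 1
      funext σ
      rw [spinsOf, Finset.prod_image fun i _ i' _ hi => hx hi]
      congr 1
      refine Finset.prod_congr rfl fun k _ => ?_
      rw [r1d_uv, r1d_centre h hJ R V hg₀ (hyT k)]
    rw [h3, h1, rho0]
    nth_rewrite 1 [hs2]
    ring


end Crest.Agent.R165.C
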