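import Crest.Agent.R165.C.T3

/-! # R165/C/B0c: distributional subharmonicity of the limit of `H` (helper33) -/

set_option autoImplicit false
noncomputable section
open Classical Filter Topology Metric Crest.ProbabilityR.IsingModel

namespace Crest.Agent.R165.C

theorem b0c_tay1 {φ φ1 φ2 : ℝ → ℝ} {L a : ℝ} (h1 : ∀ t, HasDerivAt φ (φ1 t) t) (h2 : ∀ t, HasDerivAt φ1 (φ2 t) t)
    (hL0 : 0 ≤ L) (hL : ∀ t, |φ2 t - φ2 0| ≤ L * |t|) (ha : 0 ≤ a) :
    |φ a + φ (-a) - 2 * φ 0 - a ^ 2 * φ2 0| ≤ 2 * L * a ^ 3 := by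
  have d1 : ∀ t, HasDerivAt (fun t => φ t + φ (-t) - t ^ 2 * φ2 0) (φ1 t - φ1 (-t) - 2 * t * φ2 0) t := fun t => by
    have := ((h1 t).add ((h1 (-t)).comp t (hasDerivAt_neg t))).sub ((hasDerivAt_pow 2 t).mul_const (φ2 0))
    refine HasDerivAt.congr_deriv this ?_
    simp only [Nat.cast_ofNat, Nat.add_one_sub_one, pow_one]
    ring
  have d2 : ∀ t, HasDerivAt (fun t => φ1 t - φ1 (-t) - 2 * t * φ2 0) (φ2 t + φ2 (-t) - 2 * φ2 0) t := fun t => by
    have := ((h2 t).sub ((h2 (-t)).comp t (hasDerivAt_neg t))).sub (((hasDerivAt_id t).const_mul 2).mul_const (φ2 0))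
    refine HasDerivAt.congr_deriv this ?_
    ring
  have b1 := norm_image_sub_le_of_norm_deriv_le_segment' (a := 0) (b := a) (C := 2 * L * a)
    (fun t _ => (d2 t).hasDerivWithinAt) fun t ht => by
      have e1 := abs_le.1 (hL t)
      have e2 := abs_le.1 (hL (-t))
      rw [abs_neg] at e2
      rw [abs_of_nonneg ht.1] at e1 e2
      have := mul_le_mul_of_nonneg_left ht.2.le hL0
      rw [Real.norm_eq_abs, abs_le]
      constructor <;> linarith [e1.1, e1.2, e2.1, e2.2]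
  have b2 := norm_image_sub_le_of_norm_deriv_le_segment' (a := 0) (b := a) (C := 2 * L * a * a)
    (fun t _ => (d1 t).hasDerivWithinAt) (fun t ht => by
      have := b1 t ⟨ht.1, ht.2.le⟩
      simp only [neg_zero, sub_self, mul_zero, zero_mul, sub_zero] at this
      exact this.trans (mul_le_mul_of_nonneg_left ht.2.le (by positivity))) a ⟨ha, le_rfl⟩
  rw [Real.norm_eq_abs] at b2
  calc _ = |φ a + φ (-a) - a ^ 2 * φ2 0 - (φ 0 + φ (-0) - 0 ^ 2 * φ2 0)| := by rw [neg_zero]; congr 1; ring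
    _ ≤ _ := b2
    _ = _ := by ring

/-- directional derivative -/
def b0cD (u : ℂ) (f : ℂ → ℝ) : ℂ → ℝ := fun z => fderiv ℝ f z u

theorem b0c_D {f : ℂ → ℝ} (hf : ContDiff ℝ (⊤ : ℕ∞) f ∧ HasCompactSupport f) (u : ℂ) :
    ContDiff ℝ (⊤ : ℕ∞) (b0cD u f) ∧ HasCompactSupport (b0cD u f) :=
  ⟨(contDiff_infty_iff_fderiv.1 hf.1).2.clm_apply contDiff_const, hf.2.fderiv_apply ℝ u⟩

theorem b0c_lip {f : ℂ → ℝ} (hf : ContDiff ℝ (⊤ : ℕ∞) f ∧ HasCompactSupport f) :
    ∃ L : ℝ, 0 ≤ L ∧ (∀ z, |f z| ≤ L) ∧ ∀ z w, |f (z + w) - f z| ≤ L * ‖w‖ := by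
  obtain ⟨L, h⟩ := hf.1.lipschitzWith_of_hasCompactSupport hf.2 (by simp)
  obtain ⟨B, hB⟩ := hf.2.exists_bound_of_continuous hf.1.continuous
  have hB0 : 0 ≤ B := (norm_nonneg _).trans (hB 0)
  have p0 : (0 : ℝ) ≤ L := L.2
  refine ⟨L + B, by positivity, fun z => (hB z).trans (by linarith), fun z w => ?_⟩
  have h3 := h.norm_sub_le (z + w) z
  rw [add_sub_cancel_left, Real.norm_eq_abs] at h3
  exact h3.trans (mul_le_mul_of_nonneg_right (by linarith) (norm_nonneg _))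

theorem b0c_line {η : ℂ → ℝ} (hη : ContDiff ℝ (⊤ : ℕ∞) η ∧ HasCompactSupport η) {u : ℂ} (hu : ‖u‖ = 1) :
    ∃ L : ℝ, 0 ≤ L ∧ (∀ z, |b0cD u (b0cD u η) z| ≤ L) ∧ ∀ (z : ℂ) (a : ℝ), 0 ≤ a →
      |η (z + a * u) + η (z - a * u) - 2 * η z - a ^ 2 * b0cD u (b0cD u η) z| ≤ 2 * L * a ^ 3 := by
  obtain ⟨L, h0, h1, h2⟩ := b0c_lip (b0c_D (b0c_D hη u) u)
  refine ⟨L, h0, h1, fun z a ha => ?_⟩
  have hl : ∀ t : ℝ, HasDerivAt (fun t : ℝ => z + t * u) u t := fun t => by
    simpa using ((hasDerivAt_id t).ofReal_comp.mul_const u).const_add z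
  have d : ∀ f : ℂ → ℝ, ContDiff ℝ (⊤ : ℕ∞) f → ∀ t : ℝ,
      HasDerivAt (fun t : ℝ => f (z + t * u)) (b0cD u f (z + t * u)) t := fun f hf t =>
    (hf.differentiable (by simp) (z + t * u)).hasFDerivAt.comp_hasDerivAt t (hl t)
  have := b0c_tay1 (d η hη.1) (d _ (b0c_D hη u).1) h0 (fun t => by
    have h3 := h2 z (t * u)
    rw [norm_mul, hu, mul_one, Complex.norm_real, Real.norm_eq_abs] at h3
    rwa [Complex.ofReal_zero, zero_mul, add_zero]) ha
  rwa [Complex.ofReal_zero, zero_mul, add_zero, Complex.ofReal_neg, neg_mul, ← sub_eq_add_neg] at this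

theorem b0c_DD {η : ℂ → ℝ} (hη : ContDiff ℝ (⊤ : ℕ∞) η) (z u : ℂ) :
    b0cD u (b0cD u η) z = fderiv ℝ (fderiv ℝ η) z u u := by
  have h := ((contDiff_infty_iff_fderiv.1 hη).2.differentiable (by simp) z).hasFDerivAt.clm_apply (hasFDerivAt_const u z)
  have e : fderiv ℝ (b0cD u η) z = _ := h.fderiv
  rw [b0cD, e]
  simp

theorem b0c_tay2 {η : ℂ → ℝ} (hη : ContDiff ℝ (⊤ : ℕ∞) η) (hc : HasCompactSupport η) : ∃ L : ℝ, 0 ≤ L ∧
    Continuous (Laplacian.laplacian η) ∧ (∀ z, |Laplacian.laplacian η z| ≤ L) ∧ (∀ z w, |η (z + w) - η z| ≤ L * ‖w‖) ∧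
    ∀ (z : ℂ) (a : ℝ), 0 ≤ a → |η (z + a) + η (z + a * Complex.I) + η (z - a) + η (z - a * Complex.I) - 4 * η z -
      a ^ 2 * Laplacian.laplacian η z| ≤ L * a ^ 3 := by
  obtain ⟨L0, p0, -, h0⟩ := b0c_lip ⟨hη, hc⟩
  obtain ⟨L1, p1, b1, h1⟩ := b0c_line ⟨hη, hc⟩ norm_one
  obtain ⟨L2, p2, b2, h2⟩ := b0c_line ⟨hη, hc⟩ Complex.norm_I
  have e : ∀ z, Laplacian.laplacian η z = b0cD 1 (b0cD 1 η) z + b0cD Complex.I (b0cD Complex.I η) z := fun z => by
    rw [InnerProductSpace.laplacian_eq_iteratedFDeriv_complexPlane, b0c_DD hη, b0c_DD hη]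
    simp [iteratedFDeriv_two_apply]
  refine ⟨L0 + 2 * L1 + 2 * L2, by positivity, ?_, fun z => ?_, fun z w => ?_, fun z a ha => ?_⟩
  · rw [funext e]
    exact (b0c_D (b0c_D ⟨hη, hc⟩ _) _).1.continuous.add (b0c_D (b0c_D ⟨hη, hc⟩ _) _).1.continuous
  · have h3 := abs_le.1 (b1 z)
    have h4 := abs_le.1 (b2 z)
    rw [e, abs_le]
    constructor <;> linarith [h3.1, h3.2, h4.1, h4.2]
  · exact (h0 z w).trans (mul_le_mul_of_nonneg_right (by linarith) (norm_nonneg _))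
  · have h3 := abs_le.1 (h1 z a ha)
    have h4 := abs_le.1 (h2 z a ha)
    rw [mul_one] at h3
    have h5 : (0 : ℝ) ≤ L0 * a ^ 3 := by positivity
    rw [e, abs_le]
    constructor <;> linarith [h3.1, h3.2, h4.1, h4.2]

/-- the sampled test function -/
def b0cS (η : ℂ → ℝ) (a : ℝ) (p : Site) : ℝ := η ((a : ℂ) * toC p)

theorem b0c_symm (E : Set Edge) (η H : Site → ℝ) (B : Finset Site) (hB : ∀ y, η y ≠ 0 → box y 1 ⊆ B) :
    ∑ x ∈ B, H x * lapN E η x = ∑ x ∈ B, η x * lapN E H x := by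
  have h := B3.sum_invol B (fun x α => if edgeOf x α ∈ E then η x * H (x + dv α) else 0)
    (fun x _ α h => hB x (fun h0 => h (by simp [h0])) (b1_add_dv_mem_box x α))
    (fun x _ α h => hB _ (fun h0 => h (by simp [h0])) (self_mem_box _ 1))
  simp only [B3.edgeOf_add, add_dv_dv] at h
  have e : ∀ u v : Site → ℝ, ∑ x ∈ B, u x * lapN E v x =
      (∑ x ∈ B, ∑ α : Fin 4, if edgeOf x α ∈ E then u x * v (x + dv α) else 0) -
        ∑ x ∈ B, ∑ α : Fin 4, if edgeOf x α ∈ E then u x * v x else 0 := fun u v => by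
    simp only [lapN, Finset.mul_sum, ← Finset.sum_sub_distrib]
    refine Finset.sum_congr rfl fun x _ => Finset.sum_congr rfl fun α _ => ?_
    split_ifs <;> ring
  rw [e, e, ← h]
  simp only [mul_comm]

theorem b0c_near {a : ℝ} (ha : 0 ≤ a) {p q : Site} (h : q ∈ box p 1) :
    dist ((a : ℂ) * toC q) ((a : ℂ) * toC p) ≤ 2 * a := by
  rw [dist_eq_norm, ← mul_sub, norm_mul, Complex.norm_real, Real.norm_of_nonneg ha, mul_comm]
  have h1 := dist_le_supd q p
  have h2 : (supd q p : ℝ) ≤ 1 := by exact_mod_cast mem_box.1 h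
  exact mul_le_mul_of_nonneg_right (by linarith) ha

theorem b0c_zero {E : Set Edge} {u : Site → ℝ} {p : Site} (h : ∀ q ∈ box p 1, u q = 0) : lapN E u p = 0 :=
  Finset.sum_eq_zero fun α _ => by rw [h _ (b1_add_dv_mem_box p α), h _ (self_mem_box p 1)]; simp

theorem b0c_lap {η : ℂ → ℝ} {L : ℝ} (h : ∀ (z : ℂ) (a : ℝ), 0 ≤ a → |η (z + a) + η (z + a * Complex.I) + η (z - a) +
      η (z - a * Complex.I) - 4 * η z - a ^ 2 * Laplacian.laplacian η z| ≤ L * a ^ 3) {a : ℝ} (ha : 0 < a) (p : Site) :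
    |(a ^ 2)⁻¹ * lap (b0cS η a) p - Laplacian.laplacian η ((a : ℂ) * toC p)| ≤ L * a := by
  have e0 : (a : ℂ) * toC (p + dv 0) = a * toC p + a := by
    rw [toC_add]; apply Complex.ext <;> simp [toC, dv, mul_add]
  have e1 : (a : ℂ) * toC (p + dv 1) = a * toC p + a * Complex.I := by
    rw [toC_add]; apply Complex.ext <;> simp [toC, dv, mul_add]
  have e2 : (a : ℂ) * toC (p + dv 2) = a * toC p - a := by
    rw [toC_add]; apply Complex.ext <;> simp [toC, dv, mul_add, sub_eq_add_neg]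
  have e3 : (a : ℂ) * toC (p + dv 3) = a * toC p - a * Complex.I := by
    rw [toC_add]; apply Complex.ext <;> simp [toC, dv, mul_add, sub_eq_add_neg]
  have h1 := h ((a : ℂ) * toC p) a ha.le
  have h2 : (0 : ℝ) < a ^ 2 := by positivity
  refine le_of_mul_le_mul_left ?_ h2
  rw [← abs_of_pos h2, ← abs_mul, abs_of_pos h2, mul_sub, ← mul_assoc, mul_inv_cancel₀ h2.ne', one_mul, lap,
    Fin.sum_univ_four]
  simp only [b0cS, e0, e1, e2, e3]
  refine le_trans (le_of_eq ?_) (h1.trans_eq (by ring))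
  congr 1
  ring

theorem b0c_lapN {η : ℂ → ℝ} {L : ℝ} (hL : 0 ≤ L) (h : ∀ z w, |η (z + w) - η z| ≤ L * ‖w‖) (E : Set Edge) {a : ℝ}
    (ha : 0 ≤ a) (p : Site) : |lapN E (b0cS η a) p| ≤ 8 * L * a := by
  refine (Finset.abs_sum_le_sum_abs _ _).trans ((Finset.sum_le_card_nsmul _ _ (2 * L * a) fun α _ => ?_).trans_eq ?_)
  · split_ifs
    · have h1 := h ((a : ℂ) * toC p) ((a : ℂ) * toC (p + dv α) - a * toC p)
      rw [add_sub_cancel, ← dist_eq_norm] at h1
      have h2 := mul_le_mul_of_nonneg_left (b0c_near ha (b1_add_dv_mem_box p α)) hL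
      exact h1.trans (by linarith)
    · rw [abs_zero]; positivity
  · simp only [Finset.card_univ, Fintype.card_fin, nsmul_eq_mul]
    push_cast
    ring

theorem b0c_fin {η : ℂ → ℝ} {ζ : ℂ} {r a : ℝ} (hsupp : tsupport η ⊆ ball ζ r) (ha : 0 < a) :
    ∃ B : Finset Site, ∀ y, b0cS η a y ≠ 0 → box y 1 ⊆ B := by
  refine ⟨box 0 (⌈(‖ζ‖ + r) / a⌉₊ + 1), fun y hy => box_subset_box (mem_box.2 ?_) le_rfl⟩
  have h1 : dist ((a : ℂ) * toC y) ζ < r := hsupp (subset_tsupport _ hy)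
  have h2 := norm_le_norm_add_norm_sub' ((a : ℂ) * toC y) ζ
  rw [← dist_eq_norm, norm_mul, Complex.norm_real, Real.norm_of_nonneg ha.le] at h2
  have h3 := supd_le_dist y 0
  have h4 : toC 0 = 0 := by apply Complex.ext <;> simp [toC]
  rw [h4, sub_zero] at h3
  have h5 : (supd y 0 : ℝ) ≤ (‖ζ‖ + r) / a := by
    rw [le_div_iff₀ ha]
    nlinarith
  exact_mod_cast h5.trans (Nat.le_ceil _)

theorem b0c_main {D : Set ℂ} {a : ℕ → ℝ} {E : ℕ → Finset Edge} {ρ : ℕ → ℝ} (hD : Nice D) (hE : Appr D a E ρ)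
    (S : ℕ → Finset Site) (s : ℕ → Fn) (Hw Hb : ℕ → Site → ℝ) {ζ : ℂ} {r C : ℝ} (hr : 0 < r)
    (hs : ∀ᶠ k in atTop, IsH (wOf ↑(E k) (S k)) (s k) Set.univ (Hw k) (Hb k) ∧
      SolOn (wOf ↑(E k) (S k)) {p | dist ((a k : ℂ) * toC p) ζ < 2 * r} (s k) ∧
      ∀ p, dist ((a k : ℂ) * toC p) ζ < 2 * r → |a k * Hw k p| ≤ C ∧ (¬ Crit ↑(E k) {p} → |Hw k p| ≤ C))
    {h : ℂ → ℝ} (hh : CLim a (D ∩ ball ζ r) (fun k => hF (a k) (Hw k)) h)
    (η : ℂ → ℝ) (hη : ContDiff ℝ (⊤ : ℕ∞) η) (hsupp : tsupport η ⊆ ball ζ r) (hc : HasCompactSupport η)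
    (h0 : ∀ z, 0 ≤ η z) : 0 ≤ ∫ z in D, h z * Laplacian.laplacian η z := by
  obtain ⟨L, hL, hcont, hbd, hlip, htay⟩ := b0c_tay2 hη hc
  have ha := hE.pos
  have ha0 := hE.lim
  have hc0 : 0 ≤ Real.sqrt 2 / (1 + tc ^ 2) := by positivity
  have hsm : ∀ δ > 0, ∀ c : ℝ, ∀ᶠ k in atTop, c * a k < δ := fun δ hδ c =>
    (ha0.const_mul c).eventually (gt_mem_nhds (by simpa using hδ))
  have hnear : ∀ k, 2 * a k < r → ∀ q, b0cS η (a k) q ≠ 0 → ∀ p, q ∈ box p 1 ∨ p ∈ box q 1 →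
      dist ((a k : ℂ) * toC p) ζ < 2 * r := fun k hk q hq p hp => by
    have h1 : dist ((a k : ℂ) * toC q) ζ < r := hsupp (subset_tsupport _ hq)
    have h2 : p ∈ box q 1 := hp.elim (fun h => mem_box.2 (supd_comm q p ▸ mem_box.1 h)) id
    linarith [dist_triangle ((a k : ℂ) * toC p) ((a k : ℂ) * toC q) ζ, b0c_near (ha k).le h2]
  have key := riemann2 ha ha0 (fun k p => hF (a k) (Hw k) p * ((a k ^ 2)⁻¹ * lapN ↑(E k) (b0cS η (a k)) p))
    (D.indicator fun z => h z * Laplacian.laplacian η z) (|C| * (Real.sqrt 2 / (1 + tc ^ 2)) * (8 * L)) (‖ζ‖ + 2 * r)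
    ?_ ?_
  · rw [MeasureTheory.integral_indicator hD.isOpen.measurableSet] at key
    refine ge_of_tendsto key ?_
    filter_upwards [hs, hsm r hr 2] with k hk hkr
    obtain ⟨B, hB⟩ := b0c_fin hsupp (ha k)
    have hak := ha k
    rw [finsum_eq_sum_of_support_subset (s := B) _ fun p hp => ?_]
    · have e : ∑ p ∈ B, hF (a k) (Hw k) p * ((a k ^ 2)⁻¹ * lapN ↑(E k) (b0cS η (a k)) p) =
          a k * (Real.sqrt 2 / (1 + tc ^ 2)) * (a k ^ 2)⁻¹ * ∑ p ∈ B, Hw k p * lapN ↑(E k) (b0cS η (a k)) p := by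
        rw [Finset.mul_sum]
        exact Finset.sum_congr rfl fun p _ => by rw [hF]; ring
      rw [e, b0c_symm _ _ _ _ hB]
      refine mul_nonneg (by positivity) (mul_nonneg (by positivity) (Finset.sum_nonneg fun p _ => ?_))
      by_cases hp : b0cS η (a k) p = 0
      · rw [hp, zero_mul]
      refine mul_nonneg (h0 _) (le_trans ?_ (lapN_ge (S := S k) (s := s k) (Hb := Hb k) (fun q _ => hk.1 q (Set.mem_univ _))
        fun q hq => hk.2.1 q (hnear k hkr p hp q (Or.inr hq))).1)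
      have ht := tc_pos
      exact mul_nonneg (by nlinarith) (Finset.sum_nonneg fun α _ => by split_ifs <;> positivity)
    · by_contra hn
      refine hp ?_
      show _ * (_ * lapN _ _ p) = 0
      rw [b0c_zero fun q hq => by_contra fun h1 => hn (hB q h1 (mem_box.2 (supd_comm q p ▸ mem_box.1 hq))), mul_zero,
        mul_zero]
  · filter_upwards [hs, hsm r hr 2, hsm 1 one_pos 1] with k hk hkr hk1 p
    have hak := ha k
    by_cases hp : dist ((a k : ℂ) * toC p) ζ < 2 * r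
    · refine ⟨?_, fun hR => ?_⟩
      · obtain ⟨h1, h2⟩ := hk.2.2 p hp
        by_cases hcr : Crit ↑(E k) {p}
        · rw [B3.lapN_crit (hcr p rfl), hF, abs_mul, abs_mul, abs_of_nonneg hc0]
          have h3 := abs_le.1 (b0c_lap htay hak p)
          have h4 := abs_le.1 (hbd ((a k : ℂ) * toC p))
          have h5 : L * a k ≤ L := mul_le_of_le_one_right hL (by linarith)
          refine mul_le_mul (mul_le_mul_of_nonneg_right (h1.trans (le_abs_self _)) hc0) ?_ (abs_nonneg _) (by positivity)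
          rw [abs_le]
          constructor <;> linarith [h3.1, h3.2, h4.1, h4.2]
        · have e : hF (a k) (Hw k) p * ((a k ^ 2)⁻¹ * lapN ↑(E k) (b0cS η (a k)) p) =
              Hw k p * (Real.sqrt 2 / (1 + tc ^ 2)) * ((a k)⁻¹ * lapN ↑(E k) (b0cS η (a k)) p) := by
            rw [hF]; field_simp
          rw [e, abs_mul, abs_mul, abs_of_nonneg hc0]
          refine mul_le_mul (mul_le_mul_of_nonneg_right ((h2 hcr).trans (le_abs_self _)) hc0) ?_ (abs_nonneg _)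
            (by positivity)
          rw [abs_mul, abs_of_pos (inv_pos.2 hak), inv_mul_le_iff₀ hak]
          linarith [b0c_lapN hL hlip ↑(E k) hak.le p]
      · have h2 := norm_le_norm_add_norm_sub' ((a k : ℂ) * toC p) ζ
        rw [← dist_eq_norm] at h2
        linarith
    · rw [b0c_zero fun q hq => by_contra fun h1 => hp (hnear k hkr q h1 p (Or.inl hq)), mul_zero, mul_zero, abs_zero]
      exact ⟨by positivity, fun _ => rfl⟩
  · filter_upwards [MeasureTheory.measure_eq_zero_iff_ae_notMem.1 (frontier_null hD)] with z hz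
    have hp := ptLim_mesh ha ha0 z
    have hpd : ∀ δ > 0, ∀ᶠ k in atTop, dist ((a k : ℂ) * toC (meshIndex (a k) z)) z < δ := Metric.tendsto_nhds.1 hp
    by_cases hzs : z ∈ tsupport η
    · by_cases hzD : z ∈ D
      · rw [Set.indicator_of_mem hzD]
        refine (hh z ⟨hzD, hsupp hzs⟩ _ hp).mul ?_
        obtain ⟨δ, hδ, hb⟩ := nhds_basis_closedBall.mem_iff.1 (hD.isOpen.mem_nhds hzD)
        refine ((hcont.tendsto z).comp hp).congr_dist (squeeze_zero' (Eventually.of_forall fun _ => dist_nonneg) ?_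
          (by simpa using ha0.const_mul L))
        filter_upwards [appr_crit hD.isOpen hE (isCompact_closedBall z δ) hb, hpd δ hδ] with k h1 h2
        rw [B3.lapN_crit (h1 _ h2.le), dist_comm, Real.dist_eq]
        exact b0c_lap htay (ha k) _
      · rw [Set.indicator_of_notMem hzD]
        have h1 : z ∉ closure D := fun h1 => hz (by rw [hD.isOpen.frontier_eq]; exact ⟨h1, hzD⟩)
        obtain ⟨δ, hδ, hb⟩ := Metric.isOpen_iff.1 isClosed_closure.isOpen_compl z h1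
        obtain ⟨C', hC'⟩ := hE.out
        refine tendsto_const_nhds.congr' ?_
        filter_upwards [hpd _ (half_pos hδ), hsm _ (half_pos hδ) (2 + C')] with k h2 h3
        have h4 : lapN ↑(E k) (b0cS η (a k)) (meshIndex (a k) z) = 0 := Finset.sum_eq_zero fun α _ => if_neg fun he => by
          obtain ⟨w, hw, h5⟩ := hC' k _ he
          refine hb (mem_ball'.2 ?_) (subset_closure hw)
          have h6 := b0c_near (ha k).le (edgeOf_fst_mem_box (meshIndex (a k) z) α)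
          have h7 := dist_triangle4 z ((a k : ℂ) * toC (meshIndex (a k) z))
            ((a k : ℂ) * toC (edgeOf (meshIndex (a k) z) α).1) w
          rw [dist_comm] at h2 h6
          linarith
        rw [h4, mul_zero, mul_zero]
    · have h1 : Laplacian.laplacian η z = 0 := by
        rw [(InnerProductSpace.laplacian_congr_nhds (notMem_tsupport_iff_eventuallyEq.1 hzs)).self_of_nhds]
        exact congrFun InnerProductSpace.laplacian_const z
      have h2 : D.indicator (fun z => h z * Laplacian.laplacian η z) z = 0 := by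
        rw [Set.indicator_apply, h1, mul_zero, ite_self]
      rw [h2]
      obtain ⟨δ, hδ, hb⟩ := Metric.isOpen_iff.1 (isClosed_tsupport η).isOpen_compl z hzs
      refine tendsto_const_nhds.congr' ?_
      filter_upwards [hpd _ (half_pos hδ), hsm _ (half_pos hδ) 2] with k h2 h3
      rw [b0c_zero (u := b0cS η (a k)) fun q hq => image_eq_zero_of_notMem_tsupport (f := η) (hb (mem_ball.2 ?_)), mul_zero,
        mul_zero]
      linarith [dist_triangle ((a k : ℂ) * toC q) ((a k : ℂ) * toC (meshIndex (a k) z)) z, b0c_near (ha k).le hq]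

end Crest.Agent.R165.C
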