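import Crest.Agent.R165.C.Defs

/-! # R165/C: auxiliary lemmas for section T3c of `T3.lean` -/

set_option autoImplicit false
noncomputable section
open Classical Filter Topology Metric Crest.ProbabilityR.IsingModel

namespace Crest.Agent.R165.C

theorem t3c_ne_univ {D : Set ℂ} (hD : Nice D) : D ≠ Set.univ := fun h => by
  have := hD.bdd
  rw [h] at this
  exact NormedSpace.unbounded_univ ℝ ℂ this

theorem t3c_compl_ne {D : Set ℂ} (hD : Nice D) : Dᶜ.Nonempty := Set.nonempty_compl.2 (t3c_ne_univ hD)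

theorem t3c_ball_sub (ζ ν : ℂ) (hν : ‖ν‖ = 1) {t ρ : ℝ} (ht : t ≤ ρ) : ball (ζ + t * ν) t ⊆ ball (ζ + ρ * ν) ρ := by
  refine ball_subset_ball' ?_
  have : dist (ζ + t * ν) (ζ + ρ * ν) = ρ - t := by
    rw [dist_eq_norm, show ζ + t * ν - (ζ + ρ * ν) = -(((ρ - t : ℝ) : ℂ) * ν) by push_cast; ring, norm_neg, norm_mul, hν,
      Complex.norm_real, Real.norm_of_nonneg (by linarith), mul_one]
  rw [this]
  linarith

theorem t3c_far {D : Set ℂ} (hD : Nice D) {ε : ℝ} (hε : 0 < ε) :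
    ∃ t > 0, ∀ ζ, ζ ∉ D → ∃ c, dist c ζ ≤ 3 * ε / 4 ∧ ∀ z ∈ D, t ≤ dist c z := by
  obtain ⟨ρ, hρ, hb⟩ := hD.balls
  refine ⟨min (ε / 4) ρ, lt_min (by linarith) hρ, fun ζ hζ => ?_⟩
  by_cases h : ∀ z ∈ D, ε / 4 ≤ dist ζ z
  · exact ⟨ζ, by rw [dist_self]; linarith, fun z hz => (min_le_left _ _).trans (h z hz)⟩
  push Not at h
  obtain ⟨z, hz, hd⟩ := h
  obtain ⟨y, hy, hyd⟩ := exists_mem_frontier_infDist_compl_eq_dist hz (t3c_ne_univ hD)
  have h1 : dist z y ≤ dist z ζ := hyd ▸ infDist_le_dist_of_mem (show ζ ∈ Dᶜ from hζ)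
  obtain ⟨ν, hν, -, hdis⟩ := hb y hy
  set t := min (ε / 4) ρ with ht
  have ht0 : 0 < t := lt_min (by linarith) hρ
  have hsub := t3c_ball_sub y (-ν) (by rw [norm_neg, hν]) (show t ≤ ρ from min_le_right _ _)
  refine ⟨y + t * (-ν), ?_, fun w hw => ?_⟩
  · have h2 : dist (y + t * (-ν)) y = t := by
      rw [dist_eq_norm, add_sub_cancel_left, norm_mul, norm_neg, hν, Complex.norm_real, Real.norm_of_nonneg ht0.le, mul_one]
    have h3 := dist_triangle4 (y + t * (-ν)) y z ζ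
    rw [h2, dist_comm y z] at h3
    rw [dist_comm] at hd
    have : t ≤ ε / 4 := min_le_left _ _
    linarith
  · by_contra hlt
    push Not at hlt
    have h4 : w ∈ ball (y + ρ * (-ν)) ρ := hsub (by rw [mem_ball, dist_comm]; exact hlt)
    rw [show y + ρ * (-ν) = y - ρ * ν by ring] at h4
    exact Set.disjoint_left.1 hdis h4 (subset_closure hw)

theorem t3c_floor {a : ℝ} (ha : 0 < a) (x : ℝ) : |a * ⌊x / a⌋ - x| ≤ a ∧ |a * (⌊x / a⌋ + 1) - x| ≤ a := by
  have h1 := Int.floor_le (x / a)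
  have h2 := Int.lt_floor_add_one (x / a)
  rw [le_div_iff₀ ha] at h1
  rw [div_lt_iff₀ ha] at h2
  constructor <;> rw [abs_le] <;> constructor <;> nlinarith

theorem t3c_mesh {a : ℝ} (ha : 0 < a) (c : ℂ) :
    dist ((a : ℂ) * toC (meshIndex a c)) c ≤ 2 * a ∧ dist ((a : ℂ) * toC (meshIndex a c + (1, 1))) c ≤ 2 * a := by
  obtain ⟨h1, h2⟩ := t3c_floor ha c.re
  obtain ⟨h3, h4⟩ := t3c_floor ha c.im
  constructor
  · rw [dist_eq_norm]
    refine (Complex.norm_le_abs_re_add_abs_im _).trans ?_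
    simp only [toC, meshIndex, Complex.sub_re, Complex.sub_im, Complex.mul_re, Complex.mul_im, Complex.ofReal_re,
      Complex.ofReal_im, zero_mul, sub_zero, add_zero]
    linarith
  · rw [dist_eq_norm]
    refine (Complex.norm_le_abs_re_add_abs_im _).trans ?_
    simp only [toC, meshIndex, Complex.sub_re, Complex.sub_im, Complex.mul_re, Complex.mul_im, Complex.ofReal_re,
      Complex.ofReal_im, zero_mul, sub_zero, add_zero, Prod.fst_add, Prod.snd_add, Int.cast_add, Int.cast_one]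
    linarith

theorem t3c_frozen_near {D : Set ℂ} (hD : Nice D) {a : ℕ → ℝ} {E : ℕ → Finset Edge} {ρ : ℕ → ℝ} (h : Appr D a E ρ)
    {ε : ℝ} (hε : 0 < ε) : ∀ᶠ k in atTop, ∀ ζ, ζ ∉ D → ∃ b, FrozenB ↑(E k) b ∧ dist ((a k : ℂ) * toC b) ζ < ε := by
  obtain ⟨t, ht, hf⟩ := t3c_far hD hε
  obtain ⟨C, hC⟩ := h.out
  have e1 : ∀ᶠ k in atTop, (2 + C) * a k < t :=
    (show Tendsto (fun k => (2 + C) * a k) atTop (𝓝 0) by simpa using h.lim.const_mul (2 + C)).eventually (gt_mem_nhds ht)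
  have e2 : ∀ᶠ k in atTop, a k < ε / 8 := h.lim.eventually (gt_mem_nhds (by linarith))
  filter_upwards [e1, e2] with k h1 h2 ζ hζ
  obtain ⟨c, hc, hc'⟩ := hf ζ hζ
  obtain ⟨m1, m2⟩ := t3c_mesh (h.pos k) c
  refine ⟨meshIndex (a k) c + (1, 1), ⟨(meshIndex (a k) c, 0), fun he => ?_, Or.inr rfl⟩, ?_⟩
  · obtain ⟨z, hz, hd⟩ := hC k _ he
    have h3 := hc' z hz
    have h4 := dist_triangle c ((a k : ℂ) * toC (meshIndex (a k) c)) z
    rw [dist_comm c ((a k : ℂ) * toC (meshIndex (a k) c))] at h4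
    dsimp only at hd
    linarith
  · have h4 := dist_triangle ((a k : ℂ) * toC (meshIndex (a k) c + (1, 1))) c ζ
    linarith

theorem t3c_frontier_null {D : Set ℂ} (hD : Nice D) : MeasureTheory.volume (frontier D) = 0 := by
  obtain ⟨ρ, hρ, hb⟩ := hD.balls
  have h := Besicovitch.ae_tendsto_measure_inter_div (MeasureTheory.volume : MeasureTheory.Measure ℂ) (frontier D)
  rw [MeasureTheory.ae_restrict_iff' isClosed_frontier.measurableSet] at h
  refine MeasureTheory.measure_mono_null (fun ζ hζ => ?_) h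
  intro hlim
  have hl := hlim hζ
  obtain ⟨ν, hν, hin, -⟩ := hb ζ hζ
  have key : ∀ᶠ r in 𝓝[>] (0 : ℝ), MeasureTheory.volume (frontier D ∩ closedBall ζ r) / MeasureTheory.volume (closedBall ζ r)
      ≤ ENNReal.ofReal (3 / 4) := by
    filter_upwards [Ioo_mem_nhdsGT hρ] with r hr
    have hr0 : 0 < r := hr.1
    have hs : ball (ζ + (r / 2 : ℝ) * ν) (r / 2) ⊆ D := (t3c_ball_sub ζ ν hν (by linarith [hr.2])).trans hin
    have hs2 : ball (ζ + (r / 2 : ℝ) * ν) (r / 2) ⊆ closedBall ζ r := by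
      refine (ball_subset_ball' (ε₂ := r) (y := ζ) ?_).trans ball_subset_closedBall
      rw [dist_eq_norm, add_sub_cancel_left, norm_mul, hν, Complex.norm_real, Real.norm_of_nonneg (by linarith)]
      linarith
    have hsub : frontier D ∩ closedBall ζ r ⊆ closedBall ζ r \ ball (ζ + (r / 2 : ℝ) * ν) (r / 2) := fun w hw =>
      ⟨hw.2, fun hw' => by
        have := hw.1
        rw [hD.isOpen.frontier_eq] at this
        exact this.2 (hs hw')⟩
    have h1 := MeasureTheory.measure_mono (μ := (MeasureTheory.volume : MeasureTheory.Measure ℂ)) hsub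
    rw [MeasureTheory.measure_sdiff hs2 measurableSet_ball.nullMeasurableSet MeasureTheory.measure_ball_lt_top.ne,
      Complex.volume_ball] at h1
    refine ENNReal.div_le_of_le_mul (h1.trans ?_)
    rw [Complex.volume_closedBall, tsub_le_iff_right]
    have e : ∀ s : ℝ, 0 ≤ s → ENNReal.ofReal s ^ 2 * (NNReal.pi : ENNReal) = ENNReal.ofReal (s ^ 2 * Real.pi) := fun s hs => by
      rw [ENNReal.ofReal_mul (by positivity), ENNReal.ofReal_pow hs, ← NNReal.coe_real_pi, ENNReal.ofReal_coe_nnreal]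
    rw [e r hr0.le, e (r / 2) (by linarith), ← ENNReal.ofReal_mul (by norm_num), ← ENNReal.ofReal_add (by positivity) (by positivity)]
    exact ENNReal.ofReal_le_ofReal (le_of_eq (by ring))
  have := le_of_tendsto hl key
  rw [← ENNReal.ofReal_one, ENNReal.ofReal_le_ofReal_iff (by norm_num)] at this
  norm_num at this

theorem t3c_proper_map {D D' : Set ℂ} (hD : Nice D) (hD' : Nice D') {φ : ℂ → ℂ} (hφ : DifferentiableOn ℂ φ D)
    (hb : Set.BijOn φ D D') {ε : ℝ} (hε : 0 < ε) : ∃ δ > 0, ∀ z ∈ D, infDist z Dᶜ < δ → infDist (φ z) D'ᶜ < ε := by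
  obtain ⟨δ, hδ, h⟩ := near_pull hD.isOpen hφ hb hD'.bdd hε
  refine ⟨δ, hδ, fun z hz hd => ?_⟩
  obtain ⟨ζ, hζ, h1⟩ := (infDist_lt_iff (t3c_compl_ne hD)).1 hd
  obtain ⟨ζ', hζ', h2⟩ := h z hz ⟨ζ, hζ, h1⟩
  exact (infDist_le_dist_of_mem (show ζ' ∈ D'ᶜ from hζ')).trans_lt h2

theorem t3c_exists_near_bdry {D : Set ℂ} (hD : Nice D) (Y : Set ℂ) (hY : Y.Finite) {η : ℝ} (hη : 0 < η) :
    ∃ z ∈ D, z ∉ Y ∧ infDist z Dᶜ < η := by
  obtain ⟨φ, -, hb, -⟩ := hD.riem
  obtain ⟨z₀, hz₀, -⟩ := hb.surjOn (mem_ball_self one_pos)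
  obtain ⟨y, hy, -⟩ := exists_mem_frontier_infDist_compl_eq_dist hz₀ (t3c_ne_univ hD)
  have hyD : y ∉ D := by
    rw [hD.isOpen.frontier_eq] at hy
    exact hy.2
  obtain ⟨z, hz, hd⟩ := Metric.mem_closure_iff.1 (frontier_subset_closure hy) η hη
  have ho : IsOpen (D ∩ ball y η) := hD.isOpen.inter isOpen_ball
  have hinf : (D ∩ ball y η).Infinite := infinite_of_mem_nhds z (ho.mem_nhds ⟨hz, by rw [mem_ball, dist_comm]; exact hd⟩)
  obtain ⟨w, hw, hwY⟩ := hinf.exists_notMem_finite hY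
  exact ⟨w, hw.1, hwY, (infDist_le_dist_of_mem (show y ∈ Dᶜ from hyD)).trans_lt hw.2⟩

end Crest.Agent.R165.C
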