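import Crest.Agent.R165.C.T1
import Crest.Agent.R165.C.T3cx
import Crest.Agent.R165.A.Main
import Crest.Agent.R165.A.Zc
import Crest.Agent.R165.T.Main
import Crest.Agent.R165.BC.Gauge
import Crest.Agent.R165.DU.Corner

/-! # R165/C: kernels, rho0, approximating sequences (block C, owner helper83; statements FROZEN, add lemmas freely inside the namespace) -/

set_option autoImplicit false
noncomputable section
open Classical Filter Topology Metric Crest.ProbabilityR.IsingModel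

namespace Crest.Agent.R165.C

/-! ### task T3a -/

theorem t3a_wOf_zero (E : Finset Edge) (S : Finset Site) : ∀ e, e ∉ E → wOf ↑E S e = 0 := fun e he => by
  unfold wOf
  rw [if_neg (by simpa using he)]

theorem t3a_abs_wOf (E : Finset Edge) (S : Finset Site) (e : Edge) : |wOf ↑E S e| ≤ 1 := by
  unfold wOf
  split_ifs
  · have := tc_pos
    rcases eray_sign S e with h | h <;> rw [h]
    · rw [mul_one, abs_of_pos this.1]; exact this.2.le
    · rw [mul_neg_one, abs_neg, abs_of_pos this.1]; exact this.2.le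
  · simp

theorem t3a_dB_one (S : Finset Site) (x : Site) : dB S 1 x = 1 := by
  unfold dB
  have : (S.fold min 1 fun v => supd x v + 1) = 1 := by
    apply le_antisymm
    · exact (Finset.fold_min_le _).2 (Or.inl le_rfl)
    · exact (Finset.le_fold_min _).2 ⟨le_rfl, fun v _ => Nat.le_add_left _ _⟩
  rw [this, Nat.cast_one]

theorem isKer_gauge {σ : Site → ℝ} (hσ : IsSign σ) {w : Edge → ℝ} {g : HE → HE → ℝ} (hg : IsKer w g) :
    IsKer (gaugeW σ w) (gaugeK σ g) := by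
  refine ⟨fun i j => ?_, fun k i => ?_⟩
  · simp only [gaugeK, hg.1 i j]; ring
  · have h1 : gaugeK σ g k = gaugeF σ (fun j => σ k.1 * g k j) := by
      funext j; simp only [gaugeK, gaugeF]; ring
    have h2 : opA w (fun j => σ k.1 * g k j) i = σ k.1 * opA w (g k) i := by
      have hs : ∀ x n, sv (fun j => σ k.1 * g k j) x n = σ k.1 * sv (g k) x n := fun x n => by
        unfold sv; split_ifs <;> ring
      simp only [opA, opp, hs]; ring
    rw [h1, opA_gauge hσ]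
    simp only [gaugeF]
    rw [h2, hg.2 k i]
    split_ifs with h
    · subst h; rw [mul_one, hσ.mul_self]
    · simp

theorem rat_gauge {σ : Site → ℝ} (hσ : IsSign σ) (w : Edge → ℝ) (g : HE → HE → ℝ) (e : Edge) :
    Rat (gaugeW σ w) (gaugeK σ g) e = Rat w g e := by
  have h0 := hσ.mul_self e.1
  have h1 := hσ.mul_self (e.1 + uv e.2)
  have e0 : (he0 e).1 = e.1 := rfl
  have e1 : (he1 e).1 = e.1 + uv e.2 := rfl
  simp only [Rat, gaugeW, gaugeK, e0, e1]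
  linear_combination (-2 * w e * g (he0 e) (he1 e) * (σ (e.1 + uv e.2) * σ (e.1 + uv e.2))) * h0 +
    (-2 * w e * g (he0 e) (he1 e)) * h1

theorem Zc_pos (E : Finset Edge) : 0 < Zc E (wOf ↑E ∅) := by
  unfold Zc
  refine Finset.sum_pos' (fun γ _ => Finset.prod_nonneg fun e _ => ?_) ⟨∅, ?_, by simp⟩
  · unfold wOf
    split_ifs
    · rw [eray_empty, mul_one]; exact tc_pos.1.le
    · exact le_rfl
  · simp [EvenSub]

theorem rho0_empty (E : Finset Edge) : rho0 E ∅ = 1 := by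
  have h := Zc_pos E
  unfold rho0
  rw [abs_of_pos h, div_self h.ne']

/-- `exists_ker`, `Zc_ne_zero` -/
theorem rho0_pos {E : Finset Edge} {ρ : ℝ} (hE : Reg ↑E ρ) (S : Finset Site) : 0 < rho0 E S := by
  obtain ⟨g, hg, hf⟩ := exists_ker hE S
  exact div_pos (abs_pos.2 (Zc_ne_zero (t3a_wOf_zero E S) hg hf)) (Zc_pos E)

/-- `eray_move`, `Zc_gauge`, `Zc_flip` -/
theorem rho0_move {E : Finset Edge} {S : Finset Site} {g : HE → HE → ℝ} (hg : IsKer (wOf ↑E S) g) (hf : FinRow g) (e : Edge) :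
    rho0 E (symmDiff S {edgeB0 e, edgeB1 e}) = rho0 E S * |Rat (wOf ↑E S) g e| := by
  obtain ⟨σ, hσ, h⟩ := eray_move S e
  have h1 : gaugeW σ (wOf ↑E (symmDiff S {edgeB0 e, edgeB1 e})) =
      fun e' => (if e' = e then -1 else 1) * wOf ↑E S e' := by
    funext e'
    have := h e'
    simp only [gaugeW, wOf]
    by_cases he : e' ∈ (↑E : Set Edge)
    · rw [if_pos he, if_pos he]; linear_combination tc * this
    · rw [if_neg he, if_neg he]; ring
  have h2 := Zc_gauge E (wOf ↑E (symmDiff S {edgeB0 e, edgeB1 e})) hσ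
  rw [h1, Zc_flip (t3a_wOf_zero E S) hg hf e] at h2
  unfold rho0 Rat
  rw [← h2, abs_mul]; ring

/-- upper bound: `ker_bound` with `l = 1`; lower bound: move back (`rho0_move` for `symmDiff S {..}`, `rho0_pos`) -/
theorem rat_bounds (n : ℕ) : ∃ (C : ℝ) (K : ℕ), 1 ≤ C ∧ ∀ (E : Finset Edge) (ρ : ℝ) (S : Finset Site) (g : HE → HE → ℝ)
    (e : Edge), Reg ↑E ρ → S.card ≤ n → (K : ℝ) ≤ ρ → IsKer (wOf ↑E S) g → FinRow g →
    C⁻¹ ≤ |Rat (wOf ↑E S) g e| ∧ |Rat (wOf ↑E S) g e| ≤ C := by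
  obtain ⟨C, K, h⟩ := ker_bound (n + 2)
  have up : ∀ (E : Finset Edge) (ρ : ℝ) (S : Finset Site) (g : HE → HE → ℝ) (e : Edge), Reg ↑E ρ → S.card ≤ n + 2 →
      ((K * (1 + K) : ℕ) : ℝ) ≤ ρ → IsKer (wOf ↑E S) g → FinRow g → |Rat (wOf ↑E S) g e| ≤ 1 + 2 * |C| := by
    intro E ρ S g e hE hS hK hg hf
    have h1 := h E ρ S g hE hS hg hf 1 (he0 e) (he1 e) le_rfl (by exact_mod_cast hK) (Nat.le_add_left _ _)
    rw [t3a_dB_one, t3a_dB_one, mul_one, mul_one] at h1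
    have h2 : |g (he0 e) (he1 e)| ≤ |C| := sq_le_sq.1 h1
    have h3 := t3a_abs_wOf E S e
    unfold Rat
    calc |1 - 2 * wOf (↑E) S e * g (he0 e) (he1 e)| ≤ |(1 : ℝ)| + |2 * wOf (↑E) S e * g (he0 e) (he1 e)| := abs_sub _ _
      _ = 1 + 2 * (|wOf (↑E) S e| * |g (he0 e) (he1 e)|) := by rw [abs_one, abs_mul, abs_mul, abs_two]; ring
      _ ≤ 1 + 2 * (1 * |C|) := by gcongr
      _ = 1 + 2 * |C| := by ring
  have hC : (1 : ℝ) ≤ 1 + 2 * |C| := by have := abs_nonneg C; linarith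
  refine ⟨1 + 2 * |C|, K * (1 + K), hC, fun E ρ S g e hE hS hK hg hf => ⟨?_, up E ρ S g e hE (by omega) hK hg hf⟩⟩
  obtain ⟨g', hg', hf'⟩ := exists_ker hE (symmDiff S {edgeB0 e, edgeB1 e})
  have hc : (symmDiff S {edgeB0 e, edgeB1 e}).card ≤ n + 2 := by
    refine le_trans (Finset.card_le_card (symmDiff_le_sup (a := S) (b := {edgeB0 e, edgeB1 e}))) ?_
    refine le_trans (Finset.card_union_le _ _) ?_
    have := Finset.card_le_two (a := edgeB0 e) (b := edgeB1 e)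
    omega
  have h1 := up E ρ _ g' e hE hc hK hg' hf'
  have h2 := rho0_move hg' hf' e
  rw [symmDiff_symmDiff_cancel_right, rho0_move hg hf e] at h2
  have h3 := rho0_pos hE S
  have h4 : |Rat (wOf ↑E S) g e| * |Rat (wOf ↑E (symmDiff S {edgeB0 e, edgeB1 e})) g' e| = 1 := by
    apply mul_left_cancel₀ h3.ne'
    rw [mul_one, ← mul_assoc, ← h2]
  rw [inv_le_iff_one_le_mul₀ (by linarith)]
  have h5 := abs_nonneg (Rat (wOf ↑E S) g e)
  nlinarith [mul_le_mul_of_nonneg_left h1 h5]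

theorem t3a_step {E : Finset Edge} {ρ : ℝ} (hE : Reg ↑E ρ) (S : Finset Site) {e : Edge} (he : e ∉ (↑E : Set Edge)) :
    rho0 E (symmDiff S {edgeB1 e}) = rho0 E (symmDiff S {edgeB0 e}) := by
  obtain ⟨g, hg, hf⟩ := exists_ker hE (symmDiff S {edgeB0 e})
  have h := rho0_move hg hf e
  have hne : edgeB0 e ≠ edgeB1 e := by
    obtain ⟨⟨a, b⟩, j⟩ := e
    fin_cases j <;> simp [edgeB0, edgeB1]
  have h1 : symmDiff (symmDiff S {edgeB0 e}) {edgeB0 e, edgeB1 e} = symmDiff S {edgeB1 e} := by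
    rw [symmDiff_assoc]
    congr 1
    ext x
    simp only [Finset.mem_symmDiff, Finset.mem_singleton, Finset.mem_insert]
    constructor
    · rintro (⟨h1, h2⟩ | ⟨h1 | h1, h2⟩)
      · exact absurd (Or.inl h1) h2
      · exact absurd h1 h2
      · exact h1
    · rintro rfl
      exact Or.inr ⟨Or.inr rfl, hne.symm⟩
  rw [h1] at h
  rw [h, Rat, t3a_wOf_zero E _ e (by simpa using he)]
  simp

/-- a spin at a frozen site is `+1`: move it along `Reg.glob` (across `e ∉ E` the ratio is `1`) to a frozen site east of `E` -/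
theorem rho0_frozen {E : Finset Edge} {ρ : ℝ} (hE : Reg ↑E ρ) (S : Finset Site) {b : Site} (hb : FrozenB ↑E b) :
    rho0 E (symmDiff S {b}) = rho0 E S := by
  obtain ⟨N, hN⟩ : ∃ N : ℤ, ∀ e ∈ E, e.1.1 < N := by
    obtain ⟨N, hN⟩ := (E.image fun e : Edge => e.1.1).bddAbove
    exact ⟨N + 1, fun e he => Int.lt_add_one_of_le (hN (Finset.mem_coe.2 (Finset.mem_image_of_mem _ he)))⟩
  have hb' : FrozenB ↑E ((N + 1, 1) : Site) :=
    ⟨((N, 0), 0), fun h => lt_irrefl _ (hN _ h), Or.inr (by simp [edgeB1])⟩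
  have hend : rho0 E (symmDiff S {((N + 1, 1) : Site)}) = rho0 E S := by
    have : wOf ↑E (symmDiff S {((N + 1, 1) : Site)}) = wOf ↑E S := by
      funext e
      unfold wOf
      split_ifs with he
      · have h1 := hN e he
        rw [eray_symmDiff]
        have : eray {((N + 1, 1) : Site)} e = 1 := by
          obtain ⟨x, j⟩ := e
          fin_cases j
          · exact eray_0 _ _
          · simp only [Fin.mk_one, eray_1, Finset.prod_singleton, sg]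
            rw [if_neg]
            rintro ⟨-, h2⟩
            simp only at h1 h2
            omega
        rw [this, mul_one]
      · rfl
    unfold rho0
    rw [this]
  rw [← hend]
  have hp := hE.glob _ _ hb hb'
  generalize ((N + 1, 1) : Site) = b' at hp
  induction hp with
  | refl => rfl
  | tail _ hs ih =>
    rw [ih]
    obtain ⟨-, -, e, he, h⟩ := hs
    rcases h with ⟨h0, h1⟩ | ⟨h0, h1⟩
    · rw [← h0, ← h1]; exact (t3a_step hE S he).symm
    · rw [← h0, ← h1]; exact t3a_step hE S he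

theorem edgeB_bondEdge (z : Site) (j : Fin 2) : edgeB0 (bondEdge z j) = z ∧ edgeB1 (bondEdge z j) = z + uv j := by
  fin_cases j <;> simp [edgeB0, edgeB1, bondEdge, uv] <;> ext <;> simp

/-! ### task T3b -/

theorem t3b_near {a : ℝ} (ha : 0 < a) {p q : Site} (h : supd p q ≤ 1) : dist ((a : ℂ) * toC p) ((a : ℂ) * toC q) ≤ 2 * a := by
  rw [dist_eq_norm, ← mul_sub, norm_mul, Complex.norm_real, Real.norm_of_nonneg ha.le, ← dist_eq_norm]
  have h1 := B3.dist_toC_le p q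
  have h2 : (supd p q : ℝ) ≤ 1 := by exact_mod_cast h
  nlinarith

theorem t3b_thick {D K : Set ℂ} (hD : IsOpen D) (hK : IsCompact K) (hKD : K ⊆ D) {a : ℕ → ℝ} (ha : ∀ k, 0 < a k)
    (ha0 : Tendsto a atTop (𝓝 0)) : ∃ K', IsCompact K' ∧ K' ⊆ D ∧ ∀ᶠ k in atTop, ∀ p q : Site, supd q p ≤ 1 →
      (a k : ℂ) * toC p ∈ K → (a k : ℂ) * toC q ∈ K' := by
  obtain ⟨δ, hδ, h⟩ := hK.exists_cthickening_subset_open hD hKD
  refine ⟨cthickening δ K, hK.cthickening, h, ?_⟩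
  filter_upwards [ha0.eventually_le_const (half_pos hδ)] with k hk p q hpq hp
  exact mem_cthickening_of_dist_le _ _ δ K hp ((t3b_near (ha k) hpq).trans (by linarith))

theorem t3b_mem {D : Set ℂ} {a : ℝ} {p : Site} : p ∈ domainSites D a ↔ (a : ℂ) * toC p ∈ D := by
  rw [← T.meshPoint_eq]; rfl

theorem appr_nice {D : Set ℂ} (hD : Nice D) : ∃ a₀ > 0, ∃ ρ₀ > 0, ∀ a : ℕ → ℝ, (∀ k, 0 < a k ∧ a k < a₀) →
    Tendsto a atTop (𝓝 0) → ∀ h : ∀ k, (domainSites D (a k)).Finite,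
      Appr D a (fun k => (ePlus_finite (h k)).toFinset) (fun k => ρ₀ / a k) ∧
      Appr D a (fun k => (eDual_finite (h k)).toFinset) (fun k => ρ₀ / a k) ∧ ∀ k, ExtConn (domainSites D (a k)) := by
  obtain ⟨ρ₀, hρ₀, a₀, ha₀, H⟩ := hD.reg
  refine ⟨a₀, ha₀, ρ₀, hρ₀, fun a ha ha0 h => ?_⟩
  have hp : ∀ k, 0 < a k := fun k => (ha k).1
  have h1 : ∃ ρ₁ > 0, ∀ k, ρ₁ ≤ a k * (ρ₀ / a k) := ⟨ρ₀, hρ₀, fun k => (mul_div_cancel₀ _ (hp k).ne').ge⟩
  have h2 : D = Set.univ → Tendsto (fun k => a k * (ρ₀ / a k)) atTop atTop := fun e =>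
    absurd (e ▸ hD.bdd) (NormedSpace.unbounded_univ ℝ ℂ)
  refine ⟨⟨hp, ha0, fun k => ?_, h1, h2, fun K hK hKD => ?_, 2, fun k e he => ?_⟩,
    ⟨hp, ha0, fun k => ?_, h1, h2, fun K hK hKD => ?_, 0, fun k e he => ?_⟩, fun k => (H _ (hp k) (ha k).2).2.2⟩
  · rw [Set.Finite.coe_toFinset]
    exact (H _ (hp k) (ha k).2).1
  · obtain ⟨K', -, hK', h3⟩ := t3b_thick hD.isOpen hK hKD hp ha0
    filter_upwards [h3] with k hk e he
    rw [Set.Finite.mem_toFinset]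
    exact Or.inr (t3b_mem.2 (hK' (hk _ _ (B3.supd_edgeB e).2 he)))
  · rw [Set.Finite.mem_toFinset] at he
    rcases he with he | he
    · exact ⟨_, t3b_mem.1 he, t3b_near (hp k) (by rw [B3.supd_comm]; exact (B3.supd_edgeB e).1)⟩
    · exact ⟨_, t3b_mem.1 he, t3b_near (hp k) (by rw [B3.supd_comm]; exact (B3.supd_edgeB e).2)⟩
  · rw [Set.Finite.coe_toFinset]
    exact (H _ (hp k) (ha k).2).2.1
  · obtain ⟨K', -, hK', h3⟩ := t3b_thick hD.isOpen hK hKD hp ha0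
    filter_upwards [h3] with k hk e he
    rw [Set.Finite.mem_toFinset]
    exact ⟨t3b_mem.2 (hKD he), t3b_mem.2 (hK' (hk _ _ (B3.supd_uv e.1 e.2).le he))⟩
  · rw [Set.Finite.mem_toFinset] at he
    exact ⟨_, t3b_mem.1 he.1, by simp⟩

theorem appr_disc : ∃ c > 0, ∃ M₀ > 0, ∀ a K : ℕ → ℝ, (∀ k, 0 < a k ∧ M₀ ≤ K k / a k) → Tendsto a atTop (𝓝 0) →
    Tendsto K atTop atTop → (∃ K₀ > 0, ∀ k, K₀ ≤ K k) → ∀ h : ∀ k, (domainSites (ball 0 (K k)) (a k)).Finite,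
      Appr Set.univ a (fun k => (ePlus_finite (h k)).toFinset) (fun k => c * (K k / a k)) ∧
      ∀ k, ExtConn (domainSites (ball 0 (K k)) (a k)) := by
  obtain ⟨c, hc, M₀, H⟩ := reg_ball
  refine ⟨c, hc, max M₀ 1, lt_max_of_lt_right one_pos, fun a K ha ha0 hK ⟨K₀, hK₀, hK₁⟩ h => ?_⟩
  have hp : ∀ k, 0 < a k := fun k => (ha k).1
  have H' := fun k => H (a k) (K k) (hp k) ((le_max_left _ _).trans (ha k).2)
  have e : ∀ k, a k * (c * (K k / a k)) = c * K k := fun k => by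
    rw [mul_left_comm, mul_div_cancel₀ _ (hp k).ne']
  refine ⟨⟨hp, ha0, fun k => ?_, ⟨c * K₀, mul_pos hc hK₀, fun k => ?_⟩, fun _ => ?_, fun L hL _ => ?_, 0, fun k e _ => ?_⟩,
    fun k => (H' k).2⟩
  · rw [Set.Finite.coe_toFinset]
    exact (H' k).1
  · rw [e]
    exact mul_le_mul_of_nonneg_left (hK₁ k) hc.le
  · simp only [e]
    exact hK.const_mul_atTop hc
  · obtain ⟨L', hL', -, h3⟩ := t3b_thick isOpen_univ hL (Set.subset_univ _) hp ha0
    obtain ⟨R, hR⟩ := hL'.isBounded.subset_closedBall 0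
    filter_upwards [h3, hK.eventually_gt_atTop R] with k hk hk' e he
    rw [Set.Finite.mem_toFinset]
    exact Or.inr (t3b_mem.2 (closedBall_subset_ball hk' (hR (hk _ _ (B3.supd_edgeB e).2 he))))
  · exact ⟨_, Set.mem_univ ((a k : ℂ) * toC e.1), by simp⟩

theorem exists_appr_plane {a : ℕ → ℝ} (ha : ∀ k, 0 < a k) (ha0 : Tendsto a atTop (𝓝 0)) :
    ∃ E ρ, Appr Set.univ a E ρ := by
  obtain ⟨c, -, M₀, hM, H⟩ := appr_disc
  have h1 : ∀ k : ℕ, (1 : ℝ) ≤ M₀ * a k + 1 + k := fun k => by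
    have := mul_pos hM (ha k)
    have : (0 : ℝ) ≤ k := Nat.cast_nonneg _
    linarith
  refine ⟨_, _, (H a (fun k => M₀ * a k + 1 + k) (fun k => ⟨ha k, ?_⟩) ha0 ?_ ⟨1, one_pos, h1⟩
    fun k => (nice_ball (one_pos.trans_le (h1 k))).sites_finite (ha k)).1⟩
  · rw [le_div_iff₀ (ha k)]
    have : (0 : ℝ) ≤ k := Nat.cast_nonneg _
    linarith
  · refine tendsto_atTop_mono (fun k => ?_) tendsto_natCast_atTop_atTop
    have := mul_pos hM (ha k)
    linarith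

theorem exists_appr {D : Set ℂ} {n : ℕ} (hD : NiceP D n) : ∃ a E ρ, Appr D a E ρ := by
  have ht : ∀ b : ℝ, Tendsto (fun k : ℕ => b / ((k : ℝ) + 2)) atTop (𝓝 0) := fun b =>
    tendsto_const_nhds.div_atTop (tendsto_atTop_add_const_right _ _ tendsto_natCast_atTop_atTop)
  rcases hD with hD | ⟨rfl, -⟩
  · obtain ⟨a₀, ha₀, ρ₀, -, H⟩ := appr_nice hD
    have hp : ∀ k : ℕ, 0 < a₀ / ((k : ℝ) + 2) := fun k => by positivity
    refine ⟨_, _, _, (H (fun k => a₀ / ((k : ℝ) + 2)) (fun k => ⟨hp k, ?_⟩) (ht a₀) fun k => hD.sites_finite (hp k)).1⟩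
    have : (0 : ℝ) ≤ k := Nat.cast_nonneg _
    exact div_lt_self ha₀ (by linarith)
  · exact ⟨_, exists_appr_plane (fun k => by positivity) (ht 1)⟩

theorem appr_subseq {D : Set ℂ} {a : ℕ → ℝ} {E : ℕ → Finset Edge} {ρ : ℕ → ℝ} (h : Appr D a E ρ) {ψ : ℕ → ℕ}
    (hψ : StrictMono ψ) : Appr D (a ∘ ψ) (fun k => E (ψ k)) fun k => ρ (ψ k) := by
  have ht := hψ.tendsto_atTop
  exact ⟨fun k => h.pos _, h.lim.comp ht, fun k => h.reg _, h.rho.imp fun _ h' => ⟨h'.1, fun k => h'.2 _⟩,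
    fun e => (h.rho' e).comp ht, fun K hK hKD => ht.eventually (h.inn K hK hKD), h.out.imp fun _ h' k => h' _⟩

theorem Ctx.subseq {D : Set ℂ} {n : ℕ} {x : Fin n → ℂ} {a : ℕ → ℝ} {E : ℕ → Finset Edge} {ρ : ℕ → ℝ}
    {v : ℕ → Fin n → Site} {g : ℕ → HE → HE → ℝ} (h : Ctx D x a E ρ v g) {ψ : ℕ → ℕ} (hψ : StrictMono ψ) :
    Ctx D x (a ∘ ψ) (fun k => E (ψ k)) (fun k => ρ (ψ k)) (fun k => v (ψ k)) fun k => g (ψ k) := by
  exact ⟨h.nice, appr_subseq h.appr hψ, h.inj, h.mem, fun i => Tendsto.comp (h.lim i) hψ.tendsto_atTop, fun k => h.ker _⟩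

theorem exists_ctx {D : Set ℂ} {n : ℕ} {x : Fin n → ℂ} (hD : NiceP D n) (hx : Function.Injective x) (hxD : ∀ i, x i ∈ D)
    {a : ℕ → ℝ} {E : ℕ → Finset Edge} {ρ : ℕ → ℝ} (h : Appr D a E ρ) {v : ℕ → Fin n → Site}
    (hv : ∀ i, PtLim a (fun k => v k i) (x i)) : ∃ g, Ctx D x a E ρ v g := by
  choose g hg using fun k => exists_ker (h.reg k) (spinsOf (v k))
  exact ⟨g, hD, h, hx, hxD, hv, hg⟩

theorem NiceP.isOpen' {D : Set ℂ} {n : ℕ} (h : NiceP D n) : IsOpen D := by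
  rcases h with h | ⟨rfl, -⟩
  · exact h.isOpen
  · exact isOpen_univ

theorem NiceP.zero' {D : Set ℂ} {n : ℕ} (h : NiceP D n) : NiceP D 0 := by
  exact Or.imp id (fun h' => ⟨h'.1, Even.zero⟩) h

theorem appr_crit {D : Set ℂ} (hD : IsOpen D) {a : ℕ → ℝ} {E : ℕ → Finset Edge} {ρ : ℕ → ℝ} (h : Appr D a E ρ)
    {K : Set ℂ} (hK : IsCompact K) (hKD : K ⊆ D) : ∀ᶠ k in atTop, Crit ↑(E k) {p | (a k : ℂ) * toC p ∈ K} := by
  obtain ⟨K', hK', hKD', h3⟩ := t3b_thick hD hK hKD h.pos h.lim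
  filter_upwards [h3, h.inn K' hK' hKD'] with k hk hk' p hp α
  exact hk' _ (hk _ _ (B3.supd_edgeOf p α).1 hp)

theorem appr_rho {D : Set ℂ} {a : ℕ → ℝ} {E : ℕ → Finset Edge} {ρ : ℕ → ℝ} (h : Appr D a E ρ) :
    Tendsto ρ atTop atTop := by
  obtain ⟨ρ₀, hρ₀, H⟩ := h.rho
  have h1 : Tendsto (fun k => (a k)⁻¹) atTop atTop :=
    tendsto_inv_nhdsGT_zero.comp (tendsto_nhdsWithin_iff.2 ⟨h.lim, Eventually.of_forall h.pos⟩)
  refine tendsto_atTop_mono (fun k => ?_) (h1.const_mul_atTop hρ₀)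
  rw [← div_eq_mul_inv, div_le_iff₀' (h.pos k)]
  exact H k

/-! ### task T3c -/

/-- every point outside `D` is close to a frozen site: if `ζ` is within `ε/4` of `D` take a boundary point `ζ'` within `ε/4`
and move outwards by `t = min (ε/4) ρ` along `-ν`; points at distance `> C a` from `D` carry no edge of `E` (`Appr.out`). -/
theorem frozen_near {D : Set ℂ} (hD : Nice D) {a : ℕ → ℝ} {E : ℕ → Finset Edge} {ρ : ℕ → ℝ} (h : Appr D a E ρ)
    {ε : ℝ} (hε : 0 < ε) : ∀ᶠ k in atTop, ∀ ζ, ζ ∉ D → ∃ b, FrozenB ↑(E k) b ∧ dist ((a k : ℂ) * toC b) ζ < ε :=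
  t3c_frozen_near hD h hε

/-- Lebesgue density (`Besicovitch.ae_tendsto_measure_inter_div`): at a boundary point the interior ball leaves density `≤ 3/4` -/
theorem frontier_null {D : Set ℂ} (hD : Nice D) : MeasureTheory.volume (frontier D) = 0 :=
  t3c_frontier_null hD

/-- a conformal map between nice domains sends points near `∂D` to points near `∂D'` (`CA.exists_inv`, compactness of
`{w | ε ≤ infDist w D'ᶜ}` and of its image under the inverse) -/
theorem proper_map {D D' : Set ℂ} (hD : Nice D) (hD' : Nice D') {φ : ℂ → ℂ} (hφ : DifferentiableOn ℂ φ D)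
    (hb : Set.BijOn φ D D') {ε : ℝ} (hε : 0 < ε) : ∃ δ > 0, ∀ z ∈ D, infDist z Dᶜ < δ → infDist (φ z) D'ᶜ < ε :=
  t3c_proper_map hD hD' hφ hb hε

theorem deriv_ne_zero_of_bij {D D' : Set ℂ} (hD : IsOpen D) {φ : ℂ → ℂ} (hφ : DifferentiableOn ℂ φ D)
    (hb : Set.BijOn φ D D') : ∀ z ∈ D, deriv φ z ≠ 0 :=
  fun _ hz => Lib.RMT.deriv_ne_zero_of_injOn hD hφ hb.injOn hz

theorem exists_near_bdry {D : Set ℂ} (hD : Nice D) (Y : Set ℂ) (hY : Y.Finite) {η : ℝ} (hη : 0 < η) :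
    ∃ z ∈ D, z ∉ Y ∧ infDist z Dᶜ < η :=
  t3c_exists_near_bdry hD Y hY hη

end Crest.Agent.R165.C
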