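import Crest.Agent.R165.C.T2
import Crest.Agent.R165.C.T3
import Crest.Agent.R165.C.B0cx

/-! # R165/C: limits of kernel rows are in the class RH (block C, owner helper83; statements FROZEN, add lemmas freely inside the namespace) -/

set_option autoImplicit false
noncomputable section
open Classical Filter Topology Metric Crest.ProbabilityR.IsingModel

namespace Crest.Agent.R165.C

variable {D : Set ℂ} {n : ℕ} {x : Fin n → ℂ} {a : ℕ → ℝ} {E : ℕ → Finset Edge} {ρ : ℕ → ℝ} {v : ℕ → Fin n → Site}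
  {g : ℕ → HE → HE → ℝ} {y : ℂ} {u : ℕ → Site} {N : ℕ → ℝ}

/-- admissible normalisations: `1/a` for a bulk source, `1/√a` for any source -/
def NOK (x : Fin n → ℂ) (y : ℂ) (a N : ℕ → ℝ) : Prop :=
  ((∀ i, y ≠ x i) ∧ ∀ k, N k = (a k)⁻¹) ∨ ∀ k, N k = (Real.sqrt (a k))⁻¹

/-! ### task B0a -/

theorem b0a_supd {a : ℝ} (ha : 0 < a) {p q : Site} {z : ℂ} {σ : ℝ} (hp : σ ≤ dist ((a : ℂ) * toC p) z)
    (hq : dist ((a : ℂ) * toC q) z ≤ σ / 4) : σ / (2 * a) ≤ supd p q := by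
  have h1 := dist_triangle ((a : ℂ) * toC p) ((a : ℂ) * toC q) z
  have h2 : dist ((a : ℂ) * toC p) ((a : ℂ) * toC q) = a * ‖toC p - toC q‖ := by
    rw [dist_eq_norm, ← mul_sub, norm_mul, Complex.norm_real, Real.norm_of_nonneg ha.le]
  have h3 := mul_le_mul_of_nonneg_left (dist_le_supd p q) ha.le
  rw [div_le_iff₀ (by positivity)]
  linarith

theorem b0a_dB {a : ℝ} (ha : 0 < a) {v : Fin n → Site} {l : ℕ} {σ : ℝ} {p : Site} (hl : σ / (4 * a) ≤ l) (hσ : 0 ≤ σ)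
    (hp : ∀ i, σ ≤ dist ((a : ℂ) * toC p) (x i)) (hv : ∀ i, dist ((a : ℂ) * toC (v i)) (x i) ≤ σ / 4) :
    σ / (4 * a) ≤ dB (spinsOf v) l p := by
  refine le_dB hl fun w hw => ?_
  obtain ⟨i, -, rfl⟩ := Finset.mem_image.1 hw
  have h1 := b0a_supd ha (hp i) (hv i)
  have h2 : σ / (4 * a) ≤ σ / (2 * a) := div_le_div_of_nonneg_left hσ (by positivity) (by linarith)
  linarith

theorem b0a_near {w : ℕ → Site} {z : ℂ} (h : PtLim a w z) {ε : ℝ} (hε : 0 < ε) :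
    ∀ᶠ k in atTop, dist ((a k : ℂ) * toC (w k)) z ≤ ε := (Metric.tendsto_nhds.1 h ε hε).mono fun _ h => h.le

theorem b0a_far {K : Set ℂ} (hK : IsClosed K) {w : ℂ} (hw : w ∉ K) : ∀ᶠ t in 𝓝[>] (0 : ℝ), ∀ z ∈ K, t ≤ dist z w := by
  obtain ⟨ε, hε, h⟩ := Metric.isOpen_iff.1 hK.isOpen_compl w hw
  filter_upwards [Ioo_mem_nhdsGT hε] with t ht z hz
  exact ht.2.le.trans (not_lt.1 fun hlt => h (mem_ball.2 hlt) hz)

theorem b0a_small {d : ℝ} (hd : 0 < d) : ∀ᶠ t in 𝓝[>] (0 : ℝ), 0 < t ∧ 2 * t ≤ d := by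
  filter_upwards [Ioo_mem_nhdsGT (half_pos hd)] with t ht
  exact ⟨ht.1, by linarith [ht.2]⟩

theorem b0a_core (h : Ctx D x a E ρ v g) (hu : PtLim a u y) : ∃ C : ℝ, 0 ≤ C ∧ ∃ t₀ > 0, ∀ τ > 0,
    (τ ≤ t₀ ∨ D = Set.univ) → ∀ σ > 0, σ ≤ τ → ∀ σ' > 0, σ' ≤ τ → ∀ᶠ k in atTop, ∀ p, τ ≤ dist ((a k : ℂ) * toC p) y →
      (∀ i, σ ≤ dist ((a k : ℂ) * toC p) (x i)) → ∀ α β, g k (u k, α) (p, β) ^ 2 * σ ≤ C * a k ∧
        ((∀ i, 2 * σ' ≤ dist y (x i)) → g k (u k, α) (p, β) ^ 2 * (σ * σ') ≤ C * a k ^ 2) := by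
  obtain ⟨C, K, hC⟩ := ker_bound n
  obtain ⟨ρ₀, hρ₀, hρ⟩ := h.appr.rho
  have hlt : ∀ {ε : ℝ}, 0 < ε → ∀ᶠ k in atTop, a k ≤ ε := fun hε =>
    (h.appr.lim.eventually (gt_mem_nhds hε)).mono fun _ h => h.le
  refine ⟨16 * C ^ 2, by positivity, ρ₀ / (K + 1), by positivity, fun τ hτ hτ' σ hσ hστ σ' hσ' hστ' => ?_⟩
  have hρk : ∀ᶠ k in atTop, K * τ / 2 + a k * K ^ 2 ≤ a k * ρ k := by
    rcases hτ' with h1 | h1
    · filter_upwards [hlt (ε := ρ₀ / 2 / (K ^ 2 + 1)) (by positivity)] with k hk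
      rw [le_div_iff₀ (by positivity)] at h1 hk
      have := hρ k
      have := h.appr.pos k
      nlinarith
    · filter_upwards [hlt one_pos, (h.appr.rho' h1).eventually_ge_atTop (K * τ / 2 + K ^ 2)] with k hk hk'
      nlinarith [sq_nonneg (K : ℝ)]
  filter_upwards [hρk, hlt (ε := τ / 4) (by positivity), b0a_near hu (ε := τ / 4) (by positivity), b0a_near hu hσ',
    eventually_all.2 fun i => b0a_near (h.lim i) (ε := σ / 4) (by positivity),
    eventually_all.2 fun i => b0a_near (h.lim i) (ε := σ' / 4) (by positivity)] with k h1 h2 h3 h4 h5 h6 p hp hp' α β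
  have ha := h.appr.pos k
  set l := ⌊τ / (2 * a k)⌋₊ with hl
  have hl1 : (l : ℝ) ≤ τ / (2 * a k) := Nat.floor_le (by positivity)
  have hl2 : τ / (2 * a k) < l + 1 := Nat.lt_floor_add_one _
  have e1 : τ / (2 * a k) = 2 * (τ / (4 * a k)) := by field_simp; ring
  have hl3 : 1 ≤ τ / (4 * a k) := by rw [le_div_iff₀ (by positivity)]; linarith
  have hl4 : τ / (4 * a k) ≤ l := by linarith
  have hl5 : (1 : ℝ) ≤ l := hl3.trans hl4
  have hs : (l : ℝ) ≤ supd (u k) p := by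
    have := b0a_supd ha hp h3
    rw [supd_comm]
    linarith
  have hb := hC (E k) (ρ k) (spinsOf (v k)) (g k) (h.appr.reg k)
    (Finset.card_image_le.trans (by simp)) (h.ker k).1 (h.ker k).2 l (u k, α) (p, β) (by exact_mod_cast hl5)
    (by
      refine le_of_mul_le_mul_left (le_trans ?_ h1) ha
      rw [le_div_iff₀ (by positivity)] at hl1
      nlinarith [mul_le_mul_of_nonneg_left hl1 (Nat.cast_nonneg (α := ℝ) K)])
    (by
      have : l ≤ supd (u k) p := by exact_mod_cast hs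
      exact this.trans (Nat.le_succ _))
  have d1 : σ / (4 * a k) ≤ dB (spinsOf (v k)) l p :=
    b0a_dB ha ((div_le_div_of_nonneg_right hστ (by positivity)).trans hl4) hσ.le hp' h5
  have d2 : 1 ≤ dB (spinsOf (v k)) l (u k) := le_dB hl5 fun w _ => by simp
  have g0 := sq_nonneg (g k (u k, α) (p, β))
  have q0 : 0 ≤ σ / (4 * a k) := by positivity
  refine ⟨?_, fun hy => ?_⟩
  · have h7 := (mul_le_mul_of_nonneg_left (mul_le_mul d2 d1 q0 (by linarith)) g0).trans hb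
    rw [one_mul, ← mul_div_assoc, div_le_iff₀ (by positivity)] at h7
    nlinarith [mul_nonneg (sq_nonneg C) ha.le]
  · have d3 : σ' / (4 * a k) ≤ dB (spinsOf (v k)) l (u k) := by
      refine b0a_dB ha ((div_le_div_of_nonneg_right hστ' (by positivity)).trans hl4) hσ'.le (fun i => ?_) h6
      have := dist_triangle_left y (x i) ((a k : ℂ) * toC (u k))
      linarith [hy i]
    have h7 := (mul_le_mul_of_nonneg_left (mul_le_mul d3 d1 q0 (by linarith)) g0).trans hb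
    rw [div_mul_div_comm, ← mul_div_assoc, div_le_iff₀ (by positivity)] at h7
    nlinarith

theorem b0a_gen (h : Ctx D x a E ρ v g) (hu : PtLim a u y) (hN : NOK x y a N) : ∃ C : ℝ, ∃ t₀ > 0, ∀ τ > 0,
    (τ ≤ t₀ ∨ D = Set.univ) → ∀ σ > 0, σ ≤ τ → ∀ᶠ k in atTop, ∀ p, τ ≤ dist ((a k : ℂ) * toC p) y →
      (∀ i, σ ≤ dist ((a k : ℂ) * toC p) (x i)) → ∀ α β, (N k * g k (u k, α) (p, β)) ^ 2 * (σ * min τ 1) ≤ C ∧
        ((∃ i, x i = y) → (N k * g k (u k, α) (p, β)) ^ 2 * σ ≤ C) := by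
  obtain ⟨C, hC0, t₀, ht₀, hC⟩ := b0a_core h hu
  rcases hN with ⟨hy, hN⟩ | hN
  · obtain ⟨m, ⟨hm, hm1⟩, hmx⟩ := ((b0a_small one_pos).and
      (eventually_all.2 fun i => b0a_small (dist_pos.2 (hy i)))).exists
    refine ⟨C / m, t₀, ht₀, fun τ hτ hτ' σ hσ hστ => ?_⟩
    have hμ : 0 < min τ 1 := by positivity
    have h1 : m * min τ 1 ≤ τ := by nlinarith [min_le_left τ 1]
    have h2 : m * min τ 1 ≤ m := by nlinarith [min_le_right τ 1]
    filter_upwards [hC τ hτ hτ' σ hσ hστ _ (mul_pos hm hμ) h1] with k hk p hp hp' α β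
    refine ⟨?_, fun ⟨i, hi⟩ => absurd hi.symm (hy i)⟩
    have h3 := (hk p hp hp' α β).2 fun i => by linarith [(hmx i).2]
    have ha := h.appr.pos k
    rw [le_div_iff₀ hm, hN, mul_pow, inv_pow, mul_assoc, mul_assoc, inv_mul_le_iff₀ (by positivity)]
    linarith
  · refine ⟨C, t₀, ht₀, fun τ hτ hτ' σ hσ hστ => ?_⟩
    filter_upwards [hC τ hτ hτ' σ hσ hστ τ hτ le_rfl] with k hk p hp hp' α β
    have ha := h.appr.pos k
    have h3 : (N k * g k (u k, α) (p, β)) ^ 2 * σ ≤ C := by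
      rw [hN, mul_pow, inv_pow, Real.sq_sqrt ha.le, mul_assoc, inv_mul_le_iff₀ ha]
      linarith [(hk p hp hp' α β).1]
    refine ⟨le_trans ?_ h3, fun _ => h3⟩
    exact mul_le_mul_of_nonneg_left (mul_le_of_le_one_right hσ.le (min_le_right _ _)) (sq_nonneg _)

/-- **macroscopic kernel bound** in the whole plane. `ker_bound` with `l = ⌊c t / a⌋`, `c` small: `l ≤ supd + 1`, `dB S l p ≥ c' t / a` (`le_dB`),
`dB S l u ≥ c'' t / a` for a bulk source (`t ≤ t₀ ≤ dist (y, range x)` if `D` is bounded; in the plane with `t` large `dB S l u ≥ c''/a`), `≥ 1` always.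
`t₀` comes from `Appr.rho`; in the plane `Appr.rho'` allows every `t`. Constants: `N² g² ≤ C / t²` resp. `C / t`; both are `≤ C / (t * min t 1)`. -/
theorem row_bound (h : Ctx D x a E ρ v g) (hu : PtLim a u y) (hN : NOK x y a N) : ∃ C : ℝ, ∃ t₀ > 0, ∀ t > 0,
    (t ≤ t₀ ∨ D = Set.univ) → ∀ᶠ k in atTop, ∀ p, t ≤ dist ((a k : ℂ) * toC p) y → (∀ i, t ≤ dist ((a k : ℂ) * toC p) (x i)) →
      ∀ α β, (N k * g k (u k, α) (p, β)) ^ 2 * (t * min t 1) ≤ C := by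
  obtain ⟨C, t₀, ht₀, hC⟩ := b0a_gen h hu hN
  exact ⟨C, t₀, ht₀, fun t ht ht' => (hC t ht ht' t ht le_rfl).mono fun k hk p hp hp' α β => (hk p hp hp' α β).1⟩

/-- near a branch point the bound is `C / dist`: for `x i ≠ y` use `l = ⌊c t₀ / a⌋` and `dB S l p ≥ c t / a`; for `x i = y` (then `N = 1/√a`) `l = ⌊c t / a⌋` -/
theorem row_bound_br (h : Ctx D x a E ρ v g) (hu : PtLim a u y) (hN : NOK x y a N) (i : Fin n) : ∃ C : ℝ, ∃ t₀ > 0,
    ∀ t > 0, ∀ᶠ k in atTop, ∀ p, t ≤ dist ((a k : ℂ) * toC p) (x i) → dist ((a k : ℂ) * toC p) (x i) ≤ t₀ →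
      ∀ α β, (N k * g k (u k, α) (p, β)) ^ 2 * t ≤ C := by
  obtain ⟨C, t₀, ht₀, hC⟩ := b0a_gen h hu hN
  have hfar : ∀ w : ℂ, ∀ᶠ t in 𝓝[>] (0 : ℝ), x i ≠ w → 2 * t ≤ dist (x i) w := fun w => by
    by_cases hw : x i = w
    · exact Eventually.of_forall fun _ h => absurd hw h
    · exact (b0a_small (dist_pos.2 hw)).mono fun _ h _ => h.2
  obtain ⟨t₁, ⟨⟨h1, h2⟩, -, h3⟩, h4, h5⟩ := (((b0a_small ht₀).and (b0a_small one_pos)).and
    ((hfar y).and (eventually_all.2 fun j => hfar (x j)))).exists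
  have key : ∀ {z w : ℂ}, dist z (x i) ≤ t₁ → 2 * t₁ ≤ dist (x i) w → t₁ ≤ dist z w := fun {z w} hz hw => by
    have := dist_triangle_left (x i) w z
    linarith
  refine ⟨max C (C / t₁), t₁, h1, fun t ht => ?_⟩
  by_cases htt : t ≤ t₁
  swap
  · exact Eventually.of_forall fun k p hp hp' => absurd (hp.trans hp') htt
  have hx : ∀ z : ℂ, t ≤ dist z (x i) → dist z (x i) ≤ t₁ → ∀ j, t ≤ dist z (x j) := fun z hz hz' j => by
    by_cases hj : x i = x j
    · rwa [← hj]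
    · exact htt.trans (key hz' (h5 j hj))
  by_cases hy : x i = y
  · filter_upwards [hC t ht (Or.inl (by linarith)) t ht le_rfl] with k hk p hp hp' α β
    exact ((hk p (hy ▸ hp) (hx _ hp hp') α β).2 ⟨i, hy⟩).trans (le_max_left _ _)
  · filter_upwards [hC t₁ h1 (Or.inl (by linarith)) t ht htt] with k hk p hp hp' α β
    have h6 := (hk p (key hp' (h4 hy)) (hx _ hp hp') α β).1
    rw [min_eq_left (by linarith), ← mul_assoc, ← le_div_iff₀ h1] at h6
    exact h6.trans (le_max_right _ _)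

theorem b0a_K (h : Ctx D x a E ρ v g) (hu : PtLim a u y) (hN : NOK x y a N) {K : Set ℂ} (hK : IsCompact K)
    (hKU : K ⊆ D \ (Set.range x ∪ {y})) : ∃ C : ℝ, ∀ᶠ k in atTop, Crit ↑(E k) {p | (a k : ℂ) * toC p ∈ K} ∧
      ∀ p, (a k : ℂ) * toC p ∈ K → p ≠ u k ∧ ∀ α β, |N k * g k (u k, α) (p, β)| ≤ C := by
  obtain ⟨C, t₀, ht₀, hC⟩ := row_bound h hu hN
  obtain ⟨t, ⟨h1, h2⟩, h3, h4⟩ := ((b0a_small ht₀).and
    ((b0a_far hK.isClosed (w := y) fun hw => (hKU hw).2 (Or.inr rfl)).and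
      (eventually_all.2 fun i => b0a_far hK.isClosed (w := x i) fun hw => (hKU hw).2 (Or.inl ⟨i, rfl⟩)))).exists
  refine ⟨Real.sqrt (C / (t * min t 1)), ?_⟩
  filter_upwards [hC t h1 (Or.inl (by linarith)), appr_crit (NiceP.isOpen' h.nice) h.appr hK fun z hz => (hKU hz).1,
    b0a_near hu (half_pos h1)] with k hk hc hn
  refine ⟨hc, fun p hp => ⟨?_, fun α β => Real.abs_le_sqrt ?_⟩⟩
  · rintro rfl
    linarith [h3 _ hp]
  · rw [le_div_iff₀ (by positivity)]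
    exact hk p (h3 _ hp) (fun i => h4 i _ hp) α β

theorem b0a_smul {w : Edge → ℝ} {W : Set Site} {s : Fn} (h : SolOn w W s) (c : ℝ) : SolOn w W (c • s) := by
  simpa using h.comb h c 0

theorem row_bulkSeq (h : Ctx D x a E ρ v g) (hu : PtLim a u y) (hN : NOK x y a N) (α : Fin 4) :
    BulkSeq (D \ (Set.range x ∪ {y})) a v (fun k => ↑(E k)) fun k => N k • g k (u k, α) := by
  intro K hK hKU
  obtain ⟨C, hC⟩ := b0a_K h hu hN hK hKU
  refine ⟨C, hC.mono fun k hk => ⟨hk.1, b0a_smul (fun p hp β => ?_) _, fun p hp β => (hk.2 p hp).2 α β⟩⟩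
  rw [(h.ker k).1.2, if_neg fun e => (hk.2 p hp).1 (congrArg Prod.fst e)]

theorem kC_bulkSeq (h : Ctx D x a E ρ v g) (hu : PtLim a u y) (hN : NOK x y a N) (α : Fin 4) :
    BulkSeq (D \ (Set.range x ∪ {y})) a v (fun k => ↑(E k)) fun k => N k • kC (g k) (u k) α := by
  intro K hK hKU
  obtain ⟨C, hC⟩ := b0a_K h hu hN hK hKU
  refine ⟨2 * C, hC.mono fun k hk => ⟨hk.1, b0a_smul (fun p hp β => ?_) _, fun p hp β => ?_⟩⟩
  · rw [opA_kC (h.ker k).1, if_neg (hk.2 p hp).1]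
  · have h1 : ∀ γ, |N k * (vC α γ * g k (u k, γ) (p, β))| ≤ 1 / 2 * C := fun γ => by
      have h2 : |vC α γ| = 1 / 2 := by
        unfold vC
        split_ifs <;> norm_num [abs_of_neg]
      rw [mul_left_comm, abs_mul, h2]
      exact mul_le_mul_of_nonneg_left ((hk.2 p hp).2 γ β) (by norm_num)
    show |N k * ∑ γ, vC α γ * g k (u k, γ) (p, β)| ≤ 2 * C
    rw [Finset.mul_sum]
    refine (Finset.abs_sum_le_sum_abs _ _).trans ((Finset.sum_le_sum fun γ _ => h1 γ).trans (le_of_eq ?_))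
    simp
    ring

/-! ### task B0b -/

/-- the sites at macroscopic distance `≥ t` from `Y` -/
def b0b_far (Y : Set ℂ) (a t : ℝ) : Set Site := {p | ∀ z ∈ Y, t ≤ dist ((a : ℂ) * toC p) z}

theorem b0b_dist {a : ℝ} (ha : 0 < a) (p q : Site) :
    a * supd p q ≤ dist ((a : ℂ) * toC p) ((a : ℂ) * toC q) ∧
      dist ((a : ℂ) * toC p) ((a : ℂ) * toC q) ≤ 3 / 2 * (a * supd p q) := by
  rw [dist_eq_norm, ← mul_sub, norm_mul, Complex.norm_real, Real.norm_of_nonneg ha.le]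
  exact ⟨mul_le_mul_of_nonneg_left (supd_le_dist p q) ha.le, by
    nlinarith [mul_le_mul_of_nonneg_left (dist_le_supd p q) ha.le]⟩

theorem b0b_sb (h : Ctx D x a E ρ v g) (hu : PtLim a u y) (hN : NOK x y a N) (α : Fin 4) {t : ℝ} (ht : 0 < t) :
    ∃ M : ℝ, ∀ᶠ k in atTop, SB (b0b_far (Set.range x ∪ {y}) (a k) t) M (N k • kC (g k) (u k) α) ∧
      b0b_far (Set.range x ∪ {y}) (a k) t ⊆ {p | p ≠ u k} := by
  obtain ⟨C, t₀, ht₀, hC⟩ := row_bound h hu hN
  have hm : 0 < min t t₀ := lt_min ht ht₀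
  have hm' : 0 < min t t₀ * min (min t t₀) 1 := mul_pos hm (lt_min hm one_pos)
  refine ⟨2 * Real.sqrt (C / (min t t₀ * min (min t t₀) 1)), ?_⟩
  filter_upwards [hC _ hm (Or.inl (min_le_right _ _)), Metric.tendsto_nhds.1 hu t ht] with k hk hk'
  refine ⟨fun p hp β => ?_, fun p hp e => ?_⟩
  · have h1 : ∀ γ, |N k * g k (u k, γ) (p, β)| ≤ Real.sqrt (C / (min t t₀ * min (min t t₀) 1)) := fun γ =>
      Real.abs_le_sqrt ((le_div_iff₀ hm').2 (hk p ((min_le_left _ _).trans (hp y (Or.inr rfl)))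
        (fun i => (min_le_left _ _).trans (hp _ (Or.inl ⟨i, rfl⟩))) γ β))
    have h2 : ∀ γ, |vC α γ * (N k * g k (u k, γ) (p, β))| ≤
        1 / 2 * Real.sqrt (C / (min t t₀ * min (min t t₀) 1)) := fun γ => by
      rw [abs_mul]
      refine mul_le_mul ?_ (h1 γ) (abs_nonneg _) (by norm_num)
      unfold vC
      split_ifs <;> norm_num [abs_le]
    have e : (N k • kC (g k) (u k) α) (p, β) = ∑ γ, vC α γ * (N k * g k (u k, γ) (p, β)) := by
      simp only [kC, Pi.smul_apply, smul_eq_mul, Finset.mul_sum]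
      exact Finset.sum_congr rfl fun γ _ => by ring
    rw [e]
    refine (Finset.abs_sum_le_sum_abs _ _).trans ((Finset.sum_le_sum fun γ _ => h2 γ).trans_eq ?_)
    simp only [Finset.sum_const, Finset.card_univ, Fintype.card_fin, nsmul_eq_mul, Nat.cast_ofNat]
    ring
  · subst e
    exact (hp y (Or.inr rfl)).not_gt hk'

theorem b0b_H {E : Finset Edge} {ρ : ℝ} (hE : Reg ↑E ρ) (S : Finset Site) {g : HE → HE → ℝ} (hg : IsKer (wOf ↑E S) g)
    (z : Site) (α : Fin 4) (c : ℝ) :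
    ∃ Hw Hb, IsH (wOf ↑E S) (c • kC g z α) Set.univ Hw Hb ∧ ∀ b, FrozenB ↑E b → Hb b = 0 := by
  obtain ⟨-, Hw, Hb, hH⟩ := exists_H_kC hg z α
  obtain ⟨e₀, he₀⟩ := Infinite.exists_notMem_finset E
  have hb₀ : FrozenB (↑E) (edgeB0 e₀) := ⟨e₀, he₀, Or.inl rfl⟩
  refine ⟨fun p => c ^ 2 * (Hw p - Hb (edgeB0 e₀)), fun p => c ^ 2 * (Hb p - Hb (edgeB0 e₀)), fun p hp β => ?_,
    fun b hb => ?_⟩
  · rw [DU.cP_smul, mul_pow, ← hH p hp β]
    ring
  · simp only [B3.hb_chain hH (W' := Set.univ) (fun b _ => ⟨trivial, B3.cc_kC hg z α _⟩) (hE.glob _ _ hb hb₀),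
      sub_self, mul_zero]

theorem b0b_step {E : Set Edge} {S : Finset Site} {g : HE → HE → ℝ} (hg : IsKer (wOf E S) g) {z : Site} {α : Fin 4}
    {c M : ℝ} {Hw Hb : Site → ℝ} (hH : IsH (wOf E S) (c • kC g z α) Set.univ Hw Hb) {W : Set Site}
    (hM : SB W M (c • kC g z α)) (hW : W ⊆ {p | p ≠ z}) {p : Site} {j : Fin 2} (hp : p ∈ W) (hp' : p + uv j ∈ W) :
    |Hw (p + uv j) - Hw p| ≤ M ^ 2 :=
  IsH.step_le (W := {p | p ≠ z}) (fun q _ => hH q trivial) (DU.SolOn.smul (B3.kC_sol hg z α) c) hW hM hp hp'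

theorem b0b_loc (h : Ctx D x a E ρ v g) (hu : PtLim a u y) (hN : NOK x y a N) (α : Fin 4) {Hw Hb : ℕ → Site → ℝ}
    (hH : ∀ k, IsH (wOf ↑(E k) (spinsOf (v k))) (N k • kC (g k) (u k) α) Set.univ (Hw k) (Hb k))
    {z₀ : ℂ} (hz₀ : z₀ ∈ (Set.range x ∪ {y})ᶜ) {C₀ : ℝ} (h0 : ∀ᶠ k in atTop, |a k * Hw k (meshIndex (a k) z₀)| ≤ C₀) :
    ∀ K, IsCompact K → K ⊆ (Set.range x ∪ {y})ᶜ → ∃ C : ℝ, ∀ᶠ k in atTop, ∀ p, (a k : ℂ) * toC p ∈ K →
      |a k * Hw k p| ≤ C := by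
  have hY : (Set.range x ∪ {y}).Finite := (Set.finite_range x).union (Set.finite_singleton y)
  have hc := NiceP.preconnected_diff (D := Set.univ) (n := 0) (Or.inr ⟨rfl, Even.zero⟩) _ hY
  rw [← Set.compl_eq_univ_sdiff] at hc
  refine loc_bdd hc.1 hc.2 h.appr.pos h.appr.lim (fun k p => a k * Hw k p) (fun z hz => ?_) hz₀
    (ptLim_mesh h.appr.pos h.appr.lim z₀) h0
  obtain ⟨r, hr, hb⟩ := Metric.isOpen_iff.1 hc.1 z hz
  obtain ⟨M, hM⟩ := b0b_sb h hu hN α (t := r / 4) (by positivity)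
  refine ⟨M ^ 2, r / 4, by positivity, ?_⟩
  filter_upwards [hM, h.appr.lim.eventually (gt_mem_nhds (show 0 < r / 4 by positivity))] with k hk hk' p j hp
  have hf : ∀ q : Site, dist ((a k : ℂ) * toC q) z < 3 / 4 * r → q ∈ b0b_far (Set.range x ∪ {y}) (a k) (r / 4) :=
    fun q hq w hw => by
      have h1 : r ≤ dist w z := not_lt.1 fun h' => hb h' hw
      linarith [dist_triangle_left w z ((a k : ℂ) * toC q)]
  have h1 := (b0b_dist (h.appr.pos k) (p + uv j) p).2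
  rw [B3.supd_uv, Nat.cast_one, mul_one] at h1
  have h2 := b0b_step (h.ker k).1 (hH k) hk.1 hk.2 (hf p (by linarith))
    (hf (p + uv j) (by linarith [dist_triangle ((a k : ℂ) * toC (p + uv j)) ((a k : ℂ) * toC p) z]))
  rw [← mul_sub, abs_mul, abs_of_pos (h.appr.pos k), mul_comm]
  exact mul_le_mul_of_nonneg_right h2 (h.appr.pos k).le

theorem b0b_bdry (h : Ctx D x a E ρ v g) (hy : y ∈ D) (hu : PtLim a u y) (hN : NOK x y a N) (α : Fin 4) (hD : Nice D)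
    {Hw Hb : ℕ → Site → ℝ}
    (hH : ∀ k, IsH (wOf ↑(E k) (spinsOf (v k))) (N k • kC (g k) (u k) α) Set.univ (Hw k) (Hb k))
    (h0 : ∀ k b, FrozenB ↑(E k) b → Hb k b = 0) :
    ∃ C : ℝ, ∃ δ > 0, (∀ ε > 0, ∀ᶠ k in atTop, ∀ p, infDist ((a k : ℂ) * toC p) Dᶜ < δ →
      |a k * Hw k p| ≤ C * (infDist ((a k : ℂ) * toC p) Dᶜ + ε)) ∧
      ∀ᶠ k in atTop, ∀ p, infDist ((a k : ℂ) * toC p) Dᶜ < δ → ¬ Crit ↑(E k) {p} → |Hw k p| ≤ C := by
  have hY : (Set.range x ∪ {y}).Finite := (Set.finite_range x).union (Set.finite_singleton y)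
  have hYD : Set.range x ∪ {y} ⊆ D := by
    rintro z (⟨i, rfl⟩ | rfl)
    exacts [h.mem i, hy]
  have hne : (Dᶜ).Nonempty := Set.nonempty_compl.2 fun e =>
    NormedSpace.unbounded_univ ℝ ℂ (e ▸ hD.bdd)
  obtain ⟨r, hr, hb⟩ := hY.isCompact.exists_thickening_subset_open hD.isOpen hYD
  obtain ⟨δ, hδ, rfl⟩ : ∃ δ > 0, r = 10 * δ := ⟨r / 10, by positivity, by ring⟩
  obtain ⟨M, hM⟩ := b0b_sb h hu hN α hδ
  have hf : ∀ k (q : Site) ζ, ζ ∉ D → dist ((a k : ℂ) * toC q) ζ ≤ 9 * δ → q ∈ b0b_far (Set.range x ∪ {y}) (a k) δ :=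
    fun k q ζ hζ hq w hw => by
      have h1 : 10 * δ ≤ dist ζ w := not_lt.1 fun h' => hζ (hb (mem_thickening_iff.2 ⟨w, hw, h'⟩))
      linarith [dist_triangle_left ζ w ((a k : ℂ) * toC q)]
  have hcor : ∀ᶠ k in atTop, ∀ (q : Site) ζ β, ζ ∉ D → dist ((a k : ℂ) * toC q) ζ ≤ δ → FrozenB ↑(E k) (cB q β) →
      |Hw k q| ≤ 4 * M ^ 2 := by
    filter_upwards [hM, h.appr.lim.eventually (gt_mem_nhds hδ)] with k hk hk' q ζ β hζ hq hfr
    have h1 := (hH k).corner_le (x := q) (M := M) trivial (fun q' hq' => hk.1 q' (hf k q' ζ hζ ?_)) β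
    · rwa [h0 k _ hfr, sub_zero] at h1
    have h2 := (b0b_dist (h.appr.pos k) q' q).2
    have h3 : (supd q' q : ℝ) ≤ 1 := by exact_mod_cast mem_box_iff.1 hq'
    have h4 := mul_le_mul_of_nonneg_left h3 (h.appr.pos k).le
    linarith [dist_triangle ((a k : ℂ) * toC q') ((a k : ℂ) * toC q) ζ]
  refine ⟨8 * M ^ 2, δ, hδ, fun ε hε => ?_, ?_⟩
  · have hm : 0 < min ε δ := lt_min hε hδ
    filter_upwards [hM, hcor, frozen_near hD h.appr hm, h.appr.lim.eventually (gt_mem_nhds hε)]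
      with k hk hk1 hk2 hk3 p hp
    obtain ⟨ζ, hζ, h1⟩ := (infDist_lt_iff hne).1
      (lt_add_of_pos_right (infDist ((a k : ℂ) * toC p) Dᶜ) hm)
    obtain ⟨b, hb1, hb2⟩ := hk2 ζ hζ
    have hm1 := min_le_left ε δ
    have hm2 := min_le_right ε δ
    have h2 := hk1 b ζ 2 hζ (by linarith) (by rwa [B3.cB_two])
    have h3 := (b0b_dist (h.appr.pos k) p b).1
    have h4 := dist_triangle_right ((a k : ℂ) * toC p) ((a k : ℂ) * toC b) ζ
    have hin : ∀ q ∈ box p (supd p b), q ∈ b0b_far (Set.range x ∪ {y}) (a k) δ := fun q hq => by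
      refine hf k q ζ hζ ?_
      have h5 := (b0b_dist (h.appr.pos k) q p).2
      have h6 : (supd q p : ℝ) ≤ supd p b := by exact_mod_cast mem_box_iff.1 hq
      have h7 := mul_le_mul_of_nonneg_left h6 (h.appr.pos k).le
      linarith [dist_triangle ((a k : ℂ) * toC q) ((a k : ℂ) * toC p) ζ]
    have h5 := osc_box (Hw k) p (supd p b) (sq_nonneg M)
      (fun q hq j hj => b0b_step (h.ker k).1 (hH k) hk.1 hk.2 (hin q hq) (hin _ hj)) (self_mem_box p _)
      (mem_box_iff.2 (supd_comm b p).le)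
    have h6 : |Hw k p| ≤ 4 * M ^ 2 + M ^ 2 * (2 * supd p b) := by
      have := abs_sub_abs_le_abs_sub (Hw k p) (Hw k b)
      rw [Real.norm_eq_abs] at h5
      linarith
    have h7 := infDist_nonneg (x := (a k : ℂ) * toC p) (s := Dᶜ)
    rw [abs_mul, abs_of_pos (h.appr.pos k)]
    have h8 : a k * supd p b ≤ infDist ((a k : ℂ) * toC p) Dᶜ + 2 * ε := by linarith
    calc a k * |Hw k p| ≤ a k * (4 * M ^ 2 + M ^ 2 * (2 * supd p b)) :=
          mul_le_mul_of_nonneg_left h6 (h.appr.pos k).le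
      _ = M ^ 2 * (4 * a k + 2 * (a k * supd p b)) := by ring
      _ ≤ M ^ 2 * (8 * (infDist ((a k : ℂ) * toC p) Dᶜ + ε)) :=
          mul_le_mul_of_nonneg_left (by linarith) (sq_nonneg M)
      _ = _ := by ring
  · filter_upwards [hcor] with k hk p hp hc
    obtain ⟨ζ, hζ, h1⟩ := (infDist_lt_iff hne).1 hp
    obtain ⟨β, hβ⟩ : ∃ β, edgeOf p β ∉ (↑(E k) : Set Edge) := by
      by_contra hn
      push Not at hn
      exact hc fun q hq β => by rw [Set.mem_singleton_iff.1 hq]; exact hn β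
    linarith [hk p ζ β hζ h1.le (B3.frozen_cB hβ), sq_nonneg M]

/-- **the function `H` of a corner-source solution.** `exists_H_kC`, scaled by `N²`. Bounded `D`: `Hb` is constant on frozen sites (`IsH.black`, `Reg.glob`; the
kernel row solves the equation away from `u k`, and `IsH.black_eq`/`cP` at the source site is not on a frozen edge for large `k`), subtract the constant.
Plane: subtract `Hw` at a base point. `a Hw` has steps `≤ C a` off the singular points (`IsH.step_le`, `row_bound`), is bounded at a base point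
(a far frozen site, `IsH.corner_le`), so `loc_bdd` on `(range x ∪ {y})ᶜ` (`NiceP.preconnected_diff` with `univ`). Linear bound at `∂D`: `osc_box` from `p` to a
white neighbour of the frozen site given by `frozen_near`. -/
theorem exists_H_seq (h : Ctx D x a E ρ v g) (hy : y ∈ D) (hu : PtLim a u y) (hN : NOK x y a N) (α : Fin 4) :
    ∃ Hw Hb : ℕ → Site → ℝ, (∀ k, IsH (wOf ↑(E k) (spinsOf (v k))) (N k • kC (g k) (u k) α) Set.univ (Hw k) (Hb k)) ∧
      (∀ K, IsCompact K → K ⊆ (Set.range x ∪ {y})ᶜ → ∃ C : ℝ, ∀ᶠ k in atTop, ∀ p, (a k : ℂ) * toC p ∈ K → |a k * Hw k p| ≤ C) ∧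
      (Nice D → ∃ C : ℝ, ∃ δ > 0, (∀ ε > 0, ∀ᶠ k in atTop, ∀ p, infDist ((a k : ℂ) * toC p) Dᶜ < δ →
        |a k * Hw k p| ≤ C * (infDist ((a k : ℂ) * toC p) Dᶜ + ε)) ∧
        ∀ᶠ k in atTop, ∀ p, infDist ((a k : ℂ) * toC p) Dᶜ < δ → ¬ Crit ↑(E k) {p} → |Hw k p| ≤ C) := by
  choose Hw Hb hH h0 using fun k => b0b_H (h.appr.reg k) (spinsOf (v k)) (h.ker k).1 (u k) α (N k)
  by_cases hD : Nice D
  · have hb := b0b_bdry h hy hu hN α hD hH h0
    refine ⟨Hw, Hb, hH, ?_, fun _ => hb⟩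
    obtain ⟨C, δ, hδ, hC, -⟩ := hb
    obtain ⟨z₀, hz₀⟩ : (Dᶜ).Nonempty := Set.nonempty_compl.2 fun e =>
      NormedSpace.unbounded_univ ℝ ℂ (e ▸ hD.bdd)
    refine b0b_loc h hu hN α hH (z₀ := z₀) ?_ (C₀ := |C| * (δ + 1)) ?_
    · rintro (⟨i, rfl⟩ | rfl)
      exacts [hz₀ (h.mem i), hz₀ hy]
    · filter_upwards [hC 1 one_pos, Metric.tendsto_nhds.1 (ptLim_mesh h.appr.pos h.appr.lim z₀) δ hδ] with k hk hk'
      have h1 := (infDist_le_dist_of_mem hz₀).trans_lt hk'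
      have h2 := infDist_nonneg (x := (a k : ℂ) * toC (meshIndex (a k) z₀)) (s := Dᶜ)
      exact (hk _ h1).trans (mul_le_mul (le_abs_self C) (by linarith) (by linarith) (abs_nonneg C))
  · obtain ⟨z₀, hz₀⟩ := ((Set.finite_range x).union (Set.finite_singleton y)).infinite_compl.nonempty
    have hH' := fun k => B3.IsH.sub_const (hH k) (Hw k (meshIndex (a k) z₀))
    exact ⟨_, _, hH', b0b_loc h hu hN α hH' hz₀ (C₀ := 0) (.of_forall fun k => by simp), fun h' => absurd h' hD⟩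

/-! ### task B0c -/

/-- **distributional subharmonicity of the zero extension.** `0 ≤ Σ_p η(a p) lapN Hw p` (`lapN_ge`) `= Σ_p Hw p · lapN η_a p` (symmetry of the graph Laplacian);
`F k p = a Hw p · a⁻² lapN η_a p` is bounded (critical sites: Taylor, `|lap η_a| ≤ C a²`; other sites: `|Hw| ≤ C`, `|lapN η_a| ≤ C a`), tends to
`c · h Δη` on `D` (`ptLim_mesh`, `appr_crit`), vanishes eventually off `closure D` (`Appr.out`); `frontier_null`, `riemann2`. -/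
theorem subharm_lim (hD : Nice D) (hE : Appr D a E ρ) (S : ℕ → Finset Site) (s : ℕ → Fn) (Hw Hb : ℕ → Site → ℝ)
    {ζ : ℂ} {r C : ℝ} (hr : 0 < r)
    (hs : ∀ᶠ k in atTop, IsH (wOf ↑(E k) (S k)) (s k) Set.univ (Hw k) (Hb k) ∧
      SolOn (wOf ↑(E k) (S k)) {p | dist ((a k : ℂ) * toC p) ζ < 2 * r} (s k) ∧
      ∀ p, dist ((a k : ℂ) * toC p) ζ < 2 * r → |a k * Hw k p| ≤ C ∧ (¬ Crit ↑(E k) {p} → |Hw k p| ≤ C))
    {h : ℂ → ℝ} (hh : CLim a (D ∩ ball ζ r) (fun k => hF (a k) (Hw k)) h)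
    (η : ℂ → ℝ) (hη : ContDiff ℝ (⊤ : ℕ∞) η) (hsupp : tsupport η ⊆ ball ζ r) (hc : HasCompactSupport η) (h0 : ∀ z, 0 ≤ η z) :
    0 ≤ ∫ z in D, h z * Laplacian.laplacian η z :=
  b0c_main hD hE S s Hw Hb hr hs hh η hη hsupp hc h0

/-! ### task B0d -/

theorem b0d_dist {t : ℝ} (ht : 0 < t) (p q : Site) :
    dist ((t : ℂ) * toC p) ((t : ℂ) * toC q) = t * dist (toC p) (toC q) := by
  rw [dist_eq_norm, dist_eq_norm, ← mul_sub, norm_mul, Complex.norm_real, Real.norm_eq_abs, abs_of_pos ht]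

theorem b0d_in {t R : ℝ} (ht : 0 < t) (hR : 0 < R) {c p : Site} {z : ℂ} (hc : dist ((t : ℂ) * toC c) z < R)
    (hp : p ∈ box c ⌊3 * R / t⌋₊) : dist ((t : ℂ) * toC p) z < 8 * R := by
  have h1 : (supd p c : ℝ) ≤ 3 * R / t :=
    (Nat.cast_le.2 (B3.mem_box.1 hp)).trans (Nat.floor_le (by positivity))
  rw [le_div_iff₀ ht] at h1
  have h2 := mul_le_mul_of_nonneg_left (B3.dist_toC_le p c) ht.le
  have h3 := dist_triangle ((t : ℂ) * toC p) ((t : ℂ) * toC c) z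
  rw [b0d_dist ht] at h3
  nlinarith

theorem b0d_out {t R : ℝ} (ht : 0 < t) {c p : Site} {z : ℂ} (hc : dist ((t : ℂ) * toC c) z < R)
    (hp : dist ((t : ℂ) * toC p) z < 2 * R) : p ∈ box c ⌊3 * R / t⌋₊ := by
  refine B3.mem_box.2 (Nat.le_floor ?_)
  rw [le_div_iff₀ ht]
  have h2 := mul_le_mul_of_nonneg_left (B3.supd_le_dist p c) ht.le
  have h3 := dist_triangle_right ((t : ℂ) * toC p) ((t : ℂ) * toC c) z
  rw [b0d_dist ht] at h3
  linarith

theorem b0d_floor {t R : ℝ} (ht : 0 < t) (hR : t < R) : ⌊R / t⌋₊ + 1 ≤ ⌊3 * R / t⌋₊ := by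
  refine Nat.le_floor ?_
  have h1 : (⌊R / t⌋₊ : ℝ) ≤ R / t := Nat.floor_le (div_nonneg (ht.le.trans hR.le) ht.le)
  have h2 : 1 ≤ R / t := (one_le_div ht).2 hR.le
  have h3 : 3 * R / t = 3 * (R / t) := by ring
  push_cast
  linarith

/-- **branch condition**: `clim_fld_mul`, `Ψ z = (z - x i) G² / Π_{k ≠ i} (z - x k)`, `deriv Ψ (x i) = cSq x G i`; `bform_lim` + `green_box` give
`Im = 0`; `flux_lim` + `lapN_ge` (`lapN = lap` on critical sites, `exists_H_box`) give `Re ≤ 0`. -/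
theorem brOK_lim (ha : ∀ k, 0 < a k) (ha0 : Tendsto a atTop (𝓝 0)) (hi : Function.Injective x)
    (hx : ∀ i, PtLim a (fun k => v k i) (x i)) (i : Fin n) {δ : ℝ} (hδ : 0 < δ) (hδx : ∀ k, k ≠ i → x k ∉ ball (x i) δ)
    (E : ℕ → Set Edge) (s : ℕ → Fn)
    (hsol : ∀ᶠ k in atTop, Crit (E k) {p | dist ((a k : ℂ) * toC p) (x i) < δ} ∧
      SolOn (wOf (E k) (spinsOf (v k))) {p | dist ((a k : ℂ) * toC p) (x i) < δ} (s k))
    (hb : BulkSeq (ball (x i) δ \ {x i}) a v E s) {G : ℂ → ℂ} (hG : DifferentiableOn ℂ G (ball (x i) δ))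
    (hl : CLim a (ball (x i) δ \ {x i}) (fun k => gF (a k) (v k) (s k)) G) : BrOK x G i := by
  obtain ⟨R, rfl⟩ : ∃ R, δ = 8 * R := ⟨δ / 8, by ring⟩
  have hR : 0 < R := by linarith
  have hsub : ball (x i) (2 * R) ⊆ ball (x i) (8 * R) := ball_subset_ball (by linarith)
  have hsub' : ball (x i) (2 * R) \ {x i} ⊆ ball (x i) (8 * R) \ {x i} := Set.sdiff_subset_sdiff_left hsub
  have hxU : ∀ k, x k ∉ ball (x i) (2 * R) \ {x i} := fun k hk => by
    by_cases hki : k = i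
    · exact hk.2 (by rw [hki]; rfl)
    · exact hδx k hki (hsub hk.1)
  have hv := eventually_inj hi hx
  have hb' : BulkSeq (ball (x i) (2 * R) \ {x i}) a v E s := fun K hK hKU => hb K hK (hKU.trans hsub')
  have hne : ∀ z ∈ ball (x i) (2 * R), ∏ k ∈ Finset.univ.erase i, (z - x k) ≠ 0 := fun z hz =>
    Finset.prod_ne_zero_iff.2 fun k hk => sub_ne_zero.2 fun h =>
      hδx k (Finset.ne_of_mem_erase hk) (h ▸ hsub hz)
  have hΦ : DifferentiableOn ℂ (fun z => G z ^ 2 / ∏ k ∈ Finset.univ.erase i, (z - x k)) (ball (x i) (2 * R)) :=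
    ((hG.mono hsub).pow 2).div (Differentiable.differentiableOn (by fun_prop)) hne
  have hΨ : DifferentiableOn ℂ (fun z => (z - x i) * (G z ^ 2 / ∏ k ∈ Finset.univ.erase i, (z - x k)))
      (ball (x i) (2 * R)) := (differentiableOn_id.sub_const _).mul hΦ
  have hd : deriv (fun z => (z - x i) * (G z ^ 2 / ∏ k ∈ Finset.univ.erase i, (z - x k))) (x i) = cSq x G i := by
    have h1 := (hΦ.differentiableAt (ball_mem_nhds _ (by linarith))).hasDerivAt
    have h2 := (((hasDerivAt_id (x i)).sub_const (x i)).mul h1).deriv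
    exact h2.trans (by simp [cSq])
  have hP : CLim a (ball (x i) (2 * R) \ {x i}) (fun k p => fld (s k) p * fld (s k) p)
      fun z => (z - x i) * (G z ^ 2 / ∏ k ∈ Finset.univ.erase i, (z - x k)) / (z - x i) ^ 2 := by
    intro z hz p hp
    have h1 := clim_fld_mul ha ha0 hv hx hxU (hl.mono hsub') (hl.mono hsub') z hz p hp
    have h2 : z - x i ≠ 0 := sub_ne_zero.2 hz.2
    have h3 := hne z hz.1
    have e : (z - x i) * (G z ^ 2 / ∏ k ∈ Finset.univ.erase i, (z - x k)) / (z - x i) ^ 2 = G z * G z / rhoX x z := by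
      rw [rhoX, ← Finset.mul_prod_erase _ _ (Finset.mem_univ i)]
      field_simp
    exact h1.trans (congrArg nhds e).ge
  have hH : ∀ k, ∃ Hw Hb, SolOn (wOf (E k) (spinsOf (v k))) (box (v k i) ⌊3 * R / a k⌋₊) (s k) →
      IsH (wOf (E k) (spinsOf (v k))) (s k) (box (v k i) ⌊3 * R / a k⌋₊) Hw Hb := fun k => by
    by_cases h : SolOn (wOf (E k) (spinsOf (v k))) (box (v k i) ⌊3 * R / a k⌋₊) (s k)
    · obtain ⟨Hw, Hb, hH⟩ := exists_H_box _ _ _ _ h
      exact ⟨Hw, Hb, fun _ => hH⟩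
    · exact ⟨0, 0, fun h' => absurd h' h⟩
  choose Hw Hb hH using hH
  have hev : ∀ᶠ k in atTop, dist ((a k : ℂ) * toC (v k i)) (x i) < R ∧ a k < R ∧
      Crit (E k) (box (v k i) ⌊3 * R / a k⌋₊) ∧ SolOn (wOf (E k) (spinsOf (v k))) (box (v k i) ⌊3 * R / a k⌋₊) (s k) := by
    filter_upwards [hsol, (Metric.tendsto_nhds.1 (hx i)) R hR, ha0.eventually (gt_mem_nhds hR)] with k h1 h2 h3
    exact ⟨h2, h3, fun p hp => h1.1 p (b0d_in (ha k) hR h2 hp), fun p hp => h1.2 p (b0d_in (ha k) hR h2 hp)⟩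
  have h1 := bform_lim ha ha0 hv hx (hx i) hR hxU hb' hb' hΨ hP
  have h2 := flux_lim ha ha0 hv hx (hx i) hR hxU hb' Hw (fun K _ hKU => hev.mono fun k hk =>
    ⟨Hb k, fun p hp => hH k hk.2.2.2 p (b0d_out (ha k) hk.1 (hKU hp).1)⟩) hΨ hP
  rw [hd] at h1 h2
  have hbox : ∀ k, a k < R → ∀ p ∈ box (v k i) ⌊R / a k⌋₊, box p 1 ⊆ box (v k i) ⌊3 * R / a k⌋₊ := fun k hk p hp =>
    B3.box_mono ((Nat.add_le_add_right (B3.mem_box.1 hp) 1).trans (b0d_floor (ha k) hk))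
  have ht := tc_pos
  constructor
  · have h3 : 2 * Real.pi * tc * (cSq x G i).im = 0 := by
      refine tendsto_nhds_unique h1 (tendsto_const_nhds.congr' (hev.mono fun k hk => ?_))
      dsimp only
      rw [green_box, Finset.sum_eq_zero, neg_zero, mul_zero]
      refine fun p hp => Finset.sum_eq_zero fun α _ => ?_
      rw [hk.2.2.2 p (hbox k hk.2.1 p hp (b1_self_mem_box p 1)) α, mul_zero, zero_mul, add_zero]
    exact (mul_eq_zero.1 h3).resolve_left (by have := Real.pi_pos; have := ht.1; positivity)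
  · have h4 : 0 < 1 - tc ^ 2 := by nlinarith [ht.1, ht.2]
    have h3 : 0 ≤ -(2 * Real.pi * (1 - tc ^ 2)) * (cSq x G i).re := by
      refine ge_of_tendsto h2 (hev.mono fun k hk => mul_nonneg (ha k).le (Finset.sum_nonneg fun p hp => ?_))
      have hs := hbox k hk.2.1 p hp
      rw [← B3.lapN_crit (hk.2.2.1 p (hs (b1_self_mem_box p 1)))]
      refine le_trans (mul_nonneg h4.le (Finset.sum_nonneg fun α _ => ?_))
        (lapN_ge (fun q hq => hH k hk.2.2.2 q (hs hq)) fun q hq => hk.2.2.2 q (hs hq)).1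
      split_ifs <;> positivity
    have h5 : 0 < 2 * Real.pi * (1 - tc ^ 2) := by have := Real.pi_pos; positivity
    nlinarith

/-! ### task B0e (owner) -/

theorem b0e_remove {D : Set ℂ} (hD : IsOpen D) {n : ℕ} {x : Fin n → ℂ} (hxD : ∀ i, x i ∈ D) {y : ℂ} {f : ℂ → ℂ}
    (hf : DifferentiableOn ℂ f (D \ (Set.range x ∪ {y}))) (hb : ∀ i, ∃ C : ℝ, ∀ᶠ z in 𝓝[≠] (x i), ‖f z‖ ≤ C) :
    ∃ G : ℂ → ℂ, (∀ z, z ∉ Set.range x → G z = f z) ∧ DifferentiableOn ℂ G (D \ ({y} \ Set.range x)) := by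
  have hfin : (Set.range x ∪ {y}).Finite := (Set.finite_range x).union (Set.finite_singleton y)
  have hU : IsOpen (D \ (Set.range x ∪ {y})) := hD.sdiff hfin.isClosed
  refine ⟨fun z => if z ∈ Set.range x then limUnder (𝓝[≠] z) f else f z, fun z hz => if_neg hz, fun z hz => ?_⟩
  refine DifferentiableAt.differentiableWithinAt ?_
  by_cases hzx : z ∈ Set.range x
  · obtain ⟨i, rfl⟩ := hzx
    obtain ⟨C, hC⟩ := hb i
    have h1 : ∀ᶠ w in 𝓝[≠] (x i), w ∈ D \ (Set.range x ∪ {y}) := by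
      have h2 : ((Set.range x ∪ {y}) \ {x i})ᶜ ∈ 𝓝 (x i) :=
        (hfin.subset Set.sdiff_subset).isClosed.isOpen_compl.mem_nhds (by simp)
      filter_upwards [nhdsWithin_le_nhds (hD.mem_nhds (hxD i)), nhdsWithin_le_nhds h2, self_mem_nhdsWithin] with w h1 h2 h3
      exact ⟨h1, fun h => h2 ⟨h, h3⟩⟩
    have hs : {w | w = x i ∨ (w ∈ D \ (Set.range x ∪ {y}) ∧ ‖f w‖ ≤ C)} ∈ 𝓝 (x i) := by
      have := eventually_nhdsWithin_iff.1 (h1.and hC)
      filter_upwards [this] with w hw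
      by_cases h : w = x i
      · exact Or.inl h
      · exact Or.inr (hw h)
    have hd := Complex.differentiableOn_update_limUnder_of_bddAbove hs (f := f)
      (hf.mono fun w hw => (hw.1.resolve_left hw.2).1) ⟨C, by
        rintro _ ⟨w, hw, rfl⟩
        exact (hw.1.resolve_left hw.2).2⟩
    refine (hd.differentiableAt hs).congr_of_eventuallyEq ?_
    filter_upwards [hs] with w hw
    rcases hw with rfl | hw
    · simp
    · have h1 : w ∉ Set.range x := fun h => hw.1.2 (Or.inl h)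
      rw [if_neg h1, Function.update_of_ne fun h => h1 ⟨i, h.symm⟩]
  · have hzU : z ∈ D \ (Set.range x ∪ {y}) := ⟨hz.1, fun h => h.elim hzx fun h => hz.2 ⟨h, hzx⟩⟩
    refine (hf.differentiableAt (hU.mem_nhds hzU)).congr_of_eventuallyEq ?_
    filter_upwards [hU.mem_nhds hzU] with w hw
    exact if_neg fun h => hw.2 (Or.inl h)

theorem b0e_fsq_le {U : Set ℂ} {α : Fin 4} {F : ℂ → ℂ}
    (hl : CLim a U (fun k p => fld (N k • kC (g k) (u k) α) p ^ 2) F) {z : ℂ} (hz : z ∈ U) {p : ℕ → Site} (hp : PtLim a p z)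
    {T C : ℝ} (hT : 0 < T) (hB : ∀ᶠ k in atTop, ∀ α' β, (N k * g k (u k, α') (p k, β)) ^ 2 * T ≤ C) : ‖F z‖ * T ≤ 16 * C := by
  rw [← le_div_iff₀ hT]
  refine le_of_tendsto (hl z hz p hp).norm ?_
  filter_upwards [hB] with k hk
  have h0 : 0 ≤ C / T := le_trans (sq_nonneg _) ((le_div_iff₀ hT).2 (hk 0 0))
  have h1 : ∀ α' β, |N k * g k (u k, α') (p k, β)| ≤ Real.sqrt (C / T) := fun α' β =>
    Real.abs_le_sqrt ((le_div_iff₀ hT).2 (hk α' β))
  have h2 : ∀ β, |(N k • kC (g k) (u k) α) (p k, β)| ≤ 2 * Real.sqrt (C / T) := fun β => by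
    have := DU.abs_kC_le (g := fun i j => N k * g k i j) (x := u k) (α := α) (j := (p k, β)) fun β' => h1 β' β
    convert this using 2
    simp only [kC, Pi.smul_apply, smul_eq_mul, Finset.mul_sum]
    exact Finset.sum_congr rfl fun _ _ => by ring
  have h3 := norm_fld_le h2
  rw [norm_pow]
  calc _ ≤ (2 * (2 * Real.sqrt (C / T))) ^ 2 := by gcongr
    _ = 16 * C / T := by rw [mul_pow, mul_pow, Real.sq_sqrt h0]; ring

theorem b0e_sol (h : Ctx D x a E ρ v g) (hu : PtLim a u y) (α : Fin 4) {ζ : ℂ} {r : ℝ} (hr : r < dist y ζ) :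
    ∀ᶠ k in atTop, SolOn (wOf ↑(E k) (spinsOf (v k))) {p | dist ((a k : ℂ) * toC p) ζ < r} (N k • kC (g k) (u k) α) := by
  have h1 : Tendsto (fun k => dist ((a k : ℂ) * toC (u k)) ζ) atTop (𝓝 (dist y ζ)) := Tendsto.dist hu tendsto_const_nhds
  filter_upwards [h1.eventually (lt_mem_nhds hr)] with k hk p hp β
  have hne : p ≠ u k := by
    rintro rfl
    exact absurd hp (not_lt.2 hk.le)
  rw [DU.opA_smul, DU.opA_kC (h.ker k).1, if_neg hne, mul_zero]

theorem b0e_sep {D : Set ℂ} (hD : IsOpen D) {Y : Set ℂ} (hY : Y.Finite) (hYD : Y ⊆ D) :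
    ∃ δ > 0, ∀ w ∈ Y, ∀ ζ, ζ ∉ D → δ ≤ dist w ζ := by
  obtain ⟨δ, hδ, h⟩ := hY.isCompact.exists_thickening_subset_open hD hYD
  refine ⟨δ, hδ, fun w hw ζ hζ => not_lt.1 fun hlt => hζ (h ?_)⟩
  exact Metric.mem_thickening_iff.2 ⟨w, hw, by rwa [dist_comm]⟩

/-- **limits of corner-source solutions** -/
theorem cb0 (h : Ctx D x a E ρ v g) (hy : y ∈ D) (hu : PtLim a u y) (hN : NOK x y a N) (α : Fin 4) :
    ∃ (ψ : ℕ → ℕ) (G : ℂ → ℂ), StrictMono ψ ∧ RH D x {y} G ∧ (∀ i, x i ≠ y → BrOK x G i) ∧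
      CLim (a ∘ ψ) (D \ (Set.range x ∪ {y})) (fun k => gF (a (ψ k)) (v (ψ k)) (N (ψ k) • kC (g (ψ k)) (u (ψ k)) α)) G ∧
      (y ∈ Set.range x → DifferentiableOn ℂ G D) := by
  have ha := h.appr.pos
  have ha0 := h.appr.lim
  have hD : IsOpen D := NiceP.isOpen' h.nice
  have hfin : (Set.range x ∪ {y}).Finite := (Set.finite_range x).union (Set.finite_singleton y)
  have hYD : Set.range x ∪ {y} ⊆ D := by
    rintro _ (⟨i, rfl⟩ | rfl)
    exacts [h.mem i, hy]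
  set U := D \ (Set.range x ∪ {y}) with hUdef
  have hU : IsOpen U := hD.sdiff hfin.isClosed
  have hxU : ∀ i, x i ∉ U := fun i hi => hi.2 (Or.inl ⟨i, rfl⟩)
  have hB := kC_bulkSeq h hu hN α
  obtain ⟨Hw, Hb, hH, hH1, hH2⟩ := exists_H_seq h hy hu hN α
  obtain ⟨ψ, f, hh, hψ, hf, l1, l2, -, l4, hd⟩ := lim_bulk1 hU ha ha0 (eventually_inj h.inj h.lim) h.lim hxU hB Hw Hb
    fun K hK hKU => by
      obtain ⟨C, hC⟩ := hH1 K hK fun z hz => (hKU hz).2
      exact ⟨C, hC.mono fun k hk => ⟨fun p _ β => hH k p trivial β, hk⟩⟩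
  have hT := hψ.tendsto_atTop
  have ha' : ∀ k, 0 < (a ∘ ψ) k := fun k => ha _
  have ha0' : Tendsto (a ∘ ψ) atTop (𝓝 0) := ha0.comp hT
  have h' := h.subseq hψ
  have hu' := hu.subseq hψ
  have hρ : ∀ z ∈ U, rhoX x z ≠ 0 := fun z hz =>
    Finset.prod_ne_zero_iff.2 fun i _ => sub_ne_zero.2 fun e => hz.2 (Or.inl ⟨i, e.symm⟩)
  have hff : ∀ z ∈ U, ‖f z‖ ^ 2 = ‖f z ^ 2 / rhoX x z‖ * ‖rhoX x z‖ := fun z hz => by
    rw [norm_div, norm_pow, div_mul_cancel₀ _ (norm_ne_zero_iff.2 (hρ z hz))]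
  have hnear : ∀ i, ∀ᶠ w in 𝓝[≠] (x i), w ∈ U := fun i => by
    have h2 : ((Set.range x ∪ {y}) \ {x i})ᶜ ∈ 𝓝 (x i) :=
      (hfin.subset Set.sdiff_subset).isClosed.isOpen_compl.mem_nhds (by simp)
    filter_upwards [nhdsWithin_le_nhds (hD.mem_nhds (h.mem i)), nhdsWithin_le_nhds h2, self_mem_nhdsWithin] with w h1 h2 h3
    exact ⟨h1, fun h => h2 ⟨h, h3⟩⟩
  -- bounded near the branch points
  have hbd : ∀ i, ∃ C : ℝ, ∀ᶠ z in 𝓝[≠] (x i), ‖f z‖ ≤ C := fun i => by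
    obtain ⟨C, t₀, ht₀, hC⟩ := row_bound_br h hu hN i
    have hc : ContinuousAt (fun z => ‖∏ k ∈ Finset.univ.erase i, (z - x k)‖) (x i) := by fun_prop
    set B := ‖∏ k ∈ Finset.univ.erase i, (x i - x k)‖ + 1
    refine ⟨Real.sqrt (32 * C * B), ?_⟩
    filter_upwards [hnear i, nhdsWithin_le_nhds (ball_mem_nhds (x i) ht₀), self_mem_nhdsWithin,
      nhdsWithin_le_nhds (hc.eventually (gt_mem_nhds (lt_add_one _)))] with z hz hzb hne hzB
    have hpos : 0 < dist z (x i) := dist_pos.2 hne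
    obtain ⟨p, hp⟩ := exists_ptLim ha' ha0' z
    have hdl : Tendsto (fun k => dist (((a ∘ ψ) k : ℂ) * toC (p k)) (x i)) atTop (𝓝 (dist z (x i))) :=
      Tendsto.dist hp tendsto_const_nhds
    have := b0e_fsq_le (a := a ∘ ψ) (N := fun k => N (ψ k)) (g := fun k => g (ψ k)) (u := fun k => u (ψ k)) l2 hz hp
      (half_pos hpos) (C := C) (by
        filter_upwards [hT.eventually (hC _ (half_pos hpos)), hdl.eventually (lt_mem_nhds (half_lt_self hpos)),
          hdl.eventually (gt_mem_nhds (mem_ball.1 hzb))] with k hk h1 h2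
        exact hk (p k) h1.le h2.le)
    refine Real.le_sqrt_of_sq_le ?_
    rw [hff z hz, rhoX_eq x z i, norm_mul, ← dist_eq_norm]
    have h0 : 0 ≤ ‖f z ^ 2 / rhoX x z‖ * dist z (x i) := by positivity
    rw [rhoX_eq x z i] at this h0
    have h1 : 0 ≤ ‖∏ k ∈ Finset.univ.erase i, (z - x k)‖ := norm_nonneg _
    calc _ = (‖f z ^ 2 / ((z - x i) * ∏ k ∈ Finset.univ.erase i, (z - x k))‖ * dist z (x i)) *
          ‖∏ k ∈ Finset.univ.erase i, (z - x k)‖ := by ring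
      _ ≤ (32 * C) * B := by
          refine mul_le_mul (by linarith) hzB.le h1 (by linarith)
  obtain ⟨G, hGf, hG⟩ := b0e_remove hD h.mem hf hbd
  have hGU : ∀ z ∈ U, G z = f z := fun z hz => hGf z fun h => hz.2 (Or.inl h)
  have hG1 : DifferentiableOn ℂ G (D \ {y}) := hG.mono fun z hz => ⟨hz.1, fun h => hz.2 h.1⟩
  have lG : CLim (a ∘ ψ) U (fun k => gF (a (ψ k)) (v (ψ k)) (N (ψ k) • kC (g (ψ k)) (u (ψ k)) α)) G := fun z hz p hp => by
    rw [hGU z hz]; exact l1 z hz p hp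
  obtain ⟨δ₁, hδ₁, hsep⟩ := b0e_sep hD hfin hYD
  have hlin : Nice D → ∃ C : ℝ, ∃ δ > 0, ∀ z ∈ D, infDist z Dᶜ < δ → z ∈ U ∧ |hh z| ≤ C * infDist z Dᶜ := fun hn => by
    obtain ⟨C, δ, hδ, hC, -⟩ := hH2 hn
    have hne : Dᶜ.Nonempty := by
      by_contra hcon
      rw [Set.not_nonempty_iff_eq_empty, Set.compl_empty_iff] at hcon
      exact NormedSpace.unbounded_univ ℝ ℂ (hcon ▸ hn.bdd)
    have hc0 : 0 ≤ Real.sqrt 2 / (1 + tc ^ 2) := by positivity
    refine ⟨C * (Real.sqrt 2 / (1 + tc ^ 2)), min δ δ₁, lt_min hδ hδ₁, fun z hz hzd => ?_⟩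
    have hzU : z ∈ U := ⟨hz, fun hY => by
      obtain ⟨ζ, hζ, hlt⟩ := (infDist_lt_iff hne).1 (hzd.trans_le (min_le_right _ _))
      exact absurd hlt (not_lt.2 (hsep z hY ζ hζ))⟩
    refine ⟨hzU, ?_⟩
    obtain ⟨p, hp⟩ := exists_ptLim ha' ha0' z
    have hdl : Tendsto (fun k => infDist (((a ∘ ψ) k : ℂ) * toC (p k)) Dᶜ) atTop (𝓝 (infDist z Dᶜ)) :=
      ((continuous_infDist_pt Dᶜ).tendsto z).comp hp
    have key : ∀ ε > 0, |hh z| ≤ C * (infDist z Dᶜ + ε) * (Real.sqrt 2 / (1 + tc ^ 2)) := fun ε hε => by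
      refine le_of_tendsto_of_tendsto (l4 z hzU p hp).abs (((hdl.add_const ε).const_mul C).mul_const _) ?_
      filter_upwards [hT.eventually (hC ε hε), hdl.eventually (gt_mem_nhds (hzd.trans_le (min_le_left _ _)))] with k hk h1
      simp only [hF]
      rw [abs_mul, abs_of_nonneg hc0]
      exact mul_le_mul_of_nonneg_right (hk (p k) h1) hc0
    have hlim : Tendsto (fun ε : ℝ => C * (infDist z Dᶜ + ε) * (Real.sqrt 2 / (1 + tc ^ 2))) (𝓝[>] 0)
        (𝓝 (C * (infDist z Dᶜ + 0) * (Real.sqrt 2 / (1 + tc ^ 2)))) :=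
      tendsto_nhdsWithin_of_tendsto_nhds (Continuous.tendsto (by fun_prop) 0)
    have := ge_of_tendsto hlim (eventually_nhdsWithin_of_forall key)
    calc _ ≤ _ := this
      _ = _ := by ring
  refine ⟨ψ, G, hψ, ⟨hG1, ⟨hh, fun z hz hzx => ?_, fun ε hε => ?_, fun ζ hζ => ?_⟩, ?_⟩, fun i hi => ?_, lG, fun hyx => ?_⟩
  · have hzU : z ∈ U := ⟨hz.1, fun h => h.elim (fun ⟨i, hi⟩ => hzx i hi.symm) hz.2⟩
    rw [hGU z hzU]
    exact hd z hzU
  · rcases h.nice with hn | ⟨rfl, -⟩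
    · obtain ⟨C, δ, hδ, hC⟩ := hlin hn
      refine ⟨min δ (ε / (|C| + 1)), lt_min hδ (by positivity), fun z hz ⟨ζ, hζ, hlt⟩ => ?_⟩
      have h1 : infDist z Dᶜ ≤ dist z ζ := infDist_le_dist_of_mem hζ
      have h2 := (hC z hz (h1.trans_lt (hlt.trans_le (min_le_left _ _)))).2
      have h3 : infDist z Dᶜ < ε / (|C| + 1) := h1.trans_lt (hlt.trans_le (min_le_right _ _))
      rw [lt_div_iff₀ (by positivity)] at h3
      have h4 : 0 ≤ infDist z Dᶜ := infDist_nonneg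
      nlinarith [le_abs_self C]
    · exact ⟨1, one_pos, fun z _ ⟨ζ, hζ, _⟩ => absurd trivial hζ⟩
  · rcases h.nice with hn | ⟨rfl, -⟩
    · obtain ⟨C, δ, hδ, hC⟩ := hlin hn
      obtain ⟨C', δ', hδ', hC1, hC2⟩ := hH2 hn
      have hζD : ζ ∉ D := by
        rw [hD.frontier_eq] at hζ
        exact hζ.2
      set r := min (min δ δ') δ₁ / 4 with hr
      have hm : 0 < min (min δ δ') δ₁ := lt_min (lt_min hδ hδ') hδ₁
      have hr0 : 0 < r := by positivity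
      have hr1 : r < δ := by
        have := (min_le_left _ δ₁).trans (min_le_left δ δ'); linarith
      have hr2 : 2 * r < δ' := by
        have := (min_le_left _ δ₁).trans (min_le_right δ δ'); linarith
      have hr3 : 2 * r < dist y ζ := by
        have := min_le_right (min δ δ') δ₁
        have := hsep y (Or.inr rfl) ζ hζD
        linarith
      have hsub : ∀ z ∈ D ∩ ball ζ r, z ∈ U ∧ |hh z| ≤ C * infDist z Dᶜ := fun z hz =>
        hC z hz.1 ((infDist_le_dist_of_mem hζD).trans_lt ((mem_ball.1 hz.2).trans hr1))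
      have l5 := l4.mono fun z hz => (hsub z hz).1
      have := not_neg_near hn hζ hr0 (l5.continuousOn ha' ha0') ⟨C, fun z hz => (hsub z hz).2⟩ fun η h1 h2 h3 h4 =>
        subharm_lim hn h'.appr (fun k => spinsOf (v (ψ k))) (fun k => N (ψ k) • kC (g (ψ k)) (u (ψ k)) α)
          (fun k => Hw (ψ k)) (fun k => Hb (ψ k)) (C := |C'| * (δ' + 1) + |C'|) hr0 (by
            filter_upwards [hT.eventually (b0e_sol (N := N) h hu α hr3), hT.eventually (hC1 1 one_pos), hT.eventually hC2]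
              with k k1 k2 k3
            refine ⟨hH _, k1, fun p hp => ?_⟩
            have hi : infDist ((a (ψ k) : ℂ) * toC p) Dᶜ < δ' := (infDist_le_dist_of_mem hζD).trans_lt (hp.trans hr2)
            have hi0 : 0 ≤ infDist ((a (ψ k) : ℂ) * toC p) Dᶜ := infDist_nonneg
            have e1 : 0 ≤ |C'| * (δ' + 1) := by positivity
            refine ⟨(k2 p hi).trans ?_, fun hc => (k3 p hi hc).trans (by linarith [le_abs_self C'])⟩
            have : C' * (infDist ((a (ψ k) : ℂ) * toC p) Dᶜ + 1) ≤ |C'| * (δ' + 1) :=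
              mul_le_mul (le_abs_self _) (by linarith) (by linarith) (abs_nonneg _)
            linarith [abs_nonneg C']) l5 η h1 h2 h3 h4
      intro r' hr'
      obtain ⟨z, hz, h1, -, h2⟩ := this r' hr'
      exact ⟨z, hz, h1, h2⟩
    · simp at hζ
  · rcases h.nice with hn | ⟨hun, -⟩
    · obtain ⟨R, hR⟩ := hn.bdd.exists_norm_le
      exact ⟨0, R + 1, fun z hz hz' => absurd (hR z hz) (by linarith)⟩
    · obtain ⟨C, t₀, -, hC⟩ := row_bound h hu hN
      obtain ⟨R, hR⟩ := hfin.isBounded.exists_norm_le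
      have hR0 : 0 ≤ R := (norm_nonneg _).trans (hR y (Or.inr rfl))
      refine ⟨64 * C, 4 * (R + 1), fun z hz hz' => ?_⟩
      have hfar : ∀ w ∈ Set.range x ∪ {y}, ‖z‖ / 4 < dist z w := fun w hw => by
        have h1 := hR w hw
        have h2 := norm_sub_norm_le z w
        rw [dist_eq_norm]; linarith
      have hzU : z ∈ U := ⟨hz, fun hY => by have := hfar z hY; rw [dist_self] at this; linarith⟩
      have ht : (1 : ℝ) ≤ ‖z‖ / 4 := by linarith
      obtain ⟨p, hp⟩ := exists_ptLim ha' ha0' z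
      have hdl : ∀ w ∈ Set.range x ∪ {y}, ∀ᶠ k in atTop, ‖z‖ / 4 < dist (((a ∘ ψ) k : ℂ) * toC (p k)) w := fun w hw =>
        (Tendsto.dist hp tendsto_const_nhds).eventually (lt_mem_nhds (hfar w hw))
      have := b0e_fsq_le (a := a ∘ ψ) (N := fun k => N (ψ k)) (g := fun k => g (ψ k)) (u := fun k => u (ψ k)) l2 hzU hp
        (T := ‖z‖ / 4) (by linarith) (C := C) (by
          filter_upwards [hT.eventually (hC (‖z‖ / 4) (by linarith) (Or.inr hun)), hdl y (Or.inr rfl),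
            eventually_all.2 fun i => hdl (x i) (Or.inl ⟨i, rfl⟩)] with k hk h1 h2 α' β
          have := hk (p k) h1.le (fun i => (h2 i).le) α' β
          rwa [min_eq_right ht, mul_one] at this)
      rw [hGU z hzU, hff z hzU]
      have h0 := norm_nonneg (rhoX x z)
      nlinarith
  · obtain ⟨δ₂, hδ₂, hb₂⟩ := Metric.mem_nhdsWithin_iff.1 (hnear i)
    have hdy : 0 < dist y (x i) := dist_pos.2 hi.symm
    set δ := min δ₂ (dist y (x i)) / 2 with hδ
    have hm : 0 < min δ₂ (dist y (x i)) := lt_min hδ₂ hdy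
    have hδ0 : 0 < δ := by positivity
    have hδa : δ < δ₂ := by have := min_le_left δ₂ (dist y (x i)); linarith
    have hδb : δ < dist y (x i) := by have := min_le_right δ₂ (dist y (x i)); linarith
    have hsub : closedBall (x i) δ \ {x i} ⊆ U := fun z hz => hb₂ ⟨closedBall_subset_ball hδa hz.1, hz.2⟩
    have hsub' : ball (x i) δ \ {x i} ⊆ U := fun z hz => hsub ⟨ball_subset_closedBall hz.1, hz.2⟩
    have hcD : closedBall (x i) δ ⊆ D := fun z hz => by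
      by_cases e : z = x i
      · exact e ▸ h.mem i
      · exact (hsub ⟨hz, e⟩).1
    refine brOK_lim ha' ha0' h.inj h'.lim i hδ0 (fun k hk hb => hxU k (hsub' ⟨hb, fun e => hk (h.inj e)⟩))
      (fun k => ↑(E (ψ k))) (fun k => N (ψ k) • kC (g (ψ k)) (u (ψ k)) α) ?_
      (fun K hK hKU => (hB.subseq hψ) K hK (hKU.trans hsub')) (hG1.mono fun z hz => ⟨hcD (ball_subset_closedBall hz), ?_⟩)
      (lG.mono hsub')
    · filter_upwards [appr_crit hD h'.appr (isCompact_closedBall (x i) δ) hcD, hT.eventually (b0e_sol (N := N) h hu α hδb)]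
        with k k1 k2
      exact ⟨fun p hp => k1 p (mem_closedBall.2 (le_of_lt hp)), k2⟩
    · rintro rfl
      exact absurd (mem_ball.1 hz) (not_lt.2 hδb.le)
  · exact hG.mono fun z hz => ⟨hz, fun h => h.2 (h.1 ▸ hyx)⟩

end Crest.Agent.R165.C
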