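import Crest.Agent.R165.CA.Main

/-! # R165/C: auxiliary lemmas for `free_unique` (parity argument in the disc) -/

set_option autoImplicit false
noncomputable section
open Classical Filter Topology Set Metric

namespace Crest.Agent.R165.C

variable {n : ℕ} {x : Fin n → ℂ}

theorem k1e_div {D : Set ℂ} (hD : IsOpen D) (hx : Function.Injective x) (hxD : ∀ i, x i ∈ D) {f : ℂ → ℂ}
    (hf : DifferentiableOn ℂ f D) (h0 : ∀ i, f (x i) = 0) (s : Finset (Fin n)) :
    ∃ h : ℂ → ℂ, DifferentiableOn ℂ h D ∧ ∀ z, f z = (∏ i ∈ s, (z - x i)) * h z := by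
  induction s using Finset.induction_on with
  | empty => exact ⟨f, hf, fun z => by simp⟩
  | insert i s hi ih =>
    obtain ⟨h, h1, h2⟩ := ih
    have h3 : h (x i) = 0 := by
      have := h2 (x i)
      rw [h0] at this
      exact (mul_eq_zero.1 this.symm).resolve_left (Finset.prod_ne_zero_iff.2 fun k hk =>
        sub_ne_zero.2 fun e => hi (hx e ▸ hk))
    refine ⟨dslope h (x i), (Complex.differentiableOn_dslope (hD.mem_nhds (hxD i))).2 h1, fun z => ?_⟩
    have := sub_mul_dslope h (x i) z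
    rw [h3, sub_zero] at this
    rw [h2 z, Finset.prod_insert hi, ← this]
    ring

theorem k1e_ne {u : ℂ} (hu : ‖u‖ < 1) : 1 - u ≠ 0 := fun e => by
  rw [← sub_eq_zero.1 e] at hu
  simp at hu

theorem k1e_re {u : ℂ} (hu : ‖u‖ < 1) : 1 / 2 < (1 - u)⁻¹.re := by
  have h1 : Complex.normSq u < 1 := by
    rw [Complex.normSq_eq_norm_sq]
    nlinarith [norm_nonneg u]
  rw [Complex.inv_re, lt_div_iff₀ (Complex.normSq_pos.2 (k1e_ne hu))]
  simp only [Complex.normSq_apply, Complex.sub_re, Complex.sub_im, Complex.one_re, Complex.one_im] at h1 ⊢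
  nlinarith

theorem k1e_rho {z : ℂ} (hz : z ≠ 0) : rhoX x z = z ^ n * ∏ i, (1 - x i / z) := by
  have : ∀ i, z - x i = z * (1 - x i / z) := fun i => by field_simp
  simp only [rhoX, this, Finset.prod_mul_distrib, Finset.prod_const, Finset.card_univ, Fintype.card_fin]

/-- parity: the square root of `z g² / ρ` changes sign around the circle -/
theorem k1e_par (hn : Even n) {r : ℝ} (hr : 0 < r) (hxr : ∀ i, ‖x i‖ < r) {g : ℂ → ℂ} (hg : ContinuousOn g (sphere 0 r)) :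
    ∃ z, ‖z‖ = r ∧ (z / rhoX x z * g z ^ 2).re ≤ 0 := by
  obtain ⟨m, hm⟩ := hn
  have hn : ∀ θ, ‖circleMap 0 r θ‖ = r := fun θ => by simp [abs_of_pos hr]
  have h0 : ∀ θ, circleMap 0 r θ ≠ 0 := fun θ => circleMap_ne_center hr.ne'
  have hu : ∀ θ i, ‖x i / circleMap 0 r θ‖ < 1 := fun θ i => by
    rw [norm_div, hn, div_lt_one hr]
    exact hxr i
  set a : ℂ → ℂ := fun z => g z * Real.sqrt r / z ^ m * Complex.exp (-(∑ i, Complex.log (1 - x i / z)) / 2) with ha
  set w : ℝ → ℂ := fun θ => a (circleMap 0 r θ) * Complex.exp (θ * Complex.I / 2) with hw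
  have hc : Continuous w := by
    have c1 := continuous_circleMap 0 r
    refine Continuous.mul (Continuous.mul (Continuous.div ((hg.comp_continuous c1 fun θ => by
      simpa using hn θ).mul continuous_const) (c1.pow m) fun θ => pow_ne_zero _ (h0 θ)) ?_) (by fun_prop)
    refine (Continuous.div_const (Continuous.neg (continuous_finsetSum _ fun i _ => ?_)) _).cexp
    refine (continuous_const.sub (continuous_const.div c1 h0)).clog fun θ => ?_
    simpa [sub_eq_add_neg] using Complex.mem_slitPlane_of_norm_lt_one (z := -(x i / circleMap 0 r θ)) (by simpa using hu θ i)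
  have hp : w (2 * Real.pi) = -w 0 := by
    have e1 : circleMap 0 r (2 * Real.pi) = circleMap 0 r 0 := by
      simpa using periodic_circleMap 0 r 0
    have e2 : ((2 * Real.pi : ℝ) : ℂ) * Complex.I / 2 = Real.pi * Complex.I := by push_cast; ring
    simp only [hw, e1, e2, Complex.exp_pi_mul_I]
    simp
  obtain ⟨θ, hθ⟩ : ∃ θ, (w θ).re = 0 := by
    have c2 : Continuous fun θ => (w θ).re := Complex.continuous_re.comp hc
    have e : (w (2 * Real.pi)).re = -(w 0).re := by rw [hp, Complex.neg_re]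
    rcases le_total (w 0).re 0 with h | h
    · exact intermediate_value_univ 0 (2 * Real.pi) c2 ⟨h, by simp only [e]; linarith⟩
    · exact intermediate_value_univ (2 * Real.pi) 0 c2 ⟨by simp only [e]; linarith, h⟩
  refine ⟨circleMap 0 r θ, hn θ, ?_⟩
  have e : circleMap 0 r θ / rhoX x (circleMap 0 r θ) * g (circleMap 0 r θ) ^ 2 = w θ ^ 2 := by
    have e1 : Complex.exp (-(∑ i, Complex.log (1 - x i / circleMap 0 r θ)) / 2) ^ 2 =
        (∏ i, (1 - x i / circleMap 0 r θ))⁻¹ := by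
      rw [← Complex.exp_nat_mul, show ((2 : ℕ) : ℂ) * (-(∑ i, Complex.log (1 - x i / circleMap 0 r θ)) / 2) =
        -∑ i, Complex.log (1 - x i / circleMap 0 r θ) by push_cast; ring, Complex.exp_neg, Complex.exp_sum]
      exact congrArg _ (Finset.prod_congr rfl fun i _ => Complex.exp_log (k1e_ne (hu θ i)))
    have e2 : ((Real.sqrt r : ℝ) : ℂ) ^ 2 * Complex.exp (θ * Complex.I / 2) ^ 2 = circleMap 0 r θ := by
      rw [← Complex.ofReal_pow, Real.sq_sqrt hr.le, ← Complex.exp_nat_mul,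
        show ((2 : ℕ) : ℂ) * (θ * Complex.I / 2) = θ * Complex.I by push_cast; ring, circleMap, zero_add]
    have e3 : w θ ^ 2 = g (circleMap 0 r θ) ^ 2 * (((Real.sqrt r : ℝ) : ℂ) ^ 2 * Complex.exp (θ * Complex.I / 2) ^ 2) /
        circleMap 0 r θ ^ (m + m) * Complex.exp (-(∑ i, Complex.log (1 - x i / circleMap 0 r θ)) / 2) ^ 2 := by
      simp only [hw, ha]
      ring
    rw [e3, e1, e2, k1e_rho (h0 θ), ← hm]
    ring
  rw [e, sq, Complex.mul_re, hθ]
  nlinarith [mul_self_nonneg (w θ).im]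

/-- `z F z` is bounded near the circle -/
theorem k1e_bdd {u : ℂ → ℝ} {F : ℂ → ℂ} {r₀ : ℝ} (hr : r₀ < 1) (hu : Gd (Ann r₀) u F) (hv : VanB (ball 0 1) u) :
    ∃ B : ℝ, ∃ r < 1, ∀ z ∈ Ann r, ‖z * F z‖ ≤ B := by
  obtain ⟨r₁, K, h01, h0, h1, hK, hb⟩ := ann_tan hr hu (vanB_ball hv)
  set r₂ := (1 + r₁) / 2 with hr₂
  set r₃ := (1 + r₂) / 2 with hr₃
  set L := 4 * Real.exp 2 * K with hL
  have hL0 : 0 < L := by positivity
  have hG : DifferentiableOn ℂ (fun z => z * F z) (Ann r₁) := differentiableOn_id.mul (hu.1.mono (ann_sub h01))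
  have hder : ∀ z ∈ Ann r₂, ‖deriv (fun z => z * F z) z‖ ≤ L := fun z hz => by
    have hd : 0 < 1 - ‖z‖ := by linarith [hz.2]
    have hsub : ∀ w ∈ ball z (1 - ‖z‖), 2 * ‖z‖ - 1 < ‖w‖ ∧ ‖w‖ < 1 := fun w hw => by
      have := abs_lt.1 ((abs_norm_sub_norm_le w z).trans_lt (mem_ball_iff_norm.1 hw))
      constructor <;> linarith
    have hsub' : ball z (1 - ‖z‖) ⊆ Ann r₁ := fun w hw => ⟨by linarith [(hsub w hw).1, hz.1], (hsub w hw).2⟩
    refine (deriv_le_of_im (K := K * (2 * (1 - ‖z‖))) hd (by positivity) (hG.mono hsub') fun w hw =>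
      (hb w (hsub' hw)).trans (mul_le_mul_of_nonneg_left (by linarith [(hsub w hw).1]) hK.le)).trans_eq ?_
    rw [hL]; field_simp; ring
  obtain ⟨B, hB⟩ := (isCompact_sphere (0 : ℂ) r₃).exists_bound_of_continuousOn (hG.continuousOn.mono fun z hz => by
    have : ‖z‖ = r₃ := by simpa using hz
    exact ⟨by linarith, by linarith⟩)
  refine ⟨B + L * 2, r₃, by linarith, fun z hz => ?_⟩
  obtain ⟨ζ, hζ1, hζ2⟩ := exists_unit (show 0 < ‖z‖ by linarith [hz.1]) hz.2
  have hW : ∀ w ∈ ball ζ (1 - r₂) ∩ ball 0 1, w ∈ Ann r₂ := fun w hw => by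
    have := abs_lt.1 ((abs_norm_sub_norm_le w ζ).trans_lt (mem_ball_iff_norm.1 hw.1))
    exact ⟨by linarith, by simpa using hw.2⟩
  have hn : ‖(r₃ : ℂ) * ζ‖ = r₃ := by
    rw [norm_mul, hζ1, mul_one, Complex.norm_real, Real.norm_eq_abs, abs_of_pos (by linarith)]
  have hd : dist ((r₃ : ℂ) * ζ) ζ = 1 - r₃ := by
    have : (r₃ : ℂ) * ζ - ζ = ((r₃ - 1 : ℝ) : ℂ) * ζ := by push_cast; ring
    rw [dist_eq_norm, this, norm_mul, hζ1, mul_one, Complex.norm_real, Real.norm_eq_abs, abs_of_nonpos (by linarith), neg_sub]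
  have h2 := ((convex_ball ζ (1 - r₂)).inter (convex_ball 0 1)).norm_image_sub_le_of_norm_deriv_le (𝕜 := ℂ)
    (fun w hw => hG.differentiableAt ((isOpen_Ann _).mem_nhds (ann_sub (by linarith) (hW w hw))))
    (fun w hw => hder w (hW w hw)) (x := r₃ * ζ) (y := z)
    ⟨by rw [mem_ball, hd]; linarith, by rw [mem_ball_zero_iff, hn]; linarith⟩
    ⟨by rw [mem_ball, hζ2]; linarith [hz.1], by simpa using hz.2⟩
  have h3 : ‖z - r₃ * ζ‖ ≤ 2 := by
    have := norm_sub_le z (r₃ * ζ)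
    linarith [hz.2]
  have h4 := norm_sub_norm_le (z * F z) (r₃ * ζ * F (r₃ * ζ))
  have h5 := hB (r₃ * ζ) (by simpa using hn)
  linarith [mul_le_mul_of_nonneg_left h3 hL0.le]

theorem k1e_sum {m : ℕ} (t : Fin m → ℝ) (a : Fin m → ℂ) (c : ℂ) {B : ℝ} (hB : 0 ≤ B) (h : ∀ k, ‖c * a k ^ 2‖ ≤ B) :
    ‖c * (∑ k, (t k : ℂ) * a k) ^ 2‖ ≤ (∑ k, |t k|) ^ 2 * B := by
  obtain ⟨s, rfl⟩ := IsAlgClosed.exists_pow_nat_eq c two_pos
  have h1 : ‖s * ∑ k, (t k : ℂ) * a k‖ ≤ (∑ k, |t k|) * Real.sqrt B := by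
    rw [Finset.mul_sum, Finset.sum_mul]
    refine norm_sum_le_of_le _ fun k _ => ?_
    rw [mul_left_comm, norm_mul, Complex.norm_real, Real.norm_eq_abs]
    refine mul_le_mul_of_nonneg_left (Real.le_sqrt_of_sq_le ?_) (abs_nonneg _)
    rw [← norm_pow, mul_pow]
    exact h k
  rw [← mul_pow, norm_pow, ← Real.sq_sqrt hB, ← mul_pow]
  exact pow_le_pow_left₀ (norm_nonneg _) h1 2

theorem k1e_hm {U : Set ℂ} (hU : IsOpen U) {f : ℂ → ℂ} (hf : DifferentiableOn ℂ f U) : Hm U fun z => (f z).re :=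
  ⟨deriv f, hf.deriv hU, fun _ hz => hasF_re (hf.differentiableAt (hU.mem_nhds hz)).hasDerivAt⟩

theorem k1e_ann {ζ : ℂ} (hζ : ‖ζ‖ = 1) {r : ℝ} (hr : r < 1) : ∀ᶠ z in 𝓝[ball 0 1] ζ, z ∈ Ann r := by
  filter_upwards [self_mem_nhdsWithin,
    mem_nhdsWithin_of_mem_nhds (continuous_norm.continuousAt.eventually (lt_mem_nhds (hr.trans_eq hζ.symm)))] with z h1 h2
  exact ⟨h2, by simpa using h1⟩

theorem k1e_disc0 (hn : Even n) (hx : Function.Injective x) (hxD : ∀ i, ‖x i‖ < 1) {g : ℂ → ℂ}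
    (hg : DifferentiableOn ℂ g (ball 0 1)) (hc : ∀ i, (cSq x g i).im = 0 ∧ 0 ≤ (cSq x g i).re)
    (hd : ∀ ε > 0, ∃ r < 1, ∀ z ∈ Ann r, ‖z / rhoX x z * g z ^ 2‖ - (z / rhoX x z * g z ^ 2).re ≤ ε)
    (hb : ∃ B : ℝ, ∃ r < 1, ∀ z ∈ Ann r, ‖z / rhoX x z * g z ^ 2‖ ≤ B) :
    ∀ z ∈ ball (0 : ℂ) 1, g z = 0 := by
  refine disc_zero hx hxD hg (fun j => ⟨(hc j).1, not_lt.1 fun hj => ?_⟩) hd
  set c : Fin n → ℝ := fun i => (cSq x g i).re with hc0
  have hcc : ∀ i, cSq x g i = c i := fun i => Complex.ext rfl (hc i).1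
  obtain ⟨h, h1, h2⟩ := k1e_div isOpen_ball hx (fun i => mem_ball_zero_iff.2 (hxD i))
    (f := fun z => g z ^ 2 - ∑ i, c i * ∏ k ∈ Finset.univ.erase i, (z - x k))
    ((hg.pow 2).sub (by fun_prop)) (fun i => by
      rw [Finset.sum_eq_single i (fun k _ hk => by
        rw [Finset.prod_eq_zero (Finset.mem_erase.2 ⟨hk.symm, Finset.mem_univ _⟩) (sub_self _), mul_zero])
        (by simp), ← hcc, cSq, div_mul_cancel₀ _ (prod_erase_ne hx i), sub_self]) Finset.univ
  have hq : ∀ z : ℂ, ‖z‖ ≤ 1 → ∀ i, ‖z * (starRingEnd ℂ) (x i)‖ < 1 := fun z hz i => by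
    rw [norm_mul, Complex.norm_conj]
    nlinarith [hxD i, norm_nonneg z, norm_nonneg (x i)]
  set H : ℂ → ℂ := fun z => z * h z - ∑ i, c i * ((1 - z * (starRingEnd ℂ) (x i))⁻¹ - 1) with hH
  set P : ℂ → ℂ := fun z => ∑ i, c i * ((1 - x i / z)⁻¹ + (1 - z * (starRingEnd ℂ) (x i))⁻¹ - 1) with hP
  have hH1 : DifferentiableOn ℂ H (ball 0 1) := by
    refine (differentiableOn_id.mul h1).sub (DifferentiableOn.fun_sum fun i _ => DifferentiableOn.const_mul ?_ _)
    refine DifferentiableOn.sub_const (DifferentiableOn.inv (by fun_prop) fun z hz => ?_) _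
    exact k1e_ne (hq z (mem_ball_zero_iff.1 hz).le i)
  obtain ⟨r₁, hr₁, h3⟩ := exists_lt_one (fun i => ‖x i‖) hxD
  have hx0 : 0 ≤ r₁ := (norm_nonneg _).trans (h3 j)
  have hWP : ∀ z ∈ Ann r₁, H z = z / rhoX x z * g z ^ 2 - P z := fun z hz => by
    have z0 : z ≠ 0 := norm_pos_iff.1 (hx0.trans_lt hz.1)
    have z1 : ∀ i, z - x i ≠ 0 := fun i => sub_ne_zero.2 fun e => absurd hz.1 (not_lt.2 (e ▸ h3 i))
    have z2 : rhoX x z ≠ 0 := Finset.prod_ne_zero_iff.2 fun i _ => z1 i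
    have e1 : g z ^ 2 = rhoX x z * h z + ∑ i, c i * ∏ k ∈ Finset.univ.erase i, (z - x k) := by
      rw [rhoX, ← h2 z, sub_add_cancel]
    have e2 : ∀ i, z / rhoX x z * (c i * ∏ k ∈ Finset.univ.erase i, (z - x k)) = c i * (1 - x i / z)⁻¹ := fun i => by
      have z3 := z2
      rw [rhoX_eq x z i] at z3 ⊢
      have z4 := z1 i
      have z5 := right_ne_zero_of_mul z3
      field_simp
    rw [e1, mul_add, Finset.mul_sum, Finset.sum_congr rfl fun i _ => e2 i, ← mul_assoc, div_mul_cancel₀ _ z2]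
    simp only [hH, hP, add_sub_assoc, mul_add, Finset.sum_add_distrib]
    ring
  obtain ⟨B, r₂, hr₂, hB⟩ := hb
  have him : ∀ ζ ∈ frontier (ball (0 : ℂ) 1), Tendsto (fun z => (H z).im) (𝓝[ball 0 1] ζ) (𝓝 0) := fun ζ hζ => by
    have hζ1 : ‖ζ‖ = 1 := by simpa [frontier_ball (0 : ℂ) one_ne_zero] using hζ
    have z0 : ζ ≠ 0 := norm_pos_iff.1 (by linarith)
    have a1 : Tendsto (fun z => (z / rhoX x z * g z ^ 2).im) (𝓝[ball 0 1] ζ) (𝓝 0) := by
      refine Metric.tendsto_nhds.2 fun ε hε => ?_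
      obtain ⟨r, hr, a⟩ := hd (ε ^ 2 / (2 * |B| + 1)) (by positivity)
      filter_upwards [k1e_ann hζ1 hr, k1e_ann hζ1 hr₂] with z hz hz'
      have a2 := a z hz
      have a3 := (hB z hz').trans (le_abs_self B)
      generalize z / rhoX x z * g z ^ 2 = W at a2 a3 ⊢
      rw [Real.dist_eq, sub_zero]
      refine abs_lt_of_sq_lt_sq ?_ hε.le
      have a4 : W.im ^ 2 = (‖W‖ - W.re) * (‖W‖ + W.re) := by
        have := Complex.sq_norm W
        rw [Complex.normSq_apply] at this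
        linarith
      have a5 := abs_le.1 (Complex.abs_re_le_norm W)
      rw [le_div_iff₀ (by positivity)] at a2
      rcases (sub_nonneg.2 a5.2).eq_or_lt with a6 | a6
      · rw [a4, ← a6, zero_mul]
        positivity
      · rw [a4]
        nlinarith
    have a2 : ContinuousAt P ζ := by
      refine tendsto_finsetSum _ fun i _ => continuousAt_const.mul (ContinuousAt.sub (ContinuousAt.add
        (ContinuousAt.inv₀ (continuousAt_const.sub (continuousAt_const.div continuousAt_id z0)) (k1e_ne ?_))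
        (ContinuousAt.inv₀ (by fun_prop) (k1e_ne (hq ζ hζ1.le i)))) continuousAt_const)
      rw [norm_div, hζ1, div_one]
      exact hxD i
    have a3 : (P ζ).im = 0 := by
      rw [hP, Complex.im_sum]
      refine Finset.sum_eq_zero fun i _ => ?_
      have e : x i / ζ = (starRingEnd ℂ) (ζ * (starRingEnd ℂ) (x i)) := by
        rw [map_mul, Complex.conj_conj, ← Complex.inv_eq_conj hζ1]
        ring
      have e' : (1 - x i / ζ)⁻¹ = (starRingEnd ℂ) (1 - ζ * (starRingEnd ℂ) (x i))⁻¹ := by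
        rw [e, map_inv₀, map_sub, map_one]
      rw [e']
      generalize (1 - ζ * (starRingEnd ℂ) (x i))⁻¹ = q
      simp
    have a4 := a1.sub (((Complex.continuous_im.tendsto _).comp a2.tendsto).mono_left nhdsWithin_le_nhds)
    rw [a3, sub_zero] at a4
    refine a4.congr' ?_
    filter_upwards [k1e_ann hζ1 hr₁] with z hz
    rw [hWP z hz, Complex.sub_im]
    rfl
  have hz1 : ∀ s : ℝ, ∀ z ∈ ball (0 : ℂ) 1, s * (H z).im ≤ 0 := fun s => by
    have e : ∀ z, (-(s : ℂ) * Complex.I * H z).re = s * (H z).im := fun z => by simp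
    simp only [← e]
    refine maxp isOpen_ball isBounded_ball (k1e_hm isOpen_ball (hH1.const_mul _)) fun ζ hζ ε hε => ?_
    simp only [e]
    exact ((him ζ hζ).const_mul s).eventually (gt_mem_nhds (by simpa using hε))
  obtain ⟨c₀, hc₀⟩ := (hH1.analyticOnNhd isOpen_ball).eq_const_of_im_eq_const (c₀ := 0)
    (fun z hz => by linarith [hz1 1 z hz, hz1 (-1) z hz]) isOpen_ball (isConnected_ball one_pos)
  have hH0 : H 0 = 0 := by simp [hH]
  obtain ⟨r, a1, a2⟩ := exists_between hr₁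
  obtain ⟨z, b1, b2⟩ := k1e_par hn (hx0.trans_lt a1) (fun i => (h3 i).trans_lt a1)
    (hg.continuousOn.mono (sphere_subset_closedBall.trans (closedBall_subset_ball a2)))
  have b3 := hWP z ⟨b1 ▸ a1, b1 ▸ a2⟩
  rw [hc₀ z (mem_ball_zero_iff.2 (b1 ▸ a2)), ← hc₀ 0 (mem_ball_self one_pos), hH0, eq_comm, sub_eq_zero] at b3
  rw [b3, hP, Complex.re_sum] at b2
  have b4 : ∀ i, 0 < ((1 - x i / z)⁻¹ + (1 - z * (starRingEnd ℂ) (x i))⁻¹ - 1).re := fun i => by
    have := k1e_re (hq z (b1 ▸ a2.le) i)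
    have := k1e_re (u := x i / z) (by
      rw [norm_div, b1, div_lt_one (hx0.trans_lt a1)]
      exact (h3 i).trans_lt a1)
    rw [Complex.sub_re, Complex.add_re, Complex.one_re]
    linarith
  refine absurd b2 (not_le.2 (Finset.sum_pos' (fun i _ => ?_) ⟨j, Finset.mem_univ _, ?_⟩)) <;> rw [Complex.re_ofReal_mul]
  · exact mul_nonneg (hc i).2 (b4 i).le
  · exact mul_pos hj (b4 j)

theorem k1e_disc (hn : Even n) (hx : Function.Injective x) (hxD : ∀ i, x i ∈ ball (0 : ℂ) 1) {l : ℕ} (t : Fin l → ℝ)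
    (g : Fin l → ℂ → ℂ) (hg : ∀ k, RH (ball 0 1) x ∅ (g k))
    (hc : ∀ i, (cSq x (fun z => ∑ k, (t k : ℂ) * g k z) i).im = 0 ∧ 0 ≤ (cSq x (fun z => ∑ k, (t k : ℂ) * g k z) i).re) :
    ∀ z ∈ ball (0 : ℂ) 1, ∑ k, (t k : ℂ) * g k z = 0 := by
  obtain ⟨r₁, hr₁, h1⟩ := exists_lt_one (fun i => ‖x i‖) fun i => by simpa using hxD i
  have hsub : Ann r₁ ⊆ ball 0 1 \ (∅ ∪ range x) := fun z hz => by
    refine ⟨by simpa using hz.2, ?_⟩
    rintro (h | ⟨i, rfl⟩)
    · exact h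
    · exact absurd hz.1 (not_lt.2 (h1 i))
  have e : ∀ k z, z * -(g k z ^ 2 / rhoX x z) = -(z / rhoX x z * g k z ^ 2) := fun k z => by ring
  refine k1e_disc0 hn hx (fun i => by simpa using hxD i)
    (DifferentiableOn.fun_sum fun k _ => (by simpa using (hg k).hol : DifferentiableOn ℂ (g k) (ball 0 1)).const_mul _)
    hc (fun ε hε => ?_) ?_
  · set T := (∑ k, |t k|) ^ 2 with hT
    have hT0 : 0 ≤ T := sq_nonneg _
    have hδ : 0 < ε / (3 * (T + 1)) := by positivity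
    have key : ∀ k, ∃ r < 1, ∀ z ∈ Ann r, ‖z / rhoX x z * g k z ^ 2‖ - (z / rhoX x z * g k z ^ 2).re ≤
        3 * (ε / (3 * (T + 1))) := fun k => by
      obtain ⟨h, a1, a2, a3⟩ := (hg k).pot
      obtain ⟨r, hr, b⟩ := disc_defect hr₁ ((gd_of_pot (hg k).hol a1).mono hsub) a2 a3 _ hδ
      refine ⟨r, hr, fun z hz => ?_⟩
      obtain ⟨b1, b2⟩ := b z hz
      rw [e, Complex.neg_im, abs_neg] at b1
      rw [e, Complex.neg_re] at b2
      have := Complex.norm_le_abs_re_add_abs_im (z / rhoX x z * g k z ^ 2)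
      rcases abs_cases (z / rhoX x z * g k z ^ 2).re with c | c <;> linarith
    choose r hr b using key
    obtain ⟨r₂, hr₂, h2⟩ := exists_lt_one r hr
    refine ⟨r₂, hr₂, fun z hz => (defect_sum t (fun k => g k z) _ (by positivity) fun k =>
      b k z (ann_sub (h2 k) hz)).trans ?_⟩
    rw [← hT, show T * (3 * (ε / (3 * (T + 1)))) = ε * (T / (T + 1)) by field_simp]
    exact mul_le_of_le_one_right hε.le ((div_le_one (by positivity)).2 (by linarith))
  · have key : ∀ k, ∃ B : ℝ, ∃ r < 1, ∀ z ∈ Ann r, ‖z / rhoX x z * g k z ^ 2‖ ≤ B := fun k => by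
      obtain ⟨h, a1, a2, -⟩ := (hg k).pot
      obtain ⟨B, r, hr, b⟩ := k1e_bdd hr₁ ((gd_of_pot (hg k).hol a1).mono hsub) a2
      exact ⟨B, r, hr, fun z hz => by simpa only [e, norm_neg] using b z hz⟩
    choose B r hr b using key
    obtain ⟨r₂, hr₂, h2⟩ := exists_lt_one r hr
    exact ⟨_, r₂, hr₂, fun z hz => k1e_sum t (fun k => g k z) _ (B := ∑ k, |B k|)
      (Finset.sum_nonneg fun k _ => abs_nonneg _) fun k => (b k z (ann_sub (h2 k) hz)).trans ((le_abs_self _).trans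
        (Finset.single_le_sum (f := fun k => |B k|) (fun k _ => abs_nonneg _) (Finset.mem_univ k)))⟩

theorem k1e_free {D : Set ℂ} (hD : Nice D) (hn : Even n) (hx : Function.Injective x) (hxD : ∀ i, x i ∈ D) {l : ℕ}
    (t : Fin l → ℝ) (g : Fin l → ℂ → ℂ) (hg : ∀ k, RH D x ∅ (g k))
    (hc : ∀ i, (cSq x (fun z => ∑ k, (t k : ℂ) * g k z) i).im = 0 ∧ 0 ≤ (cSq x (fun z => ∑ k, (t k : ℂ) * g k z) i).re) :
    ∀ z ∈ D, ∑ k, (t k : ℂ) * g k z = 0 := by
  obtain ⟨a, ψ, ha1, ha2, hψ1, hψ2, hψa, haψ, hsg⟩ := hD.riem'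
  have hx' : Function.Injective fun i => a (x i) := fun i k e => hx (ha2.injOn (hxD i) (hxD k) e)
  have hxB : ∀ i, a (x i) ∈ Metric.ball (0 : ℂ) 1 := fun i => ha2.mapsTo (hxD i)
  have e1 : (fun i => ψ (a (x i))) = x := funext fun i => hψa _ (hxD i)
  obtain ⟨u, hu1, hu2, hu3⟩ := factor_core Metric.isOpen_ball hasSq_ball hψ1 hψ2.injOn hxB
  have e2 : ∀ w, ∑ k, (t k : ℂ) * (u w * g k (ψ w)) = u w * ∑ k, (t k : ℂ) * g k (ψ w) := fun w => by
    rw [Finset.mul_sum]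
    exact Finset.sum_congr rfl fun k _ => by ring
  have key := k1e_disc hn hx' hxB t (fun k w => u w * g k (ψ w)) (fun k => pull_core Metric.isOpen_ball
    Metric.isBounded_ball hD.bdd hψ1 hψ2 hxB hu1 hu3 (Set.empty_subset _) (by rw [e1, Set.image_empty]; exact hg k)
      fun h _ _ h3 => hsg h h3) fun i => by
    have := pull_cSq Metric.isOpen_ball hψ1 hψ2.injOn hx' hxB hu1 hu3 (fun z => ∑ k, (t k : ℂ) * g k z) i
    simp only [e2]
    rw [this, e1]
    exact hc i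
  intro z hz
  have := key (a z) (ha2.mapsTo hz)
  rw [e2, hψa z hz] at this
  exact (mul_eq_zero.1 this).resolve_left (hu2 _ (ha2.mapsTo hz))

end Crest.Agent.R165.C
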