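import Crest.Agent.R165.C.Defs
import Crest.Agent.R165.C.K1ex
import Crest.Agent.R165.CA.Main
import Crest.Agent.R165.G.Main

/-! # R165/C: the continuum kernel: uniqueness, covariance, non-degeneracy (block C, owner helper83; statements FROZEN, add lemmas freely inside the namespace) -/

set_option autoImplicit false
noncomputable section
open Classical Filter Topology Metric Crest.ProbabilityR.IsingModel

namespace Crest.Agent.R165.C

variable {D D' : Set ℂ} {n m : ℕ} {x : Fin n → ℂ} {y : Fin m → ℂ}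

/-! ### task K1a (the class `Bulk`) -/

theorem Bulk.of_rh {y β : ℂ} {G : ℂ → ℂ} (h : RHbulk D x y β G) : Bulk D x y β G :=
  ⟨1, fun _ => 1, fun _ => β, fun _ => G, fun _ => h, by simp, fun z => by simp⟩

theorem Bulk.comb {y β₁ β₂ : ℂ} {G₁ G₂ : ℂ → ℂ} (h₁ : Bulk D x y β₁ G₁) (h₂ : Bulk D x y β₂ G₂) (t₁ t₂ : ℝ) :
    Bulk D x y (t₁ * β₁ + t₂ * β₂) fun z => t₁ * G₁ z + t₂ * G₂ z := by
  obtain ⟨m₁, s₁, b₁, g₁, hg₁, rfl, e₁⟩ := h₁
  obtain ⟨m₂, s₂, b₂, g₂, hg₂, rfl, e₂⟩ := h₂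
  refine ⟨m₁ + m₂, Fin.append (fun k => t₁ * s₁ k) fun k => t₂ * s₂ k, Fin.append b₁ b₂, Fin.append g₁ g₂, fun k => ?_, ?_,
    fun z => ?_⟩
  · refine Fin.addCases (fun k => ?_) (fun k => ?_) k
    · simpa only [Fin.append_left] using hg₁ k
    · simpa only [Fin.append_right] using hg₂ k
  · simp only [Fin.sum_univ_add, Fin.append_left, Fin.append_right, Finset.mul_sum, Complex.ofReal_mul, mul_assoc]
  · simp only [e₁, e₂, Fin.sum_univ_add, Fin.append_left, Fin.append_right, Finset.mul_sum, Complex.ofReal_mul, mul_assoc]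

theorem Bulk.hol {y β : ℂ} {G : ℂ → ℂ} (h : Bulk D x y β G) : DifferentiableOn ℂ G (D \ {y}) := by
  obtain ⟨m, s, b, g, hg, rfl, e⟩ := h
  rw [funext e]
  exact DifferentiableOn.fun_sum fun k _ => (hg k).1.hol.const_mul _

theorem Bulk.res {y β : ℂ} {G : ℂ → ℂ} (h : Bulk D x y β G) : Tendsto (fun z => (z - y) * G z) (𝓝[≠] y) (𝓝 β) := by
  obtain ⟨m, s, b, g, hg, rfl, e⟩ := h
  refine (tendsto_finsetSum _ fun k _ => (hg k).2.2.const_mul (s k : ℂ)).congr fun z => ?_
  rw [e, Finset.mul_sum]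
  exact Finset.sum_congr rfl fun k _ => by ring

theorem Bulk.brOK (hx : Function.Injective x) {y β : ℂ} {G : ℂ → ℂ} (h : Bulk D x y β G) (i : Fin n) : BrOK x G i := by
  obtain ⟨m, s, b, g, hg, rfl, e⟩ := h
  rw [funext e]
  exact brOK_sum hx s g i fun k => (hg k).2.1 i

/-- `Bulk.comb` with `1, -1`, `rh_unique` -/
theorem Bulk.unique (hD : NiceP D n) (hx : Function.Injective x) (hxD : ∀ i, x i ∈ D) {y β : ℂ} (hy : y ∈ D)
    (hyx : ∀ i, y ≠ x i) {G G' : ℂ → ℂ} (h : Bulk D x y β G) (h' : Bulk D x y β G') : ∀ z ∈ D, z ≠ y → G z = G' z := by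
  have H := h.comb h' 1 (-1)
  have h1 := H.res
  have h2 := H.brOK hx
  obtain ⟨m, s, b, g, hg, -, e⟩ := H
  have e0 : ((1 : ℝ) : ℂ) * β + ((-1 : ℝ) : ℂ) * β = 0 := by push_cast; ring
  rw [e0] at h1
  simp only [e] at h1
  rw [funext e] at h2
  intro z hz hzy
  have := rh_unique hD hx hxD y hy hyx s g (fun k => (hg k).1) h2 h1 z hz hzy
  rw [← e] at this
  push_cast at this
  linear_combination this

/-- `rh_pullback` for each member; `(z - y) u z g (φ z) = u z · ((z - y)/(φ z - φ y)) · (φ z - φ y) g (φ z)` -/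
theorem Bulk.pullback (hD : Nice D) (hD' : Nice D') {φ : ℂ → ℂ} (hφ : DifferentiableOn ℂ φ D) (hb : Set.BijOn φ D D')
    (hx : Function.Injective x) (hxD : ∀ i, x i ∈ D) {u : ℂ → ℂ} (hu : DifferentiableOn ℂ u D)
    (huu : ∀ z ∈ D, u z ^ 2 * rhoX (fun i => φ (x i)) (φ z) = deriv φ z * rhoX x z) {y β : ℂ} (hy : y ∈ D)
    (hyx : ∀ i, y ≠ x i) (hφ' : deriv φ y ≠ 0) {G : ℂ → ℂ} (h : Bulk D' (fun i => φ (x i)) (φ y) β G) :
    Bulk D x y (u y * β / deriv φ y) fun z => u z * G (φ z) := by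
  obtain ⟨m, s, b, g, hg, rfl, e⟩ := h
  have hn := hD.isOpen.mem_nhds hy
  have hd : DifferentiableAt ℂ φ y := hφ.differentiableAt hn
  have hne : ∀ᶠ z in 𝓝[≠] y, φ z ≠ φ y := by
    filter_upwards [self_mem_nhdsWithin, mem_nhdsWithin_of_mem_nhds hn] with z h1 h2 h3
    exact h1 (hb.injOn h2 hy h3)
  have hT : Tendsto φ (𝓝[≠] y) (𝓝[≠] (φ y)) :=
    tendsto_nhdsWithin_iff.2 ⟨hd.continuousAt.tendsto.mono_left nhdsWithin_le_nhds, hne⟩
  have hs := (hasDerivAt_iff_tendsto_slope.1 hd.hasDerivAt).inv₀ hφ'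
  have hu' : Tendsto u (𝓝[≠] y) (𝓝 (u y)) := (hu.differentiableAt hn).continuousAt.tendsto.mono_left nhdsWithin_le_nhds
  refine ⟨m, s, fun k => u y * b k / deriv φ y, fun k z => u z * g k (φ z), fun k => ?_, ?_, fun z => ?_⟩
  · obtain ⟨h1, h2⟩ := rh_pullback hD hD' hφ hb hx hxD hu huu (Y := {y}) (by simpa using hy) (Set.finite_singleton y)
      (g := g k) (by simpa only [Set.image_singleton] using (hg k).1)
    refine ⟨h1, fun i => ?_, ?_⟩
    · have := (hg k).2.1 i
      unfold BrOK at this ⊢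
      rwa [h2 i fun e => hyx i (Set.mem_singleton_iff.1 e).symm]
    · have := (hu'.mul ((hg k).2.2.comp hT)).mul hs
      rw [← div_eq_mul_inv] at this
      refine this.congr' ?_
      filter_upwards [self_mem_nhdsWithin, hne] with z h1 h2
      have h3 : z - y ≠ 0 := sub_ne_zero.2 h1
      have h4 : φ z - φ y ≠ 0 := sub_ne_zero.2 h2
      simp only [Function.comp_apply, slope_def_field]
      field_simp
  · rw [Finset.mul_sum, Finset.sum_div]
    exact Finset.sum_congr rfl fun k _ => by ring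
  · simp only [e, Finset.mul_sum]
    exact Finset.sum_congr rfl fun k _ => by ring

/-- the combination `G - κ G_br` has a purely imaginary coefficient at `x i` (apply `rh_unique` with an auxiliary point `y ∉ range x`;
`RH D x ∅ g → RH D x {y} g`; continuity at `y`) -/
theorem eq_smul_rhbr (hD : NiceP D n) (hx : Function.Injective x) (hxD : ∀ i, x i ∈ D) {i : Fin n} {G Gb : ℂ → ℂ}
    (hG : RH D x ∅ G) (hGo : ∀ k, k ≠ i → BrOK x G k) (hb : RHbr D x i Gb) {κ : ℝ} (hκ : (G (x i) / Gb (x i)).re = κ) :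
    ∀ z ∈ D, G z = κ * Gb z := by
  have hop : IsOpen D := by
    rcases hD with h | ⟨rfl, -⟩
    exacts [h.isOpen, isOpen_univ]
  have hn := hop.mem_nhds (hxD i)
  intro z hz
  obtain ⟨y, hy, hy'⟩ := ((infinite_of_mem_nhds _ hn).sdiff ((Set.finite_range x).insert z)).nonempty
  simp only [Set.mem_insert_iff, Set.mem_range, not_or, not_exists] at hy'
  have := rh_unique hD hx hxD y hy (fun i e => hy'.2 i e.symm) ![1, -κ] ![G, Gb]
    (Fin.forall_fin_two.2 ⟨hG.sing y, hb.1.sing y⟩) (fun k => ?_) ?_ z hz fun e => hy'.1 e.symm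
  · simp only [Fin.sum_univ_two, Matrix.cons_val_zero, Matrix.cons_val_one] at this
    push_cast at this
    linear_combination this
  · by_cases hk : k = i
    · subst hk
      have h1 := hb.2.2
      have h0 : Gb (x k) ≠ 0 := fun e => by simp [cSq, e] at h1
      have h2 : cSq x (fun z => ∑ l, ((![1, -κ] l : ℝ) : ℂ) * ![G, Gb] l z) k =
          ((-(G (x k) / Gb (x k)).im ^ 2 : ℝ) : ℂ) := by
        have h3 : G (x k) = (κ + (G (x k) / Gb (x k)).im * Complex.I) * Gb (x k) := by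
          rw [← hκ, Complex.re_add_im, div_mul_cancel₀ _ h0]
        generalize (G (x k) / Gb (x k)).im = w at h3
        unfold cSq at h1 ⊢
        simp only [Fin.sum_univ_two, Matrix.cons_val_zero, Matrix.cons_val_one]
        rw [h3]
        push_cast
        have : (1 * ((κ + w * Complex.I) * Gb (x k)) + -κ * Gb (x k)) ^ 2 = -(w : ℂ) ^ 2 * Gb (x k) ^ 2 := by
          linear_combination (w : ℂ) ^ 2 * Gb (x k) ^ 2 * Complex.I_sq
        rw [this, mul_div_assoc, h1, mul_one]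
      unfold BrOK
      rw [h2, Complex.ofReal_im, Complex.ofReal_re]
      exact ⟨rfl, neg_nonpos.2 (sq_nonneg _)⟩
    · exact brOK_sum hx _ _ k (Fin.forall_fin_two.2 ⟨hGo k hk, hb.2.1 k hk⟩)
  · have hy2 : D \ ∅ ∈ 𝓝 y := by simpa using hop.mem_nhds hy
    have h1 : ContinuousAt (fun z => (z - y) * ∑ k, ((![1, -κ] k : ℝ) : ℂ) * ![G, Gb] k z) y := by
      simp only [Fin.sum_univ_two, Matrix.cons_val_zero, Matrix.cons_val_one]
      exact (continuousAt_id.sub continuousAt_const).mul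
        ((continuousAt_const.mul (hG.hol.continuousOn.continuousAt hy2)).add
          (continuousAt_const.mul (hb.1.hol.continuousOn.continuousAt hy2)))
    have h2 := h1.tendsto.mono_left (nhdsWithin_le_nhds (s := {y}ᶜ))
    rwa [sub_self, zero_mul] at h2

/-! ### task K1b (multilinear algebra) -/

theorem k1b_gauss {I J : Type} (T : GV I →ₗ[ℝ] GV J) {g : I → I → ℝ} {g' : J → J → ℝ} (hg : Antisym g)
    (h : ∀ i j, bil g' (T (Finsupp.single i 1)) (T (Finsupp.single j 1)) = g i j) (z : Gr I) :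
    gauss g z = gauss g' (gmap T z) := by
  have h0 : ∀ w : Gr I, aug (gmap T w) = aug w := fun w => by
    induction w using CliffordAlgebra.left_induction with
    | algebraMap r => rw [AlgHom.commutes, AlgHom.commutes, AlgHom.commutes]
    | add _ _ hx hy => simp only [map_add, hx, hy]
    | ι_mul x m hx => rw [map_mul, map_mul, map_mul, gmap_iota, aug_iota, aug_iota, zero_mul, zero_mul]
  rw [gauss_apply, gauss_apply, ← gmap_mu T (fun i _ j _ => (h i j).trans (hg.bil_single i j).symm) (mem_supA_univ z), h0]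

theorem k1b_prod {I J κ : Type} (T : GV I →ₗ[ℝ] GV J) {f : κ → Ev I} {f' : κ → Ev J} {c : κ → ℝ}
    (h : ∀ k, gmap T (f k) = c k • (f' k : Gr J)) (s : Finset κ) :
    gmap T (∏ k ∈ s, f k : Ev I) = (∏ k ∈ s, c k) • ((∏ k ∈ s, f' k : Ev J) : Gr J) := by
  induction s using Finset.induction_on with
  | empty => simp
  | insert k s hk ih =>
    rw [Finset.prod_insert hk, Finset.prod_insert hk, Finset.prod_insert hk, Subalgebra.coe_mul, Subalgebra.coe_mul, map_mul,
      h, ih, smul_mul_smul_comm]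

/-- the generator `i` written in the generators with directions `1`, `I` -/
def k1bV : LI n m → GV (LI n m)
  | .inl i => Finsupp.single (.inl i) 1
  | .inr p => p.2.re • Finsupp.single (.inr (p.1, 1)) 1 + p.2.im • Finsupp.single (.inr (p.1, Complex.I)) 1

theorem k1b_bil {M : LI n m → LI n m → ℝ} (hM : Antisym M)
    (hl : ∀ (i : LI n m) (k : Fin m) (b : ℂ), M i (.inr (k, b)) = b.re * M i (.inr (k, 1)) + b.im * M i (.inr (k, Complex.I)))
    (i j : LI n m) : bil M (k1bV i) (k1bV j) = M i j := by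
  have h : ∀ i, bil M (Finsupp.single i 1) (k1bV j) = M i j := fun i => by
    rcases j with j | ⟨k, b⟩
    · exact hM.bil_single _ _
    · rw [hl i k b]
      simp only [k1bV, map_add, map_smul, smul_eq_mul, hM.bil_single]
  rcases i with i | ⟨k, b⟩
  · exact h _
  · rw [hM j, hl j k b, hM (.inr (k, 1)) j, hM (.inr (k, Complex.I)) j, ← h, ← h]
    simp only [k1bV, map_add, map_smul, smul_eq_mul, LinearMap.add_apply, LinearMap.smul_apply]
    ring

theorem k1b_th2 (k : Fin m) (b b' : ℂ) : ExteriorAlgebra.ι ℝ (k1bV (.inr (k, b) : LI n m)) *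
    ExteriorAlgebra.ι ℝ (k1bV (.inr (k, b') : LI n m)) =
      ((starRingEnd ℂ) b * b').im • (th2 (.inr (k, 1)) (.inr (k, Complex.I)) : Ev (LI n m)).1 := by
  simp only [k1bV, th2, th, map_add, map_smul, add_mul, mul_add, smul_mul_smul_comm, ExteriorAlgebra.ι_sq_zero,
    iota_swap (Finsupp.single (.inr (k, Complex.I) : LI n m) 1) (Finsupp.single (.inr (k, 1)) 1), Complex.mul_im,
    Complex.conj_re, Complex.conj_im]
  module

theorem k1b_main {M M' : LI n m → LI n m → ℝ} (hM : Antisym M)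
    (hl : ∀ (i : LI n m) (k : Fin m) (b : ℂ), M i (.inr (k, b)) = b.re * M i (.inr (k, 1)) + b.im * M i (.inr (k, Complex.I)))
    (s : Fin m → ℂ) (ε : Fin n → ℝ)
    (h11 : ∀ i j, M' (.inl i) (.inl j) = ε i * ε j * M (.inl i) (.inl j))
    (h21 : ∀ k b j, M' (.inr (k, b)) (.inl j) = ε j * M (.inr (k, s k * b)) (.inl j))
    (h22 : ∀ k b l b', M' (.inr (k, b)) (.inr (l, b')) = M (.inr (k, s k * b)) (.inr (l, s l * b'))) (hM' : Antisym M')
    (b b' : Fin m → ℂ) :
    gauss M' ((∏ k : Fin m, th2 (.inr (k, b k)) (.inr (k, b' k)) : Ev (LI n m)) : Gr (LI n m)) =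
      (∏ k, ((starRingEnd ℂ) (s k * b k) * (s k * b' k)).im) * limQ M ∧
    gauss M' (spL n m * ((∏ k : Fin m, th2 (.inr (k, b k)) (.inr (k, b' k)) : Ev (LI n m)) : Gr (LI n m))) =
      (∏ i, ε i) * (∏ k, ((starRingEnd ℂ) (s k * b k) * (s k * b' k)).im) * limP M ∧
    gauss M' (spL n m) = (∏ i, ε i) * limP0 M := by
  obtain ⟨T, h1, h2⟩ : ∃ T : GV (LI n m) →ₗ[ℝ] GV (LI n m),
      (∀ i, T (Finsupp.single (.inl i) 1) = ε i • k1bV (.inl i)) ∧
        ∀ k c, T (Finsupp.single (.inr (k, c)) 1) = k1bV (.inr (k, s k * c)) :=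
    ⟨Finsupp.linearCombination ℝ (Sum.elim (fun i => ε i • k1bV (.inl i)) fun p => k1bV (.inr (p.1, s p.1 * p.2))),
      fun i => by simp, fun k c => by simp⟩
  have h3 := k1b_gauss T (g' := M) hM' (by
    rintro (i | ⟨k, c⟩) (j | ⟨l, c'⟩) <;>
      simp only [h1, h2, map_smul, LinearMap.smul_apply, smul_eq_mul, k1b_bil hM hl]
    · rw [h11]; ring
    · rw [hM' (.inr (l, c')), h21, hM (.inr (l, s l * c'))]; ring
    · rw [h21]
    · rw [h22])
  have h4 := k1b_prod T (f := fun k => th2 (.inr (k, b k)) (.inr (k, b' k))) (f' := fun k => th2 (.inr (k, 1)) (.inr (k, Complex.I)))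
    (fun k => by
      rw [← k1b_th2 k (s k * b k) (s k * b' k), ← h2, ← h2, ← gmap_iota, ← gmap_iota, ← map_mul]; rfl) Finset.univ
  have h5 : gmap T (spL n m) = (∏ i, ε i) • spL n m := by
    rw [spL, gmap_wedge, List.ofFn_eq_map, List.map_map, ← List.prod_ofFn, List.ofFn_eq_map, ← wedge_smul]
    exact congrArg wedge (List.map_congr_left fun i _ => h1 i)
  simp only [h3, map_mul, h4, h5, smul_mul_smul_comm, map_smul, smul_eq_mul]
  exact ⟨rfl, rfl, rfl⟩

/-- a kernel that is real-linear in the directions: then `θ_{k,b} θ_{k,b'}` acts as `Im (conj b b') θ_{k,1} θ_{k,I}`.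
Recipe: `gmap_mu` with `T θ_{k,b} = Re b θ_{k,1} + Im b θ_{k,I}`, `T θ_i = θ_i`; `aug_gmap`. -/
theorem gauss_dir {M : LI n m → LI n m → ℝ} (hM : Antisym M)
    (hl : ∀ (i : LI n m) (k : Fin m) (b : ℂ), M i (.inr (k, b)) = b.re * M i (.inr (k, 1)) + b.im * M i (.inr (k, Complex.I)))
    (b b' : Fin m → ℂ) :
    gauss M ((∏ k : Fin m, th2 (.inr (k, b k)) (.inr (k, b' k)) : Ev (LI n m)) : Gr (LI n m)) =
      (∏ k, ((starRingEnd ℂ) (b k) * b' k).im) * limQ M ∧
    gauss M (spL n m * ((∏ k : Fin m, th2 (.inr (k, b k)) (.inr (k, b' k)) : Ev (LI n m)) : Gr (LI n m))) =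
      (∏ k, ((starRingEnd ℂ) (b k) * b' k).im) * limP M := by
  simpa using (k1b_main hM hl 1 1 (by simp) (by simp) (by simp) hM b b').imp_right And.left

/-- relabelling: `M' i j = ε i ε j M (τ i) (τ j)` with `τ (k, b) = (k, s k * b)`, `τ i = i`, `ε = 1` on the energy generators -/
theorem gauss_relabel {M M' : LI n m → LI n m → ℝ} (hM : Antisym M)
    (hl : ∀ (i : LI n m) (k : Fin m) (b : ℂ), M i (.inr (k, b)) = b.re * M i (.inr (k, 1)) + b.im * M i (.inr (k, Complex.I)))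
    (s : Fin m → ℂ) (ε : Fin n → ℝ)
    (h11 : ∀ i j, M' (.inl i) (.inl j) = ε i * ε j * M (.inl i) (.inl j))
    (h21 : ∀ k b j, M' (.inr (k, b)) (.inl j) = ε j * M (.inr (k, s k * b)) (.inl j))
    (h22 : ∀ k b l b', M' (.inr (k, b)) (.inr (l, b')) = M (.inr (k, s k * b)) (.inr (l, s l * b'))) (hM' : Antisym M') :
    limQ M' = (∏ k, ‖s k‖ ^ 2) * limQ M ∧ limP M' = (∏ i, ε i) * (∏ k, ‖s k‖ ^ 2) * limP M ∧ limP0 M' = (∏ i, ε i) * limP0 M := by
  have h := k1b_main hM hl s ε h11 h21 h22 hM' (fun _ => 1) fun _ => Complex.I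
  have e : ∀ k, ((starRingEnd ℂ) (s k * 1) * (s k * Complex.I)).im = ‖s k‖ ^ 2 := fun k => by
    rw [Complex.sq_norm, Complex.normSq_apply]
    simp
  simp only [e] at h
  exact h

/-- linearity in the second slot: read the formulas of `LimK.bulk`; for `i = inl _` use antisymmetry, `Bulk.comb`, `Bulk.unique` -/
theorem LimK.lin (hD : NiceP D n) (hxy : Function.Injective (Fin.append x y)) (hxD : ∀ i, x i ∈ D) (hyD : ∀ k, y k ∈ D)
    {r : Fin m → ℂ} {r' : Fin n → ℂ} {M : LI n m → LI n m → ℝ} (h : LimK D x y r r' M) (i : LI n m) (k : Fin m) (b : ℂ) :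
    M i (.inr (k, b)) = b.re * M i (.inr (k, 1)) + b.im * M i (.inr (k, Complex.I)) := by
  have h0 : ∀ w : ℂ, (w * b).re = b.re * (w * 1).re + b.im * (w * Complex.I).re := fun w => by
    simp only [Complex.mul_re, Complex.one_re, Complex.one_im, Complex.I_re, Complex.I_im]
    ring
  rcases i with j | ⟨l, b₀⟩
  · obtain ⟨hx, -, hne⟩ := Fin.append_injective_iff.1 hxy
    obtain ⟨G, -, -, hG, -, -, -, -, e⟩ := h.bulk k b
    obtain ⟨G₁, -, -, hG₁, -, -, -, -, e₁⟩ := h.bulk k 1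
    obtain ⟨G₂, -, -, hG₂, -, -, -, -, e₂⟩ := h.bulk k Complex.I
    have h1 := hG₁.comb hG₂ b.re b.im
    rw [show (b.re : ℂ) * (Complex.I * lam0 * 1 * r k) + b.im * (Complex.I * lam0 * Complex.I * r k) =
      Complex.I * lam0 * b * r k by linear_combination Complex.I * lam0 * r k * Complex.re_add_im b] at h1
    rw [h.anti (.inr (k, b)), h.anti (.inr (k, 1)), h.anti (.inr (k, Complex.I)), e, e₁, e₂,
      hG.unique hD hx hxD (hyD k) (fun i => (hne i k).symm) h1 _ (hxD j) (hne j k), add_div, mul_div_assoc, mul_div_assoc,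
      Complex.add_im, Complex.im_ofReal_mul, Complex.im_ofReal_mul]
    ring
  · obtain ⟨G, -, c, -, -, -, e, e', -⟩ := h.bulk l b₀
    by_cases hk : k = l
    · subst hk
      rw [e, e, e, h0]
    · rw [e' k hk, e' k hk, e' k hk, h0]

/-! ### task K1c -/

theorem k1c_sign {a b : ℂ} (h : a ^ 2 = b ^ 2) : ∃ s : ℝ, (s = 1 ∨ s = -1) ∧ a = s * b := by
  rcases sq_eq_sq_iff_eq_or_eq_neg.1 h with h | h
  · exact ⟨1, .inl rfl, by simp [h]⟩
  · exact ⟨-1, .inr rfl, by simp [h]⟩

theorem k1c_div {s : ℝ} (hs : s = 1 ∨ s = -1) (a b : ℂ) : a / (s * b) = s * (a / b) := by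
  rcases hs with rfl | rfl <;> simp [div_neg]

theorem k1c_lam : (lam0 : ℂ) ≠ 0 := by
  have : (0 : ℝ) < tc := by
    rw [tc, sub_pos, Real.lt_sqrt zero_le_one]
    norm_num
  exact Complex.ofReal_ne_zero.2 (neg_ne_zero.2 (inv_ne_zero (by positivity)))

/-- **uniqueness up to sign**: `r₂ k = s k r₁ k`, `r₂' i = ε i r₁' i` with signs; `Bulk.unique`, `rhbr_unique`, `gauss_relabel`
(the solution for `(b, r₂)` is the one for `(s b, r₁)`; `c` is determined for `b ≠ 0`, use antisymmetry and `LimK.lin` for `b = 0`). -/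
theorem limK_unique (hD : NiceP D n) (hxy : Function.Injective (Fin.append x y)) (hxD : ∀ i, x i ∈ D) (hyD : ∀ k, y k ∈ D)
    {r₁ r₂ : Fin m → ℂ} {r₁' r₂' : Fin n → ℂ} {M₁ M₂ : LI n m → LI n m → ℝ} (h₁ : LimK D x y r₁ r₁' M₁)
    (h₂ : LimK D x y r₂ r₂' M₂) :
    limQ M₂ = limQ M₁ ∧ ∃ ε : ℝ, (ε = 1 ∨ ε = -1) ∧ limP M₂ = ε * limP M₁ ∧ limP0 M₂ = ε * limP0 M₁ := by
  have hx : Function.Injective x := (Fin.append_injective_iff.1 hxy).1
  have hy : Function.Injective y := (Fin.append_injective_iff.1 hxy).2.1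
  have hyx : ∀ k i, y k ≠ x i := fun k i e => (Fin.append_injective_iff.1 hxy).2.2 i k e.symm
  have hop : IsOpen D := by
    rcases hD with h | ⟨rfl, -⟩
    exacts [h.isOpen, isOpen_univ]
  have hD0 : NiceP D 0 := hD.imp id fun h => ⟨h.1, by simp⟩
  choose s hs es using fun k => k1c_sign ((h₂.hr k).trans (h₁.hr k).symm)
  choose ε hε eε using fun i => k1c_sign ((h₂.hr' i).trans (h₁.hr' i).symm)
  have hr' : ∀ i, r₁' i ≠ 0 := fun i e => by
    have := h₁.hr' i
    rw [e, zero_pow two_ne_zero, eq_comm, Finset.prod_eq_zero_iff] at this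
    obtain ⟨k, hk, e'⟩ := this
    exact Finset.ne_of_mem_erase hk (hx (sub_eq_zero.1 e')).symm
  have key : ∀ k b, (∀ j, M₂ (.inr (k, b)) (.inl j) = ε j * M₁ (.inr (k, s k * b)) (.inl j)) ∧
      ∀ l b', M₂ (.inr (k, b)) (.inr (l, b')) = M₁ (.inr (k, s k * b)) (.inr (l, s l * b')) := by
    intro k b
    obtain ⟨G₂, H₂, c₂, a1, a2, a3, a4, a5, a6⟩ := h₂.bulk k b
    obtain ⟨G₁, H₁, c₁, b1, b2, b3, b4, b5, b6⟩ := h₁.bulk k (s k * b)
    rw [es k, show Complex.I * lam0 * b * (s k * r₁ k) = Complex.I * lam0 * (s k * b) * r₁ k by ring] at a1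
    have eG := Bulk.unique hD hx hxD (hyD k) (hyx k) a1 b1
    refine ⟨fun j => ?_, fun l b' => ?_⟩
    · rw [a6, b6, eG _ (hxD j) (hyx k j).symm, eε j, k1c_div (hε j), Complex.im_ofReal_mul]
    by_cases hl : l = k
    · subst hl
      by_cases hb : b = 0
      · obtain ⟨_, _, _, -, -, -, d4, -⟩ := h₂.bulk l b'
        obtain ⟨_, _, _, -, -, -, e4, -⟩ := h₁.bulk l (s l * b')
        rw [h₂.anti, h₁.anti (.inr (l, s l * b')), d4, e4, hb]
        simp
      have a2' := a2.comb a2 (s l) 0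
      rw [show (s l : ℂ) * (Complex.I * lam0 * b) + (0 : ℝ) * (Complex.I * lam0 * b) = Complex.I * lam0 * (s l * b) by
        push_cast; ring] at a2'
      have eH := Bulk.unique hD0 (fun i => i.elim0) (fun i => i.elim0) (hyD l) (fun i => i.elim0) a2' b2
      have e : 2 * (Complex.I * lam0 * b) * c₂ = 2 * (Complex.I * lam0 * (s l * b)) * c₁ := by
        refine tendsto_nhds_unique a3 (b3.congr' ?_)
        filter_upwards [self_mem_nhdsWithin, mem_nhdsWithin_of_mem_nhds (hop.mem_nhds (hyD l))] with z hz hzD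
        rw [eG z hzD hz, ← eH z hzD hz]
        rcases hs l with e | e <;> simp [e]
      have e' : c₂ = c₁ * s l := mul_left_cancel₀
        (mul_ne_zero two_ne_zero (mul_ne_zero (mul_ne_zero Complex.I_ne_zero k1c_lam) hb)) (by rw [e]; ring)
      rw [a4, b4, e', mul_assoc]
    · rw [a5 l hl, b5 l hl, eG _ (hyD l) (hy.ne hl), es l, k1c_div (hs l)]
      congr 1
      ring
  have h11 : ∀ i j, M₂ (.inl i) (.inl j) = ε i * ε j * M₁ (.inl i) (.inl j) := by
    intro i j
    by_cases hj : j = i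
    · subst hj
      have a := h₁.anti (.inl j) (.inl j)
      have b := h₂.anti (.inl j) (.inl j)
      rw [show M₁ (.inl j) (.inl j) = 0 by linarith, mul_zero]
      linarith
    obtain ⟨G₂, a1, a2, a3⟩ := h₂.br i
    obtain ⟨G₁, b1, b2, b3⟩ := h₁.br i
    obtain ⟨σ, hσ⟩ : ∃ σ : ℂ, ∀ z ∈ D, G₂ z = σ * G₁ z := by
      rcases (rhbr_unique hD hx hxD a1 b1).1 with h | h
      · exact ⟨1, fun z hz => by rw [h z hz, one_mul]⟩
      · exact ⟨-1, fun z hz => by rw [h z hz, neg_one_mul]⟩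
    obtain rfl : σ = ε i := mul_right_cancel₀ (hr' i) (by rw [← eε i, ← a2, hσ _ (hxD i), b2])
    rw [a3 j hj, b3 j hj, hσ _ (hxD j), eε j, k1c_div (hε j), mul_div_assoc, Complex.im_ofReal_mul, Complex.im_ofReal_mul]
    ring
  obtain ⟨q1, q2, q3⟩ := gauss_relabel h₁.anti (h₁.lin hD hxy hxD hyD) (fun k => (s k : ℂ)) ε h11
    (fun k b j => (key k b).1 j) (fun k b l b' => (key k b).2 l b') h₂.anti
  have e1 : ∏ k, ‖(s k : ℂ)‖ ^ 2 = 1 := Finset.prod_eq_one fun k _ => by rcases hs k with e | e <;> simp [e]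
  rw [e1] at q1 q2
  refine ⟨by rw [q1, one_mul], ∏ i, ε i, ?_, by rw [q2, mul_one], q3⟩
  refine Finset.prod_induction _ (fun t : ℝ => t = 1 ∨ t = -1) ?_ (.inl rfl) fun i _ => hε i
  rintro a b (rfl | rfl) (rfl | rfl) <;> simp

/-! ### task K1d -/

/-- **covariance**: `exists_factor` for `x` (`u`) and for `![]` (`u₀`, `u₀² = φ'`); `s k = u₀ (y k)`, `r k = u (y k) r̃ k / s k`,
`r' i = u (x i) r̃' i` (`CA.factor_eq` at `z = x i`), `M = M' ∘ τ`; `Bulk.pullback`, `rh_pullback`; the diagonal term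
`(z - y) φ'(z) [..](φ z) → 2 I lam0 (s b) c'`, so `c = s c'`; `gauss_relabel`, `‖s k‖² = ‖φ' (y k)‖`. -/
theorem limK_pullback (hD : Nice D) (hD' : Nice D') {φ : ℂ → ℂ} (hφ : DifferentiableOn ℂ φ D) (hb : Set.BijOn φ D D')
    (hφ' : ∀ z ∈ D, deriv φ z ≠ 0)
    (hxy : Function.Injective (Fin.append x y)) (hxD : ∀ i, x i ∈ D) (hyD : ∀ k, y k ∈ D)
    {r : Fin m → ℂ} {r' : Fin n → ℂ} {M' : LI n m → LI n m → ℝ}
    (h : LimK D' (fun i => φ (x i)) (fun k => φ (y k)) r r' M') :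
    ∃ (r₁ : Fin m → ℂ) (r₁' : Fin n → ℂ) (M : LI n m → LI n m → ℝ), LimK D x y r₁ r₁' M ∧
      limQ M = (∏ k, ‖deriv φ (y k)‖) * limQ M' ∧ limP M = (∏ k, ‖deriv φ (y k)‖) * limP M' ∧ limP0 M = limP0 M' := by
  obtain ⟨hx, hy, hxy'⟩ := Fin.append_injective_iff.1 hxy
  obtain ⟨u, hu1, hu2, hu3⟩ := exists_factor hD hφ hb hx hxD
  obtain ⟨u₀, hv1, hv2, hv3⟩ := exists_factor hD hφ hb (x := (![] : Fin 0 → ℂ)) (fun i => i.elim0) fun i => i.elim0
  have hv4 : ∀ z ∈ D, u₀ z ^ 2 = deriv φ z := fun z hz => by simpa [rhoX] using hv3 z hz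
  let τ : LI n m → LI n m := Sum.map id fun p => (p.1, u₀ (y p.1) * p.2)
  have hanti : Antisym fun i j => M' (τ i) (τ j) := fun i j => h.anti _ _
  refine ⟨fun k => u (y k) * r k / u₀ (y k), fun i => u (x i) * r' i, fun i j => M' (τ i) (τ j),
    ⟨fun k => ?_, fun i => ?_, hanti, fun k b => ?_, fun i => ?_⟩, ?_⟩
  · rw [div_pow, mul_pow, h.hr, hu3 _ (hyD k), hv4 _ (hyD k), mul_div_cancel_left₀ _ (hφ' _ (hyD k))]
  · have := factor_eq hD.isOpen hφ hxD hu1 hu3 i _ (hxD i)
    rw [dslope_same, mul_left_comm] at this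
    rw [mul_pow, h.hr']
    exact mul_left_cancel₀ (hφ' _ (hxD i)) this
  · obtain ⟨G, G₀, c, h1, h2, h3, h4, h5, h6⟩ := h.bulk k (u₀ (y k) * b)
    have hs := hv2 _ (hyD k)
    have hn := hD.isOpen.mem_nhds (hyD k)
    refine ⟨fun z => u z * G (φ z), fun z => u₀ z * G₀ (φ z), u₀ (y k) * c, ?_, ?_, ?_, fun b' => ?_, fun l hl b' => ?_,
      fun i => ?_⟩
    · convert Bulk.pullback hD hD' hφ hb hx hxD hu1 hu3 (hyD k) (fun i => (hxy' i k).symm) (hφ' _ (hyD k)) h1 using 1
      rw [← hv4 _ (hyD k)]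
      field_simp
    · convert Bulk.pullback hD hD' hφ hb (x := (![] : Fin 0 → ℂ)) (fun i => i.elim0) (fun i => i.elim0) hv1 hv3 (hyD k)
        (fun i => i.elim0) (hφ' _ (hyD k)) (Subsingleton.elim (![] : Fin 0 → ℂ) _ ▸ h2) using 1
      rw [← hv4 _ (hyD k)]
      field_simp
    · have t1 : Tendsto φ (𝓝[≠] (y k)) (𝓝[≠] (φ (y k))) := by
        refine tendsto_nhdsWithin_iff.2 ⟨(hφ.continuousOn.continuousAt hn).tendsto.mono_left nhdsWithin_le_nhds, ?_⟩
        filter_upwards [self_mem_nhdsWithin, mem_nhdsWithin_of_mem_nhds hn] with w hw hw' e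
        exact hw (hb.injOn hw' (hyD k) e)
      have t2 : Tendsto (fun z => deriv φ z / dslope φ (y k) z) (𝓝[≠] (y k)) (𝓝 1) := by
        have := (((hφ.deriv hD.isOpen).continuousOn.continuousAt hn).div
          (continuousAt_dslope_same.2 (hφ.differentiableAt hn)) (by rw [dslope_same]; exact hφ' _ (hyD k))).tendsto
        rw [Pi.div_apply, dslope_same, div_self (hφ' _ (hyD k))] at this
        exact this.mono_left nhdsWithin_le_nhds
      have t3 := t2.mul (h3.comp t1)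
      rw [show 1 * (2 * (Complex.I * lam0 * (u₀ (y k) * b)) * c) = 2 * (Complex.I * lam0 * b) * (u₀ (y k) * c) by ring]
        at t3
      refine t3.congr' ?_
      filter_upwards [self_mem_nhdsWithin, mem_nhdsWithin_of_mem_nhds hn] with w hw hw'
      have e1 := sub_mul_dslope φ (y k) w
      have e2 : dslope φ (y k) w ≠ 0 := fun e => hw (hb.injOn hw' (hyD k) (by rwa [e, mul_zero, eq_comm, sub_eq_zero] at e1))
      have e3 : (u w * G (φ w)) ^ 2 / rhoX x w = deriv φ w * (G (φ w) ^ 2 / rhoX (fun i => φ (x i)) (φ w)) := by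
        have e4 := hu3 w hw'
        by_cases e5 : rhoX x w = 0
        · rw [e5, mul_zero, mul_eq_zero] at e4
          rw [e5, e4.resolve_left (pow_ne_zero 2 (hu2 w hw')), div_zero, div_zero, mul_zero]
        · have e6 : rhoX (fun i => φ (x i)) (φ w) ≠ 0 := fun e => mul_ne_zero (hφ' w hw') e5 (by rw [← e4, e, mul_zero])
          field_simp
          linear_combination G (φ w) ^ 2 * e4
      simp only [Function.comp]
      rw [e3, mul_pow, hv4 w hw', ← e1]
      field_simp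
    · exact (h4 _).trans (by congr 1; ring)
    · refine (h5 l hl _).trans ?_
      congr 1
      rw [div_div_eq_mul_div, mul_assoc (u (y l)), mul_div_mul_left _ _ (hu2 _ (hyD l))]
      ring
    · exact (h6 i).trans (by rw [mul_div_mul_left _ _ (hu2 _ (hxD i))])
  · obtain ⟨G, g1, g2, g3⟩ := h.br i
    obtain ⟨h1, h2⟩ := rh_pullback hD hD' hφ hb hx hxD hu1 hu3 (Set.empty_subset _) Set.finite_empty
      (g := G) (by rw [Set.image_empty]; exact g1.1)
    refine ⟨fun z => u z * G (φ z), ⟨h1, fun k hk => by unfold BrOK; rw [h2 k id]; exact g1.2.1 k hk,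
      (h2 i id).trans g1.2.2⟩, congrArg _ g2, fun j hj => (g3 j hj).trans ?_⟩
    rw [mul_div_mul_left _ _ (hu2 _ (hxD j))]
  · have hinj : Function.Injective (Fin.append (fun i => φ (x i)) fun k => φ (y k)) :=
      Fin.append_injective_iff.2 ⟨fun i j e => hx (hb.injOn (hxD i) (hxD j) e), fun i j e => hy (hb.injOn (hyD i) (hyD j) e),
        fun i j e => hxy' i j (hb.injOn (hxD i) (hyD j) e)⟩
    have := gauss_relabel h.anti
      (h.lin (Or.inl hD') hinj (fun i => hb.mapsTo (hxD i)) fun k => hb.mapsTo (hyD k)) (fun k => u₀ (y k)) (fun _ => 1)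
      (M' := fun i j => M' (τ i) (τ j)) (fun i j => by simp [τ]) (fun k b j => by simp [τ]) (fun k b l b' => rfl) hanti
    have e : ∏ k, ‖u₀ (y k)‖ ^ 2 = ∏ k, ‖deriv φ (y k)‖ :=
      Finset.prod_congr rfl fun k _ => by rw [← norm_pow, hv4 _ (hyD k)]
    simpa only [e, Finset.prod_const_one, one_mul] using this

/-! ### task K1e -/

/-- **uniqueness for the free problem (parity).** Transport to the disc (as in `rh_unique`). `W z = z G² / ρ` has vanishing defect at the circle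
(`CA.disc_defect`, `CA.defect_sum`). `P z = z Σ c_i² (1/(z - x_i) + conj x_i / (1 - z conj x_i))` is `Σ c_i² Poisson(x_i, z)` on the circle; `W - P` is
holomorphic in the disc with `Im → 0` at the circle, vanishes at `0`, so `W = P` (`CA.maxp`). If some `c_i ≠ 0`: `Re P > 0` and
`Re (1 - x_i / z) > 0` on a circle `‖z‖ = r` close to `1`, so `z^{n-1} = G² / (P Π (1 - x_i/z))` has a continuous square root on it, impossible for `n`
even (`s (r e^{iθ}) e^{-i(n-1)θ/2}` is continuous with constant square, takes opposite values at `0` and `2π`). So all `c_i = 0`: `BrOK`, `rh_unique`. -/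
theorem free_unique (hD : Nice D) (hn : Even n) (hx : Function.Injective x) (hxD : ∀ i, x i ∈ D) {l : ℕ} (t : Fin l → ℝ)
    (g : Fin l → ℂ → ℂ) (hg : ∀ k, RH D x ∅ (g k))
    (hc : ∀ i, (cSq x (fun z => ∑ k, (t k : ℂ) * g k z) i).im = 0 ∧ 0 ≤ (cSq x (fun z => ∑ k, (t k : ℂ) * g k z) i).re) :
    ∀ z ∈ D, ∑ k, (t k : ℂ) * g k z = 0 := by
  exact k1e_free hD hn hx hxD t g hg hc

/-! ### task K1f -/

theorem k1f_lam0 : lam0 ≠ 0 := by
  have h1 : (1 : ℝ) < Real.sqrt 2 := Real.lt_sqrt_of_sq_lt (by norm_num)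
  have h2 : 0 < tc := by unfold tc; linarith
  have h3 : 0 < 2 * Real.pi * tc := by positivity
  unfold lam0
  exact neg_ne_zero.2 (inv_ne_zero h3.ne')

theorem k1f_bil {I : Type} {g : I → I → ℝ} (hg : Antisym g) (i j : I) :
    bil g (Finsupp.single i 1) (Finsupp.single j 1) = g i j := by
  simp only [bil, bil0, LinearMap.smul_apply, LinearMap.sub_apply, LinearMap.BilinForm.flip_apply,
    Finsupp.linearCombination_single, one_smul, smul_eq_mul, hg i j]
  ring

theorem k1f_re {w : ℂ} (h1 : (w ^ 2).im = 0) (h2 : (w ^ 2).re ≤ 0) : w.re = 0 := by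
  rw [sq, Complex.mul_im] at h1
  rw [sq, Complex.mul_re] at h2
  by_contra h
  have h3 : w.im = 0 := by
    have : w.re * w.im = 0 := by linarith
    exact (mul_eq_zero.1 this).resolve_left h
  rw [h3] at h2
  exact h (by nlinarith [mul_self_nonneg w.re])

/-- `limP0² = det (M (inl i) (inl j))` (`gauss_wedge_sq'`); a null vector `t` gives `G = Σ t_i G_i` with `G (x j) / r' j = t j` real
(`G_i (x j) / r' j` is purely imaginary for `j ≠ i` by `BrOK`), so `G = 0` by `free_unique`, so `t = 0`. -/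
theorem limP0_ne (hD : Nice D) (hn : Even n) (hx : Function.Injective x) (hxD : ∀ i, x i ∈ D)
    {r : Fin m → ℂ} {r' : Fin n → ℂ} {M : LI n m → LI n m → ℝ} (h : LimK D x y r r' M) : limP0 M ≠ 0 := by
  intro h0
  have hdet := gauss_wedge_sq' M n fun i : Fin n => Finsupp.single (Sum.inl i : LI n m) (1 : ℝ)
  have h1 : gauss M (wedge (List.ofFn fun i : Fin n => Finsupp.single (Sum.inl i : LI n m) (1 : ℝ))) = 0 := h0
  rw [h1, sq, mul_zero] at hdet
  obtain ⟨t, ht0, ht⟩ := Matrix.exists_vecMul_eq_zero_iff.2 hdet.symm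
  have ht' : ∀ j, ∑ i, t i * M (.inl i) (.inl j) = 0 := by
    intro j
    have := congrFun ht j
    simpa only [Matrix.vecMul, dotProduct, Matrix.of_apply, k1f_bil h.anti, Pi.zero_apply] using this
  choose G hG hGx hGM using h.br
  have hr : ∀ j, r' j ≠ 0 := by
    intro j hj
    have h2 := h.hr' j
    rw [hj, sq, mul_zero, eq_comm, Finset.prod_eq_zero_iff] at h2
    obtain ⟨k, hk, hk'⟩ := h2
    exact (Finset.mem_erase.1 hk).1 (hx (sub_eq_zero.1 hk')).symm
  have hc : ∀ (g : ℂ → ℂ) j, cSq x g j = (g (x j) / r' j) ^ 2 := by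
    intro g j
    rw [cSq, div_pow, h.hr']
  have key : ∀ j, (∑ i, (t i : ℂ) * G i (x j)) / r' j = t j := by
    intro j
    rw [Finset.sum_div]
    have hre : ∀ i, i ≠ j → (G i (x j) / r' j).re = 0 := by
      intro i hi
      have hb := (hG i).2.1 j hi.symm
      rw [BrOK, hc] at hb
      exact k1f_re hb.1 hb.2
    have hjj : G j (x j) / r' j = 1 := by rw [hGx, div_self (hr j)]
    apply Complex.ext
    · rw [Complex.re_sum, Finset.sum_eq_single j]
      · rw [mul_div_assoc, hjj, mul_one]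
      · intro i _ hi
        rw [mul_div_assoc, Complex.re_ofReal_mul, hre i hi, mul_zero]
      · simp
    · rw [Complex.im_sum, Complex.ofReal_im]
      refine mul_left_cancel₀ k1f_lam0 ?_
      rw [mul_zero, Finset.mul_sum, ← ht' j]
      refine Finset.sum_congr rfl fun i _ => ?_
      rw [mul_div_assoc, Complex.im_ofReal_mul]
      by_cases hi : i = j
      · subst hi
        have : M (.inl i) (.inl i) = 0 := by linarith [h.anti (.inl i) (.inl i)]
        rw [hjj, this]; simp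
      · rw [hGM i j (Ne.symm hi)]; ring
  have hz := free_unique hD hn hx hxD t G (fun k => (hG k).1) fun i => by
    rw [hc, key, ← Complex.ofReal_pow, Complex.ofReal_im, Complex.ofReal_re]
    exact ⟨rfl, sq_nonneg _⟩
  refine ht0 (funext fun j => ?_)
  have h3 := key j
  rw [hz (x j) (hxD j), zero_div] at h3
  exact_mod_cast h3.symm

end Crest.Agent.R165.C
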