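import Crest.Agent.R165.C.Z1

/-! # R165/C: auxiliary lemmas for task Z2b (`ZeroMode.sq_lim`) -/

set_option autoImplicit false
noncomputable section
open Classical Filter Topology Metric Crest.ProbabilityR.IsingModel

namespace Crest.Agent.R165.C

theorem z2b_spins (c : ℕ → Site) (k : ℕ) : spinsOf (one c k) = {c k} := by
  ext p; simp [spinsOf, one]

theorem z2b_norm_rt (z : ℂ) : ‖rt z‖ ^ 2 = ‖z‖ := by
  have h : ((-z) ^ (1 / 2 : ℂ)) ^ 2 = -z := by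
    simp
  rw [← norm_pow, rt, mul_pow, h]; simp

theorem z2b_fld_smul (t : ℝ) (s : Fn) (p : Site) : fld (t • s) p = t * fld s p := by
  have := fld_comb t 0 s s p
  simpa using this

theorem z2b_gF {t : ℝ} (ht : 0 < t) (φ : Fn) (k : ℕ) (p : Site) :
    gF t (one (fun _ => 0) k) ((Real.sqrt t)⁻¹ • φ) p = gfld {0} φ p := by
  have h1 : t ^ (((1 : ℕ) : ℝ) / 2) = Real.sqrt t := by
    rw [Real.sqrt_eq_rpow]; norm_num
  have h2 : (Real.sqrt t : ℂ) ≠ 0 := Complex.ofReal_ne_zero.2 (Real.sqrt_pos.2 ht).ne'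
  rw [gF, h1, z2b_spins, gfld, gfld, z2b_fld_smul, Complex.ofReal_inv]
  field_simp

theorem z2b_bdd {φ : Fn} (h : ZeroMode φ) : ∃ B : ℝ, ∀ p, ‖gfld {0} φ p‖ ≤ B := by
  obtain ⟨-, C, hC⟩ := h
  refine ⟨Real.sqrt (6 * C ^ 2), fun p => Real.le_sqrt_of_sq_le ?_⟩
  set l : ℕ := supd p 0 + 1 with hl
  have hl0 : (0 : ℝ) < l := by rw [hl]; positivity
  have hd : (l : ℝ) ≤ dB {0} l p := le_dB le_rfl fun v hv => by
    rw [Finset.mem_singleton.1 hv, hl]; push_cast; exact le_rfl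
  have h1 : ∀ α, |φ (p, α)| ≤ |C| / Real.sqrt l := fun α => by
    have h2 := hC l (by omega) p (Set.mem_univ _) α
    have h3 : φ (p, α) ^ 2 * l ≤ (C / Real.sqrt l) ^ 2 * l :=
      (mul_le_mul_of_nonneg_left hd (sq_nonneg _)).trans h2
    have h4 := le_of_mul_le_mul_right h3 hl0
    have h5 := sq_le_sq.1 h4
    rwa [abs_div, abs_of_nonneg (Real.sqrt_nonneg _)] at h5
  have h2 := norm_fld_le h1
  have h3 : ‖fld φ p‖ ^ 2 ≤ 4 * C ^ 2 / l := by
    refine (pow_le_pow_left₀ (norm_nonneg _) h2 2).trans (le_of_eq ?_)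
    rw [mul_pow, div_pow, Real.sq_sqrt hl0.le, sq_abs]; ring
  have h4 : ‖pos p - toC 0‖ ≤ 3 / 2 * l := by
    have e : pos p - toC 0 = (toC p - toC 0) + (1 + Complex.I) / 2 := by rw [pos]; ring
    have h5 := dist_le_supd p 0
    have h6 : ‖(1 + Complex.I) / 2‖ ≤ 1 := by
      rw [norm_div]
      have := norm_add_le (1 : ℂ) Complex.I
      simp only [norm_one, Complex.norm_I] at this
      have h7 : ‖(2 : ℂ)‖ = 2 := by simp
      rw [h7]; linarith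
    have h8 := norm_add_le (toC p - toC 0) ((1 + Complex.I) / 2)
    rw [e, hl]; push_cast; linarith
  rw [gfld, Finset.prod_singleton, norm_mul, mul_pow, z2b_norm_rt]
  calc ‖fld φ p‖ ^ 2 * ‖pos p - toC 0‖ ≤ 4 * C ^ 2 / l * (3 / 2 * l) :=
        mul_le_mul h3 h4 (norm_nonneg _) (by positivity)
    _ = 6 * C ^ 2 := by field_simp; ring

theorem z2b_liou {g : ℂ → ℂ} (hg : DifferentiableOn ℂ g {0}ᶜ) {B : ℝ} (hB : ∀ z ∈ ({0}ᶜ : Set ℂ), ‖g z‖ ≤ B) :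
    ∃ γ, ∀ z ∈ ({0}ᶜ : Set ℂ), g z = γ := by
  have hp : Tendsto (fun z => (z - 0) * g z) (𝓝[≠] 0) (𝓝 0) := by
    refine squeeze_zero_norm' (a := fun z => ‖z‖ * B) ?_ ?_
    · filter_upwards [self_mem_nhdsWithin] with z hz
      rw [sub_zero, norm_mul]
      exact mul_le_mul_of_nonneg_left (hB z hz) (norm_nonneg _)
    · have : Tendsto (fun z : ℂ => ‖z‖ * B) (𝓝 0) (𝓝 (‖(0 : ℂ)‖ * B)) :=
        (continuous_norm.mul continuous_const).tendsto 0
      rw [norm_zero, zero_mul] at this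
      exact this.mono_left nhdsWithin_le_nhds
  obtain ⟨g', h1, h2⟩ := removable isOpen_univ (Set.mem_univ (0 : ℂ))
    (by rwa [← Set.compl_eq_univ_sdiff]) hp
  have hd : Differentiable ℂ g' := differentiableOn_univ.1 h1
  have hb : Bornology.IsBounded (Set.range g') := by
    refine (isBounded_iff_forall_norm_le).2 ⟨max B ‖g' 0‖, ?_⟩
    rintro _ ⟨z, rfl⟩
    by_cases hz : z = 0
    · rw [hz]; exact le_max_right _ _
    · rw [h2 z hz]; exact (hB z hz).trans (le_max_left _ _)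
  exact ⟨g' 0, fun z hz => by rw [← h2 z hz]; exact hd.apply_eq_apply_of_bounded hb z 0⟩

theorem z2b_exH {w : Edge → ℝ} {φ : Fn} (h : SolOn w Set.univ φ) : ∃ Hw Hb, IsH w φ Set.univ Hw Hb := by
  obtain ⟨Hw, Hb, hH⟩ := exists_H_rect (w := w) (s := φ) (I := Set.univ) (J := Set.univ) Set.ordConnected_univ
    (b₀ := 0) (Set.mem_univ _) fun a b _ _ => cornerOK_of_sol (h _ (Set.mem_univ _))
  exact ⟨Hw, Hb, fun x _ α => hH x (Set.mem_univ _) (Set.mem_univ _) α⟩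

theorem z2b_lap_nonneg {S : Finset Site} {φ : Fn} (h : SolOn (wOf Set.univ S) Set.univ φ) {Hw Hb : Site → ℝ}
    (hH : IsH (wOf Set.univ S) φ Set.univ Hw Hb) (p : Site) : 0 ≤ lap Hw p := by
  have := (lapN_ge (E := Set.univ) (S := S) (s := φ) (Hw := Hw) (Hb := Hb) (x := p)
    (fun x _ => hH x (Set.mem_univ _)) fun x _ => h x (Set.mem_univ _)).1
  simpa [lapN, lap] using this

theorem z2b_opp_smul (t : ℝ) (s : Fn) (x : Site) (α : Fin 4) : opp (t • s) x α = t * opp s x α := by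
  simp only [opp, sv]; split_ifs <;> simp

theorem z2b_isH_smul {w : Edge → ℝ} {φ : Fn} {W : Set Site} {Hw Hb : Site → ℝ} (hH : IsH w φ W Hw Hb) (t : ℝ) :
    IsH w (t • φ) W (fun p => t ^ 2 * Hw p) fun p => t ^ 2 * Hb p := by
  intro x hx α
  have := hH x hx α
  simp only [cP, z2b_opp_smul, Pi.smul_apply, smul_eq_mul] at this ⊢
  rw [← mul_sub, this]; ring

theorem z2b_key {φ : Fn} (h : ZeroMode φ) {Hw Hb : Site → ℝ} (hH : IsH (wOf Set.univ {0}) φ Set.univ Hw Hb)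
    {a : ℕ → ℝ} (ha : ∀ k, 0 < a k) (ha0 : Tendsto a atTop (𝓝 0))
    (hb : BulkSeq {0}ᶜ a (one fun _ => 0) (fun _ => Set.univ) fun k => (Real.sqrt (a k))⁻¹ • φ) :
    ∃ (ψ : ℕ → ℕ) (γ : ℂ), StrictMono ψ ∧ CLim (a ∘ ψ) {0}ᶜ (fun _ => gfld {0} φ) (fun _ => γ) ∧ (γ ^ 2).im = 0 ∧
      Tendsto (fun R : ℕ => ∑ p ∈ box 0 R, lap Hw p) atTop (𝓝 (-(2 * Real.pi * (1 - tc ^ 2)) * (γ ^ 2).re)) := by
  have hc : ∀ b : ℕ → ℝ, PtLim b (fun _ => 0) 0 := fun b => by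
    have : toC 0 = 0 := by simp [toC, Complex.ext_iff]
    simp [PtLim, this]
  have hinj : ∀ k : ℕ, Function.Injective (one (fun _ => (0 : Site)) k) := fun k =>
    Function.injective_of_subsingleton _
  obtain ⟨ψ, g, hψ, hgd, hg1, hg2, -⟩ := lim_bulk0 (x := fun _ : Fin 1 => (0 : ℂ)) isOpen_compl_singleton ha ha0
    (Eventually.of_forall hinj) (fun _ => hc a) (fun _ => by simp) hb
  have ha' : ∀ k, 0 < (a ∘ ψ) k := fun k => ha _
  have ha0' : Tendsto (a ∘ ψ) atTop (𝓝 0) := ha0.comp hψ.tendsto_atTop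
  have hg1' : CLim (a ∘ ψ) {0}ᶜ (fun _ => gfld {0} φ) g := by
    intro z hz v hv
    have := hg1 z hz v hv
    simpa only [z2b_gF (ha _)] using this
  obtain ⟨B, hB⟩ := z2b_bdd h
  obtain ⟨γ, hγ⟩ := z2b_liou hgd (B := B) fun z hz => by
    obtain ⟨v, hv⟩ := exists_ptLim ha' ha0' z
    exact le_of_tendsto' (hg1' z hz v hv).norm fun k => hB _
  have hsub : ball (0 : ℂ) (2 * 1) \ {0} ⊆ {0}ᶜ := fun z hz => hz.2
  have hb' : BulkSeq (ball (0 : ℂ) (2 * 1) \ {0}) (a ∘ ψ) (one fun _ => 0) (fun _ => Set.univ)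
      fun k => (Real.sqrt (a (ψ k)))⁻¹ • φ := fun K hK hKU => hb.subseq hψ K hK (hKU.trans hsub)
  have hΨ : DifferentiableOn ℂ (fun z => γ ^ 2 * z) (ball 0 (2 * 1)) := by fun_prop
  have hder : deriv (fun z : ℂ => γ ^ 2 * z) 0 = γ ^ 2 := by simp
  have hP : CLim (a ∘ ψ) (ball (0 : ℂ) (2 * 1) \ {0})
      (fun k p => fld ((Real.sqrt (a (ψ k)))⁻¹ • φ) p * fld ((Real.sqrt (a (ψ k)))⁻¹ • φ) p)
      fun z => γ ^ 2 * z / (z - 0) ^ 2 := by
    intro z hz v hv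
    have h1 := hg2 z (hsub hz) v hv
    have hz0 : z ≠ 0 := hz.2
    have e : g z ^ 2 / rhoX (fun _ : Fin 1 => (0 : ℂ)) z = γ ^ 2 * z / (z - 0) ^ 2 := by
      rw [hγ z (hsub hz)]; simp only [rhoX, Fin.prod_univ_one, sub_zero]; field_simp
    simp only [e] at h1
    simpa only [sq] using h1
  have hsol : ∀ t : ℝ, SolOn (wOf Set.univ {0}) Set.univ (t • φ) := fun t => by
    simpa using h.1.comb h.1 t 0
  have h1 := bform_lim (x := fun _ : Fin 1 => (0 : ℂ)) ha' ha0' (Eventually.of_forall hinj) (fun _ => hc _)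
    (hc _) one_pos (fun _ => by simp) hb' hb' hΨ hP
  have h2 := flux_lim (x := fun _ : Fin 1 => (0 : ℂ)) ha' ha0' (Eventually.of_forall hinj) (fun _ => hc _)
    (hc _) one_pos (fun _ => by simp) hb' (fun k p => (Real.sqrt (a (ψ k)))⁻¹ ^ 2 * Hw p)
    (fun K _ _ => Eventually.of_forall fun k => ⟨fun p => (Real.sqrt (a (ψ k)))⁻¹ ^ 2 * Hb p, by
      rw [z2b_spins]; exact fun x _ => z2b_isH_smul hH _ x (Set.mem_univ _)⟩) hΨ hP
  rw [hder] at h1 h2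
  refine ⟨ψ, γ, hψ, fun z hz v hv => by simpa only [hγ z hz] using hg1' z hz v hv, ?_, ?_⟩
  · have h3 : ∀ k, (a ∘ ψ) k * bform (wOf Set.univ (spinsOf (one (fun _ => 0) k))) (bI 0 ⌊1 / (a ∘ ψ) k⌋₊)
        ((Real.sqrt (a (ψ k)))⁻¹ • φ) ((Real.sqrt (a (ψ k)))⁻¹ • φ) = 0 := fun k => by
      rw [green_box, z2b_spins]
      simp only [hsol _ _ (Set.mem_univ _), mul_zero, zero_mul, add_zero, Finset.sum_const_zero, neg_zero]
    simp only [h3] at h1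
    have h4 := tendsto_nhds_unique h1 tendsto_const_nhds
    have h5 : 2 * Real.pi * tc ≠ 0 := mul_ne_zero (by positivity) tc_pos.1.ne'
    exact (mul_eq_zero.1 h4).resolve_left h5
  · have hm : Monotone fun R : ℕ => ∑ p ∈ box 0 R, lap Hw p := fun R R' hR =>
      Finset.sum_le_sum_of_subset_of_nonneg (box_mono 0 hR) fun p _ _ => z2b_lap_nonneg h.1 hH p
    have hN : Tendsto (fun k => ⌊1 / (a ∘ ψ) k⌋₊) atTop atTop := by
      refine tendsto_nat_floor_atTop.comp ?_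
      simp only [one_div]
      exact tendsto_inv_nhdsGT_zero.comp (tendsto_nhdsWithin_iff.2 ⟨ha0', Eventually.of_forall ha'⟩)
    rw [tendsto_iff_tendsto_subseq_of_monotone hm hN]
    refine h2.congr fun k => ?_
    simp only [lap_const_mul, ← Finset.mul_sum, Function.comp]
    rw [inv_pow, Real.sq_sqrt (ha _).le, ← mul_assoc, mul_inv_cancel₀ (ha _).ne', one_mul]

theorem z2b_sq_lim {φ : Fn} (h : ZeroMode φ) (hb : ∀ a : ℕ → ℝ, (∀ k, 0 < a k) → Tendsto a atTop (𝓝 0) →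
    BulkSeq {0}ᶜ a (one fun _ => 0) (fun _ => Set.univ) fun k => (Real.sqrt (a k))⁻¹ • φ) : ∃ ϑ : ℝ,
    Tendsto (fun p => gfld {0} φ p ^ 2) cofinite (𝓝 ((Complex.I * ϑ) ^ 2)) ∧
    ∀ j, Tendsto (fun p => gfld {0} φ (p + uv j) - gfld {0} φ p) cofinite (𝓝 0) := by
  obtain ⟨Hw, Hb, hH⟩ := z2b_exH h.1
  have hpos : 0 < 2 * Real.pi * (1 - tc ^ 2) := by
    have := tc_pos
    have h1 : 0 < 1 - tc ^ 2 := by nlinarith [this.1, this.2]
    positivity
  have ha : ∀ k : ℕ, (0 : ℝ) < 1 / ((k : ℝ) + 1) := fun k => by positivity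
  obtain ⟨-, γ₀, -, -, -, h0⟩ := z2b_key h hH ha tendsto_one_div_add_atTop_nhds_zero_nat
    (hb _ ha tendsto_one_div_add_atTop_nhds_zero_nat)
  have hre : (γ₀ ^ 2).re ≤ 0 := by
    have := ge_of_tendsto' h0 fun R => Finset.sum_nonneg fun p _ => z2b_lap_nonneg h.1 hH p
    nlinarith
  refine ⟨Real.sqrt (-(γ₀ ^ 2).re), tendsto_cofinite_of_clim fun a ha ha0 => ?_,
    fun j => tendsto_cofinite_of_clim fun a ha ha0 => ?_⟩
  · obtain ⟨ψ, γ, hψ, h1, h2, h3⟩ := z2b_key h hH ha ha0 (hb a ha ha0)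
    refine ⟨ψ, hψ, fun z hz v hv => ?_⟩
    have h4 : (γ ^ 2).re = (γ₀ ^ 2).re :=
      mul_left_cancel₀ (neg_ne_zero.2 hpos.ne') (tendsto_nhds_unique h3 h0)
    have h5 : (Complex.I * (Real.sqrt (-(γ₀ ^ 2).re) : ℝ)) ^ 2 = γ ^ 2 := by
      rw [mul_pow, Complex.I_sq, ← Complex.ofReal_pow, Real.sq_sqrt (neg_nonneg.2 hre)]
      exact Complex.ext (by simp [h4]) (by simp [h2])
    rw [h5]
    exact (h1 z hz v hv).pow 2
  · obtain ⟨ψ, γ, hψ, h1, -, -⟩ := z2b_key h hH ha ha0 (hb a ha ha0)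
    refine ⟨ψ, hψ, fun z hz v hv => ?_⟩
    have := (h1 z hz _ (hv.add_const (ha0.comp hψ.tendsto_atTop) (uv j))).sub (h1 z hz v hv)
    simpa using this

end Crest.Agent.R165.C
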