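import Crest.Agent.R165.C.Z1

/-! # R165/C: auxiliary lemmas for `zm_step` (task Z2e, helper57) -/

set_option autoImplicit false
noncomputable section
open Classical Filter Topology Metric

namespace Crest.Agent.R165.C

def z2eS (j : Fin 2) (p : Site) : ℝ := eray {0} (p - uv j, j)
def z2eF (j : Fin 2) (φ : Fn) : Fn := gaugeF (z2eS j) (shift (-uv j) φ)

theorem z2e_apply (j : Fin 2) (φ : Fn) (p : Site) (α : Fin 4) : z2eF j φ (p, α) = z2eS j p * φ (p - uv j, α) := by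
  simp [z2eF, gaugeF, shift, sub_eq_add_neg]

theorem z2e_sign (j : Fin 2) : IsSign (z2eS j) := fun _ => eray_sign _ _

theorem z2e_shift {w : Edge → ℝ} {φ : Fn} (h : SolOn w Set.univ φ) (c : Site) :
    SolOn (fun e => w (e.1 + c, e.2)) Set.univ (shift c φ) := by
  intro x _ α
  have := h (x + c) trivial α
  rw [← this]
  simp only [opA, opp, sv, shift, sh_edgeOf, add_right_comm x c]

theorem z2e_w (j : Fin 2) (e : Edge) : flipW (bondEdge 0 j) (wOf Set.univ {0}) e =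
    gaugeW (z2eS j) (fun e => wOf Set.univ {0} (e.1 + -uv j, e.2)) e := by
  obtain ⟨⟨c, d⟩, k⟩ := e
  fin_cases j <;> fin_cases k <;>
    simp [flipW, gaugeW, z2eS, wOf, bondEdge, uv, eray_0, eray_1, sg] <;>
    split_ifs <;> first | omega | norm_num

theorem z2e_sol (j : Fin 2) {φ : Fn} (h : SolOn (wOf Set.univ {0}) Set.univ φ) :
    SolOn (flipW (bondEdge 0 j) (wOf Set.univ {0})) Set.univ (z2eF j φ) :=
  SolOn.gauge (z2e_sign j) (z2e_shift h _) fun _ _ _ => z2e_w j _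

theorem z2e_bd {φ : Fn} (h : ZeroMode φ) : ∃ C : ℝ, 0 ≤ C ∧ ∀ p α, |φ (p, α)| * Real.sqrt ((supd p 0 : ℝ) + 1) ≤ C := by
  obtain ⟨-, C, hC⟩ := h
  refine ⟨|C|, abs_nonneg _, fun p α => ?_⟩
  have h1 := hC (supd p 0 + 1) (by omega) p trivial α
  have h0 : (0 : ℝ) < ((supd p 0 + 1 : ℕ) : ℝ) := by positivity
  rw [div_pow, Real.sq_sqrt h0.le, div_mul_cancel₀ _ h0.ne', DU.dB_singleton, min_self] at h1
  push_cast at h1 h0
  refine abs_le_of_sq_le_sq' ?_ (abs_nonneg _) |>.2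
  rw [mul_pow, sq_abs, sq_abs, Real.sq_sqrt h0.le]
  exact h1

theorem z2e_edge (x : Site) (α : Fin 4) : (edgeOf x α).1 + uv (edgeOf x α).2 ∈ box x 1 := by
  obtain ⟨c, d⟩ := x
  fin_cases α <;> simp [edgeOf, uv, box] <;> omega

theorem z2e_wempty (e : Edge) : wOf Set.univ ∅ e = tc := by simp [wOf, eray_empty]

/-- difference of the gauged function -/
theorem z2e_dif (j : Fin 2) (φ : Fn) {τ : Site → ℝ} (hτ : IsSign τ) {p : Site}
    (h : τ (p - uv j) * τ p * eray {0} (p - uv j, j) = 1) (α : Fin 4) :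
    (z2eF j φ - φ) (p, α) = τ p * (gaugeF τ φ (p - uv j, α) - gaugeF τ φ (p, α)) := by
  have h1 := hτ.mul_self p
  have h2 := eray_sq {0} (p - uv j, j)
  have h3 : z2eS j p = τ (p - uv j) * τ p := by
    unfold z2eS
    linear_combination (-(eray {0} (p - uv j, j))) * h + (τ (p - uv j) * τ p) * h2
  simp only [Pi.sub_apply, z2e_apply, gaugeF, h3]
  linear_combination φ (p, α) * h1

theorem z2e_far {φ : Fn} (h : ZeroMode φ) (j : Fin 2) : ∃ C : ℝ, ∀ p α, 100 ≤ supd p 0 →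
    |(z2eF j φ - φ) (p, α)| * (((supd p 0 : ℝ) + 1) * Real.sqrt ((supd p 0 : ℝ) + 1)) ≤ C := by
  obtain ⟨C₀, hC₀, hb⟩ := z2e_bd h
  obtain ⟨C, hC⟩ := interior
  refine ⟨|C| * (2 * C₀) * 12, fun p α hp => ?_⟩
  set N := supd p 0 with hN
  set R := N / 10 with hR
  obtain ⟨τ, hτ, hg⟩ := exists_gauge {0} ∅ p (4 * R + 9) fun v hv => by
    rw [mem_box_iff] at hv
    simp only [Finset.mem_singleton, Finset.notMem_empty, iff_false]
    rintro rfl
    rw [supd_comm] at hv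
    omega
  have hq : 0 < Real.sqrt ((N : ℝ) + 1) := Real.sqrt_pos.2 (by positivity)
  have hsol : SolOn wPl (box p (4 * R + 8)) (gaugeF τ φ) := by
    refine SolOn.gauge hτ (DU.SolOn.mono h.1 (Set.subset_univ _)) fun x hx α => ?_
    have h1 := hg (edgeOf x α) (box_sub hx (by omega) (edgeOf_fst_mem_box x α)) (box_sub hx (by omega) (z2e_edge x α))
    rw [eray_empty] at h1
    simp only [wPl, gaugeW, wOf, Set.mem_univ, if_true]
    linear_combination (-tc) * h1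
  have hM : SB (box p (4 * R + 8)) (2 * C₀ / Real.sqrt ((N : ℝ) + 1)) (gaugeF τ φ) := by
    intro y hy β
    rw [abs_gaugeF hτ, le_div_iff₀ hq]
    have h1 := hb y β
    have h2 : supd y p ≤ 4 * R + 8 := mem_box_iff.1 hy
    have h3 := supd_triangle p y 0
    rw [supd_comm p y] at h3
    have h4 : N + 1 ≤ 4 * (supd y 0 + 1) := by omega
    have h5 : Real.sqrt ((N : ℝ) + 1) ≤ 2 * Real.sqrt ((supd y 0 : ℝ) + 1) := by
      rw [Real.sqrt_le_left (by positivity), mul_pow, Real.sq_sqrt (by positivity)]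
      have : ((N + 1 : ℕ) : ℝ) ≤ ((4 * (supd y 0 + 1) : ℕ) : ℝ) := by exact_mod_cast h4
      push_cast at this
      linarith
    nlinarith [abs_nonneg (φ (y, β))]
  have hR1 : 1 ≤ R := by omega
  have hp0 : p ∈ box p R := mem_box_iff.2 (by simp [supd_self])
  have hd : ∃ β : Fin 4, dv β = -uv j := by
    fin_cases j
    · exact ⟨2, by simp [dv, uv]⟩
    · exact ⟨3, by simp [dv, uv]⟩
  obtain ⟨β, hβ⟩ := hd
  have h1 := (hC _ p R _ hR1 hsol hM p hp0 α β 0 0).1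
  have hm : p - uv j ∈ box p (4 * R + 9) := by
    rw [sub_eq_add_neg, ← hβ]
    exact box_sub (mem_box_iff.2 (by simp [supd_self] : supd p p ≤ 0)) (by omega) (add_dv_mem_box1 p β)
  have h2 := hg (p - uv j, j) hm (by simpa using mem_box_iff.2 (by simp [supd_self]))
  rw [eray_empty] at h2
  simp only [sub_add_cancel] at h2
  rw [z2e_dif j φ hτ h2, abs_mul]
  have h3 : |τ p| = 1 := by rcases hτ p with h | h <;> simp [h]
  simp only [dif, hβ, ← sub_eq_add_neg] at h1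
  rw [h3, one_mul]
  have hR0 : (0 : ℝ) < R := by exact_mod_cast hR1
  have h4 : (N : ℝ) + 1 ≤ 12 * R := by
    have : N + 1 ≤ 12 * R := by omega
    exact_mod_cast this
  rw [le_div_iff₀ hR0] at h1
  have h5 : C * (2 * C₀ / Real.sqrt ((N : ℝ) + 1)) * Real.sqrt ((N : ℝ) + 1) ≤ |C| * (2 * C₀) := by
    rw [mul_assoc, div_mul_cancel₀ _ hq.ne']
    exact mul_le_mul_of_nonneg_right (le_abs_self C) (by positivity)
  set d := |gaugeF τ φ (p - uv j, α) - gaugeF τ φ (p, α)|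
  have hd0 : 0 ≤ d := abs_nonneg _
  calc d * (((N : ℝ) + 1) * Real.sqrt ((N : ℝ) + 1)) ≤ d * ((12 * R) * Real.sqrt ((N : ℝ) + 1)) := by gcongr
    _ = 12 * ((d * R) * Real.sqrt ((N : ℝ) + 1)) := by ring
    _ ≤ 12 * (C * (2 * C₀ / Real.sqrt ((N : ℝ) + 1)) * Real.sqrt ((N : ℝ) + 1)) := by gcongr
    _ ≤ _ := by linarith

theorem z2e_bound {φ : Fn} (h : ZeroMode φ) (j : Fin 2) : ∃ C : ℝ, ∀ p α,
    |(z2eF j φ - φ) (p, α)| * ((supd p 0 : ℝ) + 1) ^ (3 / 2 : ℝ) ≤ C := by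
  obtain ⟨C₀, hC₀, hb⟩ := z2e_bd h
  obtain ⟨C, hC⟩ := z2e_far h j
  refine ⟨max C (2 * C₀ * (100 * 10)), fun p α => ?_⟩
  have h0 : (0 : ℝ) < (supd p 0 : ℝ) + 1 := by positivity
  have e : ((supd p 0 : ℝ) + 1) ^ (3 / 2 : ℝ) = ((supd p 0 : ℝ) + 1) * Real.sqrt ((supd p 0 : ℝ) + 1) := by
    rw [Real.sqrt_eq_rpow, ← Real.rpow_one_add' h0.le (by norm_num)]
    norm_num
  rw [e]
  by_cases hp : 100 ≤ supd p 0
  · exact (hC p α hp).trans (le_max_left _ _)
  refine le_trans ?_ (le_max_right _ _)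
  have h1 : ∀ q β, |φ (q, β)| ≤ C₀ := fun q β => by
    have h2 : 1 ≤ Real.sqrt ((supd q 0 : ℝ) + 1) := Real.one_le_sqrt.2 (by simp)
    nlinarith [hb q β, abs_nonneg (φ (q, β))]
  have h2 : |(z2eF j φ - φ) (p, α)| ≤ 2 * C₀ := by
    rw [Pi.sub_apply, z2e_apply]
    have h3 : |z2eS j p| = 1 := by rcases z2e_sign j p with h | h <;> simp [h]
    have h4 := abs_sub (z2eS j p * φ (p - uv j, α)) (φ (p, α))
    rw [abs_mul, h3] at h4
    linarith [h1 (p - uv j) α, h1 p α]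
  have h3 : (supd p 0 : ℝ) + 1 ≤ 100 := by
    have : supd p 0 + 1 ≤ 100 := by omega
    exact_mod_cast this
  have h4 : Real.sqrt ((supd p 0 : ℝ) + 1) ≤ 10 := by
    rw [Real.sqrt_le_left (by norm_num)]
    linarith
  gcongr

theorem z2e_fld_smul (t : ℝ) (s : Fn) (p : Site) : fld (t • s) p = t * fld s p := by
  have := fld_comb t 0 s s p
  simpa using this

theorem z2e_fld_sub (s s' : Fn) (p : Site) : fld (s - s') p = fld s p - fld s' p := by
  have := fld_comb 1 (-1) s s' p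
  simpa [sub_eq_add_neg] using this

theorem z2e_fld (j : Fin 2) (φ : Fn) (p : Site) : fld (z2eF j φ) p = z2eS j p * fld φ (p - uv j) := by
  rw [z2eF, fld_gauge]
  simp [fld, shift, sub_eq_add_neg]

theorem z2e_near {a : ℕ → ℝ} (ha : ∀ k, 0 < a k) (ha0 : Tendsto a atTop (𝓝 0)) {z : ℂ} {δ : ℝ} (hδ : 0 < δ) :
    ∀ᶠ k in atTop, ∀ p q : Site, q ∈ box p 1 → dist ((a k : ℂ) * toC p) z < δ / 2 → dist ((a k : ℂ) * toC q) z < δ := by
  filter_upwards [ha0.eventually (gt_mem_nhds (show 0 < δ / 4 by positivity))] with k hk p q hq hp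
  have := blk_dist (ha k) hq z
  push_cast at this
  linarith

theorem z2e_clim {φ : Fn} (h : ZeroMode φ) {c : ℂ} (hc : Tendsto (gfld {0} φ) cofinite (𝓝 c)) (j : Fin 2)
    {a : ℕ → ℝ} (ha : ∀ k, 0 < a k) (ha0 : Tendsto a atTop (𝓝 0)) :
    CLim a {0}ᶜ (fun _ p => gfld {0} (z2eF j φ - φ) p * toC p) fun _ => c * Complex.I ^ (j : ℕ) / 2 := by
  intro z₀ hz₀ v hv
  obtain ⟨C₀, hC₀, hb⟩ := z2e_bd h
  have h00 : PtLim a (fun _ => (0 : Site)) 0 := by
    have : toC 0 = 0 := by simp [toC, Complex.ext_iff]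
    simp [PtLim, this]
  obtain ⟨δ, hδ, R, σ, hR, hR2, hσ, hray, hlim⟩ := loc_gauge ha ha0 (n := 1) (fun _ _ => 0)
    (Eventually.of_forall fun _ => Function.injective_of_subsingleton _) (fun _ => 0) (fun _ => h00)
    (z₀ := z₀) fun _ => Ne.symm hz₀
  have hS : spinsOf (fun _ : Fin 1 => (0 : Site)) = {0} := by simp [spinsOf]
  simp only [hS, rhoX, Fin.prod_univ_one, sub_zero, Nat.cast_one, ← Real.sqrt_eq_rpow, Finset.prod_singleton] at hray hlim hR2
  have hne : ∀ z ∈ ball z₀ δ, z ≠ 0 := fun z hz h0 => (hR2 z hz).2 (pow_eq_zero_iff two_ne_zero |>.1 ((hR2 z hz).1.trans h0))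
  have hsub : ball z₀ (δ / 2) ⊆ ball z₀ δ := ball_subset_ball (by linarith)
  have hnorm : ∀ z ∈ ball z₀ (δ / 2), δ / 2 ≤ ‖z‖ := fun z hz => by
    have h1 : δ ≤ ‖z₀‖ := by
      by_contra h1
      exact hne 0 (by simpa using not_le.1 h1) rfl
    have h2 := norm_sub_norm_le z₀ z
    rw [mem_ball, dist_comm, dist_eq_norm] at hz
    linarith
  set s : ℕ → Fn := fun k => gaugeF (σ k) ((Real.sqrt (a k))⁻¹ • φ) with hs
  have hsq : ∀ k, 0 < Real.sqrt (a k) := fun k => Real.sqrt_pos.2 (ha k)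
  have hB : BulkSeq (ball z₀ (δ / 2)) a non (fun _ => Set.univ) s := by
    intro K _ hK
    refine ⟨C₀ / Real.sqrt (δ / 3), ?_⟩
    filter_upwards [hray, z2e_near ha ha0 (z := z₀) hδ] with k hk hk'
    refine ⟨fun _ _ _ => trivial, ?_, fun p hp α => ?_⟩
    · refine SolOn.gauge (hσ k) (DU.SolOn.smul (DU.SolOn.mono h.1 (Set.subset_univ _)) _) fun x hx α => ?_
      have h1 := hk (edgeOf x α) (hk' x _ (edgeOf_fst_mem_box x α) (hK hx))
      have : spinsOf (non k) = ∅ := by simp [spinsOf]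
      rw [this, z2e_wempty]
      simp only [gaugeW, wOf, Set.mem_univ, if_true]
      linear_combination (-tc) * h1
    · have h1 := hnorm _ (hK hp)
      have h2 := dist_le_supd p 0
      have h3 : toC 0 = 0 := by simp [toC, Complex.ext_iff]
      rw [h3, sub_zero] at h2
      rw [norm_mul, Complex.norm_real, Real.norm_of_nonneg (ha k).le] at h1
      have h4 : Real.sqrt (δ / 3) ≤ Real.sqrt (a k) * Real.sqrt ((supd p 0 : ℝ) + 1) := by
        rw [← Real.sqrt_mul (ha k).le]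
        apply Real.sqrt_le_sqrt
        nlinarith [ha k, mul_le_mul_of_nonneg_left h2 (ha k).le]
      simp only [hs]
      rw [abs_gaugeF (hσ k), Pi.smul_apply, smul_eq_mul, abs_mul, abs_of_pos (inv_pos.2 (hsq k)),
        le_div_iff₀ (Real.sqrt_pos.2 (by positivity))]
      calc (Real.sqrt (a k))⁻¹ * |φ (p, α)| * Real.sqrt (δ / 3)
          ≤ (Real.sqrt (a k))⁻¹ * |φ (p, α)| * (Real.sqrt (a k) * Real.sqrt ((supd p 0 : ℝ) + 1)) := by
            have := hsq k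
            gcongr
        _ = |φ (p, α)| * Real.sqrt ((supd p 0 : ℝ) + 1) := by
            have := (hsq k).ne'
            field_simp
        _ ≤ C₀ := hb p α
  have hrt : ∀ p : Site, rt (pos p - toC 0) ≠ 0 := fun p => by
    unfold rt
    refine mul_ne_zero Complex.I_ne_zero (Complex.cpow_ne_zero_iff.2 (Or.inl (neg_ne_zero.2 fun h0 => ?_)))
    have h1 := congrArg Complex.re h0
    simp [pos, toC] at h1
    have h2 : (2 * p.1 + 1 : ℤ) = 0 := by
      have : (2 * (p.1 : ℝ) + 1) = 0 := by linarith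
      exact_mod_cast this
    omega
  have hσC : ∀ k p, (σ k p : ℂ) * σ k p = 1 := fun k p => by exact_mod_cast (hσ k).mul_self p
  have hf : CLim a (ball z₀ (δ / 2)) (fun k => fld (s k)) fun z => c / R z := by
    intro z hz u hu
    have h1 := clim_of_cofinite hc ha0 h00 z (hne z (hsub hz)) u hu
    have h2 := h1.div (hlim z (hsub hz) u hu) (hR2 z (hsub hz)).2
    refine h2.congr fun k => ?_
    have h3 : (Real.sqrt (a k) : ℂ) ≠ 0 := by exact_mod_cast (hsq k).ne'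
    have h4 : (σ k (u k) : ℂ) ≠ 0 := left_ne_zero_of_mul_eq_one (hσC k (u k))
    have h5 := hrt (u k)
    simp only [hs, fld_gauge, z2e_fld_smul, gfld, Finset.prod_singleton, Pi.div_apply, sub_zero]
    push_cast
    field_simp
    linear_combination (-fld φ (u k)) * hσC k (u k)
  have hRd : DifferentiableOn ℂ (fun z => c / R z) (ball z₀ (δ / 2)) :=
    (differentiableOn_const c).div (hR.mono hsub) fun z hz => (hR2 z (hsub hz)).2
  have hz : z₀ ∈ ball z₀ (δ / 2) := mem_ball_self (by positivity)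
  have hq : PtLim a (fun k => v k + -uv j) z₀ := hv.add_const ha0 _
  have h1 := deriv_lim isOpen_ball ha ha0 hB hf hRd j z₀ hz _ hq
  have hR0 := hR2 z₀ (hsub hz)
  have hdR : HasDerivAt R (deriv R z₀) z₀ := (hR.differentiableAt (ball_mem_nhds z₀ hδ)).hasDerivAt
  have hd1 : 2 * R z₀ * deriv R z₀ = 1 := by
    have e1 : (fun z => R z ^ 2) =ᶠ[𝓝 z₀] fun z => z := by
      filter_upwards [ball_mem_nhds z₀ hδ] with z hz using (hR2 z hz).1
    have e2 := ((hdR.pow 2).congr_of_eventuallyEq e1.symm).unique (hasDerivAt_id' z₀)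
    simpa using e2
  have hd2 : deriv (fun z => c / R z) z₀ = -c * deriv R z₀ / R z₀ ^ 2 := by
    have := ((hasDerivAt_const z₀ c).fun_div hdR hR0.2).deriv
    simpa using this
  have h2 := ((h1.neg.mul (hlim z₀ (hsub hz) v hv)).mul hv)
  have e : -(Complex.I ^ (j : ℕ) * deriv (fun z => c / R z) z₀) * R z₀ * z₀ = c * Complex.I ^ (j : ℕ) / 2 := by
    rw [hd2]
    have := hR0.2
    field_simp
    linear_combination (-2 * c * deriv R z₀) * hR0.1 + (c * R z₀) * hd1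
  rw [e] at h2
  refine h2.congr' ?_
  filter_upwards [hray, hq.eventually (ball_mem_nhds z₀ hδ)] with k hk hk'
  have h3 := hk (v k + -uv j, j) hk'
  simp only [← sub_eq_add_neg, sub_add_cancel] at h3 ⊢
  have h4 := eray_sq {0} (v k - uv j, j)
  have h5 : z2eS j (v k) = σ k (v k - uv j) * σ k (v k) := by
    unfold z2eS
    linear_combination (-(eray {0} (v k - uv j, j))) * h3 + (σ k (v k - uv j) * σ k (v k)) * h4
  have h6 : (Real.sqrt (a k) : ℂ) ≠ 0 := by exact_mod_cast (hsq k).ne'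
  have h7 : (a k : ℂ) ≠ 0 := by exact_mod_cast (ha k).ne'
  simp only [hs, fld_gauge, z2e_fld_smul, gfld, Finset.prod_singleton, z2e_fld_sub, z2e_fld, h5]
  push_cast
  field_simp
  linear_combination (-fld φ (v k) * rt (pos (v k) - toC 0) * toC (v k)) * hσC k (v k)

theorem z2e_lim {φ : Fn} (h : ZeroMode φ) {c : ℂ} (hc : Tendsto (gfld {0} φ) cofinite (𝓝 c)) (j : Fin 2) :
    Tendsto (fun p => gfld {0} (z2eF j φ - φ) p * toC p) cofinite (𝓝 (c * Complex.I ^ (j : ℕ) / 2)) :=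
  tendsto_cofinite_of_clim fun _ ha ha0 => ⟨id, strictMono_id, z2e_clim h hc j ha ha0⟩

theorem z2e_val {φ : Fn} (h : SolOn (wOf Set.univ {0}) Set.univ φ) (hc : prC φ 0 2 ≠ 0)
    (h1 : ∀ (x : Site) (α : Fin 4), |φ ((-x.2 - 1, x.1), α + 1)| = |φ (x, α)|)
    (h2 : ∀ (x : Site) (α : Fin 4), |φ ((x.1, -1 - x.2), -α)| = |φ (x, α)|) (j : Fin 2) :
    φ (he0 (bondEdge 0 j)) ≠ 0 ∧ |z2eF j φ (he0 (bondEdge 0 j))| = |φ (he0 (bondEdge 0 j))| := by
  have a1 : |φ ((-1, 0), 0)| = |φ ((0, 0), 3)| := h1 (0, 0) 3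
  have a2 : |φ ((-1, -1), 1)| = |φ ((-1, 0), 0)| := h1 (-1, 0) 0
  have a3 : |φ ((0, -1), 2)| = |φ ((-1, -1), 1)| := by simpa using h1 (-1, -1) 1
  have a4 : |φ ((0, -1), 2)| = |φ ((0, 0), 2)| := h2 (0, 0) 2
  have a5 : |φ ((0, -1), 1)| = |φ ((0, 0), 3)| := h2 (0, 0) 3
  have a6 : |φ ((-1, -1), 0)| = |φ ((-1, 0), 0)| := h2 (-1, 0) 0
  have a7 : φ ((-1, 0), 0) ≠ 0 := fun h0 => by
    have b1 : φ ((0, 0), 2) = 0 := by
      rw [← abs_eq_zero, ← a4, a3, a2, h0, abs_zero]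
    have b2 := h (0, 0) trivial 2
    rw [DU.opA2] at b2
    have b3 : ((0, 0) : Site) + (-1, 0) = (-1, 0) := rfl
    rw [b3, h0] at b2
    apply hc
    have b4 : (0 : Site) = (0, 0) := rfl
    simp only [prC, Fin.sum_univ_four, vC, b4, b1]
    simp only [show (0 : Fin 4) ≤ 2 by decide, show (1 : Fin 4) ≤ 2 by decide, show ¬ (3 : Fin 4) ≤ 2 by decide, if_true, if_false]
    linarith
  rw [z2eF, abs_gaugeF (z2e_sign j)]
  fin_cases j
  · change φ ((0, -1), 1) ≠ 0 ∧ |φ ((-1, -1), 1)| = |φ ((0, -1), 1)|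
    refine ⟨fun h0 => a7 ?_, by rw [a2, a1, a5]⟩
    rw [← abs_eq_zero, a1, ← a5, h0, abs_zero]
  · change φ ((-1, 0), 0) ≠ 0 ∧ |φ ((-1, -1), 0)| = |φ ((-1, 0), 0)|
    exact ⟨a7, a6⟩

end Crest.Agent.R165.C
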