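import Crest.Agent.R165.C.T2

/-! # R165/C: smallness next to a branch point (auxiliary file of task Z2f) -/

set_option autoImplicit false
noncomputable section
open Classical Filter Topology Metric Crest.ProbabilityR.IsingModel

namespace Crest.Agent.R165.C

variable {a : ℕ → ℝ}

theorem z2f_spins (c : ℕ → Site) (k : ℕ) : spinsOf (one c k) = {c k} :=
  Finset.image_const Finset.univ_nonempty _

theorem z2f_bulk_mono {U U' : Set ℂ} {n : ℕ} {v : ℕ → Fin n → Site} {E : ℕ → Set Edge} {s : ℕ → Fn}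
    (h : BulkSeq U a v E s) (hU : U' ⊆ U) : BulkSeq U' a v E s :=
  fun K hK hKU => h K hK (hKU.trans hU)

theorem z2f_bulk_comb {U : Set ℂ} {n : ℕ} {v : ℕ → Fin n → Site} {E : ℕ → Set Edge} {s s' : ℕ → Fn}
    (h : BulkSeq U a v E s) (h' : BulkSeq U a v E s') (c₁ c₂ : ℝ) :
    BulkSeq U a v E fun k => c₁ • s k + c₂ • s' k := by
  intro K hK hKU
  obtain ⟨C, hC⟩ := h K hK hKU
  obtain ⟨C', hC'⟩ := h' K hK hKU
  refine ⟨(|c₁| + |c₂|) * max C C', ?_⟩
  filter_upwards [hC, hC'] with k h1 h2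
  refine ⟨h1.1, h1.2.1.comb h2.2.1 c₁ c₂, SB.comb ?_ ?_ c₁ c₂⟩
  · exact fun p hp α => (h1.2.2 p hp α).trans (le_max_left _ _)
  · exact fun p hp α => (h2.2.2 p hp α).trans (le_max_right _ _)

theorem z2f_dist {t : ℝ} (ht : 0 < t) (p q : Site) :
    dist ((t : ℂ) * toC p) ((t : ℂ) * toC q) = t * ‖toC p - toC q‖ := by
  rw [dist_eq_norm, ← mul_sub, norm_mul, Complex.norm_real, Real.norm_eq_abs, abs_of_pos ht]

theorem z2f_small (ha : ∀ k, 0 < a k) (ha0 : Tendsto a atTop (𝓝 0)) {c : ℕ → Site} {x₀ : ℂ} (hc : PtLim a c x₀)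
    {δ : ℝ} (hδ : 0 < δ) {s : ℕ → Fn}
    (hsol : ∀ᶠ k in atTop, SolOn (wOf Set.univ {c k}) {p | dist ((a k : ℂ) * toC p) x₀ < δ} (s k))
    (hb : BulkSeq (ball x₀ δ \ {x₀}) a (one c) (fun _ => Set.univ) s) {Γ : ℂ → ℂ}
    (hΓ : CLim a (ball x₀ δ \ {x₀}) (fun k => gF (a k) (one c k) (s k)) Γ)
    (h0 : Tendsto Γ (𝓝[≠] x₀) (𝓝 0)) (d : Site) (α : Fin 4) :
    Tendsto (fun k => Real.sqrt (a k) * s k (c k + d, α)) atTop (𝓝 0) := by
  obtain ⟨C, K₀, hap⟩ := apriori_sup
  have hU : IsOpen (ball x₀ δ \ {x₀}) := isOpen_ball.sdiff isClosed_singleton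
  have hv : ∀ᶠ k in atTop, Function.Injective (one c k) :=
    Eventually.of_forall fun k => Function.injective_of_subsingleton _
  have hx : ∀ i : Fin 1, PtLim a (fun k => one c k i) ((fun _ => x₀) i) := fun _ => hc
  have hxU : ∀ i : Fin 1, (fun _ => x₀) i ∉ ball x₀ δ \ {x₀} := fun _ h => h.2 rfl
  have hsq := clim_fld_mul ha ha0 hv hx hxU hΓ hΓ
  rw [Metric.tendsto_nhds]
  intro e he
  set η : ℝ := e / (3 * |C| + 1) with hη
  have hη0 : 0 < η := by positivity
  obtain ⟨r, hr0, hr⟩ := Metric.tendsto_nhdsWithin_nhds.1 h0 η hη0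
  set ε : ℝ := min r δ / 8 with hε
  have hε0 : 0 < ε := by positivity
  have hεr : 8 * ε ≤ r := by rw [hε]; linarith [min_le_left r δ]
  have hεδ : 8 * ε ≤ δ := by rw [hε]; linarith [min_le_right r δ]
  set K : Set ℂ := closedBall x₀ (7 * ε) \ ball x₀ (ε / 2) with hKdef
  have hK : IsCompact K := (isCompact_closedBall _ _).diff isOpen_ball
  have hKne : ∀ z ∈ K, z ≠ x₀ := fun z hz h => hz.2 (by rw [h]; exact mem_ball_self (by positivity))
  have hKU : K ⊆ ball x₀ δ \ {x₀} := fun z hz =>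
    ⟨mem_ball.2 (by have := mem_closedBall.1 hz.1; linarith), hKne z hz⟩
  have hse : 0 < Real.sqrt ε := Real.sqrt_pos.2 hε0
  have hsq2 : Real.sqrt ε ^ 2 = ε := Real.sq_sqrt hε0.le
  have e1 := edge_approx hU ha ha0 hv hx hxU hb hK hKU (ε := η / Real.sqrt ε) (by positivity)
  have e2 := hsq.unif_compact ha ha0 hK hKU (ε := 2 * η ^ 2 / ε) (by positivity)
  have e3 : ∀ᶠ k in atTop, dist ((a k : ℂ) * toC (c k)) x₀ < ε / 2 :=
    Metric.tendsto_nhds.1 hc _ (by positivity)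
  set N : ℕ := K₀ + supd d 0 + 1 with hN
  have e4 : ∀ᶠ k in atTop, a k < ε / N := ha0.eventually (gt_mem_nhds (by positivity))
  filter_upwards [hsol, e1, e2, e3, e4] with k h1 h2 h3 h4 h5
  have hak := ha k
  set l : ℕ := ⌊ε / a k⌋₊ with hl
  have hl1 : a k * l ≤ ε := by
    have := Nat.floor_le (show 0 ≤ ε / a k by positivity)
    rw [← hl, le_div_iff₀ hak] at this
    linarith
  have hl2 : ε < a k * (l + 1) := by
    have := Nat.lt_floor_add_one (ε / a k)
    rw [← hl, div_lt_iff₀ hak] at this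
    linarith
  have hl3 : N ≤ l := by
    apply Nat.le_floor
    have hN0 : (0 : ℝ) < N := by positivity
    rw [lt_div_iff₀ hN0] at h5
    rw [le_div_iff₀ hak]
    linarith
  have hbox : ∀ p ∈ box (c k) (4 * l), dist ((a k : ℂ) * toC p) x₀ < 7 * ε := by
    intro p hp
    have h6 : (supd p (c k) : ℝ) ≤ 4 * l := by exact_mod_cast mem_box_iff.1 hp
    have h7 := dist_le_supd p (c k)
    have h8 := dist_triangle ((a k : ℂ) * toC p) ((a k : ℂ) * toC (c k)) x₀
    rw [z2f_dist hak] at h8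
    have h9 : a k * ‖toC p - toC (c k)‖ ≤ a k * (6 * l) :=
      mul_le_mul_of_nonneg_left (by linarith) hak.le
    linarith
  have hfr : ∀ p ∈ frame (c k) l (4 * l), (a k : ℂ) * toC p ∈ K := by
    intro p hp
    obtain ⟨hp1, hp2⟩ := Finset.mem_sdiff.1 hp
    refine ⟨mem_closedBall.2 (hbox p hp1).le, fun h => ?_⟩
    have h6 : (l : ℝ) + 1 ≤ supd p (c k) := by
      have := mt mem_box_iff.2 hp2
      exact_mod_cast Nat.succ_le_of_lt (not_le.1 this)
    have h7 := supd_le_dist p (c k)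
    have h8 := dist_triangle_right ((a k : ℂ) * toC p) ((a k : ℂ) * toC (c k)) x₀
    rw [z2f_dist hak] at h8
    have h9 : a k * (l + 1) ≤ a k * ‖toC p - toC (c k)‖ :=
      mul_le_mul_of_nonneg_left (by linarith) hak.le
    have := mem_ball.1 h
    linarith
  have hSB : SB (frame (c k) l (4 * l)) (3 * η / Real.sqrt ε) (s k) := by
    intro p hp β
    have hz := hfr p hp
    set z := (a k : ℂ) * toC p with hzdef
    have g1 := (h2 p hz β).1
    have g2 := h3 p hz
    have g3 : ‖Γ z‖ < η := by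
      have := hr (x := z) (hKne z hz) (by have := mem_closedBall.1 hz.1; linarith)
      rwa [dist_zero_right] at this
    have g4 : ε / 2 ≤ ‖z - x₀‖ := by
      have := mt mem_ball.2 hz.2
      rw [dist_eq_norm] at this
      exact not_lt.1 this
    have g5 : ‖Γ z * Γ z / rhoX (fun _ : Fin 1 => x₀) z‖ ≤ 2 * η ^ 2 / ε := by
      simp only [rhoX, Finset.univ_unique, Finset.prod_singleton, norm_div, norm_mul]
      rw [div_le_div_iff₀ (by linarith) hε0]
      have := norm_nonneg (Γ z)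
      have g6 : ‖Γ z‖ * ‖Γ z‖ ≤ η ^ 2 := by nlinarith
      nlinarith [sq_nonneg η]
    have g6 : ‖fld (s k) p‖ ^ 2 ≤ (2 * η / Real.sqrt ε) ^ 2 := by
      rw [dist_eq_norm] at g2
      have := norm_le_norm_add_norm_sub' (fld (s k) p * fld (s k) p)
        (Γ z * Γ z / rhoX (fun _ : Fin 1 => x₀) z)
      rw [norm_mul] at this
      rw [div_pow, hsq2, show (2 * η) ^ 2 / ε = 2 * η ^ 2 / ε + 2 * η ^ 2 / ε by ring, sq]
      linarith
    have g7 : ‖fld (s k) p‖ ≤ 2 * η / Real.sqrt ε :=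
      (pow_le_pow_iff_left₀ (norm_nonneg _) (by positivity) two_ne_zero).1 g6
    have g8 : |(fld (s k) p * bA β).re| ≤ ‖fld (s k) p‖ := by
      refine (Complex.abs_re_le_norm _).trans ?_
      rw [norm_mul, norm_bA, mul_one]
    have g9 := abs_sub_abs_le_abs_sub (s k (p, β)) (fld (s k) p * bA β).re
    rw [show 3 * η / Real.sqrt ε = 2 * η / Real.sqrt ε + η / Real.sqrt ε by ring]
    linarith
  have hWB := hap Set.univ (K₀ * l) {c k} (c k) l (s k) _ (reg_univ _) (by omega) le_rfl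
    (fun p hp β => h1 p (by have := hbox p hp; show dist _ _ < δ; linarith) β) hSB
  have hmem : c k + d ∈ box (c k) (2 * l) := by
    rw [mem_box_iff]
    have : supd (c k + d) (c k) = supd d 0 := by simp [supd]
    omega
  have w1 := hWB _ hmem α
  have w2 : (1 : ℝ) ≤ dB {c k} l (c k + d) :=
    le_dB (by exact_mod_cast (show 1 ≤ l by omega)) fun v _ => by
      have := Nat.cast_nonneg (α := ℝ) (supd (c k + d) v)
      linarith
  have w3 : s k (c k + d, α) ^ 2 ≤ (C * (3 * η / Real.sqrt ε)) ^ 2 * l :=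
    le_trans (le_mul_of_one_le_right (sq_nonneg _) w2) w1
  have w4 : (Real.sqrt (a k) * s k (c k + d, α)) ^ 2 ≤ (3 * |C| * η) ^ 2 := by
    rw [mul_pow, Real.sq_sqrt hak.le]
    have w5 : (C * (3 * η / Real.sqrt ε)) ^ 2 = (3 * |C| * η) ^ 2 / ε := by
      rw [mul_pow, div_pow, hsq2, mul_pow (3 * |C|), mul_pow 3 |C|, sq_abs]; ring
    rw [w5] at w3
    calc a k * s k (c k + d, α) ^ 2 ≤ a k * ((3 * |C| * η) ^ 2 / ε * l) :=
          mul_le_mul_of_nonneg_left w3 hak.le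
      _ = (3 * |C| * η) ^ 2 / ε * (a k * l) := by ring
      _ ≤ (3 * |C| * η) ^ 2 / ε * ε := mul_le_mul_of_nonneg_left hl1 (by positivity)
      _ = _ := by field_simp
  rw [dist_zero_right, Real.norm_eq_abs]
  have w6 := abs_le_of_sq_le_sq' w4 (by positivity)
  have w7 : 3 * |C| * η < e := by
    have : η * (3 * |C| + 1) = e := by rw [hη]; field_simp
    nlinarith
  exact lt_of_le_of_lt (abs_le.2 w6) w7

end Crest.Agent.R165.C
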