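import Crest.Agent.R165.C.Z1
import Crest.Agent.R165.C.Z2fx
import Crest.Agent.R165.C.Z2ex
import Crest.Agent.R165.C.Z2bx

/-! # R165/C: the zero mode of a branch point (block C, owner helper83; statements FROZEN, add lemmas freely inside the namespace) -/

set_option autoImplicit false
noncomputable section
open Classical Filter Topology Metric Crest.ProbabilityR.IsingModel

namespace Crest.Agent.R165.C

variable {a : ℕ → ℝ}

/-! ### task Z2a -/

theorem z2a_sol {w : Edge → ℝ} {φ : Fn} (h : SolOn w Set.univ φ) (c : Site) :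
    SolOn (fun e => w (e.1 - c, e.2)) Set.univ (shift (-c) φ) := by
  intro x _ α
  have := h (x + -c) (Set.mem_univ _) α
  rw [← this]
  simp only [opA, opp, sh_edgeOf, add_right_comm x (-c), sub_eq_add_neg]
  rfl

theorem z2a_w (c : Site) (e : Edge) : wOf Set.univ {0} (e.1 - c, e.2) = wOf Set.univ {c} e := by
  have := wOf_sh (-c) Set.univ {0} e
  rw [shE_univ, shS_singleton, zero_sub, neg_neg] at this
  rw [this, sub_eq_add_neg]

theorem z2a_spins (c : Site) : spinsOf (fun _ : Fin 1 => c) = {c} := by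
  ext v; simp [spinsOf, eq_comm]

theorem z2a_fld (t : ℝ) (s : Fn) (p : Site) : fld (t • s) p = t * fld s p := by
  simp only [fld, Pi.smul_apply, smul_eq_mul, Complex.ofReal_mul, Finset.mul_sum]
  exact Finset.sum_congr rfl fun α _ => by ring

theorem z2a_norm_rt (z : ℂ) : ‖rt z‖ = Real.sqrt ‖z‖ := by
  have h : (1 / 2 : ℂ) = ((1 / 2 : ℝ) : ℂ) := by push_cast; rfl
  rw [rt, norm_mul, Complex.norm_I, one_mul, h, Complex.norm_cpow_real, norm_neg, Real.sqrt_eq_rpow]

theorem z2a_bd {φ : Fn} (h : ZeroMode φ) : ∃ C : ℝ, ∀ x α, φ (x, α) ^ 2 * ((supd x 0 : ℝ) + 1) ≤ C ^ 2 := by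
  obtain ⟨C, hC⟩ := h.2
  refine ⟨C, fun x α => ?_⟩
  have h1 := hC (supd x 0 + 1) (by omega) x (Set.mem_univ _) α
  rw [DU.dB_singleton, min_self, div_pow, Real.sq_sqrt (by positivity), div_mul_cancel₀ _ (by positivity)] at h1
  exact_mod_cast h1

theorem z2a_solk {φ : Fn} (h : ZeroMode φ) (t : ℝ) (c : Site) (W : Set Site) :
    SolOn (wOf Set.univ {c}) W (t • shift (-c) φ) := by
  have h1 := z2a_sol h.1 c
  simp only [z2a_w] at h1
  exact fun x _ α => DU.SolOn.smul h1 t x (Set.mem_univ _) α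

/-- rescaled translates of a zero mode are bounded off the centre -/
theorem ZeroMode.bulkSeq {φ : Fn} (h : ZeroMode φ) (ha : ∀ k, 0 < a k) (ha0 : Tendsto a atTop (𝓝 0)) {c : ℕ → Site}
    {x₀ : ℂ} (hc : PtLim a c x₀) :
    BulkSeq {x₀}ᶜ a (one c) (fun _ => Set.univ) fun k => (Real.sqrt (a k))⁻¹ • shift (-c k) φ := by
  intro K hK hKU
  obtain ⟨C, hC⟩ := z2a_bd h
  obtain ⟨δ, hδ, hd⟩ : ∃ δ > 0, ∀ z ∈ K, δ ≤ dist z x₀ := by
    have : Kᶜ ∈ 𝓝 x₀ := hK.isClosed.isOpen_compl.mem_nhds fun hx => hKU hx rfl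
    obtain ⟨δ, hδ, hb⟩ := Metric.mem_nhds_iff.1 this
    exact ⟨δ, hδ, fun z hz => not_lt.1 fun hlt => hb hlt hz⟩
  refine ⟨Real.sqrt (C ^ 2 * (3 / δ)), ?_⟩
  filter_upwards [hc.eventually (Metric.ball_mem_nhds x₀ (half_pos hδ))] with k hk
  refine ⟨fun _ _ _ => Set.mem_univ _, ?_, fun p hp α => ?_⟩
  · have : spinsOf (one c k) = {c k} := z2a_spins _
    rw [this]
    exact z2a_solk h _ _ _
  · have hak := ha k
    have h1 : δ / 2 ≤ a k * (3 / 2 * (supd (p + -c k) 0 : ℝ)) := by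
      have e1 := hd _ hp
      have e2 := dist_triangle ((a k : ℂ) * toC p) ((a k : ℂ) * toC (c k)) x₀
      have e3 : dist ((a k : ℂ) * toC p) ((a k : ℂ) * toC (c k)) = a k * ‖toC p - toC (c k)‖ := by
        rw [dist_eq_norm, ← mul_sub, norm_mul, Complex.norm_real, Real.norm_of_nonneg hak.le]
      have e4 : supd (p + -c k) 0 = supd p (c k) := by
        rw [← sh_supd _ _ (c k), neg_add_cancel_right, zero_add]
      have e5 := T.norm_toC_sub (le_refl (supd p (c k)))
      have e6 : dist ((a k : ℂ) * toC (c k)) x₀ < δ / 2 := hk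
      rw [e4]
      have := mul_le_mul_of_nonneg_left e5 hak.le
      linarith
    refine Real.abs_le_sqrt ?_
    have h2 := hC (p + -c k) α
    simp only [Pi.smul_apply, smul_eq_mul, shift]
    rw [mul_pow, inv_pow, Real.sq_sqrt hak.le, inv_mul_le_iff₀ hak]
    set y := φ (p + -c k, α) ^ 2
    have hy : 0 ≤ y := sq_nonneg _
    set d : ℝ := ((supd (p + -c k) 0 : ℕ) : ℝ)
    have h3 : y * δ ≤ 3 * a k * C ^ 2 := by
      calc y * δ ≤ y * (3 * a k * (d + 1)) := by
            refine mul_le_mul_of_nonneg_left ?_ hy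
            nlinarith
        _ = 3 * a k * (y * (d + 1)) := by ring
        _ ≤ 3 * a k * C ^ 2 := by gcongr
    calc y = y * δ / δ := by field_simp
      _ ≤ 3 * a k * C ^ 2 / δ := by gcongr
      _ = _ := by ring

theorem solOn_shift_one {w : Edge → ℝ} {φ : Fn} (h : SolOn w Set.univ φ) (c : Site) :
    SolOn (fun e => w (e.1 - c, e.2)) Set.univ (shift (-c) φ) := by
  exact z2a_sol h c

theorem wOf_univ_shift (c : Site) (e : Edge) : wOf Set.univ {0} (e.1 - c, e.2) = wOf Set.univ {c} e := by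
  exact z2a_w c e

theorem gF_shift {t : ℝ} (ht : 0 < t) (c : Site) (φ : Fn) (p : Site) :
    gF t (fun _ : Fin 1 => c) ((Real.sqrt t)⁻¹ • shift (-c) φ) p = gfld {0} φ (p - c) := by
  have h1 : ((t ^ (((1 : ℕ) : ℝ) / 2) : ℝ) : ℂ) * (((Real.sqrt t)⁻¹ : ℝ) : ℂ) = 1 := by
    rw [← Complex.ofReal_mul, Nat.cast_one, ← Real.sqrt_eq_rpow, mul_inv_cancel₀ (Real.sqrt_pos.2 ht).ne', Complex.ofReal_one]
  have h2 : fld (shift (-c) φ) p = fld φ (p - c) := by simp only [fld, shift, sub_eq_add_neg]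
  have h3 : pos p - toC c = pos (p - c) - toC 0 := by
    have : toC 0 = 0 := by apply Complex.ext <;> simp [toC]
    rw [this, pos, pos, toC_sub]; ring
  rw [gF, z2a_spins, gfld, gfld, Finset.prod_singleton, Finset.prod_singleton, z2a_fld, h2, h3, ← mul_assoc, ← mul_assoc,
    h1, one_mul]

/-- smallness on a frame propagates to the centre: `apriori_sup` with `E = univ`, `S = {0}`, `l → ∞`; components are
`Re (fld · bA) + mas` (`edge_approx` or `sb_of_clim` along `a k = 1/(k+1)`) -/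
theorem ZeroMode.eq_zero {φ : Fn} (h : ZeroMode φ) (h0 : Tendsto (gfld {0} φ) cofinite (𝓝 0)) : φ = 0 := by
  obtain ⟨C, K, hap⟩ := apriori_sup
  have ht0 : toC 0 = 0 := by apply Complex.ext <;> simp [toC]
  set b : ℕ → ℝ := fun k => 1 / ((k : ℝ) + 1) with hb
  have hb0 : ∀ k, 0 < b k := fun k => Nat.one_div_pos_of_nat
  have hbl : Tendsto b atTop (𝓝 0) := tendsto_one_div_add_atTop_nhds_zero_nat
  have hc : PtLim b (fun _ => 0) 0 := by
    simp only [PtLim, ht0, mul_zero]; exact tendsto_const_nhds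
  have hB := h.bulkSeq hb0 hbl hc
  have key : ∀ ε > 0, ∀ x α, φ (x, α) ^ 2 ≤ (C * (2 * ε)) ^ 2 := by
    intro ε hε x α
    have hK : IsCompact (closedBall (0 : ℂ) 6 \ ball 0 1) := (isCompact_closedBall _ _).diff isOpen_ball
    have hE := edge_approx (x := fun _ => 0) isOpen_compl_singleton hb0 hbl
      (Eventually.of_forall fun k => Function.injective_of_subsingleton _) (fun _ => hc) (fun _ => by simp) hB hK
      (fun z hz hz0 => hz.2 (by rw [Set.mem_singleton_iff.1 hz0]; exact mem_ball_self one_pos)) hε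
    have hfin : {p | ¬ ‖gfld {0} φ p‖ < ε}.Finite := by
      have := h0.eventually (Metric.ball_mem_nhds 0 hε)
      simpa only [dist_zero_right, Filter.eventually_cofinite] using this
    obtain ⟨N, hN⟩ := (hfin.image fun p => supd p 0).bddAbove
    obtain ⟨k, hk, hk2⟩ := (hE.and (eventually_ge_atTop (max (max K N) (supd x 0)))).exists
    have hl : (0 : ℝ) < (k : ℝ) + 1 := by positivity
    have hsq : ((Real.sqrt (b k))⁻¹) ^ 2 = (k : ℝ) + 1 := by
      rw [inv_pow, Real.sq_sqrt (hb0 k).le, hb]; simp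
    have hsq' : (Real.sqrt (b k))⁻¹ = Real.sqrt ((k : ℝ) + 1) := by
      rw [← hsq, Real.sqrt_sq (by positivity)]
    have hSB : SB (frame 0 (k + 1) (4 * (k + 1))) (2 * ε) ((Real.sqrt (b k))⁻¹ • shift (-0) φ) := by
      intro p hp β
      have hp' := Finset.mem_sdiff.1 (Finset.mem_coe.1 hp)
      have p1 : supd p 0 ≤ 4 * (k + 1) := mem_box_iff.1 hp'.1
      have p2 : k + 1 < supd p 0 := not_le.1 fun hh => hp'.2 (mem_box_iff.2 hh)
      have n1 := T.norm_toC_sub p1
      have n2 := supd_le_dist p 0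
      rw [ht0, sub_zero] at n1 n2
      have n3 : (k : ℝ) + 2 ≤ ‖toC p‖ := by
        refine le_trans ?_ n2
        exact_mod_cast p2
      have hn : ‖(b k : ℂ) * toC p‖ = ‖toC p‖ / ((k : ℝ) + 1) := by
        rw [norm_mul, Complex.norm_real, Real.norm_of_nonneg (hb0 k).le, hb]; ring
      have hmem : (b k : ℂ) * toC p ∈ closedBall (0 : ℂ) 6 \ ball 0 1 := by
        refine ⟨?_, ?_⟩
        · rw [mem_closedBall_zero_iff, hn, div_le_iff₀ hl]
          push_cast at n1; linarith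
        · rw [mem_ball_zero_iff, hn, not_lt, le_div_iff₀ hl]
          linarith
      have a1 := (hk p hmem β).1
      have a2 : ‖gfld {0} φ p‖ < ε := by
        by_contra hh
        have := hN ⟨p, hh, rfl⟩
        simp only at this
        omega
      have a3 : ‖fld ((Real.sqrt (b k))⁻¹ • shift (-0) φ) p‖ ≤ ε := by
        have e1 : fld (shift (-0) φ) p = fld φ p := by simp only [fld, shift, neg_zero, add_zero]
        rw [z2a_fld, e1, norm_mul, Complex.norm_real, hsq', Real.norm_of_nonneg (Real.sqrt_nonneg _)]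
        rw [gfld, Finset.prod_singleton, norm_mul, z2a_norm_rt, ht0, sub_zero] at a2
        have e2 : (k : ℝ) + 1 ≤ ‖pos p‖ := by
          have e3 : ‖(1 + Complex.I) / 2‖ ≤ 1 := by
            rw [norm_div]
            have := norm_add_le (1 : ℂ) Complex.I
            rw [norm_one, Complex.norm_I] at this
            rw [div_le_one (by simp)]
            simpa [one_add_one_eq_two] using this
          have e4 := norm_sub_le (pos p) ((1 + Complex.I) / 2)
          rw [pos, add_sub_cancel_right, ← pos] at e4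
          linarith
        refine le_trans ?_ a2.le
        rw [mul_comm]
        exact mul_le_mul_of_nonneg_left (Real.sqrt_le_sqrt e2) (norm_nonneg _)
      have a4 : |(fld ((Real.sqrt (b k))⁻¹ • shift (-0) φ) p * bA β).re| ≤ ε :=
        (Complex.abs_re_le_norm _).trans (by rw [norm_mul, norm_bA, mul_one]; exact a3)
      have a5 := abs_sub_abs_le_abs_sub (((Real.sqrt (b k))⁻¹ • shift (-0) φ) (p, β))
        (fld ((Real.sqrt (b k))⁻¹ • shift (-0) φ) p * bA β).re
      linarith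
    have hW := hap Set.univ (K * (k + 1 : ℕ)) {0} 0 (k + 1) _ _ (reg_univ _) (by omega) le_rfl
      (z2a_solk h _ 0 _) hSB x (Finset.mem_coe.2 (mem_box_iff.2 (by omega))) α
    have hd := B3.one_le_dB {0} (show 1 ≤ k + 1 by omega) x
    simp only [Pi.smul_apply, smul_eq_mul, shift, neg_zero, add_zero] at hW
    rw [mul_pow, hsq] at hW
    push_cast at hW
    have h5 : ((k : ℝ) + 1) * φ (x, α) ^ 2 ≤ (C * (2 * ε)) ^ 2 * ((k : ℝ) + 1) :=
      (le_mul_of_one_le_right (by positivity) hd).trans hW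
    rw [mul_comm] at h5
    exact le_of_mul_le_mul_right h5 hl
  funext i
  obtain ⟨x, α⟩ := i
  have hlim : Tendsto (fun ε : ℝ => (C * (2 * ε)) ^ 2) (𝓝[>] 0) (𝓝 0) := by
    have : Continuous fun ε : ℝ => (C * (2 * ε)) ^ 2 := by fun_prop
    simpa using (this.tendsto 0).mono_left nhdsWithin_le_nhds
  have := ge_of_tendsto hlim (eventually_mem_nhdsWithin.mono fun ε hε => key ε hε x α)
  exact pow_eq_zero_iff two_ne_zero |>.1 (le_antisymm this (sq_nonneg _))

/-! ### task Z2b -/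

/-- **the square of the field converges.** For `a k → 0`: `lim_bulk0` on `{0}ᶜ` gives a bounded holomorphic `g`, hence a constant `γ`;
`bform_lim` (`s = s'`, `green_box = 0`, `Ψ z = γ² z`) gives `Im γ² = 0`; `flux_lim` gives `-2π(1-tc²) Re γ² = lim_R flux R`, where
`flux R = Σ_{side} (1 - tc²)(opp² - s²)` (`IsH.white`, `exists_H_box`, `sum_lap_box`) is non-negative and monotone in `R` (`lapN_ge`), so
the limit does not depend on the sequence. Steps: `CLim` at `p k` and at `p k + uv j`. -/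
theorem ZeroMode.sq_lim {φ : Fn} (h : ZeroMode φ) : ∃ ϑ : ℝ,
    Tendsto (fun p => gfld {0} φ p ^ 2) cofinite (𝓝 ((Complex.I * ϑ) ^ 2)) ∧
    ∀ j, Tendsto (fun p => gfld {0} φ (p + uv j) - gfld {0} φ p) cofinite (𝓝 0) := by
  refine z2b_sq_lim h fun a ha ha0 => ?_
  have hc : PtLim a (fun _ => 0) 0 := by
    have : toC 0 = 0 := by simp [toC, Complex.ext_iff]
    simp [PtLim, this]
  have e : shift (-0) φ = φ := by funext i; simp [shift]
  simpa only [e] using h.bulkSeq ha ha0 hc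

/-- `sq_lim` + `sign_const` -/
theorem ZeroMode.asymp {φ : Fn} (h : ZeroMode φ) : ∃ ϑ : ℝ, Tendsto (gfld {0} φ) cofinite (𝓝 (Complex.I * ϑ)) := by
  obtain ⟨ϑ, h1, h2⟩ := h.sq_lim
  rcases sign_const h1 h2 with h3 | h3
  · exact ⟨ϑ, h3⟩
  · exact ⟨-ϑ, by simpa using h3⟩

/-- the zero mode and its amplitude -/
def zm : Fn := exists_zeroMode.choose

theorem zm_zeroMode : ZeroMode zm := by
  obtain ⟨C, h1, -, h3⟩ := exists_zeroMode.choose_spec
  exact ⟨h1, C, h3⟩

theorem zm_ne : zm ≠ 0 := by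
  obtain ⟨C, -, h2, -⟩ := exists_zeroMode.choose_spec
  exact h2

def zth : ℝ := zm_zeroMode.asymp.choose

theorem zm_asymp : Tendsto (gfld {0} zm) cofinite (𝓝 (Complex.I * zth)) := zm_zeroMode.asymp.choose_spec

theorem zth_ne : zth ≠ 0 := fun h => zm_ne (zm_zeroMode.eq_zero (by simpa [h] using zm_asymp))

/-- amplitude of the corner fermion -/
def muC : ℝ := prC zm 0 2 / zth

/-! ### task Z2c -/

/-- linear combinations of zero modes are zero modes -/
theorem z2c_comb {φ ψ : Fn} (h : ZeroMode φ) (h' : ZeroMode ψ) (c d : ℝ) : ZeroMode (c • φ - d • ψ) := by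
  obtain ⟨h1, C, hC⟩ := h
  obtain ⟨h2, C', hC'⟩ := h'
  refine ⟨DU.SolOn.sub (DU.SolOn.smul h1 c) (DU.SolOn.smul h2 d),
    Real.sqrt (2 * c ^ 2 * C ^ 2 + 2 * d ^ 2 * C' ^ 2), fun l hl x hx α => ?_⟩
  have hl0 : (0 : ℝ) < l := by exact_mod_cast hl
  have a1 := hC l hl x hx α
  have a2 := hC' l hl x hx α
  rw [div_pow, Real.sq_sqrt hl0.le, div_mul_cancel₀ _ hl0.ne'] at a1 a2 ⊢
  rw [Real.sq_sqrt (by positivity)]
  have hd : 0 ≤ dB {0} l x := by unfold dB; positivity
  simp only [Pi.sub_apply, Pi.smul_apply, smul_eq_mul]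
  have b1 := mul_le_mul_of_nonneg_left a1 (sq_nonneg c)
  have b2 := mul_le_mul_of_nonneg_left a2 (sq_nonneg d)
  nlinarith [mul_nonneg (sq_nonneg (c * φ (x, α) + d * ψ (x, α))) hd]

theorem z2c_gfld_comb (S : Finset Site) (φ ψ : Fn) (c d : ℝ) (p : Site) :
    gfld S (c • φ - d • ψ) p = c * gfld S φ p - d * gfld S ψ p := by
  simp only [gfld, fld, Fin.sum_univ_four, Pi.sub_apply, Pi.smul_apply, smul_eq_mul]
  push_cast
  ring

/-- the space of zero modes is a line: the amplitude determines the mode -/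
theorem z2c_unique {φ : Fn} (h : ZeroMode φ) {ϑ : ℝ}
    (hϑ : Tendsto (gfld {0} φ) cofinite (𝓝 (Complex.I * ϑ))) : ϑ • zm = zth • φ := by
  refine sub_eq_zero.1 ((z2c_comb zm_zeroMode h ϑ zth).eq_zero ?_)
  have h1 := (zm_asymp.const_mul (ϑ : ℂ)).sub (hϑ.const_mul (zth : ℂ))
  rw [show (ϑ : ℂ) * (Complex.I * zth) - zth * (Complex.I * ϑ) = 0 by ring] at h1
  exact h1.congr fun p => (z2c_gfld_comb _ _ _ _ _ p).symm

/-- for a solution the corner value is twice the pairing with the corner vector -/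
theorem z2c_cP_two {w : Edge → ℝ} {s : Fn} {x : Site} (h : opA w s (x, 2) = 0) : cP w s x 2 = 2 * prC s x 2 := by
  rw [DU.opA2, DU.add_m10] at h
  rw [DU.cP2, prC, Fin.sum_univ_four]
  simp only [vC]
  rw [if_pos (by decide), if_pos (by decide), if_pos (by decide), if_neg (by decide)]
  linarith

theorem z2c_exists : ∃ φ : Fn, ZeroMode φ ∧ prC φ 0 2 = -1 / 4 := by
  obtain ⟨g, C, hg, hC⟩ := exists_gBr
  refine ⟨DU.zeroMode g, ⟨DU.zeroMode_sol hg, 7 * C, fun l hl b _ β => ?_⟩, ?_⟩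
  · have hl0 : (0 : ℝ) < l := by exact_mod_cast hl
    have h := DU.zeroMode_bound hC b β
    rw [div_pow, Real.sq_sqrt hl0.le, div_mul_cancel₀ _ hl0.ne', DU.dB_singleton]
    have h1 : ((min (supd b 0 + 1) l : ℕ) : ℝ) ≤ ((supd b 0 + 1 : ℕ) : ℝ) := by exact_mod_cast min_le_left _ _
    nlinarith [sq_nonneg (DU.zeroMode g (b, β)), sq_nonneg C]
  · have h1 := DU.cP_zeroMode hg
    rw [z2c_cP_two (DU.zeroMode_sol hg 0 trivial 2)] at h1
    linarith

/-- **the corner values at the branch point do not vanish.** Take `H` on a huge box (`exists_H_box`). `Hb` is superharmonic off `0`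
(`lapB_le`), `Hw x - Hb (cB x α) = cP² ≥ 0`, `cP = 2 prC` for solutions. `Hb p - Hb 0 > 0` on the boundary of a large box (`H` grows like
`zth² log`: `lim_bulk1`/`flux`; alternatively: the minimum of `Hb` over the box is attained at `0` or on the boundary, and
`Σ_{box} lap Hw → 2π(1-tc²) zth² > 0` at every scale forces the average of `Hw` over `∂ box R` to grow like `log R`, with bounded oscillation on
`∂ box R`), so the minimum is at `0`; if `cP = 0` at a corner `(x, α)` then the four black neighbours of `x` are minima, and the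
minimum spreads (`max_principle`-type propagation) to the boundary: contradiction.
ALTERNATIVE (shorter): `DU.dualS wPl {0} zm` has the same corner values up to sign and is a solution except at the corner `(0, 2)`, where its defect is
`± 2 cP` (`cD_dualS_flip`); if it vanishes the dual is a `ZeroMode` with `H' = -H`, so both fluxes are `≥ 0` and opposite: `zth = 0`.
Only the corner `(0, 2)` and, by `zm_symm`, its rotations are needed. Look at the construction in `DU/Main.lean` first (helper39 may export it). -/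
theorem zm_corner : prC zm 0 2 ≠ 0 := by
  intro h0
  obtain ⟨φ, hφ, h4⟩ := z2c_exists
  obtain ⟨ϑ, hϑ⟩ := hφ.asymp
  have h := z2c_unique hφ hϑ
  have h1 : prC (ϑ • zm) 0 2 = ϑ * prC zm 0 2 := by
    simp only [prC, Pi.smul_apply, smul_eq_mul, Finset.mul_sum]
    exact Finset.sum_congr rfl fun β _ => by ring
  have h2 : prC (zth • φ) 0 2 = zth * prC φ 0 2 := by
    simp only [prC, Pi.smul_apply, smul_eq_mul, Finset.mul_sum]
    exact Finset.sum_congr rfl fun β _ => by ring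
  rw [h, h2, h0, h4] at h1
  exact zth_ne (by linarith)

theorem muC_ne : muC ≠ 0 := div_ne_zero zm_corner zth_ne

/-! ### task Z2d -/


theorem z2d_mono {φ : Fn} {l : ℕ} {C C' : ℝ} (hC : |C| ≤ C') (h : WB {0} Set.univ l (C / Real.sqrt l) φ) :
    WB {0} Set.univ l (C' / Real.sqrt l) φ := fun x hx α => (h x hx α).trans (by
  rw [div_pow, div_pow, ← sq_abs C]
  gcongr)

theorem z2d_comb {φ ψ : Fn} (h : ZeroMode φ) (h' : ZeroMode ψ) (c₁ c₂ : ℝ) : ZeroMode (c₁ • φ + c₂ • ψ) := by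
  obtain ⟨h1, C, h2⟩ := h
  obtain ⟨h1', C', h2'⟩ := h'
  refine ⟨h1.comb h1' c₁ c₂, (|c₁| + |c₂|) * (|C| + |C'|), fun l hl => ?_⟩
  rw [mul_div_assoc]
  exact WB.comb (z2d_mono (by linarith [abs_nonneg C']) (h2 l hl)) (z2d_mono (by linarith [abs_nonneg C]) (h2' l hl)) c₁ c₂

/-- the zero modes form a line -/
theorem z2d_line {φ : Fn} (h : ZeroMode φ) : ∃ t : ℝ, φ = t • zm := by
  obtain ⟨ϑ, hϑ⟩ := h.asymp
  have h0 := (z2d_comb h zm_zeroMode 1 (-(ϑ / zth))).eq_zero (by
    have h1 := (hϑ.const_mul ((1 : ℝ) : ℂ)).add (zm_asymp.const_mul ((-(ϑ / zth) : ℝ) : ℂ))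
    have hz : (zth : ℂ) ≠ 0 := Complex.ofReal_ne_zero.2 zth_ne
    have e : ((1 : ℝ) : ℂ) * (Complex.I * ϑ) + ((-(ϑ / zth) : ℝ) : ℂ) * (Complex.I * zth) = 0 := by
      push_cast
      field_simp
      ring
    rw [e] at h1
    refine h1.congr fun p => ?_
    simp only [gfld, fld_comb]
    ring)
  refine ⟨ϑ / zth, ?_⟩
  rwa [one_smul, neg_smul, add_neg_eq_zero] at h0

theorem z2d_key (ρ : HE → HE) (φ : Fn) (hsol : SolOn (wOf Set.univ {0}) Set.univ φ) (habs : ∀ i, |φ i| = |zm (ρ i)|)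
    (hd : ∀ i, supd i.1 0 ≤ supd (ρ i).1 0 + 1) (hρ : ∀ i, ρ (ρ (ρ (ρ i))) = i) (i : HE) : |zm (ρ i)| = |zm i| := by
  obtain ⟨-, C, hC⟩ := zm_zeroMode
  have hz : ZeroMode φ := by
    refine ⟨hsol, 2 * C, fun l hl x _ α => ?_⟩
    have h1 := hC l hl (ρ (x, α)).1 trivial (ρ (x, α)).2
    have h2 : dB {0} l x ≤ 2 * dB {0} l (ρ (x, α)).1 := by
      rw [DU.dB_singleton, DU.dB_singleton]
      have := hd (x, α)
      simp only at this
      exact_mod_cast (by omega : min (supd x 0 + 1) l ≤ 2 * min (supd (ρ (x, α)).1 0 + 1) l)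
    have h3 : φ (x, α) ^ 2 = zm ((ρ (x, α)).1, (ρ (x, α)).2) ^ 2 := by
      rw [← sq_abs, habs, sq_abs]
    have h4 : 0 ≤ (C / Real.sqrt l) ^ 2 * l := by positivity
    have h5 := mul_le_mul_of_nonneg_left h2 (sq_nonneg (zm ((ρ (x, α)).1, (ρ (x, α)).2)))
    rw [h3, mul_div_assoc]
    nlinarith
  obtain ⟨t, ht⟩ := z2d_line hz
  have h1 : ∀ j, |zm (ρ j)| = |t| * |zm j| := fun j => by
    rw [← habs, ht, Pi.smul_apply, smul_eq_mul, abs_mul]
  obtain ⟨j, hj⟩ := Function.ne_iff.1 zm_ne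
  have h2 : |zm j| = |t| ^ 4 * |zm j| := by
    conv_lhs => rw [← hρ j, h1, h1, h1, h1]
    ring
  have h3 : |t| ^ 4 = 1 := by
    have h4 : |zm j| ≠ 0 := abs_ne_zero.2 hj
    exact mul_right_cancel₀ h4 (by rw [← h2, one_mul])
  have h4 : |t| = 1 := (pow_eq_one_iff_of_nonneg (abs_nonneg t) (by norm_num)).1 h3
  rw [h1, h4, one_mul]

theorem z2d_w0 (x : Site) : wOf Set.univ {0} (x, 0) = tc := by simp [wOf, eray_0]

theorem z2d_w1 (a b : ℤ) : wOf Set.univ {0} ((a, b), 1) = tc * sg (b = -1 ∧ 0 ≤ a) := by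
  simp only [wOf, Set.mem_univ, if_true, eray_1, Finset.prod_singleton, Prod.snd_zero, Prod.fst_zero]
  congr 2
  exact propext ⟨fun h => ⟨by omega, h.2⟩, fun h => ⟨by omega, h.2⟩⟩

theorem z2d_rot (w : Edge → ℝ) (s : Fn) :
    opA (fun e => w (if e.2 = 0 then ((e.1.2, -e.1.1 - 2), 1) else ((e.1.2, -e.1.1 - 1), 0))) (rotF (shift (0, -1) s)) =
      rotF (shift (0, -1) (opA w s)) := by
  funext i
  induction i using b1_he <;>
    simp only [opA_0, opA_1, opA_2, opA_3, opp_0, opp_1, opp_2, opp_3, rotF_0, rotF_1, rotF_2, rotF_3, shift,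
      edgeOf_0, edgeOf_1, edgeOf_2, edgeOf_3, Prod.mk_add_mk, if_true, one_ne_zero, if_false] <;> ring_nf

theorem z2d_ref (w : Edge → ℝ) (s : Fn) :
    opA (fun e => w (if e.2 = 0 then ((e.1.1, -e.1.2 - 1), 0) else ((e.1.1, -e.1.2 - 2), 1))) (refF (shift (0, -1) s)) =
      -refF (shift (0, -1) (opA w s)) := by
  funext i
  induction i using b1_he <;>
    simp only [opA_0, opA_1, opA_2, opA_3, opp_0, opp_1, opp_2, opp_3, refF_0, refF_1, refF_2, refF_3, shift,
      edgeOf_0, edgeOf_1, edgeOf_2, edgeOf_3, Prod.mk_add_mk, if_true, one_ne_zero, if_false, Pi.neg_apply] <;> ring_nf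

theorem z2d_zero : opA (wOf Set.univ {0}) zm = 0 := funext fun i => zm_zeroMode.1 i.1 trivial i.2

/-- **symmetries.** `opA_rotF`, `opA_refF` hold for general weights (same proof); the rotation about the black site `0` maps the cut to the north
ray, a quadrant gauge brings it back; the image is a `ZeroMode` with the same `‖gfld‖` at infinity, so (`asymp`, `eq_zero` applied to
`ϑ' • zm - zth • φ'`) it is `± zm`. The reflection `x ↦ (x.1, -1 - x.2)` preserves the cut. -/
theorem zm_symm : (∀ (x : Site) (α : Fin 4), |zm ((-x.2 - 1, x.1), α + 1)| = |zm (x, α)|) ∧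
    ∀ (x : Site) (α : Fin 4), |zm ((x.1, -1 - x.2), -α)| = |zm (x, α)| := by

  constructor
  · intro x α
    have key := z2d_key (fun i => ((i.1.2, -i.1.1 - 1), i.2 - 1))
      (gaugeF (fun x => sg (0 ≤ x.1 ∧ 0 ≤ x.2)) (rotF (shift (0, -1) zm))) ?_ ?_ ?_ ?_ ((-x.2 - 1, x.1), α + 1)
    · rw [← key]
      simp
    · have hσ : IsSign fun x : Site => sg (0 ≤ x.1 ∧ 0 ≤ x.2) := fun x => mul_self_eq_one_iff.1 (sg_mul_self _)
      refine SolOn.gauge hσ (w := fun e => wOf Set.univ {0}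
        (if e.2 = 0 then ((e.1.2, -e.1.1 - 2), 1) else ((e.1.2, -e.1.1 - 1), 0))) (fun y _ β => ?_) fun y _ β => ?_
      · rw [z2d_rot, z2d_zero]
        simp [rotF, sv, shift]
      · generalize edgeOf y β = e
        obtain ⟨⟨a, b⟩, j⟩ := e
        fin_cases j
        · simp only [Fin.zero_eta, gaugeW, add_uv_0, if_true, z2d_w0, z2d_w1, sg]
          split_ifs <;> first | omega | ring
        · simp only [Fin.mk_one, gaugeW, add_uv_1, one_ne_zero, if_false, z2d_w0, z2d_w1, sg]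
          split_ifs <;> first | omega | ring
    · intro i
      rw [abs_gaugeF fun x => mul_self_eq_one_iff.1 (sg_mul_self _)]
      induction i using b1_he <;> simp [rotF_0, rotF_1, rotF_2, rotF_3, shift, sub_eq_add_neg] <;> rfl
    · intro i
      simp only [supd, Prod.fst_zero, Prod.snd_zero]
      omega
    · rintro ⟨⟨a, b⟩, β⟩
      refine Prod.ext (Prod.ext ?_ ?_) ?_
      · simp
      · simp
      · show β - 1 - 1 - 1 - 1 = β
        revert β
        decide
  · intro x α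
    refine z2d_key (fun i => ((i.1.1, -1 - i.1.2), -i.2)) (refF (shift (0, -1) zm)) ?_ ?_ ?_ ?_ (x, α)
    · intro y _ β
      have e : wOf Set.univ {0} = fun e : Edge => wOf Set.univ {0}
          (if e.2 = 0 then ((e.1.1, -e.1.2 - 1), 0) else ((e.1.1, -e.1.2 - 2), 1)) := by
        funext e
        obtain ⟨⟨a, b⟩, j⟩ := e
        fin_cases j
        · simp only [Fin.zero_eta, if_true, z2d_w0]
        · simp only [Fin.mk_one, one_ne_zero, if_false, z2d_w1, sg]
          split_ifs <;> first | omega | ring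
      rw [e, z2d_ref, z2d_zero]
      simp [refF, sv, shift]
    · intro i
      induction i using b1_he <;> simp [refF_0, refF_1, refF_2, refF_3, shift, sub_eq_add_neg, add_comm] <;> rfl
    · intro i
      simp only [supd, Prod.fst_zero, Prod.snd_zero]
      omega
    · rintro ⟨⟨a, b⟩, β⟩
      simp


/-! ### task Z2e -/

/-- **the translated zero mode.** `φ' = gaugeF σ (shift (-uv j) zm)` with `σ` from `eray_move {0} (bondEdge 0 j)`, normalised so that `σ = 1` far away
in the direction where both cuts agree (for `j = 0`: `σ = 1`, the cuts differ exactly at `bondEdge 0 0`; for `j = 1`: `σ = -1` on `{x.2 = 0, 0 ≤ x.1}`).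
Near any far point gauge the cut away (`exists_gauge`/`loc_gauge`): `φ' - zm` is a lattice difference of a bulk solution: `interior` gives the bound,
`deriv_lim` (with `f = I zth / R`, `R² = z`) the limit. If `zm` vanished on both half-edges the corner value at `0` would vanish (`zm_corner`, `zm_symm`). -/
theorem zm_step (j : Fin 2) : ∃ (φ' : Fn) (C : ℝ), SolOn (flipW (bondEdge 0 j) (wOf Set.univ {0})) Set.univ φ' ∧
    (∃ h : HE, (h = he0 (bondEdge 0 j) ∨ h = he1 (bondEdge 0 j)) ∧ zm h ≠ 0 ∧ |φ' h| = |zm h|) ∧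
    (∀ p α, |(φ' - zm) (p, α)| * ((supd p 0 : ℝ) + 1) ^ (3 / 2 : ℝ) ≤ C) ∧
    Tendsto (fun p => gfld {0} (φ' - zm) p * toC p) cofinite (𝓝 (Complex.I * zth * Complex.I ^ (j : ℕ) / 2)) := by
  obtain ⟨C, hC⟩ := z2e_bound zm_zeroMode j
  exact ⟨z2eF j zm, C, z2e_sol j zm_zeroMode.1,
    ⟨_, Or.inl rfl, z2e_val zm_zeroMode.1 zm_corner zm_symm.1 zm_symm.2 j⟩, hC, z2e_lim zm_zeroMode zm_asymp j⟩

/-! ### task Z2f -/

/-- **evaluation next to a branch point**: `d k = s k - (τ / zth) • (√a)⁻¹ • shift zm` has limit `Γ - I τ → 0`; on the frame at scale `ε / a`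
it is `≤ η / √ε` (`sb_of_clim`/`edge_approx`), `apriori_sup` (`E = univ`, `S = {c k}`) gives `a d² ≤ C η²` at bounded distance from `c k`. -/
theorem eval_branch (ha : ∀ k, 0 < a k) (ha0 : Tendsto a atTop (𝓝 0)) {c : ℕ → Site} {x₀ : ℂ} (hc : PtLim a c x₀)
    {δ : ℝ} (hδ : 0 < δ) {s : ℕ → Fn}
    (hsol : ∀ᶠ k in atTop, SolOn (wOf Set.univ {c k}) {p | dist ((a k : ℂ) * toC p) x₀ < δ} (s k))
    (hb : BulkSeq (ball x₀ δ \ {x₀}) a (one c) (fun _ => Set.univ) s) {Γ : ℂ → ℂ}
    (hΓ : CLim a (ball x₀ δ \ {x₀}) (fun k => gF (a k) (one c k) (s k)) Γ) {τ : ℝ}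
    (h0 : Tendsto Γ (𝓝[≠] x₀) (𝓝 (Complex.I * τ))) (d : Site) (α : Fin 4) :
    Tendsto (fun k => Real.sqrt (a k) * s k (c k + d, α)) atTop (𝓝 (τ / zth * zm (d, α))) := by

  have hU : ball x₀ δ \ {x₀} ⊆ {x₀}ᶜ := fun z hz => hz.2
  have hz := z2f_bulk_mono (zm_zeroMode.bulkSeq ha ha0 hc) hU
  have hzl : CLim a (ball x₀ δ \ {x₀})
      (fun k => gF (a k) (one c k) ((Real.sqrt (a k))⁻¹ • shift (-c k) zm)) fun _ => Complex.I * zth := by
    refine CLim.mono ?_ hU
    have := clim_of_cofinite zm_asymp ha0 hc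
    intro z hz v hv
    exact (this z hz v hv).congr fun k => (gF_shift (ha k) (c k) zm (v k)).symm
  have hne : (zth : ℂ) ≠ 0 := by exact_mod_cast zth_ne
  have key := z2f_small ha ha0 hc hδ
    (s := fun k => (1 : ℝ) • s k + (-(τ / zth)) • ((Real.sqrt (a k))⁻¹ • shift (-c k) zm))
    (Γ := fun z => Γ z - Complex.I * τ) ?_ (z2f_bulk_comb hb hz 1 (-(τ / zth))) ?_ ?_ d α
  · have h1 := key.add_const (τ / zth * zm (d, α))
    rw [zero_add] at h1
    refine h1.congr fun k => ?_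
    have h2 : Real.sqrt (a k) ≠ 0 := (Real.sqrt_pos.2 (ha k)).ne'
    simp only [Pi.add_apply, Pi.smul_apply, smul_eq_mul, shift, add_neg_cancel_comm]
    field_simp
    ring
  · filter_upwards [hsol] with k hk
    refine hk.comb (DU.SolOn.smul ?_ _) _ _
    have h1 := solOn_shift_one zm_zeroMode.1 (c k)
    simp only [wOf_univ_shift] at h1
    exact fun p _ β => h1 p trivial β
  · intro z hz v hv
    have h1 := (hΓ z hz v hv).add ((hzl z hz v hv).const_mul ((-(τ / zth) : ℝ) : ℂ))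
    have h2 : Γ z + ((-(τ / zth) : ℝ) : ℂ) * (Complex.I * zth) = Γ z - Complex.I * τ := by
      push_cast; field_simp; ring
    rw [h2] at h1
    refine h1.congr fun k => ?_
    simp only [gF_comb]
    push_cast
    ring
  · have h1 := h0.sub_const (Complex.I * τ)
    rwa [sub_self] at h1

theorem z2g_spins (c : ℕ → Site) (k : ℕ) : spinsOf (one c k) = {c k} := by
  ext p
  simp [spinsOf, one, eq_comm]

theorem z2g_main (ha : ∀ k, 0 < a k) (ha0 : Tendsto a atTop (𝓝 0)) {c : ℕ → Site} {x₀ : ℂ} (hc : PtLim a c x₀)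
    {δ : ℝ} (hδ : 0 < δ) {s s' : ℕ → Fn} (hb : BulkSeq (ball x₀ δ \ {x₀}) a (one c) (fun _ => Set.univ) s)
    (hb' : BulkSeq (ball x₀ δ \ {x₀}) a (one c) (fun _ => Set.univ) s') {Γ Γ' : ℂ → ℂ}
    (hΓ : CLim a (ball x₀ δ \ {x₀}) (fun k => gF (a k) (one c k) (s k)) Γ) (hd : DifferentiableOn ℂ Γ (ball x₀ δ))
    (hΓ' : CLim a (ball x₀ δ \ {x₀}) (fun k => gF (a k) (one c k) (s' k)) Γ') (hd' : DifferentiableOn ℂ Γ' (ball x₀ δ)) :
    Tendsto (fun k => a k * bform (wOf Set.univ {c k}) (bI (c k) ⌊δ / 2 / a k⌋₊) (s k) (s' k)) atTop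
      (𝓝 (2 * Real.pi * tc * (Γ x₀ * Γ' x₀).im)) := by
  obtain ⟨R, rfl⟩ : ∃ R, δ = 2 * R := ⟨δ / 2, by ring⟩
  have hv : ∀ᶠ k in atTop, Function.Injective (one c k) := .of_forall fun k => Function.injective_of_subsingleton _
  have hU : ∀ _ : Fin 1, x₀ ∉ ball x₀ (2 * R) \ {x₀} := fun _ h => h.2 rfl
  have h1 := bform_lim (x := fun _ : Fin 1 => x₀) (Ψ := fun z => (z - x₀) * (Γ z * Γ' z)) ha ha0 hv (fun _ => hc) hc
    (by linarith : 0 < R) hU hb hb' ((differentiableOn_id.sub_const _).mul (hd.mul hd')) fun z hz p hp => by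
      have h2 := clim_fld_mul (x := fun _ : Fin 1 => x₀) ha ha0 hv (fun _ => hc) hU hΓ hΓ' z hz p hp
      have h3 : z - x₀ ≠ 0 := sub_ne_zero.2 hz.2
      convert h2 using 2
      simp only [rhoX, Finset.prod_const, Finset.card_univ, Fintype.card_fin, pow_one]
      field_simp
  have h2 := ((hasDerivAt_id x₀).sub_const x₀).mul
    ((hd.mul hd').differentiableAt (ball_mem_nhds x₀ hδ)).hasDerivAt
  have h3 : deriv (fun z => (z - x₀) * (Γ z * Γ' z)) x₀ = Γ x₀ * Γ' x₀ := by
    refine h2.deriv.trans ?_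
    simp
  rw [h3] at h1
  simpa only [z2g_spins, mul_div_cancel_left₀ R two_ne_zero] using h1

theorem z2g_box (ha : ∀ k, 0 < a k) (ha0 : Tendsto a atTop (𝓝 0)) {c : ℕ → Site} {x₀ : ℂ} (hc : PtLim a c x₀)
    {δ : ℝ} (hδ : 0 < δ) (d : Site) : ∀ᶠ k in atTop, c k + d ∈ box (c k) ⌊δ / 2 / a k⌋₊ ∧
      ∀ p ∈ box (c k) ⌊δ / 2 / a k⌋₊, dist ((a k : ℂ) * toC p) x₀ < δ := by
  have h1 : Tendsto (fun k => a k * supd d 0) atTop (𝓝 0) := by simpa using ha0.mul_const (supd d 0 : ℝ)
  filter_upwards [hc.eventually (ball_mem_nhds x₀ (by positivity : 0 < δ / 4)),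
    h1.eventually (gt_mem_nhds (half_pos hδ))] with k h2 h3
  refine ⟨mem_box.2 (Nat.le_floor ?_), fun p hp => ?_⟩
  · have := sh_supd d 0 (c k)
    rw [zero_add, add_comm] at this
    rw [this, le_div_iff₀ (ha k)]
    linarith
  · have h4 := B3.dist_toC_le p (c k)
    have h5 : (supd p (c k) : ℝ) ≤ δ / 2 / a k :=
      (Nat.cast_le.2 (mem_box.1 hp)).trans (Nat.floor_le (div_pos (half_pos hδ) (ha k)).le)
    have h6 : dist ((a k : ℂ) * toC p) (a k * toC (c k)) = a k * dist (toC p) (toC (c k)) := by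
      rw [dist_eq_norm, dist_eq_norm, ← mul_sub, norm_mul, Complex.norm_real, Real.norm_of_nonneg (ha k).le]
    rw [le_div_iff₀ (ha k)] at h5
    have h7 := dist_triangle ((a k : ℂ) * toC p) (a k * toC (c k)) x₀
    have h8 := mul_le_mul_of_nonneg_left h4 (ha k).le
    have h9 : dist ((a k : ℂ) * toC (c k)) x₀ < δ / 4 := h2
    nlinarith

/-- **source next to a branch point**: `bform_lim` with the zero mode (`Ψ z = (z - x₀) I zth Γ z`, `clim_fld_mul`, `zm_asymp`, `clim_of_cofinite`,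
`gF_shift`) and `green_box`; second part: `bform_lim` with `s' = s`, `Ψ z = (z - x₀) Γ z ^ 2`. -/
theorem src_branch (ha : ∀ k, 0 < a k) (ha0 : Tendsto a atTop (𝓝 0)) {c : ℕ → Site} {x₀ : ℂ} (hc : PtLim a c x₀)
    {δ : ℝ} (hδ : 0 < δ) (d : Site) (q : Fin 4 → ℝ) {s : ℕ → Fn}
    (hsol : ∀ᶠ k in atTop, ∀ p β, dist ((a k : ℂ) * toC p) x₀ < δ →
      opA (wOf Set.univ {c k}) (s k) (p, β) = if p = c k + d then (Real.sqrt (a k))⁻¹ * q β else 0)
    (hb : BulkSeq (ball x₀ δ \ {x₀}) a (one c) (fun _ => Set.univ) s) {Γ : ℂ → ℂ}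
    (hΓ : CLim a (ball x₀ δ \ {x₀}) (fun k => gF (a k) (one c k) (s k)) Γ) (hd : DifferentiableOn ℂ Γ (ball x₀ δ)) :
    (Γ x₀).re = lam0 * (∑ β, q β * zm (d, β)) / zth ∧
      ((∀ k, ∑ β, q β * s k (c k + d, β) = 0) → (Γ x₀ ^ 2).im = 0) := by
  have hp : 2 * Real.pi * tc ≠ 0 := (mul_pos Real.two_pi_pos tc_pos.1).ne'
  have key : ∀ᶠ k in atTop, ∀ s' : Fn, ∑ p ∈ box (c k) ⌊δ / 2 / a k⌋₊, ∑ α : Fin 4,
      opA (wOf Set.univ {c k}) (s k) (p, α) * s' (p, α) = (Real.sqrt (a k))⁻¹ * ∑ β, q β * s' (c k + d, β) := by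
    filter_upwards [hsol, z2g_box ha ha0 hc hδ d] with k h1 h2 s'
    rw [Finset.sum_eq_single_of_mem _ h2.1 fun p hp hne => Finset.sum_eq_zero fun α _ => by
      rw [h1 p α (h2.2 p hp), if_neg hne, zero_mul], Finset.mul_sum]
    exact Finset.sum_congr rfl fun α _ => by rw [h1 _ α (h2.2 _ h2.1), if_pos rfl, mul_assoc]
  refine ⟨?_, fun h0 => ?_⟩
  · have h1 := z2g_main (Γ' := fun _ => Complex.I * zth) ha ha0 hc hδ hb
      (fun K hK hKU => zm_zeroMode.bulkSeq ha ha0 hc K hK fun z hz => (hKU hz).2) hΓ hd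
      (fun z hz p hp => (clim_of_cofinite zm_asymp ha0 hc z hz.2 p hp).congr fun k => (gF_shift (ha k) _ _ _).symm)
      (differentiableOn_const _)
    have h2 := tendsto_nhds_unique_of_eventuallyEq h1 (tendsto_const_nhds (x := -∑ β, q β * zm (d, β))) <| by
      filter_upwards [key] with k hk
      have h3 : ∀ p α, opA (wOf Set.univ {c k}) ((Real.sqrt (a k))⁻¹ • shift (-c k) zm) (p, α) = 0 := fun p α => by
        have := solOn_shift_one zm_zeroMode.1 (c k) p (Set.mem_univ _) α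
        simp only [wOf_univ_shift] at this
        rw [DU.opA_smul, this, mul_zero]
      have h4 := Real.mul_self_sqrt (ha k).le
      have h5 := (Real.sqrt_pos.2 (ha k)).ne'
      simp only [green_box, h3, mul_zero, zero_add, hk]
      simp only [Pi.smul_apply, shift, smul_eq_mul, add_neg_cancel_comm, mul_left_comm _ (Real.sqrt (a k))⁻¹,
        ← Finset.mul_sum]
      nth_rw 1 [← h4]
      field_simp
    have h3 : (Γ x₀ * (Complex.I * zth)).im = (Γ x₀).re * zth := by simp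
    rw [h3] at h2
    rw [eq_div_iff zth_ne, lam0, neg_mul, ← mul_neg, ← h2, inv_mul_cancel_left₀ hp]
  · have h2 := tendsto_nhds_unique_of_eventuallyEq (z2g_main ha ha0 hc hδ hb hb hΓ hd hΓ hd)
      (tendsto_const_nhds (x := 0)) <| by
      filter_upwards [key] with k hk
      simp only [green_box, mul_comm (s k _), Finset.sum_add_distrib, hk, h0, mul_zero, add_zero, neg_zero]
    rw [sq]
    exact (mul_eq_zero.1 h2).resolve_left hp

end Crest.Agent.R165.C
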