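import Crest.Agent.R165.C.B1cx
import Crest.Agent.R165.C.B0
import Crest.Agent.R165.C.Z2
import Crest.Agent.R165.C.K1

/-! # R165/C: convergence of the kernels (block C, owner helper83; statements FROZEN, add lemmas freely inside the namespace) -/

set_option autoImplicit false
noncomputable section
open Classical Filter Topology Metric Crest.ProbabilityR.IsingModel

namespace Crest.Agent.R165.C

variable {D : Set ℂ} {n : ℕ} {x : Fin n → ℂ} {a : ℕ → ℝ} {E : ℕ → Finset Edge} {ρ : ℕ → ℝ} {v : ℕ → Fin n → Site}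
  {g g₀ : ℕ → HE → HE → ℝ} {y : ℂ} {u : ℕ → Site}

/-! ### task B1a -/

/-- `loc_gauge` normalised at the source -/
theorem b1a_gauge (h : Ctx D x a E ρ v g) (hy : y ∈ D) (hyx : ∀ i, y ≠ x i) (hu : PtLim a u y) {r : ℂ}
    (hr : Tendsto (fun k => ((a k ^ ((n : ℝ) / 2) : ℝ) : ℂ) * rtP (spinsOf (v k)) (u k)) atTop (𝓝 r)) :
    ∃ δ > 0, ∃ (R : ℂ → ℂ) (σ : ℕ → Site → ℝ), ball y δ \ {y} ⊆ D \ (Set.range x ∪ {y}) ∧
      DifferentiableOn ℂ R (ball y δ) ∧ R y = r ∧ (∀ z ∈ ball y δ, R z ^ 2 = rhoX x z ∧ R z ≠ 0) ∧ (∀ k, IsSign (σ k)) ∧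
      (∀ k, σ k (u k) = 1) ∧
      (∀ᶠ k in atTop, ∀ p β, dist ((a k : ℂ) * toC p) y < δ →
        wPl (edgeOf p β) = gaugeW (σ k) (wOf ↑(E k) (spinsOf (v k))) (edgeOf p β)) ∧
      CLim a (ball y δ) (fun k p => ((a k ^ ((n : ℝ) / 2) : ℝ) : ℂ) * σ k p * rtP (spinsOf (v k)) p) R := by
  have ha := h.appr.pos
  have ha0 := h.appr.lim
  obtain ⟨δ, hδ, R, σ, hR, hR2, hσ, he, hl⟩ :=
    loc_gauge ha ha0 v (eventually_inj h.inj h.lim) x h.lim fun i => (hyx i).symm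
  have hr2 := rt_sq ha ha0 h.inj h.lim hu hr
  have hRy := hR2 y (mem_ball_self hδ)
  have hr0 : r ≠ 0 := fun h0 => hRy.2 (pow_eq_zero_iff (n := 2) (by norm_num) |>.1 (by rw [hRy.1, ← hr2, h0]; ring))
  have hε : Tendsto (fun k => (σ k (u k) : ℂ)) atTop (𝓝 (R y / r)) := by
    refine ((hl y (mem_ball_self hδ) u hu).div hr hr0).congr' ?_
    filter_upwards [hr.eventually_ne hr0] with k hk
    rw [Pi.div_apply, div_eq_iff hk, rtP]
    ring
  have hU : D ∩ (Set.range x)ᶜ ∈ 𝓝 y :=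
    inter_mem ((NiceP.isOpen' h.nice).mem_nhds hy) ((Set.finite_range x).isClosed.isOpen_compl.mem_nhds
      fun ⟨i, hi⟩ => hyx i hi.symm)
  obtain ⟨ε, hε0, hεU⟩ := nhds_basis_closedBall.mem_iff.1 hU
  have hm : 0 < min ε (δ / 2) := lt_min hε0 (half_pos hδ)
  have hsub : ball y (min ε (δ / 2)) ⊆ ball y δ := ball_subset_ball ((min_le_right _ _).trans (half_le_self hδ.le))
  have hsub' : ball y (min ε (δ / 2)) ⊆ closedBall y ε :=
    (ball_subset_ball (min_le_left _ _)).trans ball_subset_closedBall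
  refine ⟨min ε (δ / 2), hm, fun z => R y / r * R z, fun k p => σ k (u k) * σ k p, fun z hz => ?_,
    (hR.mono hsub).const_mul _, ?_, fun z hz => ?_, fun k p => ?_, fun k => (hσ k).mul_self _, ?_, fun z hz p hp => ?_⟩
  · exact ⟨(hεU (hsub' hz.1)).1, fun h' => h'.elim (hεU (hsub' hz.1)).2 hz.2⟩
  · show R y / r * R y = r
    rw [div_mul_eq_mul_div, ← sq, hRy.1, ← hr2, sq, mul_div_cancel_right₀ _ hr0]
  · refine ⟨?_, mul_ne_zero (div_ne_zero hRy.2 hr0) (hR2 z (hsub hz)).2⟩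
    rw [mul_pow, div_pow, hRy.1, ← hr2, div_self (pow_ne_zero 2 hr0), one_mul, (hR2 z (hsub hz)).1]
  · rcases hσ k (u k) with h1 | h1 <;> rcases hσ k p with h2 | h2 <;> simp [h1, h2]
  · filter_upwards [he, appr_crit (NiceP.isOpen' h.nice) h.appr (isCompact_closedBall y ε) fun z hz => (hεU hz).1,
      ha0.eventually (gt_mem_nhds (half_pos hδ))] with k hk hc hak p β hp
    have h1 : edgeOf p β ∈ (↑(E k) : Set Edge) := hc p (hsub' hp) β
    have h2 : dist ((a k : ℂ) * toC (edgeOf p β).1) ((a k : ℂ) * toC p) ≤ a k := by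
      rw [dist_eq_norm, ← mul_sub, norm_mul, Complex.norm_real, Real.norm_of_nonneg (ha k).le, ← toC_sub]
      refine mul_le_of_le_one_right (ha k).le ?_
      fin_cases β <;> simp [edgeOf, toC, Complex.norm_eq_sqrt_sq_add_sq]
    have h3 := hk (edgeOf p β) (by
      have := dist_triangle ((a k : ℂ) * toC (edgeOf p β).1) ((a k : ℂ) * toC p) y
      have := min_le_right ε (δ / 2)
      linarith)
    have h4 := (hσ k).mul_self (u k)
    simp only [wPl, gaugeW, wOf, if_pos h1]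
    linear_combination (-tc) * h3 - tc * σ k (edgeOf p β).1 * σ k ((edgeOf p β).1 + uv (edgeOf p β).2) *
      eray (spinsOf (v k)) (edgeOf p β) * h4
  · refine (hε.mul (hl z (hsub hz) p hp)).congr fun k => ?_
    simp only [rtP, Complex.ofReal_mul]
    ring

/-- the residue of a limit with a bulk source -/
theorem b1a_res (h : Ctx D x a E ρ v g) (hy : y ∈ D) (hyx : ∀ i, y ≠ x i) (hu : PtLim a u y) {r : ℂ}
    (hr : Tendsto (fun k => ((a k ^ ((n : ℝ) / 2) : ℝ) : ℂ) * rtP (spinsOf (v k)) (u k)) atTop (𝓝 r)) (q : Fin 4 → ℝ)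
    {s : ℕ → Fn}
    (hs : ∀ k p β, opA (wOf ↑(E k) (spinsOf (v k))) (s k) (p, β) = if p = u k then (a k)⁻¹ * q β else 0)
    (hb : BulkSeq (D \ (Set.range x ∪ {y})) a v (fun k => ↑(E k)) s) {G : ℂ → ℂ}
    (hG : CLim a (D \ (Set.range x ∪ {y})) (fun k => gF (a k) (v k) (s k)) G) :
    Tendsto (fun z => (z - y) * G z) (𝓝[≠] y) (𝓝 (Complex.I * lam0 * (∑ β, (q β : ℂ) * bA β) * r)) := by
  obtain ⟨δ, hδ, R, σ, hsub, hR, hRy, hR2, hσ, hσu, he, hl⟩ := b1a_gauge h hy hyx hu hr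
  have hw : ∀ k, wOf Set.univ (spinsOf (non k)) = wPl := fun k => by
    funext e
    simp [wOf, wPl, spinsOf, eray_empty]
  have key := src_bulk h.appr.pos h.appr.lim hu hδ q (s := fun k => gaugeF (σ k) (s k)) (Γ := fun z => G z / R z) ?_ ?_ ?_
  · have hc : Tendsto R (𝓝[≠] y) (𝓝 r) :=
      hRy ▸ (hR.continuousOn.continuousAt (ball_mem_nhds y hδ)).tendsto.mono_left nhdsWithin_le_nhds
    refine (key.mul hc).congr' ?_
    filter_upwards [nhdsWithin_le_nhds (ball_mem_nhds y hδ)] with z hz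
    rw [mul_assoc, div_mul_cancel₀ _ (hR2 z hz).2]
  · filter_upwards [he] with k hk p β hp
    have e : opA wPl (gaugeF (σ k) (s k)) (p, β) =
        opA (gaugeW (σ k) (wOf ↑(E k) (spinsOf (v k)))) (gaugeF (σ k) (s k)) (p, β) := by
      simp only [opA, hk p β hp]
    rw [e, opA_gauge (hσ k), gaugeF, hs]
    split_ifs with hpu
    · rw [hpu, hσu, one_mul]
    · rw [mul_zero]
  · intro K hK hKU
    obtain ⟨C, hC⟩ := hb K hK (hKU.trans hsub)
    refine ⟨C, ?_⟩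
    filter_upwards [hC, he] with k hk hk'
    refine ⟨fun _ _ _ => trivial, ?_, fun p hp α => (abs_gaugeF (hσ k) _ _).trans_le (hk.2.2 p hp α)⟩
    rw [hw]
    exact hk.2.1.gauge (hσ k) fun p hp β => hk' p β (hKU hp).1
  · intro z hz p hp
    have h1 := hl z hz.1 p hp
    refine ((hG z (hsub hz) p hp).div h1 (hR2 z hz.1).2).congr' ?_
    filter_upwards [h1.eventually_ne (hR2 z hz.1).2] with k hk
    rw [Pi.div_apply, div_eq_iff hk]
    exact bulk_gF_eq (hσ k) _ _ _ _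

theorem b1a_sub (h : Ctx D x a E ρ v g) (hy : y ∈ D) (hyx : ∀ i, y ≠ x i) (hu : PtLim a u y) {r : ℂ}
    (hr : Tendsto (fun k => ((a k ^ ((n : ℝ) / 2) : ℝ) : ℂ) * rtP (spinsOf (v k)) (u k)) atTop (𝓝 r)) (α : Fin 4) :
    ∃ (ψ : ℕ → ℕ) (G : ℂ → ℂ), StrictMono ψ ∧ RHbulk D x y (Complex.I * lam0 * (∑ β, (vC α β : ℂ) * bA β) * r) G ∧
      CLim (a ∘ ψ) (D \ (Set.range x ∪ {y}))
        (fun k => gF (a (ψ k)) (v (ψ k)) ((a (ψ k))⁻¹ • kC (g (ψ k)) (u (ψ k)) α)) G := by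
  have hN : NOK x y a fun k => (a k)⁻¹ := Or.inl ⟨hyx, fun _ => rfl⟩
  obtain ⟨ψ, G, hψ, h1, h2, h3, -⟩ := cb0 h hy hu hN α
  refine ⟨ψ, G, hψ, ⟨h1, fun i => h2 i (hyx i).symm, ?_⟩, h3⟩
  refine b1a_res (h.subseq hψ) hy hyx (hu.subseq hψ) (hr.comp hψ.tendsto_atTop) (vC α) (fun k p β => ?_)
    ((kC_bulkSeq h hu hN α).subseq hψ) h3
  rw [DU.opA_smul, DU.opA_kC (h.ker _).1]
  split_ifs
  · rfl
  · rw [mul_zero]

theorem b1a_corner (h : Ctx D x a E ρ v g) (hy : y ∈ D) (hyx : ∀ i, y ≠ x i) (hu : PtLim a u y) {r : ℂ}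
    (hr : Tendsto (fun k => ((a k ^ ((n : ℝ) / 2) : ℝ) : ℂ) * rtP (spinsOf (v k)) (u k)) atTop (𝓝 r)) (α : Fin 4) :
    ∃ G : ℂ → ℂ, RHbulk D x y (Complex.I * lam0 * (∑ β, (vC α β : ℂ) * bA β) * r) G ∧
      CLim a (D \ (Set.range x ∪ {y})) (fun k => gF (a k) (v k) ((a k)⁻¹ • kC (g k) (u k) α)) G := by
  obtain ⟨-, G, -, hG, -⟩ := b1a_sub h hy hyx hu hr α
  refine ⟨G, hG, clim_of_subseq fun ψ hψ => ?_⟩
  obtain ⟨ψ', G', hψ', hG', hl⟩ := b1a_sub (h.subseq hψ) hy hyx (hu.subseq hψ) (hr.comp hψ.tendsto_atTop) α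
  refine ⟨ψ', hψ', fun z hz p hp => ?_⟩
  rw [Bulk.unique h.nice h.inj h.mem hy hyx (Bulk.of_rh hG) (Bulk.of_rh hG') z hz.1 fun e => hz.2 (Or.inr e)]
  exact hl z hz p hp

theorem b1a_dC (β γ : Fin 4) : ∑ α, DU.dC β α * vC α γ = if γ = β then 1 else 0 := by
  simpa only [mul_comm] using DU.sum_vC_dC β γ

theorem b1a_row (g : HE → HE → ℝ) (p : Site) (α : Fin 4) : g (p, α) = ∑ γ, DU.dC α γ • kC g p γ := by
  funext i
  simp only [kC, Finset.sum_apply, Pi.smul_apply, smul_eq_mul, Finset.mul_sum]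
  rw [Finset.sum_comm]
  simp only [← mul_assoc, ← Finset.sum_mul, b1a_dC, ite_mul, one_mul, zero_mul, Finset.sum_ite_eq', Finset.mem_univ, if_true]

theorem b1a_gF_sum (c t' : ℝ) (w : Fin n → Site) (t : Fin 4 → ℝ) (s : Fin 4 → Fn) (p : Site) :
    gF c w (t' • ∑ γ, t γ • s γ) p = ∑ γ, (t γ : ℂ) * gF c w (t' • s γ) p := by
  simp only [gF, gfld, fld, Fin.sum_univ_four, Pi.smul_apply, Pi.add_apply, smul_eq_mul]
  push_cast
  ring

/-- **bulk source.** Corner sources: `cb0`; `loc_gauge` at `y` (`σ (u k) r → R y`, so along the subsequence `σ (u k) = ε`, `R y = ε r`), `src_bulk` for the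
gauged function give the residue `I lam0 (Σ vC α β bA β) r`, so the limit is `RHbulk`. Rows: `g (u, β) = Σ_α dC β α • kC g u α` (`DU.sum_vC_dC`), a `Bulk` (`Bulk.comb`).
Full sequence: `Bulk.unique` + `clim_of_subseq` (`Ctx.subseq`). -/
theorem cb1 (h : Ctx D x a E ρ v g) (hy : y ∈ D) (hyx : ∀ i, y ≠ x i) (hu : PtLim a u y) {r : ℂ}
    (hr : Tendsto (fun k => ((a k ^ ((n : ℝ) / 2) : ℝ) : ℂ) * rtP (spinsOf (v k)) (u k)) atTop (𝓝 r)) (α : Fin 4) :
    ∃ G, Bulk D x y (Complex.I * lam0 * bA α * r) G ∧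
      CLim a (D \ (Set.range x ∪ {y})) (fun k => gF (a k) (v k) ((a k)⁻¹ • g k (u k, α))) G := by
  choose G hG hl using b1a_corner h hy hyx hu hr
  refine ⟨fun z => ∑ γ, (DU.dC α γ : ℂ) * G γ z, ⟨4, DU.dC α, _, G, hG, ?_, fun _ => rfl⟩, fun z hz p hp => ?_⟩
  · have e : ∑ γ, (DU.dC α γ : ℂ) * ∑ β, (vC γ β : ℂ) * bA β = bA α := by
      simp only [Finset.mul_sum]
      rw [Finset.sum_comm]
      simp only [← mul_assoc, ← Finset.sum_mul, ← Complex.ofReal_mul, ← Complex.ofReal_sum, b1a_dC]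
      simp [apply_ite Complex.ofReal]
    rw [← e, Finset.mul_sum, Finset.sum_mul]
    exact Finset.sum_congr rfl fun γ _ => by ring
  · refine (tendsto_finsetSum _ fun γ _ => (hl γ z hz p hp).const_mul (DU.dC α γ : ℂ)).congr fun k => ?_
    beta_reduce
    rw [b1a_row (g k) (u k) α, b1a_gF_sum]

/-! ### task B1b -/

theorem b1b_norm {σ : Site → ℝ} (hσ : IsSign σ) (p : Site) : |σ p| = 1 := by
  rcases hσ p with h | h <;> simp [h]

theorem b1b_gF {t : ℝ} (ht : 0 < t) {σ : Site → ℝ} (hσ : IsSign σ) (v : Fin n → Site) (i : Fin n) (s : Fn) (p : Site) :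
    gF t (fun _ : Fin 1 => v i) (gaugeF σ s) p * (((t ^ (((n : ℝ) - 1) / 2) : ℝ) : ℂ) * σ p * rtP ((spinsOf v).erase (v i)) p) =
      gF t v s p := by
  have h1 : spinsOf (fun _ : Fin 1 => v i) = {v i} := by simp [spinsOf]
  have h2 : t ^ ((n : ℝ) / 2) = t ^ (((1 : ℕ) : ℝ) / 2) * t ^ (((n : ℝ) - 1) / 2) := by
    rw [← Real.rpow_add ht]
    congr 1
    push_cast
    ring
  have h3 : (σ p : ℂ) * σ p = 1 := by exact_mod_cast hσ.mul_self p
  simp only [gF, gfld, fld_gauge, rtP, h1, h2, Finset.prod_singleton,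
    ← Finset.mul_prod_erase (spinsOf v) _ (Finset.mem_image_of_mem v (Finset.mem_univ i)), Complex.ofReal_mul]
  linear_combination (((t ^ (((1 : ℕ) : ℝ) / 2) : ℝ) : ℂ) * ((t ^ (((n : ℝ) - 1) / 2) : ℝ) : ℂ) * fld s p *
    rt (pos p - toC (v i)) * ∏ u ∈ (spinsOf v).erase (v i), rt (pos p - toC u)) * h3

theorem b1b_anti {g : HE → HE → ℝ} (hg : Antisym g) (u : Site) (α : Fin 4) : ∑ β, vC α β * kC g u α (u, β) = 0 := by
  have h : ∑ β, ∑ γ, vC α β * (vC α γ * g (u, γ) (u, β)) = ∑ γ, ∑ β, -(vC α γ * (vC α β * g (u, β) (u, γ))) := by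
    rw [Finset.sum_comm]
    exact Finset.sum_congr rfl fun γ _ => Finset.sum_congr rfl fun β _ => by rw [hg (u, γ) (u, β)]; ring
  simp only [Finset.sum_neg_distrib] at h
  simp only [kC, Finset.mul_sum]
  linarith

/-- real part of the coefficient of a limit with its source at `v i + d`: `loc_branch` + `src_branch` (`σ (v i + d) r' → R (x i)`) -/
theorem src_coef (h : Ctx D x a E ρ v g) (i : Fin n) (d : Site) {r' : ℂ}
    (hr : Tendsto (fun k => ((a k ^ (((n : ℝ) - 1) / 2) : ℝ) : ℂ) * rtP ((spinsOf (v k)).erase (v k i)) (v k i + d)) atTop (𝓝 r'))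
    (α : Fin 4) {G : ℂ → ℂ} (hG : DifferentiableOn ℂ G D)
    (hl : CLim a (D \ Set.range x) (fun k => gF (a k) (v k) ((Real.sqrt (a k))⁻¹ • kC (g k) (v k i + d) α)) G) :
    (G (x i) / r').re = lam0 * prC zm d α / zth ∧ ((G (x i) / r') ^ 2).im = 0 := by
  have ha := h.appr.pos
  have ha0 := h.appr.lim
  have hD := NiceP.isOpen' h.nice
  obtain ⟨δ, hδ, R, σ, h1, h2, h3, h4, h5, h6, -⟩ := loc_branch ha ha0 h.inj h.lim i
  obtain ⟨ε, hε, hεD⟩ := nhds_basis_closedBall.mem_iff.1 (hD.mem_nhds (h.mem i))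
  have hu : PtLim a (fun k => v k i + d) (x i) := (h.lim i).add_const ha0 d
  have hδ' : 0 < min (δ / 2) ε := lt_min (half_pos hδ) hε
  have hb1 : ball (x i) (min (δ / 2) ε) ⊆ ball (x i) δ := ball_subset_ball ((min_le_left _ _).trans (half_le_self hδ.le))
  have hb2 : ball (x i) (min (δ / 2) ε) ⊆ closedBall (x i) ε :=
    ball_subset_closedBall.trans (closedBall_subset_closedBall (min_le_right _ _))
  have hb3 : ball (x i) (min (δ / 2) ε) \ {x i} ⊆ D \ (Set.range x ∪ {x i}) := fun z hz => ⟨hεD (hb2 hz.1), by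
    rintro (⟨k, rfl⟩ | hk)
    · exact h1 k (fun e => hz.2 (congrArg x e)) (hb1 hz.1)
    · exact hz.2 hk⟩
  have hR := h6 _ (mem_ball_self hδ) _ hu
  have hr0 : r' ≠ 0 := fun e => (h3 _ (mem_ball_self hδ)).2 <| norm_eq_zero.1 <| tendsto_nhds_unique hR.norm <| by
    simpa [e, b1b_norm (h4 _)] using hr.norm
  have hσ : Tendsto (fun k => (σ k (v k i + d) : ℂ)) atTop (𝓝 (R (x i) / r')) := by
    refine (hR.div hr hr0).congr' ((hr.eventually_ne hr0).mono fun k hk => ?_)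
    simp only [Pi.div_apply]
    rw [mul_right_comm, mul_div_cancel_left₀ _ hk]
  let σ' : ℕ → Site → ℝ := fun k p => σ k (v k i + d) * σ k p
  have h4' : ∀ k, IsSign (σ' k) := fun k p => mul_self_eq_one_iff.1 (by
    linear_combination (σ k p * σ k p) * (h4 k).mul_self (v k i + d) + (h4 k).mul_self p)
  have hw : ∀ᶠ k in atTop, ∀ p, dist ((a k : ℂ) * toC p) (x i) < min (δ / 2) ε → ∀ β,
      wOf Set.univ {v k i} (edgeOf p β) = gaugeW (σ' k) (wOf ↑(E k) (spinsOf (v k))) (edgeOf p β) := by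
    filter_upwards [h5, appr_crit hD h.appr (isCompact_closedBall _ ε) hεD,
      ha0.eventually (gt_mem_nhds (show (0 : ℝ) < δ / 3 by positivity))] with k e1 e2 e3 p hp β
    have e4 := e1 (edgeOf p β) (by
      have := blk_dist (ha k) (edgeOf_fst_mem_box p β) (x i)
      have := min_le_left (δ / 2) ε
      push_cast at *
      linarith)
    simp only [wOf, gaugeW, σ', Set.mem_univ, if_true, if_pos (e2 p (hb2 hp) β), ← e4]
    linear_combination (-tc * σ k (edgeOf p β).1 * σ k ((edgeOf p β).1 + uv (edgeOf p β).2) *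
      eray (spinsOf (v k)) (edgeOf p β)) * (h4 k).mul_self (v k i + d)
  have key := src_branch ha ha0 (h.lim i) hδ' d (vC α)
    (s := fun k => gaugeF (σ' k) ((Real.sqrt (a k))⁻¹ • kC (g k) (v k i + d) α)) ?_ ?_
    (Γ := fun z => R (x i) / r' * (G z / R z)) ?_
    (((hG.mono (hb2.trans hεD)).div (h2.mono hb1) fun z hz => (h3 z (hb1 hz)).2).const_mul _)
  · rw [show R (x i) / r' * (G (x i) / R (x i)) = G (x i) / r' by field_simp [(h3 _ (mem_ball_self hδ)).2]] at key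
    refine ⟨key.1, key.2 fun k => ?_⟩
    simp only [gaugeF, Pi.smul_apply, smul_eq_mul, mul_left_comm (vC α _), ← Finset.mul_sum, b1b_anti (h.ker k).1.1,
      mul_zero]
  · filter_upwards [hw] with k hk p β hp
    rw [DU.opA_congr_w (Or.inl (hk p hp β)), opA_gauge (h4' k), gaugeF, DU.opA_smul, DU.opA_kC (h.ker k).1]
    split_ifs with e
    · simp only [σ', e, (h4 k).mul_self, one_mul]
    · simp
  · intro K hK hKU
    obtain ⟨C, hC⟩ := kC_bulkSeq h hu (Or.inr fun _ => rfl) α K hK (hKU.trans hb3)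
    refine ⟨C, ?_⟩
    filter_upwards [hw, hC] with k hk e
    refine ⟨fun _ _ _ => trivial, e.2.1.gauge (h4' k) fun p hp β => ?_, fun p hp β => ?_⟩
    · rw [← hk p (hKU hp).1 β]
      simp [spinsOf, one]
    · rw [abs_gaugeF (h4' k)]
      exact e.2.2 p hp β
  · intro z hz p hp
    have h8 := h6 z (hb1 hz.1) p hp
    have h9 := (h3 z (hb1 hz.1)).2
    refine (hσ.mul ((hl z ⟨(hb3 hz).1, fun e => (hb3 hz).2 (Or.inl e)⟩ p hp).div h8 h9)).congr'
      ((h8.eventually_ne h9).mono fun k hk => ?_)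
    simp only [Pi.div_apply]
    rw [← b1b_gF (ha k) (h4 k) (v k) i, mul_div_cancel_right₀ _ hk]
    unfold one
    simp only [gF, gfld, fld_gauge, σ']
    push_cast
    ring

theorem b1b_rh {Y : Set ℂ} {G : ℂ → ℂ} (h : RH D x Y G) (t : ℝ) : RH D x Y fun z => t * G z := by
  obtain ⟨H, h1, h2, h3⟩ := h.pot
  obtain ⟨C, R, h4⟩ := h.inf
  refine ⟨h.hol.const_mul _, ⟨fun z => t ^ 2 * H z, fun z hz hx => ?_, fun ε hε => ?_, fun ζ hζ r hr => ?_⟩,
    t ^ 2 * C, R, fun z hz hR => ?_⟩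
  · refine ((h1 z hz hx).const_mul (t ^ 2)).congr_fderiv (ContinuousLinearMap.ext fun w => ?_)
    simp only [ContinuousLinearMap.comp_apply, smul_apply, ContinuousLinearMap.id_apply,
      Complex.reCLM_apply, smul_eq_mul, ← Complex.re_ofReal_mul]
    congr 1
    push_cast
    ring
  · obtain ⟨δ, hδ, h5⟩ := h2 (ε / (t ^ 2 + 1)) (by positivity)
    refine ⟨δ, hδ, fun z hz hζ => ?_⟩
    have h6 := (lt_div_iff₀ (by positivity)).1 (h5 z hz hζ)
    rw [abs_mul, abs_sq]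
    nlinarith [abs_nonneg (H z)]
  · obtain ⟨z, a1, a2, a3⟩ := h3 ζ hζ r hr
    exact ⟨z, a1, a2, by positivity⟩
  · rw [norm_mul, mul_pow, Complex.norm_real, Real.norm_eq_abs, sq_abs, mul_assoc, mul_assoc]
    exact mul_le_mul_of_nonneg_left (h4 z hz hR) (sq_nonneg t)

theorem b1b_br {G : ℂ → ℂ} {i : Fin n} (h : BrOK x G i) (t : ℝ) : BrOK x (fun z => t * G z) i := by
  have e : cSq x (fun z => t * G z) i = (t ^ 2 : ℝ) * cSq x G i := by
    simp only [cSq]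
    push_cast
    ring
  rw [BrOK, e, Complex.im_ofReal_mul, Complex.re_ofReal_mul, h.1, mul_zero]
  exact ⟨rfl, mul_nonpos_of_nonneg_of_nonpos (sq_nonneg t) h.2⟩

theorem b1b_lim (h : Ctx D x a E ρ v g) (i : Fin n) (d : Site) {r' : ℂ}
    (hr : Tendsto (fun k => ((a k ^ (((n : ℝ) - 1) / 2) : ℝ) : ℂ) * rtP ((spinsOf (v k)).erase (v k i)) (v k i + d)) atTop (𝓝 r'))
    (α : Fin 4) : ∃ (ψ : ℕ → ℕ) (G : ℂ → ℂ), StrictMono ψ ∧ RH D x ∅ G ∧ (∀ k, k ≠ i → BrOK x G k) ∧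
      CLim (a ∘ ψ) (D \ Set.range x)
        (fun k => gF (a (ψ k)) (v (ψ k)) ((Real.sqrt (a (ψ k)))⁻¹ • kC (g (ψ k)) (v (ψ k) i + d) α)) G ∧
      (G (x i) / r').re = lam0 * prC zm d α / zth ∧ ((G (x i) / r') ^ 2).im = 0 := by
  obtain ⟨ψ, G, hψ, h1, h2, h3, h4⟩ := cb0 h (h.mem i) ((h.lim i).add_const h.appr.lim d) (Or.inr fun _ => rfl) α
  rw [Set.union_eq_left.2 (Set.singleton_subset_iff.2 (Set.mem_range_self i))] at h3
  obtain ⟨H, h5, h6⟩ := h1.pot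
  exact ⟨ψ, G, hψ, ⟨(h4 ⟨i, rfl⟩).mono Set.sdiff_subset, ⟨H, fun z hz hx => h5 z ⟨hz.1, hx i⟩ hx, h6⟩, h1.inf⟩,
    fun k hk => h2 k (h.inj.ne hk), h3, src_coef (h.subseq hψ) i d (hr.comp hψ.tendsto_atTop) α (h4 ⟨i, rfl⟩) h3⟩

/-- existence: `cb0` + `src_coef` for the corner `(v i, 2)` (`d = 0`), `zm_corner`; divide by the real coefficient -/
theorem exists_rhbr (hD : NiceP D n) (hx : Function.Injective x) (hxD : ∀ i, x i ∈ D) (i : Fin n) : ∃ G, RHbr D x i G := by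
  obtain ⟨a, E, ρ, hA⟩ := exists_appr hD
  choose v hv using fun i => exists_ptLim hA.pos hA.lim (x i)
  obtain ⟨g, h⟩ := exists_ctx hD hx hxD hA (v := fun k i => v i k) hv
  obtain ⟨ψ, r', hψ, hr⟩ := rt_subseq_br hA.pos hA.lim hx h.lim i 0
  have h' := h.subseq hψ
  obtain ⟨-, G, -, h1, h2, -, h3, h4⟩ := b1b_lim h' i 0 hr 2
  have h5 := rt_sq_br h'.appr.pos h'.appr.lim hx h'.lim i 0 hr
  have h6 := prod_erase_ne hx i
  have h7 : (G (x i) / r').re ≠ 0 := h3 ▸ div_ne_zero (mul_ne_zero lam0_ne zm_corner) zth_ne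
  have h8 : (G (x i) / r').im = 0 := by
    rw [sq, Complex.mul_im, mul_comm, ← two_mul] at h4
    simpa only [mul_eq_zero, h7, or_false, two_ne_zero, false_or] using h4
  refine ⟨_, b1b_rh h1 (G (x i) / r').re⁻¹, fun k hk => b1b_br (h2 k hk) _, ?_⟩
  have h9 : ((G (x i) / r').re : ℂ) = G (x i) / r' := Complex.ext rfl h8.symm
  have h10 : G (x i) / r' ≠ 0 := fun e => h7 (by rw [e]; rfl)
  rw [cSq, ← h5, Complex.ofReal_inv, h9, ← div_pow, mul_div_assoc, inv_mul_cancel₀ h10, one_pow]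

theorem b1b_sum (β : Fin 4) (F : Fin 4 → ℝ) : ∑ α, DU.dC β α * ∑ γ, vC α γ * F γ = F β := by
  simp only [Finset.mul_sum, ← mul_assoc]
  simp only [mul_comm (DU.dC β _)]
  rw [Finset.sum_comm]
  simp [← Finset.sum_mul, DU.sum_vC_dC]

theorem b1b_row (g : HE → HE → ℝ) (u : Site) (β : Fin 4) : ∑ α, DU.dC β α • kC g u α = g (u, β) := by
  funext j
  rw [Finset.sum_apply, ← b1b_sum β fun γ => g (u, γ) j]
  rfl

/-- **source next to a branch point**: `exists_rhbr` (change the sign so that `G (x i) = r'`, `rt_sq_br`), `cb0`, `src_coef`, `eq_smul_rhbr`,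
`clim_of_subseq`; rows from corners as in `cb1` (`Σ_α dC β α prC zm d α = zm (d, β)`). -/
theorem cb2 (h : Ctx D x a E ρ v g) (i : Fin n) (d : Site) {r' : ℂ}
    (hr : Tendsto (fun k => ((a k ^ (((n : ℝ) - 1) / 2) : ℝ) : ℂ) * rtP ((spinsOf (v k)).erase (v k i)) (v k i + d)) atTop (𝓝 r')) :
    ∃ G, RHbr D x i G ∧ G (x i) = r' ∧ ∀ α, CLim a (D \ Set.range x)
      (fun k => gF (a k) (v k) ((Real.sqrt (a k))⁻¹ • g k (v k i + d, α))) fun z => (lam0 * zm (d, α) / zth : ℝ) * G z := by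
  obtain ⟨G, hG, hr'⟩ : ∃ G, RHbr D x i G ∧ G (x i) = r' := by
    obtain ⟨G, h1, h2, h3⟩ := exists_rhbr h.nice h.inj h.mem i
    have h4 := h3
    rw [cSq, div_eq_one_iff_eq (prod_erase_ne h.inj i), ← rt_sq_br h.appr.pos h.appr.lim h.inj h.lim i d hr,
      sq_eq_sq_iff_eq_or_eq_neg] at h4
    rcases h4 with h4 | h4
    · exact ⟨G, ⟨h1, h2, h3⟩, h4⟩
    · exact ⟨_, ⟨b1b_rh h1 (-1), fun k hk => b1b_br (h2 k hk) _, by simpa [cSq] using h3⟩, by simp [h4]⟩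
  have key : ∀ α, CLim a (D \ Set.range x) (fun k => gF (a k) (v k) ((Real.sqrt (a k))⁻¹ • kC (g k) (v k i + d) α))
      fun z => (lam0 * prC zm d α / zth : ℝ) * G z := fun α => clim_of_subseq fun ψ hψ => by
    obtain ⟨ψ', G', a1, a2, a3, a4, a5, -⟩ := b1b_lim (h.subseq hψ) i d (hr.comp hψ.tendsto_atTop) α
    refine ⟨ψ', a1, fun z hz p hp => ?_⟩
    have e := a4 z hz p hp
    rwa [eq_smul_rhbr h.nice h.inj h.mem a2 a3 hG (hr' ▸ a5) z hz.1] at e
  refine ⟨G, hG, hr', fun β z hz p hp => ?_⟩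
  convert tendsto_finsetSum Finset.univ fun α _ => (key α z hz p hp).const_mul (DU.dC β α : ℂ) using 2
  · beta_reduce
    rw [← b1b_row (g _) _ β]
    simp only [gF, gfld, fld, Fin.sum_univ_four, Pi.smul_apply, Pi.add_apply, smul_eq_mul]
    push_cast
    ring
  · rw [← b1b_sum β fun γ => zm (d, γ)]
    simp only [prC, Fin.sum_univ_four]
    push_cast
    ring

/-! ### task B1c -/

/-- **regular part on the diagonal**: `loc_gauge` at `y`; `d k = (a k)⁻¹ • (σ (u k) • gaugeF σ (g k (u k, α)) - g₀ k (u k, α))` solves the homogeneous equation near `y`,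
limit `ε G / R - G₀` where `ε R y = r` (subsequences, or replace `σ` by `σ (u k) σ` after showing `σ (u k) → ε`); `reg_lim`;
`(z - y)(G²/ρ - G₀²) = c(z) ((z - y) c(z) + 2 (z - y) G₀ z)`; `σ (u) σ (u + uv j) = eray (u, j)`. -/
theorem cb_diag (h : Ctx D x a E ρ v g) (h₀ : Ctx D (![] : Fin 0 → ℂ) a E ρ non g₀) (hy : y ∈ D) (hyx : ∀ i, y ≠ x i)
    (hu : PtLim a u y) {r : ℂ}
    (hr : Tendsto (fun k => ((a k ^ ((n : ℝ) / 2) : ℝ) : ℂ) * rtP (spinsOf (v k)) (u k)) atTop (𝓝 r)) (α : Fin 4)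
    {G G₀ : ℂ → ℂ} {β₀ : ℂ}
    (hG : CLim a (D \ (Set.range x ∪ {y})) (fun k => gF (a k) (v k) ((a k)⁻¹ • g k (u k, α))) G)
    (hG₀ : CLim a (D \ (Set.range (![] : Fin 0 → ℂ) ∪ {y})) (fun k => gF (a k) (non k) ((a k)⁻¹ • g₀ k (u k, α))) G₀)
    (hβ : Tendsto (fun z => (z - y) * G₀ z) (𝓝[≠] y) (𝓝 β₀)) :
    ∃ c : ℂ, Tendsto (fun z => (z - y) * (G z ^ 2 / rhoX x z - G₀ z ^ 2)) (𝓝[≠] y) (𝓝 (2 * β₀ * c)) ∧
      (∃ R : ℂ → ℂ, ContinuousAt R y ∧ R y = r ∧ (∀ᶠ z in 𝓝 y, R z ^ 2 = rhoX x z) ∧ Tendsto (fun z => G z / R z - G₀ z) (𝓝[≠] y) (𝓝 c)) ∧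
      (∀ β, Tendsto (fun k => (a k)⁻¹ * (g k (u k, α) (u k, β) - g₀ k (u k, α) (u k, β))) atTop (𝓝 (c * bA β).re)) ∧
      ∀ j β, Tendsto (fun k => (a k)⁻¹ * (eray (spinsOf (v k)) (u k, j) * g k (u k, α) (u k + uv j, β) -
        g₀ k (u k, α) (u k + uv j, β))) atTop (𝓝 (c * bA β).re) := by
  have ha := h.appr.pos
  have ha0 := h.appr.lim
  obtain ⟨δ₁, hδ₁, R, σ, hd, hRy, hR, hσ, hσu, he, hl⟩ := b1c_gauge ha ha0 h.inj h.lim hyx hu hr
  obtain ⟨δ₂, hδ₂, hδD⟩ := nhds_basis_closedBall.mem_iff.1 ((NiceP.isOpen' h.nice).mem_nhds hy)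
  obtain ⟨δ, hδ, h1, h2⟩ : ∃ δ > 0, 2 * δ ≤ δ₁ ∧ δ ≤ δ₂ :=
    ⟨min (δ₁ / 2) δ₂, by positivity, by linarith [min_le_left (δ₁ / 2) δ₂], min_le_right _ _⟩
  have hb1 : ball y δ ⊆ ball y δ₁ := ball_subset_ball (by linarith)
  have hbD : closedBall y δ ⊆ D := (closedBall_subset_closedBall h2).trans hδD
  have hU : ball y δ \ {y} ⊆ D \ (Set.range x ∪ {y}) := fun z hz => ⟨hbD (ball_subset_closedBall hz.1), by
    rintro (⟨i, rfl⟩ | h')
    · exact pow_ne_zero 2 (hR _ (hb1 hz.1)).2 ((hR _ (hb1 hz.1)).1.trans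
        (Finset.prod_eq_zero (Finset.mem_univ i) (sub_self _)))
    · exact hz.2 h'⟩
  have hU₀ : ball y δ \ {y} ⊆ D \ (Set.range (![] : Fin 0 → ℂ) ∪ {y}) := fun z hz =>
    ⟨(hU hz).1, fun h' => h'.elim (fun ⟨i, _⟩ => i.elim0) hz.2⟩
  obtain ⟨d, hdef⟩ : ∃ d : ℕ → Fn, d = fun k => gaugeF (σ k) ((a k)⁻¹ • g k (u k, α)) - (a k)⁻¹ • g₀ k (u k, α) := ⟨_, rfl⟩
  have hsol : ∀ᶠ k in atTop, SolOn wPl {p | dist ((a k : ℂ) * toC p) y < δ} (d k) := by
    filter_upwards [he, b1c_near (y := y) ha ha0 hδ, appr_crit (NiceP.isOpen' h.nice) h.appr (isCompact_closedBall y δ) hbD]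
      with k hk hn hc p hp β
    have hE : edgeOf p β ∈ (E k : Set Edge) := hc p (mem_closedBall.2 (le_of_lt hp)) β
    have e1 : ∀ s, opA wPl s (p, β) = opA (gaugeW (σ k) (wOf ↑(E k) (spinsOf (v k)))) s (p, β) := fun s => by
      simp only [opA, wPl, gaugeW, wOf, if_pos hE]
      rw [mul_left_comm _ tc, hk _ ((hn p β hp).trans_le h1), mul_one]
    have e2 : ∀ s, opA wPl s (p, β) = opA (wOf ↑(E k) (spinsOf (non k))) s (p, β) := fun s => by
      simp only [opA, wPl, wOf, if_pos hE, b1c_spins_non, eray_empty, mul_one]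
    rw [hdef, opA_sub, Pi.sub_apply, e1, e2, opA_gauge (hσ k), opA_smul, opA_smul]
    simp only [gaugeF, Pi.smul_apply, smul_eq_mul, (h.ker k).1.2, (h₀.ker k).1.2]
    split_ifs with hh
    · rw [show p = u k from congrArg Prod.fst hh, hσu, one_mul, sub_self]
    · simp
  have hb : BulkSeq (ball y δ \ {y}) a non (fun _ => Set.univ) d := fun K hK hKU => by
    obtain ⟨C, hC⟩ := row_bulkSeq h hu (Or.inl ⟨hyx, fun _ => rfl⟩) α K hK (hKU.trans hU)
    obtain ⟨C₀, hC₀⟩ := row_bulkSeq h₀ hu (Or.inl ⟨fun i => i.elim0, fun _ => rfl⟩) α K hK (hKU.trans hU₀)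
    refine ⟨C + C₀, ?_⟩
    filter_upwards [hC, hC₀, hsol] with k h1 h2 h3
    refine ⟨fun _ _ _ => trivial, fun p hp β => ?_, fun p hp β => ?_⟩
    · rw [← h3 p (hKU hp).1 β]
      simp only [opA, wPl, wOf, Set.mem_univ, if_true, b1c_spins_non, eray_empty, mul_one]
    · rw [hdef]
      refine (abs_sub _ _).trans (add_le_add ?_ (h2.2.2 p hp β))
      rw [abs_gaugeF (hσ k)]; exact h1.2.2 p hp β
  have hΓ : CLim a (ball y δ \ {y}) (fun k => fld (d k)) fun z => G z / R z - G₀ z := fun z hz w hw => by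
    have t1 := hl z (hb1 hz.1) w hw
    refine (((hG z (hU hz) w hw).div t1 (hR z (hb1 hz.1)).2).sub (hG₀ z (hU₀ hz) w hw)).congr' ?_
    filter_upwards [t1.eventually_ne (hR z (hb1 hz.1)).2] with k hk
    have hs : (σ k (w k) : ℂ) * σ k (w k) = 1 := by exact_mod_cast (hσ k).mul_self (w k)
    rw [hdef, b1c_fld_sub, fld_gauge, Pi.div_apply]
    congr 1
    · rw [div_eq_iff hk, gF, gfld, rtP]
      linear_combination (-((a k ^ ((n : ℝ) / 2) : ℝ) : ℂ) * fld ((a k)⁻¹ • g k (u k, α)) (w k) *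
        ∏ v ∈ spinsOf (v k), rt (pos (w k) - toC v)) * hs
    · simp [gF, gfld, b1c_spins_non]
  obtain ⟨c, hc, hc'⟩ := reg_lim ha ha0 hδ hsol hb hΓ
  have hRe : ∀ᶠ z in 𝓝 y, R z ^ 2 = rhoX x z := Filter.eventually_of_mem (ball_mem_nhds y hδ₁) fun z hz => (hR z hz).1
  refine ⟨c, ?_, ⟨R, (hd.differentiableAt (ball_mem_nhds y hδ₁)).continuousAt, hRy, hRe, hc⟩, fun β => ?_, fun j β => ?_⟩
  · have t0 : Tendsto (fun z : ℂ => z - y) (𝓝[≠] y) (𝓝 0) :=
      tendsto_nhdsWithin_of_tendsto_nhds ((continuous_id.sub continuous_const).tendsto' y 0 (sub_self y))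
    have t1 := hc.mul ((t0.mul hc).add (hβ.const_mul 2))
    rw [show c * (0 * c + 2 * β₀) = 2 * β₀ * c by ring] at t1
    refine t1.congr' ?_
    filter_upwards [nhdsWithin_le_nhds hRe] with z hz
    rw [← hz, ← div_pow]; ring
  · refine (hc' u hu β).congr fun k => ?_
    simp only [hdef, gaugeF, Pi.sub_apply, Pi.smul_apply, smul_eq_mul, hσu]; ring
  · refine (hc' _ (hu.add_const ha0 (uv j)) β).congr' ?_
    filter_upwards [he, hu.eventually (ball_mem_nhds y hδ₁)] with k hk hk'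
    have h3 := hk (u k, j) hk'
    have h4 := (hσ k).mul_self (u k + uv j)
    rw [hσu, one_mul] at h3
    have h5 : eray (spinsOf (v k)) (u k, j) = σ k (u k + uv j) := by
      linear_combination σ k (u k + uv j) * h3 - eray (spinsOf (v k)) (u k, j) * h4
    simp only [hdef, gaugeF, Pi.sub_apply, Pi.smul_apply, smul_eq_mul, h5]; ring

/-! ### task B1d -/

theorem b1d_spins_one (c : ℕ → Site) (k : ℕ) : spinsOf (one c k) = {c k} := by
  ext p
  simp [spinsOf, one]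

theorem b1d_edge_dist {t : ℝ} (ht : 0 < t) (p : Site) (α : Fin 4) :
    dist ((t : ℂ) * toC (edgeOf p α).1) ((t : ℂ) * toC p) ≤ 3 / 2 * t := by
  have h1 := mem_box_iff.1 (edgeOf_fst_mem_box p α)
  have h2 := dist_le_supd (edgeOf p α).1 p
  have h3 : (supd (edgeOf p α).1 p : ℝ) ≤ 1 := by exact_mod_cast h1
  rw [dist_eq_norm, ← mul_sub, norm_mul, Complex.norm_real, Real.norm_eq_abs, abs_of_pos ht]
  nlinarith

theorem b1d_gF_split {t : ℝ} (ht : 0 < t) (w : Fin n → Site) (i : Fin n) (σ : Site → ℝ) (hσ : IsSign σ) (s : Fn)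
    (c : ℕ → Site) (k : ℕ) (hc : c k = w i) (p : Site) :
    gF t (one c k) (gaugeF σ s) p * (((t ^ (((n : ℝ) - 1) / 2) : ℝ) : ℂ) * σ p * rtP ((spinsOf w).erase (w i)) p) =
      gF t w s p := by
  have hm : w i ∈ spinsOf w := Finset.mem_image_of_mem _ (Finset.mem_univ i)
  have h1 : t ^ ((n : ℝ) / 2) = t ^ (((1 : ℕ) : ℝ) / 2) * t ^ (((n : ℝ) - 1) / 2) := by
    rw [← Real.rpow_add ht]
    congr 1
    push_cast
    ring
  have h2 : (σ p : ℂ) * σ p = 1 := by exact_mod_cast hσ.mul_self p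
  simp only [gF, gfld, b1d_spins_one, Finset.prod_singleton, fld_gauge, rtP, hc]
  rw [← Finset.mul_prod_erase _ _ hm, h1]
  push_cast
  linear_combination (((t ^ ((1 : ℝ) / 2) : ℝ) : ℂ) * ((t ^ (((n : ℝ) - 1) / 2) : ℝ) : ℂ) * fld s p *
    rt (pos p - toC (w i)) * ∏ u ∈ (spinsOf w).erase (w i), rt (pos p - toC u)) * h2

/-- **evaluation next to the branch point `x i`**: `loc_branch` + `eval_branch` (`G (x i) / R (x i)` is purely imaginary by `BrOK`; `σ (v i + d) r' → R (x i)`) -/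
theorem cb_eval (ha : ∀ k, 0 < a k) (ha0 : Tendsto a atTop (𝓝 0)) (hi : Function.Injective x)
    (hx : ∀ i, PtLim a (fun k => v k i) (x i)) (i : Fin n) {δ : ℝ} (hδ : 0 < δ) (E : ℕ → Set Edge) (s : ℕ → Fn)
    (hsol : ∀ᶠ k in atTop, Crit (E k) {p | dist ((a k : ℂ) * toC p) (x i) < δ} ∧
      SolOn (wOf (E k) (spinsOf (v k))) {p | dist ((a k : ℂ) * toC p) (x i) < δ} (s k))
    (hb : BulkSeq (ball (x i) δ \ {x i}) a v E s) {G : ℂ → ℂ}
    (hl : CLim a (ball (x i) δ \ {x i}) (fun k => gF (a k) (v k) (s k)) G) (hG : ContinuousAt G (x i)) (hB : BrOK x G i)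
    (d : Site) {r' : ℂ}
    (hr : Tendsto (fun k => ((a k ^ (((n : ℝ) - 1) / 2) : ℝ) : ℂ) * rtP ((spinsOf (v k)).erase (v k i)) (v k i + d)) atTop (𝓝 r'))
    (α : Fin 4) : Tendsto (fun k => Real.sqrt (a k) * s k (v k i + d, α)) atTop (𝓝 ((G (x i) / r').im / zth * zm (d, α))) := by
  obtain ⟨δ₁, hδ₁, R, σ, -, hRd, hR, hσ, he, hRl, -⟩ := loc_branch ha ha0 hi hx i
  set δ₂ := min δ (δ₁ / 2) with hδ₂
  have hδ₂0 : 0 < δ₂ := lt_min hδ (half_pos hδ₁)
  have hb1 : ball (x i) δ₂ ⊆ ball (x i) δ := ball_subset_ball (min_le_left _ _)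
  have hb2 : ball (x i) δ₂ ⊆ ball (x i) δ₁ := ball_subset_ball ((min_le_right _ _).trans (half_le_self hδ₁.le))
  have hxi : x i ∈ ball (x i) δ₁ := mem_ball_self hδ₁
  have hR0 : R (x i) ≠ 0 := (hR _ hxi).2
  have hsm : ∀ᶠ k in atTop, a k < δ₁ / 4 := ha0.eventually (gt_mem_nhds (by positivity))
  have hsol' : ∀ᶠ k in atTop, SolOn (wOf Set.univ {v k i}) {p | dist ((a k : ℂ) * toC p) (x i) < δ₂}
      (gaugeF (σ k) (s k)) := by
    filter_upwards [hsol, he, hsm] with k h1 h2 h3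
    have hW : ∀ p, p ∈ {p | dist ((a k : ℂ) * toC p) (x i) < δ₂} → p ∈ {p | dist ((a k : ℂ) * toC p) (x i) < δ} :=
      fun p hp => hb1 (mem_ball.2 hp)
    refine SolOn.gauge (hσ k) (w := wOf (E k) (spinsOf (v k))) (fun p hp α => h1.2 p (hW p hp) α) fun p hp α => ?_
    have h4 := h1.1 p (hW p hp) α
    have h5 := b1d_edge_dist (ha k) p α
    have h6 : dist ((a k : ℂ) * toC p) (x i) < δ₁ / 2 := lt_of_lt_of_le hp (min_le_right _ _)
    have h7 := dist_triangle ((a k : ℂ) * toC (edgeOf p α).1) ((a k : ℂ) * toC p) (x i)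
    have h8 := h2 (edgeOf p α) (by linarith)
    simp only [gaugeW, wOf, h4, Set.mem_univ, if_true]
    rw [← h8]
    ring
  have hb' : BulkSeq (ball (x i) δ₂ \ {x i}) a (one fun k => v k i) (fun _ => Set.univ)
      fun k => gaugeF (σ k) (s k) := by
    intro K hK hKU
    obtain ⟨C, hC⟩ := hb K hK (hKU.trans (Set.sdiff_subset_sdiff_left hb1))
    refine ⟨C, ?_⟩
    filter_upwards [hC, hsol'] with k h1 h2
    refine ⟨fun _ _ _ => Set.mem_univ _, ?_, fun p hp α => ?_⟩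
    · rw [b1d_spins_one]
      exact fun p hp α => h2 p (mem_ball.1 (hKU hp).1) α
    · rw [abs_gaugeF (hσ k)]
      exact h1.2.2 p hp α
  have hΓ : CLim a (ball (x i) δ₂ \ {x i}) (fun k => gF (a k) (one (fun k => v k i) k) (gaugeF (σ k) (s k)))
      fun z => G z / R z := by
    intro z hz p hp
    have h1 := hl z ⟨hb1 hz.1, hz.2⟩ p hp
    have h2 := hRl z (hb2 hz.1) p hp
    have h3 := (hR z (hb2 hz.1)).2
    refine (h1.div h2 h3).congr' ?_
    filter_upwards [h2.eventually_ne h3] with k hk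
    simp only [Pi.div_apply]
    rw [div_eq_iff hk, b1d_gF_split (ha k) (v k) i (σ k) (hσ k) (s k) _ k rfl]
  have hsq : (G (x i) / R (x i)) ^ 2 = cSq x G i := by
    rw [div_pow, (hR _ hxi).1, cSq]
  have hre : (G (x i) / R (x i)).re = 0 := by
    obtain ⟨h1, h2⟩ := hB
    rw [← hsq] at h1 h2
    simp only [sq, Complex.mul_im, Complex.mul_re] at h1 h2
    by_contra h
    have h3 : (G (x i) / R (x i)).im = 0 := by
      have : (G (x i) / R (x i)).re * (G (x i) / R (x i)).im = 0 := by linarith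
      exact (mul_eq_zero.1 this).resolve_left h
    rw [h3] at h2
    exact h (by nlinarith [mul_self_nonneg (G (x i) / R (x i)).re])
  have hI : G (x i) / R (x i) = Complex.I * ((G (x i) / R (x i)).im : ℝ) := by
    apply Complex.ext <;> simp [hre]
  have hRc : ContinuousAt R (x i) := hRd.continuousOn.continuousAt (ball_mem_nhds _ hδ₁)
  have h0 : Tendsto (fun z => G z / R z) (𝓝[≠] (x i)) (𝓝 (Complex.I * ((G (x i) / R (x i)).im : ℝ))) := by
    rw [← hI]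
    exact tendsto_nhdsWithin_of_tendsto_nhds (hG.div hRc hR0)
  have hev := eval_branch ha ha0 (hx i) hδ₂0 hsol' hb' hΓ h0 d α
  have hlim := hRl (x i) hxi _ ((hx i).add_const ha0 d)
  have hr0 : r' ≠ 0 := by
    intro h
    have h1 := rt_sq_br ha ha0 hi hx i d hr
    rw [← (hR _ hxi).1, h] at h1
    exact hR0 (pow_eq_zero_iff two_ne_zero |>.1 (by rw [← h1]; simp))
  have hσl : Tendsto (fun k => ((σ k (v k i + d) : ℝ) : ℂ)) atTop (𝓝 (R (x i) / r')) := by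
    refine (hlim.div hr hr0).congr' ?_
    filter_upwards [hr.eventually_ne hr0] with k hk
    simp only [Pi.div_apply]
    rw [div_eq_iff hk]
    ring
  have hσr : Tendsto (fun k => σ k (v k i + d)) atTop (𝓝 (R (x i) / r').re) := by
    exact (Complex.continuous_re.tendsto _).comp hσl
  have hfin : (G (x i) / r').im = (R (x i) / r').re * (G (x i) / R (x i)).im := by
    have : G (x i) / r' = G (x i) / R (x i) * (R (x i) / r') := by field_simp
    rw [this, Complex.mul_im, hre]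
    ring
  have := hσr.mul hev
  rw [hfin]
  convert this using 2 with k
  · simp only [gaugeF]
    linear_combination (-(Real.sqrt (a k) * s k (v k i + d, α))) * (hσ k).mul_self (v k i + d)
  · ring

end Crest.Agent.R165.C
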