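import Crest.Agent.R165.C.S1bx
import Crest.Agent.R165.C.B1

/-! # R165/C: moving one spin by one step (block C, owner helper83; statements FROZEN, add lemmas freely inside the namespace) -/

set_option autoImplicit false
noncomputable section
open Classical Filter Topology Metric Crest.ProbabilityR.IsingModel

namespace Crest.Agent.R165.C

/-! ### task S1a -/

theorem s1a_sum_single {F : Finset Site} {k : HE} (hk : k.1 ∈ F) (f : HE → ℝ) :
    ∑ p ∈ F, ∑ α : Fin 4, (if ((p, α) : HE) = k then f (p, α) else 0) = f k := by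
  obtain ⟨q, β⟩ := k
  rw [Finset.sum_eq_single q (fun p _ hp => Finset.sum_eq_zero fun α _ => if_neg fun h => hp (congrArg Prod.fst h))
    (fun h => absurd hk h), Finset.sum_eq_single β (fun α _ hα => if_neg fun h => hα (congrArg Prod.snd h))
    (fun h => absurd (Finset.mem_univ _) h), if_pos rfl]

theorem s1a_edgeOf_he (e : Edge) : edgeOf (he0 e).1 (he0 e).2 = e ∧ edgeOf (he1 e).1 (he1 e).2 = e := by
  obtain ⟨x, j⟩ := e
  fin_cases j <;> simp [he0, he1, edgeOf, uv]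

theorem s1a_edge (e : Edge) (s : Fn) (c : ℝ) (p : Site) (α : Fin 4) :
    (if edgeOf p α = e then c * opp s p α else 0) =
      (if ((p, α) : HE) = he0 e then c * s (he1 e) else 0) + if ((p, α) : HE) = he1 e then -(c * s (he0 e)) else 0 := by
  by_cases h : edgeOf p α = e
  · subst h
    obtain ⟨a, b⟩ := p
    induction α using b1_fin4
    · simp [edgeOf_0, opp_0, he0, he1, uv]
    · simp [edgeOf_1, opp_1, he0, he1, uv]
    · simp [edgeOf_2, opp_2, he0, he1, uv]
    · simp [edgeOf_3, opp_3, he0, he1, uv]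
  · have h0 : ((p, α) : HE) ≠ he0 e := fun h' => h (by have := (s1a_edgeOf_he e).1; rwa [← h'] at this)
    have h1 : ((p, α) : HE) ≠ he1 e := fun h' => h (by have := (s1a_edgeOf_he e).2; rwa [← h'] at this)
    rw [if_neg h, if_neg h0, if_neg h1, add_zero]

theorem s1a_bond (v : Site) (j : Fin 2) : bondEdge v j = ((bondEdge 0 j).1 + v, (bondEdge 0 j).2) := by
  fin_cases j <;> simp [bondEdge] <;> abel

theorem s1a_he (v : Site) (j : Fin 2) :
    he0 (bondEdge v j) = ((he0 (bondEdge 0 j)).1 + v, (he0 (bondEdge 0 j)).2) ∧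
      he1 (bondEdge v j) = ((he1 (bondEdge 0 j)).1 + v, (he1 (bondEdge 0 j)).2) := by
  rw [s1a_bond v j]
  refine ⟨rfl, ?_⟩
  simp only [he1, Prod.mk.injEq, and_true]; abel

theorem s1a_he_box (v : Site) (j : Fin 2) {R : ℕ} (hR : 1 ≤ R) :
    (he0 (bondEdge v j)).1 ∈ box v R ∧ (he1 (bondEdge v j)).1 ∈ box v R := by
  rw [b1_mem_box, b1_mem_box]
  fin_cases j <;> simp [bondEdge, he0, he1, uv] <;> omega

/-- **exact step formula**: `green_box` twice (`φ` with the row `s = g (h + v)` gives `-φ h`; for `φ'`: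
`opA w φ' = 2 w e · opp φ'` on the two half-edges of `e`, `g` antisymmetric). `solOn_shift_one`, `wOf_univ_shift`. -/
theorem step_exact {w : Edge → ℝ} {g : HE → HE → ℝ} (hg : IsKer w g) (v : Site) (j : Fin 2) {R : ℕ} (hR : 2 ≤ R)
    (hw : AgreeOn w (wOf Set.univ {v}) (box v R)) {φ φ' : Fn} (hφ : SolOn (wOf Set.univ {0}) Set.univ φ)
    (hφ' : SolOn (flipW (bondEdge 0 j) (wOf Set.univ {0})) Set.univ φ') {h : HE}
    (hh : h = he0 (bondEdge 0 j) ∨ h = he1 (bondEdge 0 j)) :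
    φ' h * Rat w g (bondEdge v j) = φ h - bform w (bI v R) (shift (-v) (φ' - φ)) (g (h.1 + v, h.2)) := by
  set e := bondEdge v j with he
  set k : HE := (h.1 + v, h.2) with hk
  have hb := s1a_he_box v j (show 1 ≤ R by omega)
  have hk' : k = he0 e ∨ k = he1 e := by
    rcases hh with rfl | rfl
    · exact Or.inl (s1a_he v j).1.symm
    · exact Or.inr (s1a_he v j).2.symm
  have hkb : k.1 ∈ box v R := by
    rcases hk' with h' | h' <;> rw [h']
    · exact hb.1
    · exact hb.2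
  have hsh : shift (-v) (φ' - φ) = shift (-v) φ' - shift (-v) φ := rfl
  have hv : ∀ s : Fn, shift (-v) s k = s h := fun s => by simp [shift, hk]
  have h1 := solOn_shift_one hφ v
  have h2 := solOn_shift_one hφ' v
  have hA : ∀ p ∈ box v R, ∀ α, opA w (shift (-v) (φ' - φ)) (p, α) =
      if edgeOf p α = e then 2 * w e * opp (shift (-v) φ') p α else 0 := fun p hp α => by
    have e1 := h1 p trivial α
    have e2 := h2 p trivial α
    have e3 := hw p hp α
    have e4 : (((edgeOf p α).1 - v, (edgeOf p α).2) : Edge) = bondEdge 0 j ↔ edgeOf p α = e := by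
      rw [he, s1a_bond v j, Prod.ext_iff, Prod.ext_iff (x := edgeOf p α), sub_eq_iff_eq_add]
    rw [hsh, opA_sub, Pi.sub_apply]
    simp only [opA, flipW, wOf_univ_shift, e4, ← e3] at e1 e2 ⊢
    split_ifs at e2 ⊢ with h'
    · rw [h'] at e1 e2 ⊢; linarith
    · linarith
  rw [green_box, Finset.sum_congr rfl fun p hp => Finset.sum_congr rfl fun α _ => by
    rw [hg.2, hA p hp α, s1a_edge, mul_ite, mul_one, mul_zero, add_mul, ite_mul, ite_mul, zero_mul]]
  simp only [Finset.sum_add_distrib]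
  rw [s1a_sum_single hkb, s1a_sum_single hb.1 fun i => 2 * w e * shift (-v) φ' (he1 e) * g k i,
    s1a_sum_single hb.2 fun i => -(2 * w e * shift (-v) φ' (he0 e)) * g k i, hv, ← he, Rat]
  have a1 := hg.1 k k
  have a2 := hg.1 (he0 e) (he1 e)
  have a3 := hv φ'
  rcases hk' with h' | h' <;> rw [h'] at a1 a3 ⊢ <;> rw [a3] <;> simp only [Pi.sub_apply]
  · have : g (he0 e) (he0 e) = 0 := by linarith
    rw [this]; ring
  · have : g (he1 e) (he1 e) = 0 := by linarith
    rw [this, a2]; ring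

theorem s1a_decay {φ : Fn} {C : ℝ} (hC : ∀ p α, |φ (p, α)| * ((supd p 0 : ℝ) + 1) ^ (3 / 2 : ℝ) ≤ C) (v : Site) {R : ℕ}
    (hR : 1 ≤ R) : SB (frame v (R - 1) (R + 1)) (C / (R * Real.sqrt R)) (shift (-v) φ) := fun p hp α => by
  have hR' : (0 : ℝ) < R := by exact_mod_cast hR
  have h1 : R ≤ supd (p + -v) 0 := by
    simp only [frame, Finset.coe_sdiff, Set.mem_sdiff, Finset.mem_coe, b1_mem_box] at hp
    simp only [supd, Prod.fst_add, Prod.fst_neg, Prod.fst_zero, Prod.snd_add, Prod.snd_neg, Prod.snd_zero]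
    omega
  have h2 : (R : ℝ) ≤ (supd (p + -v) 0 : ℝ) + 1 := by
    have : (R : ℝ) ≤ (supd (p + -v) 0 : ℝ) := by exact_mod_cast h1
    linarith
  have h3 : (R : ℝ) * Real.sqrt R = (R : ℝ) ^ (3 / 2 : ℝ) := by
    rw [Real.sqrt_eq_rpow, show (3 / 2 : ℝ) = 1 + 1 / 2 by norm_num, Real.rpow_add hR', Real.rpow_one]
  rw [le_div_iff₀ (by positivity), h3]
  exact (mul_le_mul_of_nonneg_left (Real.rpow_le_rpow hR'.le h2 (by norm_num)) (abs_nonneg _)).trans (hC (p + -v) α)

/-- **comparison of two step ratios**: subtract the two `step_exact` (with `zm_step`), `abs_bform_box_le` (`|wOf| ≤ 1`, `bform_congr`) -/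
theorem step_cmp : ∃ C : ℝ, ∀ (w w' : Edge → ℝ) (g g' : HE → HE → ℝ) (v : Site) (j : Fin 2) (R : ℕ) (M : ℝ),
    IsKer w g → IsKer w' g' → 2 ≤ R → AgreeOn w (wOf Set.univ {v}) (box v R) → AgreeOn w' (wOf Set.univ {v}) (box v R) →
    (∀ h, h = he0 (bondEdge v j) ∨ h = he1 (bondEdge v j) → SB (frame v (R - 1) (R + 1)) M (g h - g' h)) →
    |Rat w g (bondEdge v j) - Rat w' g' (bondEdge v j)| ≤ C * M / Real.sqrt R := by
  choose φ' C hs hh hd _ using zm_step
  choose h hh hz hab using hh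
  have hC : ∀ j, 0 ≤ C j := fun j => le_trans (by positivity) (hd j 0 0)
  refine ⟨∑ j, 24 * C j / |zm (h j)|, fun w w' g g' v j R M hg hg' hR hw hw' hM => ?_⟩
  have hR' : (2 : ℝ) ≤ R := by exact_mod_cast hR
  have hsq : 0 < Real.sqrt R := Real.sqrt_pos.2 (by linarith)
  have hz' : 0 < |zm (h j)| := abs_pos.2 (hz j)
  have e1 := step_exact hg v j hR hw zm_zeroMode.1 (hs j) (hh j)
  have e2 := step_exact hg' v j hR hw' zm_zeroMode.1 (hs j) (hh j)
  rw [bform_congr hw] at e1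
  rw [bform_congr hw'] at e2
  have hk : (((h j).1 + v, (h j).2) : HE) = he0 (bondEdge v j) ∨ (((h j).1 + v, (h j).2) : HE) = he1 (bondEdge v j) := by
    rcases hh j with h' | h' <;> rw [h']
    · exact Or.inl (s1a_he v j).1.symm
    · exact Or.inr (s1a_he v j).2.symm
  have hM' := hM _ hk
  have hM0 : 0 ≤ M := by
    refine (abs_nonneg _).trans (hM' (v + ((R : ℤ), 0)) ?_ 0)
    simp only [frame, Finset.coe_sdiff, Set.mem_sdiff, Finset.mem_coe, b1_mem_box, Prod.fst_add, Prod.snd_add]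
    omega
  have e3 := abs_bform_box_le (abs_wOf_le Set.univ {v}) v (show 1 ≤ R by omega) (s1a_decay (hd j) v (by omega)) hM'
  rw [bform_sub_right] at e3
  have e4 : |zm (h j)| * |Rat w g (bondEdge v j) - Rat w' g' (bondEdge v j)| ≤ 24 * C j * M / Real.sqrt R := by
    rw [← hab j, ← abs_mul, mul_sub, e1, e2, sub_sub_sub_cancel_left, abs_sub_comm]
    refine e3.trans ?_
    have : 8 * (2 * (R : ℝ) + 1) * (C j / (R * Real.sqrt R) * M) = (8 * (2 * R + 1) / R) * (C j * M / Real.sqrt R) := by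
      field_simp
    rw [this, mul_assoc, mul_div_assoc (24 : ℝ)]
    refine mul_le_mul_of_nonneg_right ?_ (div_nonneg (mul_nonneg (hC j) hM0) hsq.le)
    rw [div_le_iff₀ (by linarith)]; linarith
  have e5 : 24 * C j / |zm (h j)| ≤ ∑ j, 24 * C j / |zm (h j)| :=
    Finset.single_le_sum (f := fun j => 24 * C j / |zm (h j)|) (fun i _ => div_nonneg (by linarith [hC i]) (abs_nonneg _))
      (Finset.mem_univ j)
  calc _ ≤ 24 * C j / |zm (h j)| * M / Real.sqrt R := by
        rw [div_mul_eq_mul_div, div_right_comm, le_div_iff₀ hz', mul_comm]; exact e4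
    _ ≤ _ := by gcongr

/-! ### task S1b -/

/-- **logarithmic derivative.** Subsequence (`rt_subseq_br` at the site `h.1`, `tendsto_of_strictMono_subseq`); `loc_branch` gives `σ`; `w = gaugeW σ (wOf E S)`, `g̃ = gaugeK σ g`
(`isKer_gauge`, `rat_gauge`); `cb2` and `rhbr_unique`: `gF (√a⁻¹ g̃ h) → κ Γ`, `Γ = ± G / R`, `Γ (x i) = 1`, `Γ' (x i) = 2 coefA`, `κ = lam0 zm h / zth`;
`s k = a^{-3/2} shift (φ' - zm)` is a `BulkSeq` with `gF → I zth I^j / (2 (z - x i))` (`zm_step`, `clim_of_cofinite`); `clim_fld_mul`, `bform_lim` with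
`Ψ = I zth I^j κ Γ / 2`: `a⁻¹ bform → 2π tc zth κ Re (coefA I^j) = -zm h · Re (coefA I^j)`. So `φ' h · Rat = zm h (1 + a Re(..) + o(a))`, `|φ' h| = |zm h| ≠ 0`;
`rho0_move` (`spinsOf (update ..) = symmDiff S {v i, v i + uv j}` eventually), `log (1 + t) = t + O(t²)`. -/
theorem step_lim {D : Set ℂ} {n : ℕ} {x : Fin n → ℂ} (hD : NiceP D n) (hx : Function.Injective x) (hxD : ∀ i, x i ∈ D)
    {a : ℕ → ℝ} {E : ℕ → Finset Edge} {ρ : ℕ → ℝ} (hE : Appr D a E ρ) {v : ℕ → Fin n → Site}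
    (hv : ∀ i, PtLim a (fun k => v k i) (x i)) (i : Fin n) {G : ℂ → ℂ} (hG : RHbr D x i G) (j : Fin 2) :
    Tendsto (fun k => (a k)⁻¹ * (Real.log (rho0 (E k) (spinsOf (Function.update (v k) i (v k i + uv j)))) -
      Real.log (rho0 (E k) (spinsOf (v k))))) atTop (𝓝 (coefA x i G * Complex.I ^ (j : ℕ)).re) := by
  obtain ⟨g, h⟩ := exists_ctx hD hx hxD hE hv
  obtain ⟨φ', C, hφ', ⟨⟨d, α⟩, hh, hz, habs⟩, hb, hl⟩ := zm_step j
  refine tendsto_of_strictMono_subseq fun ψ hψ => ?_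
  have h1 := h.subseq hψ
  obtain ⟨ψ', r', hψ', hr⟩ := rt_subseq_br h1.appr.pos h1.appr.lim hx h1.lim i d
  refine ⟨ψ', hψ', ?_⟩
  have h2 := h1.subseq hψ'
  obtain ⟨σ, R₀, hσ, hag, hB⟩ := s1b_bf h2 i hφ' hb hl d α hr hG
  have ha := h2.appr.pos
  have ha0 := h2.appr.lim
  have hB' := hB.div_const (-zm (d, α))
  rw [mul_div_cancel_left₀ _ (neg_ne_zero.2 hz)] at hB'
  have hup : ∀ i', PtLim ((a ∘ ψ) ∘ ψ') (fun k => Function.update (v (ψ (ψ' k))) i (v (ψ (ψ' k)) i + uv j) i') (x i') := by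
    intro i'
    by_cases hi : i' = i
    · subst hi
      simpa using (h2.lim i').add_const ha0 (uv j)
    · simpa [Function.update_of_ne hi] using h2.lim i'
  refine (s1b_log ha ha0 hB').congr' ?_
  filter_upwards [hag, eventually_inj hx h2.lim, eventually_inj hx hup] with k hk hi1 hi2
  have hne : v (ψ (ψ' k)) i + uv j ≠ v (ψ (ψ' k)) i := by
    fin_cases j <;> simp [uv]
  have e1 := rho0_move (h2.ker k).1 (h2.ker k).2 (bondEdge (v (ψ (ψ' k)) i) j)
  rw [(edgeB_bondEdge _ j).1, (edgeB_bondEdge _ j).2, ← s1b_update hi1 i hi2 hne] at e1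
  have e2 := step_exact (isKer_gauge (hσ k) (h2.ker k).1) (v (ψ (ψ' k)) i) j hk.1 hk.2 zm_zeroMode.1 hφ' hh
  rw [rat_gauge (hσ k), bform_congr hk.2] at e2
  have p1 := rho0_pos (h2.appr.reg k) (spinsOf (v (ψ (ψ' k))))
  have p2 := rho0_pos (h2.appr.reg k) (spinsOf (Function.update (v (ψ (ψ' k))) i (v (ψ (ψ' k)) i + uv j)))
  have p3 : |Rat (wOf ↑(E (ψ (ψ' k))) (spinsOf (v (ψ (ψ' k))))) (g (ψ (ψ' k))) (bondEdge (v (ψ (ψ' k)) i) j)| ≠ 0 := by
    intro h0
    rw [e1, h0, mul_zero] at p2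
    exact lt_irrefl _ p2
  simp only [Function.comp] at e1 e2 p1 ⊢
  rw [e1, Real.log_mul p1.ne' p3, add_sub_cancel_left]
  congr 2
  have hak := (ha k).ne'
  simp only [Function.comp] at hak
  refine mul_left_cancel₀ (abs_ne_zero.2 hz) ?_
  rw [← abs_mul, ← habs, ← abs_mul, e2, add_comm d]
  congr 1
  field_simp
  ring

end Crest.Agent.R165.C
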