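import Crest.Agent.R165.BC.Main

/-! # R165/C: iteration of the mode lemmas over the scales (task S3a, helper86) -/

set_option autoImplicit false
noncomputable section
open Classical Filter Topology Metric

namespace Crest.Agent.R165.C

theorem s3a_frame {x p : Site} {r R : ℕ} : p ∈ ((frame x r R : Finset Site) : Set Site) ↔ r < supd p x ∧ supd p x ≤ R := by
  rw [Finset.mem_coe, frame, Finset.mem_sdiff, mem_box_iff, mem_box_iff]
  omega

theorem s3a_box {x p : Site} {R : ℕ} : p ∈ ((box x R : Finset Site) : Set Site) ↔ supd p x ≤ R := by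
  rw [Finset.mem_coe, mem_box_iff]

theorem s3a_dB_mono (S : Finset Site) {l l' : ℕ} (h : l ≤ l') (p : Site) : dB S l p ≤ dB S l' p := by
  unfold dB
  have h1 := (Finset.le_fold_min (s := S) (b := l) (f := fun v => supd p v + 1) _).1 le_rfl
  exact_mod_cast (Finset.le_fold_min _).2 ⟨h1.1.trans h, h1.2⟩

theorem s3a_scale {w : Edge → ℝ} {W W₁ W₂ : Set Site} {C : ℝ} (hC : 0 < C)
    (h : ∀ s, SolOn w W s → SB W₁ 1 s → SB W₂ C s) {s : Fn} {M : ℝ} (hM : 0 ≤ M) (hs : SolOn w W s)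
    (h1 : SB W₁ M s) : SB W₂ (C * M) s := by
  intro p hp α
  refine le_of_forall_pos_le_add fun ε hε => ?_
  have ht : 0 < M + ε / C := by positivity
  have h2 := h ((M + ε / C)⁻¹ • s + (0 : ℝ) • s) (hs.comb hs _ _) (fun q hq β => by
    simp only [zero_smul, add_zero, Pi.smul_apply, smul_eq_mul]
    rw [abs_mul, abs_of_pos (inv_pos.2 ht), inv_mul_le_iff₀ ht, mul_one]
    exact (h1 q hq β).trans (le_add_of_nonneg_right (by positivity))) p hp α
  simp only [zero_smul, add_zero, Pi.smul_apply, smul_eq_mul] at h2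
  rw [abs_mul, abs_of_pos (inv_pos.2 ht), inv_mul_le_iff₀ ht] at h2
  refine h2.trans_eq ?_
  field_simp

theorem s3a_iter (C₁ C₀ : ℝ) (L K : ℕ) (hC₀ : 1 ≤ C₀) (hL : C₀ ^ 4 ≤ L) (hL2 : 2 ≤ L) (hK : 2 ≤ K) :
    ∃ C : ℝ, ∀ (w : Edge → ℝ) (S : Finset Site) (x : Site) (r₀ l : ℕ) (s : Fn) (M : ℝ), (∀ v ∈ S, v ∈ box x r₀) →
    1 ≤ r₀ → K * r₀ ≤ l → 0 ≤ M →
    (∀ (r : ℕ) (s : Fn) (M : ℝ), K ≤ r → r ≤ l → SolOn w (box x (4 * r)) s → SB (frame x r (4 * r)) M s →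
      WB S (box x (2 * r)) r (C₁ * M) s) →
    (∀ (r : ℕ) (s : Fn), K * r₀ ≤ r → r ≤ l → SolOn w (box x (4 * L * r)) s → SB (frame x (L * r) (4 * L * r)) 1 s →
      SB (frame x r (4 * L * r)) C₀ s) →
    SolOn w (box x (4 * l)) s → SB (frame x l (4 * l)) M s →
    WB S (box x (2 * r₀)) r₀ (C * M * ((l : ℝ) / r₀) ^ (1 / 4 : ℝ)) s := by
  refine ⟨K * C₁ * (|C₁| * (2 * L) + 1), fun w S x r₀ l s M hS hr₀ hl hM hA hB hs hb => ?_⟩
  set b := K * r₀ with hbdef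
  have hb0 : 2 * r₀ ≤ b := Nat.mul_le_mul_right _ hK
  have hKb : K ≤ b := Nat.le_mul_of_pos_right _ hr₀
  have hC0 : 0 < C₀ := by linarith
  -- iteration
  have it : ∀ (i : ℕ) (M : ℝ), 0 ≤ M → L ^ i * b ≤ l → SB (frame x (L ^ i * b) (4 * (L ^ i * b))) M s →
      SB (frame x b (4 * b)) (C₀ ^ i * M) s := by
    intro i
    induction i with
    | zero => intro M _ _ h; simpa using h
    | succ i ih =>
      intro M hM hi h
      have e : L ^ (i + 1) * b = L * (L ^ i * b) := by ring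
      rw [e] at hi h
      have h1 : L ^ i * b ≤ L * (L ^ i * b) := Nat.le_mul_of_pos_left _ (by omega)
      have h2 : b ≤ L ^ i * b := Nat.le_mul_of_pos_left _ (by positivity)
      have h3 := s3a_scale hC0 (fun s => hB (L ^ i * b) s h2 (h1.trans hi)) hM
        (fun p hp => hs p (s3a_box.2 ((s3a_box.1 hp).trans (by rw [mul_assoc]; omega)))) (by rwa [mul_assoc])
      have h4 := ih (C₀ * M) (by positivity) (h1.trans hi) fun p hp => h3 p (by
        rw [s3a_frame] at hp ⊢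
        rw [mul_assoc]
        omega)
      rwa [pow_succ, mul_assoc (C₀ ^ i)]
  -- choice of the top scale
  have hbpos : 0 < b := by omega
  obtain ⟨m, hm1, hm2⟩ : ∃ m : ℕ, L ^ m * b ≤ l ∧ l < L * (L ^ m * b) := by
    refine ⟨Nat.log L (l / b), ?_, ?_⟩
    · exact (Nat.le_div_iff_mul_le hbpos).1 (Nat.pow_log_le_self L (Nat.div_pos hl hbpos).ne')
    · have := (Nat.div_lt_iff_lt_mul hbpos).1 (Nat.lt_pow_succ_log_self (b := L) (by omega) (l / b))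
      rwa [pow_succ', mul_assoc] at this
  set r := L ^ m * b with hr
  have hbr : b ≤ r := Nat.le_mul_of_pos_left _ (by positivity)
  have hL0 : (2 : ℝ) ≤ L := by exact_mod_cast hL2
  have top : SB (frame x r (4 * r)) ((|C₁| * (2 * L) + 1) * M) s := by
    intro p hp α
    rw [s3a_frame] at hp
    by_cases hpl : l < supd p x
    · refine (hb p (s3a_frame.2 ⟨hpl, by omega⟩) α).trans ?_
      have : 0 ≤ |C₁| * (2 * L) * M := by positivity
      linarith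
    · have h1 := hA l s M (by omega) le_rfl hs hb p (s3a_box.2 (by omega)) α
      have h2 : (r : ℝ) / 2 ≤ dB S l p := by
        refine le_dB ?_ fun v hv => ?_
        · have : (r : ℝ) ≤ l := by exact_mod_cast hm1
          have : (0 : ℝ) ≤ r := Nat.cast_nonneg _
          linarith
        · have e1 := mem_box_iff.1 (hS v hv)
          have e2 := supd_triangle p v x
          have e3 : r ≤ 2 * supd p v := by omega
          have : (r : ℝ) ≤ 2 * supd p v := by exact_mod_cast e3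
          linarith
      have h3 : (l : ℝ) ≤ L * r := by exact_mod_cast hm2.le
      have h4 : (0 : ℝ) < r := by exact_mod_cast hbpos.trans_le hbr
      have h5 : s (p, α) ^ 2 * (r / 2) ≤ (C₁ * M) ^ 2 * (L * r) :=
        (mul_le_mul_of_nonneg_left h2 (sq_nonneg _)).trans (h1.trans (mul_le_mul_of_nonneg_left h3 (sq_nonneg _)))
      have h6 : s (p, α) ^ 2 ≤ (C₁ * M) ^ 2 * (2 * L) := by
        refine le_of_mul_le_mul_right ?_ (half_pos h4)
        linarith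
      have h7 : s (p, α) ^ 2 ≤ (|C₁| * (2 * L) * M) ^ 2 := by
        refine h6.trans ?_
        rw [mul_pow, mul_pow, mul_pow, sq_abs, mul_right_comm]
        gcongr
        nlinarith
      have h8 := abs_le_of_sq_le_sq' h7 (by positivity)
      rw [abs_le]
      constructor <;> nlinarith [h8.1, h8.2]
  have h1 := hA b s _ hKb (hbr.trans hm1) (fun p hp => hs p (s3a_box.2 ((s3a_box.1 hp).trans (by omega))))
    (it m _ (by positivity) hm1 top)
  have hr0 : (0 : ℝ) < r₀ := by exact_mod_cast hr₀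
  have h2 : C₀ ^ m ≤ ((l : ℝ) / r₀) ^ (1 / 4 : ℝ) := by
    have e1 : (C₀ ^ m) ^ 4 ≤ (l : ℝ) / r₀ := by
      rw [← pow_mul, mul_comm, pow_mul, le_div_iff₀ hr0]
      have e2 : L ^ m * r₀ ≤ l := (Nat.mul_le_mul_left _ (by omega)).trans hm1
      have e3 : (L : ℝ) ^ m * r₀ ≤ l := by exact_mod_cast e2
      exact (mul_le_mul_of_nonneg_right (pow_le_pow_left₀ (by positivity) hL m) hr0.le).trans e3
    have e4 := Real.rpow_le_rpow (by positivity) e1 (z := (1 / 4 : ℝ)) (by norm_num)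
    rwa [← Real.rpow_natCast, ← Real.rpow_mul (by positivity), show ((4 : ℕ) : ℝ) * (1 / 4) = 1 by norm_num,
      Real.rpow_one] at e4
  intro p hp α
  have h3 := h1 p (s3a_box.2 ((s3a_box.1 hp).trans (by omega))) α
  refine (mul_le_mul_of_nonneg_left (s3a_dB_mono S (l' := b) (by omega) p) (sq_nonneg _)).trans (h3.trans ?_)
  have hK1 : (2 : ℝ) ≤ K := by exact_mod_cast hK
  set T := ((l : ℝ) / r₀) ^ (1 / 4 : ℝ)
  set A := (|C₁| * (2 * L) + 1)
  have h4 : (C₀ ^ m) ^ 2 ≤ T ^ 2 := pow_le_pow_left₀ (by positivity) h2 2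
  have h5 : (K : ℝ) ≤ K ^ 2 := by nlinarith
  calc (C₁ * (C₀ ^ m * (A * M))) ^ 2 * (b : ℝ) = (C₁ * A * M) ^ 2 * r₀ * ((C₀ ^ m) ^ 2 * K) := by
        rw [hbdef]; push_cast; ring
    _ ≤ (C₁ * A * M) ^ 2 * r₀ * (T ^ 2 * K ^ 2) := by gcongr
    _ = _ := by ring

theorem s3a_L (C₀ : ℝ) : ∃ L : ℕ, max C₀ 1 ^ 4 ≤ L ∧ 2 ≤ L :=
  ⟨⌈max C₀ 1 ^ 4⌉₊ + 2, (Nat.le_ceil _).trans (by push_cast; linarith), by omega⟩

theorem s3a_cluster : ∃ (C : ℝ) (K : ℕ), ∀ (S : Finset Site) (x : Site) (r₀ l : ℕ) (s : Fn) (M : ℝ), Even S.card →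
    (∀ v ∈ S, v ∈ box x r₀) → 1 ≤ r₀ → K * r₀ ≤ l → 0 ≤ M → SolOn (wOf Set.univ S) (box x (4 * l)) s →
    SB (frame x l (4 * l)) M s → WB S (box x (2 * r₀)) r₀ (C * M * ((l : ℝ) / r₀) ^ (1 / 4 : ℝ)) s := by
  obtain ⟨C₁, K₁, hA⟩ := apriori_sup
  obtain ⟨C₀, hB⟩ := mode_cluster
  obtain ⟨L, hL, hL2⟩ := s3a_L C₀
  obtain ⟨K₂, hB⟩ := hB L (by omega)
  obtain ⟨C, hC⟩ := s3a_iter C₁ (max C₀ 1) L (K₁ + K₂ + 2) (le_max_right _ _) hL hL2 (by omega)
  refine ⟨C, K₁ + K₂ + 2, fun S x r₀ l s M hS hv hr₀ hl hM => hC _ S x r₀ l s M hv hr₀ hl hM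
    (fun r s M h1 _ => hA _ (K₁ * r) S x r s M (reg_univ _) (by omega) le_rfl) fun r s h1 _ h2 h3 p hp α => ?_⟩
  have e1 : K₂ * r₀ ≤ r := (Nat.mul_le_mul_right _ (by omega)).trans h1
  exact (hB S x r r₀ s ((Nat.le_mul_of_pos_right _ hr₀).trans e1) e1 hS hv h2 h3 p hp α).trans (le_max_left _ _)

theorem s3a_bdry : ∃ (C : ℝ) (K : ℕ), ∀ (E : Set Edge) (ρ : ℝ) (v b : Site) (r₀ l : ℕ) (s : Fn) (M : ℝ), Reg E ρ →
    (K * l : ℝ) ≤ ρ → BdryB E b → v ∈ box b r₀ → 1 ≤ r₀ → K * r₀ ≤ l → 0 ≤ M → SolOn (wOf E {v}) (box b (4 * l)) s →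
    SB (frame b l (4 * l)) M s → WB {v} (box b (2 * r₀)) r₀ (C * M * ((l : ℝ) / r₀) ^ (1 / 4 : ℝ)) s := by
  obtain ⟨C₁, K₁, hA⟩ := apriori_sup
  obtain ⟨C₀, hB⟩ := mode_bdry_branch
  obtain ⟨L, hL, hL2⟩ := s3a_L C₀
  obtain ⟨K₂, hB⟩ := hB L (by omega)
  obtain ⟨C, hC⟩ := s3a_iter C₁ (max C₀ 1) L (K₁ + K₂ + 2) (le_max_right _ _) hL hL2 (by omega)
  refine ⟨C, K₁ + K₂ + 2, fun E ρ v b r₀ l s M hE hρ hb hv hr₀ hl hM => ?_⟩
  have hρ' : ∀ K r : ℕ, K ≤ K₁ + K₂ + 2 → r ≤ l → (K * r : ℝ) ≤ ρ := fun K r h1 h2 => by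
    refine le_trans ?_ hρ
    exact_mod_cast Nat.mul_le_mul h1 h2
  refine hC _ {v} b r₀ l s M (by simpa using hv) hr₀ hl hM
    (fun r s M h1 h2 => hA _ ρ {v} b r s M hE (by omega) (hρ' _ _ (by omega) h2)) fun r s h1 h h2 h3 p hp α => ?_
  have e1 : K₂ * r₀ ≤ r := (Nat.mul_le_mul_right _ (by omega)).trans h1
  exact (hB E ρ v b r r₀ s hE ((Nat.le_mul_of_pos_right _ hr₀).trans e1) (hρ' _ _ (by omega) h) e1 hb hv h2 h3 p hp
    α).trans (le_max_left _ _)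

end Crest.Agent.R165.C
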