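import Crest.Agent.R165.B3.Box

/-! # R165/C: summation along a staircase (auxiliary lemmas of task S3c) -/

set_option autoImplicit false
noncomputable section
open Classical Filter Topology

namespace Crest.Agent.R165.C

theorem s3c_four {x : ℝ} (hx : 0 ≤ x) : (x ^ (1 / 4 : ℝ)) ^ 4 = x := by
  rw [← Real.rpow_natCast, ← Real.rpow_mul hx]; norm_num

theorem s3c_step (m s : ℕ) (h : m ≤ 2 * s) :
    ((s : ℝ) + 1) ^ (-(3 / 4) : ℝ) ≤ 8 * (((m : ℝ) + 1 + 1) ^ (1 / 4 : ℝ) - ((m : ℝ) + 1) ^ (1 / 4 : ℝ)) := by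
  have h' : (m : ℝ) ≤ 2 * s := by exact_mod_cast h
  have hx := s3c_four (x := (m : ℝ) + 1 + 1) (by positivity)
  have hy := s3c_four (x := (m : ℝ) + 1) (by positivity)
  have hz := s3c_four (x := (s : ℝ) + 1) (by positivity)
  have hxy : ((m : ℝ) + 1) ^ (1 / 4 : ℝ) ≤ ((m : ℝ) + 1 + 1) ^ (1 / 4 : ℝ) := by gcongr; linarith
  have e : ((s : ℝ) + 1) ^ (-(3 / 4) : ℝ) = ((((s : ℝ) + 1) ^ (1 / 4 : ℝ)) ^ 3)⁻¹ := by
    rw [← Real.rpow_natCast, ← Real.rpow_mul (by positivity), ← Real.rpow_neg (by positivity)]; norm_num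
  rw [e]
  have hy0 : 0 ≤ ((m : ℝ) + 1) ^ (1 / 4 : ℝ) := by positivity
  have hz0 : 0 < ((s : ℝ) + 1) ^ (1 / 4 : ℝ) := by positivity
  generalize ((m : ℝ) + 1 + 1) ^ (1 / 4 : ℝ) = x at *
  generalize ((m : ℝ) + 1) ^ (1 / 4 : ℝ) = y at *
  generalize ((s : ℝ) + 1) ^ (1 / 4 : ℝ) = z at *
  have hx0 : 0 ≤ x := hy0.trans hxy
  have h1 : x ^ 3 ≤ 2 * z ^ 3 := by
    refine le_of_pow_le_pow_left₀ (n := 4) (by norm_num) (by positivity) ?_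
    have h2 : x ^ 4 ≤ 2 * z ^ 4 := by linarith
    calc (x ^ 3) ^ 4 = (x ^ 4) ^ 3 := by ring
      _ ≤ (2 * z ^ 4) ^ 3 := by gcongr
      _ = 8 * z ^ 12 := by ring
      _ ≤ 16 * z ^ 12 := by gcongr; norm_num
      _ = _ := by ring
  have h3 : 1 ≤ 4 * x ^ 3 * (x - y) := by
    have h4 : x ^ 2 * y ≤ x ^ 2 * x := by gcongr
    have h5 : x * y ^ 2 ≤ x * x ^ 2 := by gcongr
    have h6 : y ^ 3 ≤ x ^ 3 := by gcongr
    calc (1 : ℝ) = (x ^ 3 + x ^ 2 * y + x * y ^ 2 + y ^ 3) * (x - y) := by linear_combination hy - hx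
      _ ≤ _ := by
        refine mul_le_mul_of_nonneg_right ?_ (sub_nonneg.2 hxy)
        nlinarith
  rw [inv_le_iff_one_le_mul₀ (by positivity)]
  nlinarith [mul_le_mul_of_nonneg_right h1 (sub_nonneg.2 hxy)]

/-- `ℓ¹` distance -/
def s3c_l1 (x y : Site) : ℕ := (x.1 - y.1).natAbs + (x.2 - y.2).natAbs

/-- the invariant of the staircase from `c` to `q` -/
def s3c_inv (c q p : Site) : Prop :=
  (c.1 ≤ p.1 ∧ p.1 ≤ q.1 ∨ q.1 ≤ p.1 ∧ p.1 ≤ c.1) ∧ (c.2 ≤ p.2 ∧ p.2 ≤ q.2 ∨ q.2 ≤ p.2 ∧ p.2 ≤ c.2) ∧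
    2 * supd p q + s3c_l1 p c ≤ 2 * supd c q + 1

theorem s3c_next {c q p : Site} (hne : s3c_l1 p q ≠ 0) (h : s3c_inv c q p) : ∃ (p' : Site) (j : Fin 2),
    (p' = p + uv j ∨ p = p' + uv j) ∧ s3c_l1 p' q + 1 = s3c_l1 p q ∧ s3c_l1 p' c = s3c_l1 p c + 1 ∧ s3c_inv c q p' := by
  obtain ⟨c1, c2⟩ := c
  obtain ⟨q1, q2⟩ := q
  obtain ⟨p1, p2⟩ := p
  simp only [s3c_inv, s3c_l1, supd] at *
  by_cases h1 : (p2 - q2).natAbs ≤ (p1 - q1).natAbs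
  · rcases lt_or_ge p1 q1 with h2 | h2
    · exact ⟨(p1 + 1, p2), 0, Or.inl (by simp [uv]), by dsimp only; omega, by dsimp only; omega, by dsimp only; omega⟩
    · exact ⟨(p1 - 1, p2), 0, Or.inr (by simp [uv]), by dsimp only; omega, by dsimp only; omega, by dsimp only; omega⟩
  · rcases lt_or_ge p2 q2 with h2 | h2
    · exact ⟨(p1, p2 + 1), 1, Or.inl (by simp [uv]), by dsimp only; omega, by dsimp only; omega, by dsimp only; omega⟩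
    · exact ⟨(p1, p2 - 1), 1, Or.inr (by simp [uv]), by dsimp only; omega, by dsimp only; omega, by dsimp only; omega⟩

theorem s3c_adm {c q p : Site} (h : s3c_inv c q p) :
    supd p c ≤ supd q c + 1 ∧ 2 * supd p q + supd p c ≤ 2 * supd c q + 4 ∧ s3c_l1 p c ≤ 2 * supd p c := by
  simp only [s3c_inv, s3c_l1, supd] at *
  omega

theorem s3c_sum (f : Site → ℝ) (c q : Site) (A : ℝ) (hA : 0 ≤ A)
    (hf : ∀ (p : Site) (j : Fin 2), supd p c ≤ supd q c + 1 → 2 * supd p q + supd p c ≤ 2 * supd c q + 4 →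
      |f (p + uv j) - f p| ≤ A * ((supd p c : ℝ) + 1) ^ (-(3 / 4) : ℝ)) (k : ℕ) :
    ∀ p : Site, s3c_l1 p q = k → s3c_inv c q p →
      |f q - f p| ≤ 8 * A * (((s3c_l1 p c + k : ℕ) + 1 : ℝ) ^ (1 / 4 : ℝ) - ((s3c_l1 p c : ℝ) + 1) ^ (1 / 4 : ℝ)) := by
  induction k with
  | zero =>
    intro p hp _
    have : p = q := by
      unfold s3c_l1 at hp
      exact Prod.ext (by omega) (by omega)
    simp [this]
  | succ k ih =>
    intro p hp h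
    obtain ⟨p', j, e, h1, h2, h'⟩ := s3c_next (by omega) h
    have h3 := ih p' (by omega) h'
    rw [h2, show s3c_l1 p c + 1 + k = s3c_l1 p c + (k + 1) by omega] at h3
    have h4 : |f p' - f p| ≤ A * (8 * (((s3c_l1 p c : ℝ) + 1 + 1) ^ (1 / 4 : ℝ) - ((s3c_l1 p c : ℝ) + 1) ^ (1 / 4 : ℝ))) := by
      obtain ⟨a1, a2, a3⟩ := s3c_adm h
      obtain ⟨b1, b2, b3⟩ := s3c_adm h'
      rcases e with e | e
      · rw [e]
        exact (hf p j a1 a2).trans (mul_le_mul_of_nonneg_left (s3c_step _ _ a3) hA)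
      · have := (hf p' j b1 b2).trans (mul_le_mul_of_nonneg_left (s3c_step (s3c_l1 p c) _ (by omega)) hA)
        rwa [← e, abs_sub_comm] at this
    have h5 := abs_sub_le (f q) (f p') (f p)
    push_cast at h3 ⊢
    linarith

/-- the final numerical estimate of `merge_cmp`, `exit_cmp` -/
theorem s3c_small (C C₀ : ℝ) {ε : ℝ} (hε : 0 < ε) : ∃ L : ℕ, ∀ (l r : ℕ), L * (r + 1) ≤ l →
    C * (|C₀| * (l : ℝ) ^ (-(1 / 4) : ℝ)) * ((r : ℝ) + 1) ^ (1 / 4 : ℝ) ≤ ε := by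
  have h0 : Tendsto (fun L : ℕ => |C| * |C₀| * (L : ℝ) ^ (-(1 / 4) : ℝ)) atTop (𝓝 (|C| * |C₀| * 0)) :=
    ((tendsto_rpow_neg_atTop (by norm_num)).comp tendsto_natCast_atTop_atTop).const_mul _
  obtain ⟨L, hL, hL1⟩ := ((h0.eventually_le_const (by simpa using hε)).and (eventually_ge_atTop 1)).exists
  refine ⟨L, fun l r h => le_trans ?_ hL⟩
  have h1 : (L : ℝ) * (r + 1) ≤ l := by exact_mod_cast h
  have h2 : (0 : ℝ) < L := by exact_mod_cast hL1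
  have h3 : (l : ℝ) ^ (-(1 / 4) : ℝ) ≤ ((L : ℝ) * (r + 1)) ^ (-(1 / 4) : ℝ) :=
    Real.rpow_le_rpow_of_nonpos (by positivity) h1 (by norm_num)
  have h4 : ((r : ℝ) + 1) ^ (-(1 / 4) : ℝ) * ((r : ℝ) + 1) ^ (1 / 4 : ℝ) = 1 := by
    rw [← Real.rpow_add (by positivity)]; norm_num
  rw [Real.mul_rpow h2.le (by positivity)] at h3
  calc C * (|C₀| * (l : ℝ) ^ (-(1 / 4) : ℝ)) * ((r : ℝ) + 1) ^ (1 / 4 : ℝ)
      ≤ |C| * (|C₀| * ((L : ℝ) ^ (-(1 / 4) : ℝ) * ((r : ℝ) + 1) ^ (-(1 / 4) : ℝ))) * ((r : ℝ) + 1) ^ (1 / 4 : ℝ) := by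
        gcongr
        exact le_abs_self C
    _ = _ := by linear_combination |C| * |C₀| * (L : ℝ) ^ (-(1 / 4) : ℝ) * h4

end Crest.Agent.R165.C
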