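import Crest.Agent.R165.C.T3
import Crest.Agent.R165.CW.Defs
import Crest.Agent.R165.B.Ker

/-! # R165/C: auxiliary lemmas of task S3d (`wu_link`) -/

set_option autoImplicit false
noncomputable section
open Classical Filter Topology Metric Crest.ProbabilityR.IsingModel

namespace Crest.Agent.R165.C

theorem s3d_empty (e : Edge) : eray ∅ e = 1 := by simp [eray]

theorem s3d_flip {E : Finset Edge} {w : Edge → ℝ} (hw : ∀ e, e ∉ E → w e = 0) {g : HE → HE → ℝ} (hg : IsKer w g)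
    {P : Finset Edge} (hP : P ⊆ E) :
    Zc E (fun e => (if e ∈ P then -1 else 1) * w e) =
      Zc E w * gauss g ((∏ e ∈ P, (1 - (2 * w e) • eM id e) : Ev HE) : Gr HE) := by
  obtain ⟨s, hs⟩ := exists_supA ((∏ e ∈ P, (1 - (2 * w e) • eM id e) : Ev HE) : Gr HE)
  have key := BA.gauss_edge_change hg E s (fun e' he' h0 => (h0 (hw e' he')).elim) hs
  have e1 : (∏ e ∈ E, (1 + ((if e ∈ P then -1 else 1) * w e) • eM id e) : Ev HE) =
      (∏ e ∈ E, (1 + w e • eM id e)) * ∏ e ∈ P, (1 - (2 * w e) • eM id e) := by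
    rw [← Finset.prod_sdiff hP, ← Finset.prod_sdiff hP, mul_assoc, ← Finset.prod_mul_distrib]
    congr 1
    · exact Finset.prod_congr rfl fun e he => by rw [if_neg (Finset.mem_sdiff.1 he).2, one_mul]
    · refine Finset.prod_congr rfl fun e he => ?_
      rw [if_pos he, add_mul, one_mul, mul_sub, mul_one, smul_mul_smul_comm, BA.eM_sq, smul_zero, sub_zero]
      module
  rw [← BA.gauss_prod_edges, e1, MulMemClass.coe_mul, key]

theorem s3d_prod_stair {M : Type} [CommMonoid M] (f : Edge → M) (k : ℕ) :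
    ∏ e ∈ stair k, f e =
      ∏ i ∈ Finset.range k, (f (bondEdge ((i : ℤ), (i : ℤ)) 0) * f (bondEdge ((i : ℤ) + 1, (i : ℤ)) 1)) := by
  rw [stair, Finset.prod_biUnion]
  · refine Finset.prod_congr rfl fun i _ => ?_
    rw [Finset.prod_pair (by simp [bondEdge])]
  · intro i _ j _ hij
    simp only [Function.onFun, Finset.disjoint_insert_left, Finset.disjoint_singleton_left, Finset.mem_insert,
      Finset.mem_singleton]
    simp [bondEdge, hij]

theorem s3d_pair {u v : Site} (h : u ≠ v) (e : Edge) : eray {u, v} e = eray {u} e * eray {v} e := by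
  rw [← eray_symmDiff]
  congr 1
  ext z
  simp only [Finset.mem_insert, Finset.mem_singleton, Finset.mem_symmDiff]
  constructor
  · rintro (rfl | rfl)
    · exact Or.inl ⟨rfl, h⟩
    · exact Or.inr ⟨rfl, h.symm⟩
  · rintro (h | h)
    · exact Or.inl h.1
    · exact Or.inr h.1

theorem s3d_bond (z : Site) (j : Fin 2) : ∃ σ, IsSign σ ∧ ∀ e' : Edge,
    σ e'.1 * σ (e'.1 + uv e'.2) * (eray {z} e' * eray {z + uv j} e') = if e' = bondEdge z j then -1 else 1 := by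
  obtain ⟨σ, hσ, h⟩ := eray_move ∅ (bondEdge z j)
  refine ⟨σ, hσ, fun e' => ?_⟩
  have h1 := h e'
  have hne : z ≠ z + uv j := by
    intro h2
    have h3 : uv j = 0 := by simpa using h2
    fin_cases j <;> simp [uv] at h3
  rw [(edgeB_bondEdge z j).1, (edgeB_bondEdge z j).2, eray_symmDiff, s3d_empty, one_mul, mul_one,
    s3d_pair hne] at h1
  exact h1

theorem s3d_gauge (k : ℕ) : ∃ σ, IsSign σ ∧ ∀ e : Edge,
    σ e.1 * σ (e.1 + uv e.2) * (eray {((0 : ℤ), (0 : ℤ))} e * eray {((k : ℤ), (k : ℤ))} e) =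
      if e ∈ stair k then -1 else 1 := by
  have key : ∃ σ, IsSign σ ∧ ∀ e : Edge,
      σ e.1 * σ (e.1 + uv e.2) * (eray {((0 : ℤ), (0 : ℤ))} e * eray {((k : ℤ), (k : ℤ))} e) =
        ∏ e' ∈ stair k, if e = e' then -1 else 1 := by
    simp only [s3d_prod_stair]
    induction k with
    | zero =>
      refine ⟨fun _ => 1, fun _ => Or.inl rfl, fun e => ?_⟩
      have := eray_sq {((0 : ℤ), (0 : ℤ))} e
      simp only [Nat.cast_zero, Finset.range_zero, Finset.prod_empty]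
      linarith
    | succ k ih =>
      obtain ⟨σ, hσ, h⟩ := ih
      obtain ⟨σ₁, hσ₁, h₁⟩ := s3d_bond ((k : ℤ), (k : ℤ)) 0
      obtain ⟨σ₂, hσ₂, h₂⟩ := s3d_bond ((k : ℤ) + 1, (k : ℤ)) 1
      refine ⟨fun x => σ x * σ₁ x * σ₂ x, fun x => ?_, fun e => ?_⟩
      · rcases hσ x with a | a <;> rcases hσ₁ x with b | b <;> rcases hσ₂ x with c | c <;> simp [a, b, c]
      · have a1 : ((k : ℤ), (k : ℤ)) + uv 0 = ((k : ℤ) + 1, (k : ℤ)) := by simp [uv]
        have a2 : ((k : ℤ) + 1, (k : ℤ)) + uv 1 = (((k + 1 : ℕ) : ℤ), ((k + 1 : ℕ) : ℤ)) := by simp [uv]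
        rw [Finset.prod_range_succ, ← h e, ← h₁ e, ← h₂ e, a1, a2]
        have b1 := eray_sq {((k : ℤ), (k : ℤ))} e
        have b2 := eray_sq {((k : ℤ) + 1, (k : ℤ))} e
        generalize eray {((k : ℤ), (k : ℤ))} e = p at b1 ⊢
        generalize eray {((k : ℤ) + 1, (k : ℤ))} e = q at b2 ⊢
        generalize eray {(((k + 1 : ℕ) : ℤ), ((k + 1 : ℕ) : ℤ))} e = r
        generalize eray {((0 : ℤ), (0 : ℤ))} e = t
        linear_combination (-(σ e.1 * σ₁ e.1 * σ₂ e.1 * (σ (e.1 + uv e.2) * σ₁ (e.1 + uv e.2) * σ₂ (e.1 + uv e.2)) *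
          t * r)) * (q ^ 2 * b1 + b2)
  obtain ⟨σ, hσ, h⟩ := key
  exact ⟨σ, hσ, fun e => by rw [h e, Finset.prod_ite_eq]⟩

theorem s3d_rho0 {k : ℕ} (hk : 1 ≤ k) {E : Finset Edge} (hE : stair k ⊆ E) {g : HE → HE → ℝ} (hg : IsKer (wOf ↑E ∅) g) :
    rho0 E {((0 : ℤ), (0 : ℤ)), ((k : ℤ), (k : ℤ))} =
      |gauss g ((∏ e ∈ stair k, (1 - (2 * tc) • eM id e) : Ev HE) : Gr HE)| := by
  obtain ⟨σ, hσ, h⟩ := s3d_gauge k
  have hne : ((0 : ℤ), (0 : ℤ)) ≠ ((k : ℤ), (k : ℤ)) := by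
    intro h1
    have := congrArg Prod.fst h1
    simp only at this
    omega
  have e1 : gaugeW σ (wOf ↑E {((0 : ℤ), (0 : ℤ)), ((k : ℤ), (k : ℤ))}) =
      fun e => (if e ∈ stair k then -1 else 1) * wOf ↑E ∅ e := by
    funext e
    rw [← h e, gaugeW, wOf, wOf, s3d_empty, s3d_pair hne]
    split_ifs <;> ring
  have hw : ∀ e, e ∉ E → wOf ↑E ∅ e = 0 := fun e he => if_neg (by simpa using he)
  have e2 : (∏ e ∈ stair k, (1 - (2 * wOf ↑E ∅ e) • eM id e) : Ev HE) = ∏ e ∈ stair k, (1 - (2 * tc) • eM id e) :=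
    Finset.prod_congr rfl fun e he => by
      rw [wOf, if_pos (by simpa using hE he), s3d_empty, mul_one]
  have hp := Zc_pos E
  rw [rho0, ← Zc_gauge E _ hσ, e1, s3d_flip hw hg hE, e2, abs_mul, abs_of_pos hp, mul_div_cancel_left₀ _ hp.ne']

theorem s3d_main (k : ℕ) (hk : 1 ≤ k) (E : ℕ → Finset Edge) (ρ : ℕ → ℝ) (hρ : Tendsto ρ atTop atTop)
    (hE : ∀ m, Reg ↑(E m) (ρ m)) (hex : ∀ e, ∀ᶠ m in atTop, e ∈ E m) :
    Tendsto (fun m => rho0 (E m) {((0 : ℤ), (0 : ℤ)), ((k : ℤ), (k : ℤ))}) atTop (𝓝 |wuCorr k|) := by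
  choose g hg using fun m => exists_ker (hE m) ∅
  have h1 := (gauss_tendsto (ker_tendsto_gPl E ρ g hρ hE hg hex)
    ((∏ e ∈ stair k, (1 - (2 * tc) • eM id e) : Ev HE) : Gr HE)).abs
  refine h1.congr' ?_
  filter_upwards [(Finset.eventually_all (stair k)).2 fun e _ => hex e] with m hm
  exact (s3d_rho0 hk hm (hg m).1).symm

end Crest.Agent.R165.C
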