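import Crest.Agent.R165.C.S3b1x
import Crest.Agent.R165.C.S1
import Crest.Agent.R165.C.S3ax
import Crest.Agent.R165.C.S3dx

import Crest.Agent.R165.CW.Defs
import Crest.Agent.R165.C.S3cx

/-! # R165/C: merging two spins, sending a spin to the boundary (discrete estimates) (block C, owner helper83; statements FROZEN, add lemmas freely inside the namespace) -/

set_option autoImplicit false
noncomputable section
open Classical Filter Topology Metric Crest.ProbabilityR.IsingModel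

namespace Crest.Agent.R165.C

/-! ### task S3a -/

/-- iteration of `mode_cluster`: choose `L` with `C₀ ≤ L^{1/4}`; base scale `K r₀`, scales `L^m K r₀ ≤ l`; first `apriori_sup` at scale `l` (`E = univ`) to fill
`frame x (l / L) (4 l)`, then `m` times `mode_cluster`, last `apriori_sup` at the base scale. -/
theorem iter_cluster : ∃ (C : ℝ) (K : ℕ), ∀ (S : Finset Site) (x : Site) (r₀ l : ℕ) (s : Fn) (M : ℝ), Even S.card →
    (∀ v ∈ S, v ∈ box x r₀) → 1 ≤ r₀ → K * r₀ ≤ l → 0 ≤ M → SolOn (wOf Set.univ S) (box x (4 * l)) s →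
    SB (frame x l (4 * l)) M s → WB S (box x (2 * r₀)) r₀ (C * M * ((l : ℝ) / r₀) ^ (1 / 4 : ℝ)) s := by
  exact s3a_cluster

/-- the same with `mode_bdry_branch` -/
theorem iter_bdry : ∃ (C : ℝ) (K : ℕ), ∀ (E : Set Edge) (ρ : ℝ) (v b : Site) (r₀ l : ℕ) (s : Fn) (M : ℝ), Reg E ρ →
    (K * l : ℝ) ≤ ρ → BdryB E b → v ∈ box b r₀ → 1 ≤ r₀ → K * r₀ ≤ l → 0 ≤ M → SolOn (wOf E {v}) (box b (4 * l)) s →
    SB (frame b l (4 * l)) M s → WB {v} (box b (2 * r₀)) r₀ (C * M * ((l : ℝ) / r₀) ^ (1 / 4 : ℝ)) s := by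
  exact s3a_bdry

/-! ### task S3b -/

/-- difference of the logarithms for one step of the second spin `p → p + uv j` of a cluster `{v₁, p}` in two geometries.
Gauge both kernels so that the weights are `wOf univ (symmDiff {v₁} {p})` on `box v₁ (l - 2)` (`exists_gauge`, `isKer_gauge`, `rat_gauge`); `d = g̃ h - g̃' h` is a solution there, of
size `C l^{-1/2}` on the frame (`ker_bound`; fix the global sign of the gauges by `σ h.1 = 1`), `iter_cluster` with `r₀ = r + 2`; for `r ≥ 16` gauge once more (same `σ` for both) to `wOf univ {p}` on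
`box p (r / 4)` and use `step_cmp`; for `r < 16` `|Rat - Rat'| = 2 tc |d|`. `rat_bounds`, `rho0_move`, `|log |t| - log |t'|| ≤ C |t - t'|`. -/
theorem merge_step (n : ℕ) : ∃ (C : ℝ) (K : ℕ), ∀ (E E' : Finset Edge) (ρ ρ' : ℝ) (S S' : Finset Site) (v₁ p : Site) (j : Fin 2) (l : ℕ),
    Reg ↑E ρ → Reg ↑E' ρ' → S.card ≤ n → S'.card ≤ n → (K * l : ℝ) ≤ ρ → (K * l : ℝ) ≤ ρ' → Crit ↑E (box v₁ l) → Crit ↑E' (box v₁ l) →
    (∀ v ∈ S, v ∉ box v₁ l) → (∀ v ∈ S', v ∉ box v₁ l) → K * (supd p v₁ + 1) ≤ l →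
    |(Real.log (rho0 E (S ∪ symmDiff {v₁} {p + uv j})) - Real.log (rho0 E (S ∪ symmDiff {v₁} {p}))) -
      (Real.log (rho0 E' (S' ∪ symmDiff {v₁} {p + uv j})) - Real.log (rho0 E' (S' ∪ symmDiff {v₁} {p})))| ≤
      C * ((l : ℝ) ^ (-(1 / 4) : ℝ) * ((supd p v₁ : ℝ) + 1) ^ (-(3 / 4) : ℝ)) := by
  obtain ⟨C, K, hC, h⟩ := s3b1_master (n + 2)
  obtain ⟨C₁, K₁, hit⟩ := iter_cluster
  refine ⟨C * |C₁| * 3, 32 * (K + K₁ + 2), ?_⟩
  intro E E' ρ ρ' S S' v₁ p j l hE hE' hS hS' hρ hρ' hc hc' hf hf' hl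
  obtain ⟨m, hm⟩ : ∃ m, m = l / 16 := ⟨_, rfl⟩
  have hl' : 32 * (K * supd p v₁) + 32 * (K₁ * supd p v₁) + 64 * supd p v₁ + 32 * K + 32 * K₁ + 64 ≤ l := by
    refine le_of_eq_of_le ?_ hl; ring
  have hq := s3b1_uv p j
  have hqv : supd (p + uv j) v₁ ≤ supd p v₁ + 1 := by have := supd_triangle (p + uv j) p v₁; omega
  have hpq : p ≠ p + uv j := fun h0 => by rw [← h0, supd_self] at hq; omega
  have hTb : ∀ v ∈ symmDiff ({v₁} : Finset Site) {p}, supd v v₁ ≤ supd p v₁ := fun v hv => by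
    simp only [Finset.mem_symmDiff, Finset.mem_singleton] at hv
    rcases hv with ⟨rfl, -⟩ | ⟨rfl, -⟩
    · rw [supd_self]; omega
    · exact le_rfl
  have hTc : (symmDiff ({v₁} : Finset Site) {p}).card ≤ 2 ∧ Even (symmDiff ({v₁} : Finset Site) {p}).card := by
    by_cases h0 : v₁ = p
    · simp [h0]
    · have : symmDiff ({v₁} : Finset Site) {p} = {v₁, p} := by
        ext u; simp only [Finset.mem_symmDiff, Finset.mem_singleton, Finset.mem_insert]
        constructor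
        · rintro (⟨h, -⟩ | ⟨h, -⟩) <;> simp [h]
        · rintro (rfl | rfl)
          · exact Or.inl ⟨rfl, h0⟩
          · exact Or.inr ⟨rfl, fun h => h0 h.symm⟩
      rw [this, Finset.card_pair h0]; exact ⟨le_rfl, even_two⟩
  have hset : ∀ S : Finset Site, (∀ v ∈ S, v ∉ box v₁ l) →
      S ∪ symmDiff {v₁} {p + uv j} = symmDiff (S ∪ symmDiff {v₁} {p}) {p, p + uv j} := fun S hS => by
    have h1 : p ∉ S := fun h => hS _ h (mem_box.2 (by omega))
    have h2 : p + uv j ∉ S := fun h => hS _ h (mem_box.2 (by omega))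
    ext u
    simp only [Finset.mem_union, Finset.mem_symmDiff, Finset.mem_singleton, Finset.mem_insert]
    by_cases e1 : u = p
    · subst e1; simp [h1, hpq]
    · by_cases e2 : u = p + uv j
      · subst e2; simp [h2, e1]
      · simp [e1, e2]
  have hρK : ∀ ρ : ℝ, ((32 * (K + K₁ + 2) : ℕ) * l : ℝ) ≤ ρ → (K * m : ℝ) ≤ ρ := fun ρ hρ => by
    refine le_trans ?_ hρ
    exact_mod_cast Nat.mul_le_mul (by omega) (by omega)
  have hnear : ∀ S : Finset Site, (∀ v ∈ S, v ∉ box v₁ l) → ∀ v, supd v v₁ < 9 * m →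
      (v ∈ S ∪ symmDiff {v₁} {p} ↔ v ∈ symmDiff ({v₁} : Finset Site) {p}) := fun S hS v hv => by
    have : v ∉ S := fun h => hS _ h (mem_box.2 (by omega))
    simp only [Finset.mem_union, this, false_or]
  have hcr : ∀ E : Finset Edge, Crit ↑E (box v₁ l) → ∀ y ∈ box v₁ (8 * m), ∀ α,
      edgeOf y α ∈ (↑E : Set Edge) ↔ edgeOf y α ∈ Set.univ := fun E hE y hy α =>
    ⟨fun _ => Set.mem_univ _, fun _ => hE y (box_mono v₁ (by omega) hy) α⟩
  rw [hset S hf, hset S' hf']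
  have h1 := h E E' ρ ρ' _ _ (symmDiff {v₁} {p}) Set.univ v₁ p j m (supd p v₁ / 4) |C₁| hE hE'
    ((Finset.card_union_le _ _).trans (by omega)) ((Finset.card_union_le _ _).trans (by omega)) (by omega) (hρK _ hρ)
    (hρK _ hρ') (by omega) (abs_nonneg _) (hnear S hf) (hnear S' hf') (fun v hv => by have := hTb v hv; omega)
    (hcr E hc) (hcr E' hc') (fun s M hM hs hb y hy α => by
      refine (hit _ v₁ (supd p v₁ + 2) (2 * m) s M hTc.2 (fun v hv => mem_box.2 (by have := hTb v hv; omega)) (by omega)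
        (by rw [mul_add]; omega) hM hs hb y hy α).trans (le_of_eq ?_)
      simp only [mul_pow, sq_abs]) (by omega) (by omega) (by
      by_cases h2 : supd p v₁ / 4 < 2
      · exact Or.inl h2
      · have h0 : p ≠ v₁ := fun h0 => by rw [h0, supd_self] at h2; omega
        refine Or.inr ⟨by simp [Finset.mem_symmDiff, h0], fun _ _ _ => Set.mem_univ _, fun v hv hvp => ?_⟩
        simp only [Finset.mem_symmDiff, Finset.mem_singleton] at hv
        rcases hv with ⟨rfl, -⟩ | ⟨rfl, -⟩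
        · rw [supd_comm v p]; omega
        · exact (hvp rfl).elim)
  refine h1.trans ?_
  have h2 := s3b1_scale (l := l) (m := m) (by omega) (by omega) (by omega)
  have h3 : 0 ≤ ((supd p v₁ : ℝ) + 1) ^ (-(3 / 4) : ℝ) := by positivity
  have h4 := mul_le_mul_of_nonneg_left (mul_le_mul_of_nonneg_right h2 h3) (mul_nonneg hC (abs_nonneg C₁))
  linarith

/-- the same for one spin near the boundary point `b`, with and without the far spins `S`; `t` = size of a critical box around `p`, comparable to the distance to `b` -/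
theorem exit_step (n : ℕ) : ∃ (C : ℝ) (K : ℕ), ∀ (E : Finset Edge) (ρ : ℝ) (S : Finset Site) (b p : Site) (j : Fin 2) (l t : ℕ),
    Reg ↑E ρ → S.card ≤ n → (K * l : ℝ) ≤ ρ → BdryB ↑E b → (∀ v ∈ S, v ∉ box b l) → K * (supd p b + 1) ≤ l →
    (t = 0 ∨ Crit ↑E (box p t)) → supd p b ≤ 4 * t + 16 →
    |(Real.log (rho0 E (insert (p + uv j) S)) - Real.log (rho0 E (insert p S))) -
      (Real.log (rho0 E {p + uv j}) - Real.log (rho0 E {p}))| ≤
      C * ((l : ℝ) ^ (-(1 / 4) : ℝ) * ((supd p b : ℝ) + 1) ^ (-(3 / 4) : ℝ)) := by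
  obtain ⟨C, K, hC, h⟩ := s3b1_master (n + 1)
  obtain ⟨C₁, K₁, hit⟩ := iter_bdry
  refine ⟨C * |C₁| * 3, 32 * (K + K₁ + 2), ?_⟩
  intro E ρ S b p j l t hE hS hρ hb hf hl hc ht
  obtain ⟨m, hm⟩ : ∃ m, m = l / 16 := ⟨_, rfl⟩
  have hl' : 32 * (K * supd p b) + 32 * (K₁ * supd p b) + 64 * supd p b + 32 * K + 32 * K₁ + 64 ≤ l := by
    refine le_of_eq_of_le ?_ hl; ring
  have hq := s3b1_uv p j
  have hqv : supd (p + uv j) b ≤ supd p b + 1 := by have := supd_triangle (p + uv j) p b; omega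
  have hpq : p ≠ p + uv j := fun h0 => by rw [← h0, supd_self] at hq; omega
  have hset : ∀ S : Finset Site, (∀ v ∈ S, v ∉ box b l) →
      insert (p + uv j) S = symmDiff (insert p S) {p, p + uv j} := fun S hS => by
    have h1 : p ∉ S := fun h => hS _ h (mem_box.2 (by omega))
    have h2 : p + uv j ∉ S := fun h => hS _ h (mem_box.2 (by omega))
    ext u
    simp only [Finset.mem_symmDiff, Finset.mem_singleton, Finset.mem_insert]
    by_cases e1 : u = p
    · subst e1; simp [h1, hpq]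
    · by_cases e2 : u = p + uv j
      · subst e2; simp [h2, e1]
      · simp [e1, e2]
  have hρK : ∀ K' m' : ℕ, K' ≤ 32 * (K + K₁ + 2) → m' ≤ l → (K' * m' : ℝ) ≤ ρ := fun K' m' h1 h2 => by
    refine le_trans ?_ hρ
    exact_mod_cast Nat.mul_le_mul h1 h2
  have hset' : ({p + uv j} : Finset Site) = symmDiff {p} {p, p + uv j} := by
    simpa using hset ∅ (by simp)
  rw [hset', hset S hf]
  have h1 := h E E ρ ρ (insert p S) {p} {p} ↑E b p j m (min t (supd p b / 4)) |C₁| hE hE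
    ((Finset.card_insert_le _ _).trans (by omega)) (by simp) (by omega) (hρK _ _ (by omega) (by omega))
    (hρK _ _ (by omega) (by omega)) (by omega) (abs_nonneg _) (fun v hv => by
      have : v ∉ S := fun h => hf _ h (mem_box.2 (by omega))
      simp [this]) (fun _ _ => Iff.rfl) (fun v hv => by rw [Finset.mem_singleton.1 hv]; omega)
    (fun _ _ _ => Iff.rfl) (fun _ _ _ => Iff.rfl) (fun s M hM hs hb' y hy α => by
      refine (hit _ ρ p b (supd p b + 2) (2 * m) s M hE (hρK _ _ (by omega) (by omega)) hb (mem_box.2 (by omega)) (by omega)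
        (by rw [mul_add]; omega) hM hs hb' y hy α).trans (le_of_eq ?_)
      simp only [mul_pow, sq_abs]) (by omega) (by omega) (by
      by_cases h2 : min t (supd p b / 4) < 2
      · exact Or.inl h2
      · refine Or.inr ⟨by simp, fun y hy α => ?_, fun v hv hvp => (hvp (Finset.mem_singleton.1 hv)).elim⟩
        exact (hc.resolve_left (by omega)) y (box_mono p (by omega) hy) α)
  refine h1.trans ?_
  have h2 := s3b1_scale (l := l) (m := m) (by omega) (by omega) (by omega)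
  have h3 : 0 ≤ ((supd p b : ℝ) + 1) ^ (-(3 / 4) : ℝ) := by positivity
  have h4 := mul_le_mul_of_nonneg_left (mul_le_mul_of_nonneg_right h2 h3) (mul_nonneg hC (abs_nonneg C₁))
  linarith

/-! ### task S3c -/

/-- summation along a staircase: if each step `p → p + uv j` inside `box c r` changes `f` by at most `A (supd p c + 1)^{-3/4}`, then `|f q - f c| ≤ C A (r + 1)^{1/4}`
(induction on the `ℓ¹` distance `m` to `c`, `supd ≥ m / 2`, `Σ_{i ≤ m} i^{-3/4} ≤ 4 m^{1/4}`). `ok` restricts the admissible sites; the path always shortens the larger coordinate of `p - q`. -/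
theorem stair_sum : ∃ C : ℝ, ∀ (f : Site → ℝ) (c q : Site) (A : ℝ), 0 ≤ A →
    (∀ (p : Site) (j : Fin 2), supd p c ≤ supd q c + 1 → 2 * supd p q + supd p c ≤ 2 * supd c q + 4 →
      |f (p + uv j) - f p| ≤ A * ((supd p c : ℝ) + 1) ^ (-(3 / 4) : ℝ)) →
    |f q - f c| ≤ C * A * ((supd q c : ℝ) + 1) ^ (1 / 4 : ℝ) := by
  refine ⟨16, fun f c q A hA hf => ?_⟩
  have h := s3c_sum f c q A hA hf _ c rfl (by simp only [s3c_inv, s3c_l1, supd]; omega)
  have h0 : s3c_l1 c c = 0 := by simp [s3c_l1]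
  have h1 : s3c_l1 c q + 1 ≤ 2 * (supd q c + 1) := by simp only [s3c_l1, supd]; omega
  have h2 : (s3c_l1 c q : ℝ) + 1 ≤ 2 ^ 4 * ((supd q c : ℝ) + 1) := by
    have : (s3c_l1 c q : ℝ) + 1 ≤ 2 * (supd q c + 1) := by exact_mod_cast h1
    have : (0 : ℝ) ≤ supd q c := by positivity
    linarith
  have h3 := Real.rpow_le_rpow (by positivity) h2 (by norm_num : (0 : ℝ) ≤ 1 / 4)
  rw [Real.mul_rpow (by positivity) (by positivity), ← Real.rpow_natCast, ← Real.rpow_mul (by norm_num)] at h3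
  rw [h0, zero_add] at h
  norm_num at h h3 ⊢
  nlinarith [mul_le_mul_of_nonneg_left h3 hA]

/-- **merging**: `merge_step` + `stair_sum` (`c = v₁`, `symmDiff {v₁} {v₁} = ∅`) -/
theorem merge_cmp (n : ℕ) {ε : ℝ} (hε : 0 < ε) : ∃ L K : ℕ, ∀ (E E' : Finset Edge) (ρ ρ' : ℝ) (S S' : Finset Site) (v₁ v₂ : Site) (l : ℕ),
    Reg ↑E ρ → Reg ↑E' ρ' → S.card ≤ n → S'.card ≤ n → (K * l : ℝ) ≤ ρ → (K * l : ℝ) ≤ ρ' → Crit ↑E (box v₁ l) → Crit ↑E' (box v₁ l) →
    (∀ v ∈ S, v ∉ box v₁ l) → (∀ v ∈ S', v ∉ box v₁ l) → v₁ ≠ v₂ → L * supd v₂ v₁ ≤ l →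
    |(Real.log (rho0 E (S ∪ {v₁, v₂})) - Real.log (rho0 E S)) - (Real.log (rho0 E' (S' ∪ {v₁, v₂})) - Real.log (rho0 E' S'))| ≤ ε := by
  obtain ⟨C₀, K, h₀⟩ := merge_step n
  obtain ⟨C, h₁⟩ := stair_sum
  obtain ⟨L, hL⟩ := s3c_small C C₀ hε
  refine ⟨2 * L + 3 * K, K, fun E E' ρ ρ' S S' v₁ v₂ l hE hE' hS hS' hρ hρ' hc hc' hb hb' hne hl => ?_⟩
  have hr : 1 ≤ supd v₂ v₁ := Nat.one_le_iff_ne_zero.2 fun h => hne (B3.supd_eq_zero.1 h).symm
  have := h₁ (fun p => Real.log (rho0 E (S ∪ symmDiff {v₁} {p})) - Real.log (rho0 E' (S' ∪ symmDiff {v₁} {p}))) v₁ v₂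
    (|C₀| * (l : ℝ) ^ (-(1 / 4) : ℝ)) (by positivity) fun p j hp _ => by
      have h2 := h₀ E E' ρ ρ' S S' v₁ p j l hE hE' hS hS' hρ hρ' hc hc' hb hb' (by nlinarith)
      rw [mul_assoc]
      refine le_trans (le_of_eq (by congr 1; ring)) (h2.trans ?_)
      gcongr
      exact le_abs_self _
  have e : symmDiff ({v₁} : Finset Site) {v₂} = {v₁, v₂} := by
    ext x
    simp only [Finset.mem_symmDiff, Finset.mem_singleton, Finset.mem_insert]
    constructor
    · tauto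
    · rintro (rfl | rfl)
      exacts [Or.inl ⟨rfl, hne⟩, Or.inr ⟨rfl, hne.symm⟩]
  simp only [e, symmDiff_self, Finset.bot_eq_empty, Finset.union_empty] at this
  refine le_trans (le_of_eq (by congr 1; ring)) (this.trans (hL l _ (by nlinarith)))

/-- **exit**: replace `b` by a frozen site `b₀` nearest to `v` (if `v` is frozen use `rho0_frozen`); it is a `BdryB`; on the staircase from `b₀` to `v` the box of radius
`supd b₀ v - supd p v - 2` around `p` has no frozen site, hence is critical; `exit_step` + `stair_sum`; at `p = b₀` use `rho0_frozen`, `rho0_empty`. -/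
theorem exit_cmp (n : ℕ) {ε : ℝ} (hε : 0 < ε) : ∃ L K : ℕ, ∀ (E : Finset Edge) (ρ : ℝ) (S : Finset Site) (v b : Site) (l : ℕ),
    Reg ↑E ρ → S.card ≤ n → (K * l : ℝ) ≤ ρ → FrozenB ↑E b → (∀ u ∈ S, u ∉ box v l) → L * (supd v b + 1) ≤ l →
    |Real.log (rho0 E (insert v S)) - Real.log (rho0 E S) - Real.log (rho0 E {v})| ≤ ε := by
  obtain ⟨C₀, K, h₀⟩ := exit_step n
  obtain ⟨C, h₁⟩ := stair_sum
  obtain ⟨L, hL⟩ := s3c_small C C₀ hε
  refine ⟨2 * (L + 2 * K + 1), K, fun E ρ S v b l hE hS hρ hb hSv hl => ?_⟩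
  have hex : ∃ r, ∃ b, FrozenB ↑E b ∧ supd b v = r := ⟨_, b, hb, rfl⟩
  obtain ⟨b₀, hb₀, hr⟩ := Nat.find_spec hex
  have hmin : ∀ b', FrozenB ↑E b' → Nat.find hex ≤ supd b' v := fun b' h => Nat.find_min' hex ⟨b', h, rfl⟩
  generalize Nat.find hex = r at hr hmin
  have hrb : r ≤ supd v b := (hmin b hb).trans_eq (supd_comm _ _)
  have hl' : (L + 2 * K + 1) * (r + 1) ≤ l / 2 := by
    rw [Nat.le_div_iff_mul_le two_pos]
    nlinarith
  have hl2 : r + l / 2 ≤ l := by
    have : r ≤ l / 2 := by nlinarith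
    omega
  have hS₀ : ∀ u ∈ S, u ∉ box b₀ (l / 2) := fun u hu h => hSv u hu (box_subset_box (mem_box_supd.2 hr.le) hl2 h)
  have hf : Real.log (rho0 E (insert b₀ S)) - Real.log (rho0 E {b₀}) = Real.log (rho0 E S) := by
    have e1 := rho0_frozen hE S hb₀
    have e2 := rho0_frozen hE ∅ hb₀
    have hn : b₀ ∉ S := fun h => hS₀ _ h (self_mem_box _ _)
    have e3 : symmDiff S {b₀} = insert b₀ S := by
      ext x
      simp only [Finset.mem_symmDiff, Finset.mem_singleton, Finset.mem_insert]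
      constructor
      · tauto
      · rintro (rfl | h)
        exacts [Or.inr ⟨rfl, hn⟩, Or.inl ⟨h, fun e => hn (e ▸ h)⟩]
    rw [← Finset.bot_eq_empty, bot_symmDiff, Finset.bot_eq_empty, rho0_empty] at e2
    rw [← e3, e1, e2, Real.log_one, sub_zero]
  rcases Nat.eq_zero_or_pos r with rfl | hr0
  · obtain rfl := B3.supd_eq_zero.1 hr
    rw [← hf]
    simpa using hε.le
  have hE' : ∀ e : Edge, supd (edgeB1 e) v < r → e ∈ (↑E : Set Edge) := fun e he => by
    by_contra h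
    exact (hmin _ ⟨e, h, Or.inr rfl⟩).not_gt he
  have hbd : BdryB ↑E b₀ := by
    obtain ⟨b', h1, h2⟩ : ∃ b' : Site, supd b' b₀ ≤ 1 ∧ supd b' v < r := by
      refine ⟨(b₀.1 + Int.sign (v.1 - b₀.1), b₀.2 + Int.sign (v.2 - b₀.2)), ?_⟩
      have s : ∀ a : ℤ, (0 < a ∧ a.sign = 1) ∨ (a = 0 ∧ a.sign = 0) ∨ (a < 0 ∧ a.sign = -1) := fun a => by
        rcases lt_trichotomy a 0 with h | h | h
        exacts [Or.inr (Or.inr ⟨h, Int.sign_eq_neg_one_of_neg h⟩), Or.inr (Or.inl ⟨h, by simp [h]⟩), Or.inl ⟨h, Int.sign_eq_one_of_pos h⟩]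
      have s1 := s (v.1 - b₀.1)
      have s2 := s (v.2 - b₀.2)
      simp only [supd] at hr ⊢
      omega
    refine ⟨hb₀, (b' - (1, 1), 0), hE' _ (by simpa [edgeB1] using h2), ?_⟩
    simp only [supd, Prod.fst_sub, Prod.snd_sub] at h1 ⊢
    omega
  have := h₁ (fun p => Real.log (rho0 E (insert p S)) - Real.log (rho0 E {p})) b₀ v
    (|C₀| * ((l / 2 : ℕ) : ℝ) ^ (-(1 / 4) : ℝ)) (by positivity) fun p j hp hp' => by
      rw [supd_comm v b₀, hr] at hp
      rw [hr] at hp'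
      have h2 := h₀ E ρ S b₀ p j (l / 2) (r - supd p v - 3) hE hS
        (le_trans (mul_le_mul_of_nonneg_left (Nat.cast_le.2 (Nat.div_le_self _ _)) (Nat.cast_nonneg _)) hρ) hbd hS₀ (by nlinarith)
        (or_iff_not_imp_left.2 fun h0 x hx α => hE' _ (by
          have a1 := B3.mem_box'.1 hx
          have a2 := (B3.supd_edgeOf x α).1
          have a3 := (B3.supd_edgeB (edgeOf x α)).2
          have a4 := supd_triangle (edgeB1 (edgeOf x α)) (edgeOf x α).1 v
          have a5 := supd_triangle (edgeOf x α).1 x v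
          have a6 := supd_triangle x p v
          omega)) (by omega)
      rw [mul_assoc]
      refine le_trans (le_of_eq (by congr 1; ring)) (h2.trans ?_)
      gcongr
      exact le_abs_self _
  simp only [hf] at this
  rw [supd_comm v b₀, hr] at this
  refine le_trans (le_of_eq (by congr 1; ring)) (this.trans (hL _ _ (by nlinarith)))

/-! ### task S3d -/

/-- link with Wu's correlation: `eray {0, (k,k)}` is gauge equivalent to the flip of all edges of `stair k` (induction with `eray_move`), `Zc_gauge`;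
`Zc E (flipped) = gauss g0 (Π (1 + w E) Π_{stair} (1 - 2 w E))` (`(1 + x)(1 - 2x) = 1 - x` as `x² = 0`; `gauss_prod_edges`, `gauss_edge_change`); `ker_tendsto_gPl`, `gauss_tendsto`. -/
theorem wu_link (k : ℕ) (hk : 1 ≤ k) (E : ℕ → Finset Edge) (ρ : ℕ → ℝ) (hρ : Tendsto ρ atTop atTop) (hE : ∀ m, Reg ↑(E m) (ρ m))
    (hex : ∀ e, ∀ᶠ m in atTop, e ∈ E m) :
    Tendsto (fun m => rho0 (E m) {((0 : ℤ), (0 : ℤ)), ((k : ℤ), (k : ℤ))}) atTop (𝓝 |wuCorr k|) := by
  exact s3d_main k hk E ρ hρ hE hex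

end Crest.Agent.R165.C
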