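import Crest.Agent.R165.C.S2
import Crest.Agent.R165.C.S3
import Crest.Agent.R165.CW.Main

/-! # R165/C/S4ax: the two-point function in the plane (helper42) -/

set_option autoImplicit false
noncomputable section
open Classical Filter Topology Metric Crest.ProbabilityR.IsingModel

namespace Crest.Agent.R165.C

theorem s4a_spins (v : Fin 2 → Site) : spinsOf v = {v 0, v 1} := by
  ext p
  simp [spinsOf, Fin.exists_fin_two, eq_comm]

theorem s4a_norm {l : ℕ} {p : Site} (hp : p ∈ box 0 l) : ‖toC p‖ ≤ 2 * l := by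
  simp only [box, Finset.mem_product, Finset.mem_Icc, Prod.fst_zero, Prod.snd_zero, zero_sub, zero_add] at hp
  obtain ⟨⟨h1, h2⟩, h3, h4⟩ := hp
  refine (Complex.norm_le_abs_re_add_abs_im _).trans ?_
  have e1 : |(p.1 : ℝ)| ≤ l := abs_le.2 ⟨by exact_mod_cast h1, by exact_mod_cast h2⟩
  have e2 : |(p.2 : ℝ)| ≤ l := abs_le.2 ⟨by exact_mod_cast h3, by exact_mod_cast h4⟩
  simp only [toC]
  linarith

/-- comparison with the infinite volume limit at a fixed lattice scale -/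
theorem s4a_cmp {ε : ℝ} (hε : 0 < ε) : ∃ L K : ℕ, ∀ (E : Finset Edge) (ρ : ℝ) (m : ℕ), Reg ↑E ρ → 1 ≤ m →
    (K * ((L * m : ℕ) : ℝ) : ℝ) ≤ ρ → Crit ↑E (box 0 (L * m)) →
    |Real.log (rho0 E {((0 : ℤ), (0 : ℤ)), ((m : ℤ), (m : ℤ))}) - Real.log (|wuCorr m|)| ≤ ε := by
  obtain ⟨L, K, h⟩ := merge_cmp 0 hε
  refine ⟨L, K, fun E ρ m hE hm hρ hc => ?_⟩
  obtain ⟨E', ρ', hρ', hE', hex⟩ := B3.exists_exhaust
  have hw : |wuCorr m| ≠ 0 := by rw [abs_wuCorr]; exact (cwD_pos m).ne'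
  have ht := (((wu_link m hm E' ρ' hρ' hE' hex).log hw).const_sub
    (Real.log (rho0 E {((0 : ℤ), (0 : ℤ)), ((m : ℤ), (m : ℤ))}))).abs
  refine le_of_tendsto ht ?_
  have h1 : ∀ᶠ j in atTop, ∀ p ∈ box 0 (L * m), ∀ α, edgeOf p α ∈ E' j :=
    (eventually_all_finset _).2 fun p _ => eventually_all.2 fun α => hex _
  filter_upwards [h1, hρ'.eventually_ge_atTop (K * ((L * m : ℕ) : ℝ))] with j hj hj'
  have hne : ((0 : ℤ), (0 : ℤ)) ≠ ((m : ℤ), (m : ℤ)) := by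
    intro h
    have := congrArg Prod.fst h
    simp only at this
    omega
  have := h E (E' j) ρ (ρ' j) ∅ ∅ ((0 : ℤ), (0 : ℤ)) ((m : ℤ), (m : ℤ)) (L * m) hE (hE' j) (by simp) (by simp) hρ hj'
    hc (fun p hp α => hj p hp α) (by simp) (by simp) hne (by simp [supd])
  simpa only [Finset.empty_union, rho0_empty, Real.log_one, sub_zero] using this

theorem s4a_floor {a : ℕ → ℝ} (ha : ∀ k, 0 < a k) (ha0 : Tendsto a atTop (𝓝 0)) :
    Tendsto (fun k => ⌊(a k)⁻¹⌋₊) atTop atTop ∧ Tendsto (fun k => a k * ⌊(a k)⁻¹⌋₊) atTop (𝓝 1) := by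
  have h1 : Tendsto (fun k => (a k)⁻¹) atTop atTop :=
    tendsto_inv_nhdsGT_zero.comp (tendsto_nhdsWithin_iff.2 ⟨ha0, Eventually.of_forall ha⟩)
  refine ⟨tendsto_nat_floor_atTop.comp h1, ?_⟩
  refine (tendsto_nat_floor_div_atTop.comp h1).congr fun k => ?_
  simp only [Function.comp, div_inv_eq_mul, mul_comm]

theorem s4a_diag {a : ℕ → ℝ} {E : ℕ → Finset Edge} {ρ : ℕ → ℝ} (hE : Appr Set.univ a E ρ) :
    Tendsto (fun k => Real.log (rho0 (E k) {((0 : ℤ), (0 : ℤ)), ((⌊(a k)⁻¹⌋₊ : ℤ), (⌊(a k)⁻¹⌋₊ : ℤ))}) -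
      Real.log (|wuCorr ⌊(a k)⁻¹⌋₊|)) atTop (𝓝 0) := by
  obtain ⟨hm, -⟩ := s4a_floor hE.pos hE.lim
  rw [Metric.tendsto_nhds]
  intro ε hε
  obtain ⟨L, K, h⟩ := s4a_cmp (half_pos hε)
  have hfl : ∀ k, a k * ⌊(a k)⁻¹⌋₊ ≤ 1 := fun k => by
    have := Nat.floor_le (inv_pos.2 (hE.pos k)).le
    calc a k * ⌊(a k)⁻¹⌋₊ ≤ a k * (a k)⁻¹ := mul_le_mul_of_nonneg_left this (hE.pos k).le
      _ = 1 := mul_inv_cancel₀ (hE.pos k).ne'
  filter_upwards [hm.eventually_ge_atTop 1, (hE.rho' rfl).eventually_ge_atTop (K * L),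
    appr_crit isOpen_univ hE (isCompact_closedBall (0 : ℂ) (2 * L)) (Set.subset_univ _)] with k h1 h2 h3
  rw [Real.dist_eq, sub_zero]
  refine lt_of_le_of_lt (h (E k) (ρ k) _ (hE.reg k) h1 ?_ fun p hp => h3 p ?_) (half_lt_self hε)
  · refine le_of_mul_le_mul_left ?_ (hE.pos k)
    push_cast
    have : (0 : ℝ) ≤ K * L := by positivity
    nlinarith [hfl k]
  · have h4 := s4a_norm hp
    rw [Set.mem_ofPred_eq, mem_closedBall_zero_iff, norm_mul, Complex.norm_real, Real.norm_of_nonneg (hE.pos k).le]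
    push_cast at h4
    have : (0 : ℝ) ≤ L := by positivity
    nlinarith [hfl k, hE.pos k, mul_le_mul_of_nonneg_left h4 (hE.pos k).le]

theorem s4a_ne : (1 + Complex.I : ℂ) ≠ 0 := by
  intro h
  have := congrArg Complex.re h
  simp at this

theorem s4a_inj {z w : ℂ} (h : z ≠ w) : Function.Injective ![z, w] := by
  intro i j hij
  fin_cases i <;> fin_cases j <;> simp_all [eq_comm]

theorem s4a_rat0 {z w : ℂ} (h : z ≠ w) : RatLim Set.univ ![z, w] 0 z 0 := by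
  have := rat_plane (s4a_inj h) (z := z) (by simpa using h)
  simpa using this

theorem s4a_base : ∃ C > 0, SpinLim Set.univ ![1 + Complex.I, 0] C := by
  obtain ⟨C, hC, hw⟩ := wu
  refine ⟨C, hC, fun a E ρ v hE hv => ?_⟩
  obtain ⟨hm, hm1⟩ := s4a_floor hE.pos hE.lim
  obtain ⟨m, hmd⟩ : ∃ m : ℕ → ℕ, m = fun k => ⌊(a k)⁻¹⌋₊ := ⟨_, rfl⟩
  have hd := s4a_diag hE
  have em : ∀ k, ⌊(a k)⁻¹⌋₊ = m k := fun k => by rw [hmd]
  simp only [em] at hm hm1 hd
  have hp : PtLim a (fun k => ((m k : ℤ), (m k : ℤ))) (1 + Complex.I) := by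
    have := ((Complex.continuous_ofReal.tendsto _).comp hm1).mul_const (1 + Complex.I)
    rw [Complex.ofReal_one, one_mul] at this
    refine this.congr fun k => ?_
    apply Complex.ext <;> simp [toC]
  have h0 : PtLim a (fun _ => ((0 : ℤ), (0 : ℤ))) 0 := by
    refine tendsto_const_nhds.congr fun k => ?_
    apply Complex.ext <;> simp [toC]
  have r1 := s4a_rat0 s4a_ne a E ρ v _ hE hv hp
  have r2 := s4a_rat0 s4a_ne.symm a E ρ (fun k => ![v k 1, ((m k : ℤ), (m k : ℤ))]) _ hE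
    (Fin.forall_fin_two.2 ⟨by simpa using hv 1, by simpa using hp⟩) h0
  simp only [s4a_spins, Function.update_self, ne_eq, one_ne_zero, not_false_eq_true, Function.update_of_ne,
    Matrix.cons_val_zero, Matrix.cons_val_one] at r1 r2
  have r3 := (hw.comp hm).log hC.ne'
  have r4 := (hm1.log one_ne_zero).const_mul (-(1 / 4 : ℝ))
  have r5 := (((r4.add r3).add hd).sub r2).sub r1
  rw [Real.log_one, mul_zero, zero_add, add_zero, sub_zero, sub_zero] at r5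
  have r6 := (Real.continuous_exp.tendsto _).comp r5
  rw [Real.exp_log hC] at r6
  refine r6.congr' ?_
  filter_upwards [hm.eventually_ge_atTop 1] with k hk
  have hk' : (0 : ℝ) < m k := by exact_mod_cast hk
  have hw' : |wuCorr (m k)| ≠ 0 := by rw [abs_wuCorr]; exact (cwD_pos _).ne'
  have hr := rho0_pos (hE.reg k) (spinsOf (v k))
  simp only [Function.comp]
  rw [Finset.pair_comm (v k 1), ← s4a_spins, Real.log_mul (hE.pos k).ne' hk'.ne',
    Real.log_mul (Real.rpow_pos_of_pos hk' _).ne' hw', Real.log_rpow hk', Real.rpow_def_of_pos (hE.pos k)]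
  conv_rhs => rw [← Real.exp_log hr, ← Real.exp_add]
  congr 1
  push_cast
  ring

theorem s4a_move {C : ℝ} {z w z' : ℂ} (h : z ≠ w) (h' : z' ≠ w)
    (hs : SpinLim Set.univ ![z, w] (C * ‖z - w‖ ^ (-(1 : ℝ) / 4))) :
    SpinLim Set.univ ![z', w] (C * ‖z' - w‖ ^ (-(1 : ℝ) / 4)) := by
  have h1 := spin_move hs (rat_plane (s4a_inj h) (z := z') (by simpa using h'))
  have e : Function.update ![z, w] 0 z' = ![z', w] := by
    funext i
    fin_cases i <;> simp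
  rw [e] at h1
  convert h1 using 1
  rw [Real.rpow_def_of_pos (norm_pos_iff.2 (sub_ne_zero.2 h)), Real.rpow_def_of_pos (norm_pos_iff.2 (sub_ne_zero.2 h')),
    mul_assoc, ← Real.exp_add]
  simp only [Matrix.cons_val_zero, Matrix.cons_val_one]
  congr 2
  ring

theorem s4a_swap {C : ℝ} {z w : ℂ} (hs : SpinLim Set.univ ![z, w] (C * ‖z - w‖ ^ (-(1 : ℝ) / 4))) :
    SpinLim Set.univ ![w, z] (C * ‖w - z‖ ^ (-(1 : ℝ) / 4)) := by
  have h1 := hs.perm (Equiv.swap 0 1)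
  have e : ![z, w] ∘ (Equiv.swap (0 : Fin 2) 1) = ![w, z] := by
    funext i
    fin_cases i <;> simp
  rwa [e, norm_sub_rev] at h1

theorem s4a_main : ∃ C₀ > 0, ∀ x : Fin 2 → ℂ, Function.Injective x →
    SpinLim Set.univ x (C₀ * ‖x 0 - x 1‖ ^ (-(1 : ℝ) / 4)) := by
  obtain ⟨C, hC, h⟩ := s4a_base
  have hn : 0 < ‖(1 + Complex.I : ℂ) - 0‖ ^ (-(1 : ℝ) / 4) :=
    Real.rpow_pos_of_pos (norm_pos_iff.2 (sub_ne_zero.2 s4a_ne)) _
  obtain ⟨C₀, hC₀⟩ : ∃ C₀, C₀ = C / ‖(1 + Complex.I : ℂ) - 0‖ ^ (-(1 : ℝ) / 4) := ⟨_, rfl⟩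
  have e : C = C₀ * ‖(1 + Complex.I : ℂ) - 0‖ ^ (-(1 : ℝ) / 4) := by rw [hC₀, div_mul_cancel₀ _ hn.ne']
  rw [e] at h
  refine ⟨C₀, hC₀ ▸ div_pos hC hn, fun x hx => ?_⟩
  have hne : x 0 ≠ x 1 := fun h => by simpa using hx h
  have ex : x = ![x 0, x 1] := by
    funext i
    fin_cases i <;> simp
  suffices H : SpinLim Set.univ ![x 0, x 1] (C₀ * ‖x 0 - x 1‖ ^ (-(1 : ℝ) / 4)) by rwa [← ex] at H
  by_cases h1 : x 1 = 0
  · rw [h1] at hne ⊢
    exact s4a_move s4a_ne hne h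
  · exact s4a_move (Ne.symm h1) hne (s4a_swap (s4a_move s4a_ne h1 h))

end Crest.Agent.R165.C
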