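import Crest.Agent.R165.C.S2
import Crest.Agent.R165.C.S3
import Crest.Agent.R165.CW.Main
import Crest.Agent.R165.C.S4ax

/-! # R165/C: spin correlations: existence and covariance of the limit (block C, owner helper83; statements FROZEN, add lemmas freely inside the namespace) -/

set_option autoImplicit false
noncomputable section
open Classical Filter Topology Metric Crest.ProbabilityR.IsingModel

namespace Crest.Agent.R165.C

variable {D D' : Set ℂ} {n : ℕ}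

/-! ### task S4a -/

/-- For `x = ![1 + I, 0]` and any approximation of the plane: move the spins to `(m, m)` and `0`, `m = ⌊1 / a⌋` (`rat_plane` with `z = x 0`: ratio `→ 1`; `SpinLim.perm` idea for the second spin);
`merge_cmp` (`S = S' = ∅`) against discs `E'` of radius `→ ∞` (`reg_ball`, `wu_link`) gives `|log rho0 - log |wuCorr m|| ≤ ε` eventually (`l = ⌈L' / a⌉`, `appr_crit`, `Appr.rho'`); `wu`.
General `x`: `spin_move` + `rat_plane` twice (three moves if points collide; or prove first `SpinLim univ ![z, 0]`, then swap). -/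
theorem spin_plane2 : ∃ C₀ > 0, ∀ x : Fin 2 → ℂ, Function.Injective x → SpinLim Set.univ x (C₀ * ‖x 0 - x 1‖ ^ (-(1 : ℝ) / 4)) :=
  s4a_main

def C0 : ℝ := spin_plane2.choose

theorem C0_pos : 0 < C0 := spin_plane2.choose_spec.1

theorem spin_C0 (x : Fin 2 → ℂ) (hx : Function.Injective x) : SpinLim Set.univ x (C0 * ‖x 0 - x 1‖ ^ (-(1 : ℝ) / 4)) :=
  spin_plane2.choose_spec.2 x hx

/-! ### task S4b -/

theorem s4b_boot {X X' Y Y' : ℕ → ℝ} {L Φ Φ' δ : ℝ} (hδ : 0 < δ) (hX : Tendsto (fun k => X' k - X k) atTop (𝓝 L))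
    (hY : Tendsto (fun k => Y' k - Y k) atTop (𝓝 L)) (h1 : ∀ᶠ k in atTop, |X' k - Φ'| ≤ δ)
    (h2 : ∀ᶠ k in atTop, |Y' k - Φ'| ≤ δ) (h3 : ∀ᶠ k in atTop, |Y k - Φ| ≤ δ) : ∀ᶠ k in atTop, |X k - Φ| ≤ 5 * δ := by
  obtain ⟨j, ⟨a1, a2⟩, a3⟩ := ((h2.and h3).and (Metric.tendsto_nhds.1 hY δ hδ)).exists
  filter_upwards [h1, Metric.tendsto_nhds.1 hX δ hδ] with k b1 b2
  rw [Real.dist_eq] at a3 b2
  rw [abs_le] at a1 a2 b1 ⊢
  rw [abs_lt] at a3 b2
  constructor <;> linarith [a1.1, a1.2, a2.1, a2.2, a3.1, a3.2, b1.1, b1.2, b2.1, b2.2]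

theorem s4b_inj {z w : ℂ} (h : z ≠ w) : Function.Injective ![z, w] := by
  intro i j e
  fin_cases i <;> fin_cases j <;> simp_all [eq_comm]

theorem s4b_dist {a : ℝ} (ha : 0 < a) (p q : Site) : dist ((a : ℂ) * toC p) ((a : ℂ) * toC q) = a * ‖toC p - toC q‖ := by
  rw [dist_eq_norm, ← mul_sub, norm_mul, Complex.norm_real, Real.norm_of_nonneg ha.le]

theorem s4b_supd {a : ℝ} (ha : 0 < a) (p q : Site) : a * supd p q ≤ dist ((a : ℂ) * toC p) ((a : ℂ) * toC q) := by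
  rw [s4b_dist ha]
  exact mul_le_mul_of_nonneg_left (supd_le_dist p q) ha.le

theorem s4b_floor {a c : ℝ} (ha : 0 < a) (hc : 0 ≤ c) : a * ⌊c / a⌋₊ ≤ c := by
  rw [← le_div_iff₀' ha]
  exact Nat.floor_le (div_nonneg hc ha.le)

theorem s4b_box {a c : ℝ} (ha : 0 < a) (hc : 0 ≤ c) {p q : Site} (h : p ∈ box q ⌊c / a⌋₊) :
    dist ((a : ℂ) * toC p) ((a : ℂ) * toC q) ≤ 3 / 2 * c := by
  have h1 : (supd p q : ℝ) ≤ ⌊c / a⌋₊ := by exact_mod_cast mem_box_iff.1 h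
  rw [s4b_dist ha]
  nlinarith [dist_le_supd p q, s4b_floor ha hc]

theorem s4b_rho {a c ρ ρ₀ : ℝ} {K : ℕ} (ha : 0 < a) (hc : 0 ≤ c) (h1 : K * c ≤ ρ₀) (h2 : ρ₀ ≤ a * ρ) :
    (K * ⌊c / a⌋₊ : ℝ) ≤ ρ := by
  refine le_of_mul_le_mul_left ?_ ha
  have := mul_le_mul_of_nonneg_left (s4b_floor ha hc) (Nat.cast_nonneg K : (0 : ℝ) ≤ K)
  linarith

theorem s4b_log {a : ℕ → ℝ} (ha : ∀ k, 0 < a k) {r : ℕ → ℝ} (hr : ∀ k, 0 < r k) {t F : ℝ} (hF : 0 < F)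
    (h : Tendsto (fun k => a k ^ t * r k) atTop (𝓝 F)) {ε : ℝ} (hε : 0 < ε) :
    ∀ᶠ k in atTop, |t * Real.log (a k) + Real.log (r k) - Real.log F| < ε := by
  filter_upwards [Metric.tendsto_nhds.1 (h.log hF.ne') ε hε] with k hk
  rwa [Real.dist_eq, Real.log_mul (Real.rpow_pos_of_pos (ha k) t).ne' (hr k).ne', Real.log_rpow (ha k)] at hk

theorem s4b_merge (hD : IsOpen D) {x : Fin (n + 2) → ℂ} (hx : Function.Injective x) (hxD : ∀ i, x i ∈ D) {F : ℝ} (hF : 0 < F)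
    (h : SpinLim D (Fin.tail (Fin.tail x)) F) {ε : ℝ} (hε : 0 < ε) {ρ₀ : ℝ} (hρ₀ : 0 < ρ₀) :
    ∃ η > 0, ∀ z, z ≠ x 1 → dist z (x 1) < η →
    ∀ (a : ℕ → ℝ) (E : ℕ → Finset Edge) (ρ : ℕ → ℝ) (v : ℕ → Fin (n + 2) → Site), Appr D a E ρ → (∀ k, ρ₀ ≤ a k * ρ k) →
      (∀ i, PtLim a (fun k => v k i) (Function.update x 0 z i)) → ∀ᶠ k in atTop,
        |Real.log (a k ^ (-(((n + 2 : ℕ) : ℝ) / 8)) * rho0 (E k) (spinsOf (v k))) -
          Real.log (F * (C0 * ‖z - x 1‖ ^ (-(1 : ℝ) / 4)))| ≤ ε := by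
  obtain ⟨L, K, hLK⟩ := merge_cmp n (ε := ε / 3) (by positivity)
  obtain ⟨r, hr, hrD⟩ := nhds_basis_closedBall.mem_iff.1 (inter_mem (hD.mem_nhds (hxD 1))
    ((Set.finite_range fun i : Fin n => x i.succ.succ).isClosed.isOpen_compl.mem_nhds (by
      rintro ⟨i, hi⟩
      exact Fin.succ_ne_zero i (Fin.succ_injective _ (hx hi)))))
  set c := min (r / 2) (ρ₀ / (K + 1)) with hc
  have c0 : 0 < c := by positivity
  have c1 : c ≤ r / 2 := min_le_left _ _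
  have c2 : K * c ≤ ρ₀ := by
    have := (le_div_iff₀ (by positivity)).1 (min_le_right (r / 2) (ρ₀ / (K + 1)))
    rw [← hc] at this
    nlinarith
  refine ⟨c / (L + 1), by positivity, fun z hz hzη a E ρ v hA hρ hv => ?_⟩
  obtain ⟨E', ρ', hA'⟩ := exists_appr_plane hA.pos hA.lim
  have hv0 : PtLim a (fun k => v k 0) z := by simpa using hv 0
  have hv1 : PtLim a (fun k => v k 1) (x 1) := by simpa using hv 1
  have hvi : ∀ i : Fin n, PtLim a (fun k => v k i.succ.succ) (x i.succ.succ) := fun i => by simpa using hv i.succ.succ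
  have hx2 : Function.Injective ![z, x 1] := s4b_inj hz
  have hv2 : ∀ i, PtLim a (fun k => ![v k 0, v k 1] i) (![z, x 1] i) := Fin.forall_fin_two.2 ⟨hv0, hv1⟩
  have hC : 0 < C0 * ‖z - x 1‖ ^ (-(1 : ℝ) / 4) :=
    mul_pos C0_pos (Real.rpow_pos_of_pos (norm_pos_iff.2 (sub_ne_zero.2 hz)) _)
  have t1 := s4b_log hA.pos (fun k => rho0_pos (hA.reg k) _) hF
    (h a E ρ (fun k => Fin.tail (Fin.tail (v k))) hA hvi) (ε := ε / 3) (by positivity)
  have t2 := s4b_log hA.pos (fun k => rho0_pos (hA'.reg k) _) hC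
    (spin_C0 _ hx2 a E' ρ' (fun k => ![v k 0, v k 1]) hA' hv2) (ε := ε / 3) (by positivity)
  have t3 : ∀ᶠ k in atTop, L * dist ((a k : ℂ) * toC (v k 0)) ((a k : ℂ) * toC (v k 1)) < a k * ⌊c / a k⌋₊ := by
    refine ((Tendsto.dist hv0 hv1).const_mul (L : ℝ)).eventually_lt (t1d_floor hA.pos hA.lim c0) ?_
    rw [lt_div_iff₀ (by positivity)] at hzη
    nlinarith [dist_nonneg (x := z) (y := x 1)]
  have t4 : ∀ᶠ k in atTop, ∀ i : Fin n, (a k : ℂ) * toC (v k i.succ.succ) ∉ closedBall (x 1) r :=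
    eventually_all.2 fun i => (hvi i).eventually (isClosed_closedBall.isOpen_compl.mem_nhds fun hi => (hrD hi).2 ⟨i, rfl⟩)
  filter_upwards [t1, t2, t3, t4, eventually_inj hx2 hv2, Metric.tendsto_nhds.1 hv1 (c / 2) (by positivity),
    appr_crit hD hA (isCompact_closedBall (x 1) r) fun w hw => (hrD hw).1,
    appr_crit isOpen_univ hA' (isCompact_closedBall (x 1) r) (Set.subset_univ _),
    (hA'.rho' rfl).eventually_ge_atTop ρ₀] with k e1 e2 e3 e4 e5 e6 e7 e8 e9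
  have hak := hA.pos k
  have hbox : ∀ p ∈ box (v k 1) ⌊c / a k⌋₊, (a k : ℂ) * toC p ∈ closedBall (x 1) r := fun p hp => by
    rw [mem_closedBall]
    linarith [s4b_box hak c0.le hp, dist_triangle ((a k : ℂ) * toC p) ((a k : ℂ) * toC (v k 1)) (x 1)]
  have key := hLK (E k) (E' k) (ρ k) (ρ' k) (spinsOf (Fin.tail (Fin.tail (v k)))) ∅ (v k 1) (v k 0) ⌊c / a k⌋₊
    (hA.reg k) (hA'.reg k) (Finset.card_image_le.trans (by simp)) (by simp) (s4b_rho hak c0.le c2 (hρ k))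
    (s4b_rho hak c0.le c2 e9) (fun p hp => e7 p (hbox p hp)) (fun p hp => e8 p (hbox p hp))
    (fun u hu hu' => by
      obtain ⟨i, -, rfl⟩ := Finset.mem_image.1 hu
      exact e4 i (hbox _ hu')) (by simp) (fun e => by simpa using e5 (a₁ := 1) (a₂ := 0) e) (by
      have := mul_le_mul_of_nonneg_left (s4b_supd hak (v k 0) (v k 1)) (Nat.cast_nonneg L : (0 : ℝ) ≤ L)
      have h2 : (L * supd (v k 0) (v k 1) : ℝ) ≤ ⌊c / a k⌋₊ := le_of_mul_le_mul_left (by linarith) hak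
      exact_mod_cast h2)
  have s1 : spinsOf (Fin.tail (Fin.tail (v k))) ∪ {v k 1, v k 0} = spinsOf (v k) := by
    ext u
    simp only [spinsOf, Finset.mem_union, Finset.mem_image, Finset.mem_univ, true_and, Finset.mem_insert,
      Finset.mem_singleton, Fin.exists_fin_succ (P := fun i => v k i = u),
      Fin.exists_fin_succ (P := fun i : Fin (n + 1) => v k i.succ = u), Fin.tail, Fin.succ_zero_eq_one, eq_comm (a := u)]
    tauto
  have s2 : (∅ : Finset Site) ∪ {v k 1, v k 0} = spinsOf ![v k 0, v k 1] := by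
    ext u
    simp [spinsOf, Fin.exists_fin_two, eq_comm, or_comm]
  rw [s1, s2, rho0_empty, Real.log_one] at key
  rw [Real.log_mul (Real.rpow_pos_of_pos hak _).ne' (rho0_pos (hA.reg k) _).ne', Real.log_rpow hak,
    Real.log_mul hF.ne' hC.ne']
  rw [abs_lt] at e1 e2
  rw [abs_le] at key ⊢
  push_cast at e1 e2 ⊢
  constructor <;> linarith [e1.1, e1.2, e2.1, e2.2, key.1, key.2]
/-- `merge_cmp` against an approximation of the plane with the same mesh (`exists_appr_plane`, `spin_C0`), `l = ⌊c / a⌋` -/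
theorem merge_lim (hD : NiceP D (n + 2)) {x : Fin (n + 2) → ℂ} (hx : Function.Injective x) (hxD : ∀ i, x i ∈ D) {F : ℝ} (hF : 0 < F)
    (h : SpinLim D (Fin.tail (Fin.tail x)) F) {ε : ℝ} (hε : 0 < ε) : ∃ η > 0, ∀ z, z ≠ x 1 → dist z (x 1) < η →
    ∀ (a : ℕ → ℝ) (E : ℕ → Finset Edge) (ρ : ℕ → ℝ) (v : ℕ → Fin (n + 2) → Site), Appr D a E ρ →
      (∀ i, PtLim a (fun k => v k i) (Function.update x 0 z i)) → ∀ᶠ k in atTop,
        |Real.log (a k ^ (-(((n + 2 : ℕ) : ℝ) / 8)) * rho0 (E k) (spinsOf (v k))) - Real.log (F * (C0 * ‖z - x 1‖ ^ (-(1 : ℝ) / 4)))| ≤ ε := by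
  have hop := NiceP.isOpen' hD
  obtain ⟨a₁, E₁, ρ₁, hA₁⟩ := exists_appr hD
  obtain ⟨r₁, hr₁, hρ₁⟩ := hA₁.rho
  obtain ⟨η₁, hη₁, h₁⟩ := s4b_merge hop hx hxD hF h (ε := ε / 5) (by positivity) hr₁
  obtain ⟨r, hr, hrD⟩ := Metric.mem_nhds_iff.1 (inter_mem (hop.mem_nhds (hxD 1))
    ((Set.finite_range fun i : Fin n => x i.succ.succ).isClosed.isOpen_compl.mem_nhds (by
      rintro ⟨i, hi⟩
      exact Fin.succ_ne_zero i (Fin.succ_injective _ (hx hi)))))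
  have hne : ∀ z, z ≠ x 1 → dist z (x 1) < r → ∀ k, k ≠ 0 → z ≠ x k := fun z hz hzr k hk => by
    obtain ⟨k, rfl⟩ := Fin.exists_succ_eq.2 hk
    cases k using Fin.cases with
    | zero => exact hz
    | succ k => exact fun e => (hrD hzr).2 ⟨k, e.symm⟩
  refine ⟨min η₁ r, lt_min hη₁ hr, fun z hz hzη a E ρ v hA hv => ?_⟩
  obtain ⟨r₂, hr₂, hρ₂⟩ := hA.rho
  obtain ⟨η₂, hη₂, h₂⟩ := s4b_merge hop hx hxD hF h (ε := ε / 5) (by positivity) hr₂
  rw [lt_min_iff] at hzη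
  obtain ⟨z', hz', hz1, hz2, hz3⟩ : ∃ z', z' ≠ x 1 ∧ dist z' (x 1) < η₁ ∧ dist z' (x 1) < η₂ ∧ dist z' (x 1) < r := by
    have h0 : 0 < min η₁ (min η₂ r) := by positivity
    have e : dist (x 1 + ((min η₁ (min η₂ r) / 2 : ℝ) : ℂ)) (x 1) < min η₁ (min η₂ r) := by
      rw [dist_self_add_left, Complex.norm_real, Real.norm_of_nonneg (half_pos h0).le]
      exact half_lt_self h0
    simp only [lt_min_iff] at e
    exact ⟨_, fun e => (half_pos h0).ne' (by simpa using e), e⟩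
  have hx' : Function.Injective (Function.update x 0 z) := fun i j e => by
    by_cases hi : i = 0 <;> by_cases hj : j = 0
    · rw [hi, hj]
    · rw [hi, Function.update_self, Function.update_of_ne hj] at e
      exact absurd e (hne z hz hzη.2 j hj)
    · rw [hj, Function.update_self, Function.update_of_ne hi] at e
      exact absurd e.symm (hne z hz hzη.2 i hi)
    · rw [Function.update_of_ne hi, Function.update_of_ne hj] at e
      exact hx e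
  obtain ⟨Λ, hΛ⟩ := rat_main hD hx' (fun i => by
    by_cases hi : i = 0
    · rw [hi, Function.update_self]
      exact (hrD hzη.2).1
    · rw [Function.update_of_ne hi]
      exact hxD i) 0
  have hR := (hΛ z' (hrD hz3).1 fun k hk => by rw [Function.update_of_ne hk]; exact hne z' hz' hz3 k hk).1
  have main : ∀ (a : ℕ → ℝ) (E : ℕ → Finset Edge) (ρ : ℕ → ℝ) (v : ℕ → Fin (n + 2) → Site), Appr D a E ρ →
      (∀ i, PtLim a (fun k => v k i) (Function.update x 0 z i)) → ∃ v' : ℕ → Fin (n + 2) → Site,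
        (∀ i, PtLim a (fun k => v' k i) (Function.update x 0 z' i)) ∧
        Tendsto (fun k => Real.log (a k ^ (-(((n + 2 : ℕ) : ℝ) / 8)) * rho0 (E k) (spinsOf (v' k))) -
          Real.log (a k ^ (-(((n + 2 : ℕ) : ℝ) / 8)) * rho0 (E k) (spinsOf (v k)))) atTop
          (𝓝 (Λ z' - Λ (Function.update x 0 z 0))) := fun a E ρ v hA hv => by
    obtain ⟨p, hp⟩ := exists_ptLim hA.pos hA.lim z'
    refine ⟨fun k => Function.update (v k) 0 (p k), fun i => ?_, (hR a E ρ v p hA hv hp).congr fun k => ?_⟩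
    · by_cases hi : i = 0
      · simpa only [hi, Function.update_self] using hp
      · simpa only [Function.update_of_ne hi] using hv i
    · have := (Real.rpow_pos_of_pos (hA.pos k) (-(((n + 2 : ℕ) : ℝ) / 8))).ne'
      rw [Real.log_mul this (rho0_pos (hA.reg k) _).ne', Real.log_mul this (rho0_pos (hA.reg k) _).ne']
      ring
  choose v₁ hv₁ using fun i => exists_ptLim hA₁.pos hA₁.lim (Function.update x 0 z i)
  obtain ⟨v', a1, a2⟩ := main a E ρ v hA hv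
  obtain ⟨v₁', b1, b2⟩ := main a₁ E₁ ρ₁ (fun k i => v₁ i k) hA₁ hv₁
  simpa only [mul_div_cancel₀ ε (by norm_num : (5 : ℝ) ≠ 0)] using s4b_boot (δ := ε / 5) (by positivity) a2 b2
    (h₂ z' hz' hz2 a E ρ v' hA hρ₂ a1) (h₁ z' hz' hz1 a₁ E₁ ρ₁ v₁' hA₁ hρ₁ b1)
    (h₁ z hz hzη.1 a₁ E₁ ρ₁ (fun k i => v₁ i k) hA₁ hρ₁ hv₁)

theorem s4b_compl (hD : Nice D) : Dᶜ.Nonempty :=
  Set.nonempty_compl.2 fun e => NormedSpace.unbounded_univ ℝ ℂ (e ▸ hD.bdd)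

theorem s4b_exit (hD : Nice D) {x₀ : ℂ} (hx : x₀ ∈ D) {ε : ℝ} (hε : 0 < ε) {ρ₀ : ℝ} (hρ₀ : 0 < ρ₀) :
    ∃ η > 0, ∀ z, infDist z Dᶜ < η →
    ∀ (a : ℕ → ℝ) (E : ℕ → Finset Edge) (ρ : ℕ → ℝ) (v p : ℕ → Site), Appr D a E ρ → (∀ k, ρ₀ ≤ a k * ρ k) →
      PtLim a v x₀ → PtLim a p z → ∀ᶠ k in atTop,
        |Real.log (rho0 (E k) {v k, p k}) - Real.log (rho0 (E k) {v k}) - Real.log (rho0 (E k) {p k}) - 0| ≤ ε := by
  obtain ⟨L, K, hLK⟩ := exit_cmp 1 hε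
  have hd := (hD.isOpen.isClosed_compl.notMem_iff_infDist_pos (s4b_compl hD)).1 fun h => h hx
  set c := min (infDist x₀ Dᶜ / 3) (ρ₀ / (K + 1)) with hc
  have c0 : 0 < c := by positivity
  have c1 : c ≤ infDist x₀ Dᶜ / 3 := min_le_left _ _
  have c2 : K * c ≤ ρ₀ := by
    have := (le_div_iff₀ (by positivity)).1 (min_le_right (infDist x₀ Dᶜ / 3) (ρ₀ / (K + 1)))
    rw [← hc] at this
    nlinarith
  set η := c / (8 * (L + 1)) with hη
  have η0 : 0 < η := by positivity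
  have η1 : η * (8 * (L + 1)) = c := div_mul_cancel₀ _ (by positivity)
  have η2 : 0 ≤ η * L := by positivity
  refine ⟨η, η0, fun z hz a E ρ v p hA hρ hv hp => ?_⟩
  obtain ⟨ζ, hζ, hzζ⟩ := (infDist_lt_iff (s4b_compl hD)).1 hz
  have h1 : 3 / 2 * c < dist x₀ z := by
    linarith [infDist_le_dist_of_mem (x := x₀) hζ, dist_triangle x₀ z ζ]
  filter_upwards [(Tendsto.dist hv hp).eventually (lt_mem_nhds h1), frozen_near hD hA η0,
    Metric.tendsto_nhds.1 hp η η0, hA.lim.eventually (gt_mem_nhds η0),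
    (t1d_floor hA.pos hA.lim c0).eventually (lt_mem_nhds (half_lt_self c0))] with k e1 e2 e3 e4 e5
  obtain ⟨b, hb, hbζ⟩ := e2 ζ hζ
  have hak := hA.pos k
  have key := hLK (E k) (ρ k) {v k} (p k) b ⌊c / a k⌋₊ (hA.reg k) (by simp) (s4b_rho hak c0.le c2 (hρ k)) hb
    (fun u hu hu' => by
      rw [Finset.mem_singleton.1 hu] at hu'
      exact (s4b_box hak c0.le hu').not_gt e1) (by
      have h2 : a k * (supd (p k) b + 1) ≤ 4 * η := by
        linarith [s4b_supd hak (p k) b, dist_triangle4 ((a k : ℂ) * toC (p k)) z ζ ((a k : ℂ) * toC b),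
          dist_comm ζ ((a k : ℂ) * toC b)]
      have := mul_le_mul_of_nonneg_left h2 (Nat.cast_nonneg L : (0 : ℝ) ≤ L)
      have h2 : (L * (supd (p k) b + 1) : ℝ) ≤ ⌊c / a k⌋₊ := le_of_mul_le_mul_left (by linarith) hak
      exact_mod_cast h2)
  rwa [sub_zero, Finset.pair_comm]

theorem s4b_rat (hD : Nice D) {x₀ z z' : ℂ} (hx : x₀ ∈ D) (hz : z ∈ D) (hz' : z' ∈ D) (h1 : z ≠ x₀) (h2 : z' ≠ x₀) :
    ∃ L : ℝ, ∀ (a : ℕ → ℝ) (E : ℕ → Finset Edge) (ρ : ℕ → ℝ) (v p p' : ℕ → Site), Appr D a E ρ →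
      PtLim a v x₀ → PtLim a p z → PtLim a p' z' → Tendsto (fun k =>
        (Real.log (rho0 (E k) {v k, p' k}) - Real.log (rho0 (E k) {v k}) - Real.log (rho0 (E k) {p' k})) -
          (Real.log (rho0 (E k) {v k, p k}) - Real.log (rho0 (E k) {v k}) - Real.log (rho0 (E k) {p k}))) atTop (𝓝 L) := by
  obtain ⟨Λ₂, hΛ₂⟩ := rat_main (x := ![z, x₀]) (Or.inl hD) (s4b_inj h1) (Fin.forall_fin_two.2 ⟨hz, hx⟩) 0
  obtain ⟨Λ₁, hΛ₁⟩ := rat_main (x := ![z]) (Or.inl hD) (fun i j _ => Subsingleton.elim i j)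
    (Fin.forall_fin_one.2 hz) 0
  refine ⟨_, fun a E ρ v p p' hA hv hp hp' => Tendsto.congr (fun k => ?_)
    (((hΛ₂ z' hz' (Fin.forall_fin_two.2 ⟨fun h => absurd rfl h, fun _ => h2⟩)).1 a E ρ (fun k => ![p k, v k]) p' hA
      (Fin.forall_fin_two.2 ⟨hp, hv⟩) hp').sub
    ((hΛ₁ z' hz' fun k hk => absurd (Subsingleton.elim k 0) hk).1 a E ρ (fun k => ![p k]) p' hA
      (Fin.forall_fin_one.2 hp) hp'))⟩
  have s1 : ∀ q, spinsOf ![q, v k] = {v k, q} := fun q => by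
    ext u
    simp [spinsOf, Fin.exists_fin_two, eq_comm, or_comm]
  have s2 : ∀ q : Site, spinsOf ![q] = {q} := fun q => by
    ext u
    simp [spinsOf, eq_comm]
  have s3 : Function.update ![p k, v k] 0 (p' k) = ![p' k, v k] := by
    funext i
    fin_cases i <;> rfl
  have s4 : Function.update ![p k] 0 (p' k) = ![p' k] := by
    funext i
    fin_cases i
    rfl
  simp only [s1, s2, s3, s4]
  ring
/-- `exit_cmp`, `frozen_near` -/
theorem exit_lim (hD : Nice D) {x₀ : ℂ} (hx : x₀ ∈ D) {ε : ℝ} (hε : 0 < ε) : ∃ η > 0, ∀ z ∈ D, infDist z Dᶜ < η →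
    ∀ (a : ℕ → ℝ) (E : ℕ → Finset Edge) (ρ : ℕ → ℝ) (v p : ℕ → Site), Appr D a E ρ → PtLim a v x₀ → PtLim a p z →
      ∀ᶠ k in atTop, |Real.log (rho0 (E k) {v k, p k}) - Real.log (rho0 (E k) {v k}) - Real.log (rho0 (E k) {p k})| ≤ ε := by
  obtain ⟨a₁, E₁, ρ₁, hA₁⟩ := exists_appr (n := 0) (Or.inl hD)
  obtain ⟨r₁, hr₁, hρ₁⟩ := hA₁.rho
  obtain ⟨η₁, hη₁, h₁⟩ := s4b_exit hD hx (ε := ε / 5) (by positivity) hr₁
  have hd := (hD.isOpen.isClosed_compl.notMem_iff_infDist_pos (s4b_compl hD)).1 fun h => h hx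
  refine ⟨min η₁ (infDist x₀ Dᶜ), lt_min hη₁ hd, fun z hz hzη a E ρ v p hA hv hp => ?_⟩
  rw [lt_min_iff] at hzη
  obtain ⟨r₂, hr₂, hρ₂⟩ := hA.rho
  obtain ⟨η₂, hη₂, h₂⟩ := s4b_exit hD hx (ε := ε / 5) (by positivity) hr₂
  obtain ⟨z', hz', hz1, hz2⟩ := exists_near_bdry hD {x₀} (Set.finite_singleton _) (lt_min hη₁ hη₂)
  rw [lt_min_iff] at hz2
  obtain ⟨L, hL⟩ := s4b_rat hD hx hz hz' (fun e => hzη.2.ne (by rw [e])) hz1
  obtain ⟨p', hp'⟩ := exists_ptLim hA.pos hA.lim z'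
  obtain ⟨v₁, hv₁⟩ := exists_ptLim hA₁.pos hA₁.lim x₀
  obtain ⟨p₁, hp₁⟩ := exists_ptLim hA₁.pos hA₁.lim z
  obtain ⟨p₁', hp₁'⟩ := exists_ptLim hA₁.pos hA₁.lim z'
  simpa only [mul_div_cancel₀ ε (by norm_num : (5 : ℝ) ≠ 0), sub_zero] using s4b_boot (δ := ε / 5) (by positivity)
    (hL a E ρ v p p' hA hv hp hp') (hL a₁ E₁ ρ₁ v₁ p₁ p₁' hA₁ hv₁ hp₁ hp₁')
    (h₂ z' hz2.2 a E ρ v p' hA hρ₂ hv hp') (h₁ z' hz2.1 a₁ E₁ ρ₁ v₁ p₁' hA₁ hρ₁ hv₁ hp₁')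
    (h₁ z hzη.1 a₁ E₁ ρ₁ v₁ p₁ hA₁ hρ₁ hv₁ hp₁)

/-! ### task S4c -/

theorem s4c_split {a : ℕ → ℝ} {E : ℕ → Finset Edge} {ρ : ℕ → ℝ} (hE : Appr D a E ρ) (k : ℕ) (t : ℝ) (S : Finset Site) :
    Real.log (a k ^ t * rho0 (E k) S) = t * Real.log (a k) + Real.log (rho0 (E k) S) := by
  rw [Real.log_mul (Real.rpow_pos_of_pos (hE.pos k) t).ne' (rho0_pos (hE.reg k) S).ne', Real.log_rpow (hE.pos k)]

/-- existence of the limit from approximate limits of the logarithms, and the value of the limit -/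
theorem s4c_squeeze (hD : NiceP D n) (x : Fin n → ℂ)
    (h : ∀ ε > 0, ∃ Φ : ℝ, ∀ (a : ℕ → ℝ) (E : ℕ → Finset Edge) (ρ : ℕ → ℝ) (v : ℕ → Fin n → Site), Appr D a E ρ →
      (∀ i, PtLim a (fun k => v k i) (x i)) → ∀ᶠ k in atTop,
        |Real.log (a k ^ (-((n : ℝ) / 8)) * rho0 (E k) (spinsOf (v k))) - Φ| ≤ ε) :
    ∃ F > 0, SpinLim D x F ∧ ∀ ε Φ : ℝ, (∀ (a : ℕ → ℝ) (E : ℕ → Finset Edge) (ρ : ℕ → ℝ) (v : ℕ → Fin n → Site), Appr D a E ρ →
      (∀ i, PtLim a (fun k => v k i) (x i)) → ∀ᶠ k in atTop,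
        |Real.log (a k ^ (-((n : ℝ) / 8)) * rho0 (E k) (spinsOf (v k))) - Φ| ≤ ε) → |Real.log F - Φ| ≤ ε := by
  let τ := {t : (ℕ → ℝ) × (ℕ → Finset Edge) × (ℕ → ℝ) × (ℕ → Fin n → Site) //
    Appr D t.1 t.2.1 t.2.2.1 ∧ ∀ i, PtLim t.1 (fun k => t.2.2.2 k i) (x i)}
  obtain ⟨a₀, E₀, ρ₀, h₀⟩ := exists_appr hD
  let t₀ : τ := ⟨(a₀, E₀, ρ₀, fun k i => meshIndex (a₀ k) (x i)), h₀, fun i => ptLim_mesh h₀.pos h₀.lim (x i)⟩
  have : Nonempty τ := ⟨t₀⟩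
  obtain ⟨L, hL⟩ := squeeze_family
    (fun (t : τ) k => Real.log (t.1.1 k ^ (-((n : ℝ) / 8)) * rho0 (t.1.2.1 k) (spinsOf (t.1.2.2.2 k)))) fun ε hε => by
      obtain ⟨Φ, hΦ⟩ := h ε hε
      exact ⟨Φ, fun t => hΦ _ _ _ _ t.2.1 t.2.2⟩
  refine ⟨Real.exp L, Real.exp_pos L, fun a E ρ v hE hv => ?_, fun ε Φ hΦ => ?_⟩
  · refine ((Real.continuous_exp.tendsto L).comp (hL ⟨(a, E, ρ, v), hE, hv⟩)).congr fun k => ?_
    exact Real.exp_log (mul_pos (Real.rpow_pos_of_pos (hE.pos k) _) (rho0_pos (hE.reg k) _))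
  · rw [Real.log_exp]
    exact le_of_tendsto ((hL t₀).sub_const Φ).abs (hΦ _ _ _ _ t₀.2.1 t₀.2.2)

theorem s4c_near {u : ℕ → ℝ} {L ε : ℝ} (h : Tendsto u atTop (𝓝 L)) (hε : 0 < ε) : ∀ᶠ k in atTop, |u k - L| ≤ ε := by
  filter_upwards [Metric.tendsto_nhds.1 h ε hε] with k hk
  exact (Real.dist_eq _ _ ▸ hk).le

/-- **two more spins**: existence (`rat_main`, `merge_lim`, `squeeze_family` for the logarithms) and the formula for the limit -/
theorem spin_succ (hD : NiceP D (n + 2)) {x : Fin (n + 2) → ℂ} (hx : Function.Injective x) (hxD : ∀ i, x i ∈ D) {F : ℝ}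
    (hF : 0 < F) (h : SpinLim D (Fin.tail (Fin.tail x)) F) : ∃ F₂ > 0, SpinLim D x F₂ ∧
      ∀ ε > 0, ∃ η > 0, ∀ z L, z ≠ x 1 → dist z (x 1) < η → RatLim D x 0 z L →
        |Real.log F₂ + L - Real.log (F * (C0 * ‖z - x 1‖ ^ (-(1 : ℝ) / 4)))| ≤ ε := by
  have key : ∀ ε > 0, ∃ η > 0, ∀ z L, z ≠ x 1 → dist z (x 1) < η → RatLim D x 0 z L →
      ∀ (a : ℕ → ℝ) (E : ℕ → Finset Edge) (ρ : ℕ → ℝ) (v : ℕ → Fin (n + 2) → Site), Appr D a E ρ →
        (∀ i, PtLim a (fun k => v k i) (x i)) → ∀ᶠ k in atTop,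
          |Real.log (a k ^ (-(((n + 2 : ℕ) : ℝ) / 8)) * rho0 (E k) (spinsOf (v k))) -
            (Real.log (F * (C0 * ‖z - x 1‖ ^ (-(1 : ℝ) / 4))) - L)| ≤ ε := fun ε hε => by
    obtain ⟨η, hη, H⟩ := merge_lim hD hx hxD hF h (half_pos hε)
    refine ⟨η, hη, fun z L hz hd hL a E ρ v hE hv => ?_⟩
    have hp := ptLim_mesh hE.pos hE.lim z
    have h1 := H z hz hd a E ρ (fun k => Function.update (v k) 0 (meshIndex (a k) z)) hE fun i => by
      rcases eq_or_ne i 0 with rfl | hi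
      · simpa only [Function.update_self] using hp
      · simpa only [Function.update_of_ne hi] using hv i
    filter_upwards [h1, s4c_near (hL a E ρ v _ hE hv hp) (half_pos hε)] with k h1 h2
    rw [s4c_split hE] at h1 ⊢
    rw [abs_le] at h1 h2 ⊢
    constructor <;> linarith [h1.1, h1.2, h2.1, h2.2]
  obtain ⟨Λ, hΛ⟩ := rat_main hD hx hxD 0
  obtain ⟨F₂, h0, h1, h2⟩ := s4c_squeeze hD x fun ε hε => by
    obtain ⟨η, hη, H⟩ := key ε hε
    have hn : D ∩ ball (x 1) η ∈ 𝓝 (x 1) := inter_mem ((NiceP.isOpen' hD).mem_nhds (hxD 1)) (ball_mem_nhds _ hη)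
    obtain ⟨z, hz, hz'⟩ := ((infinite_of_mem_nhds _ hn).sdiff (Set.finite_range x)).nonempty
    simp only [Set.mem_range, not_exists] at hz'
    exact ⟨_, H z _ (fun e => hz' 1 e.symm) hz.2 (hΛ z hz.1 fun k _ e => hz' k e.symm).1⟩
  refine ⟨F₂, h0, h1, fun ε hε => ?_⟩
  obtain ⟨η, hη, H⟩ := key ε hε
  refine ⟨η, hη, fun z L hz hd hL => ?_⟩
  convert h2 ε _ (H z L hz hd hL) using 2
  ring

theorem s4c_two (hD : Nice D) {x₀ z : ℂ} (hx : x₀ ∈ D) (hz : z ∈ D) (hzx : z ≠ x₀) : ∃ F > 0, SpinLim D ![x₀, z] F := by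
  obtain ⟨F, h0, h1, -⟩ := spin_succ (n := 0) (Or.inl hD) (x := ![x₀, z]) (fun i j h => by
    fin_cases i <;> fin_cases j <;> simp_all [eq_comm]) (Fin.forall_fin_two.2 ⟨hx, hz⟩) one_pos (spinLim_zero D _)
  exact ⟨F, h0, h1⟩

/-- **one spin**: `2 log (a^{-1/8} rho0 {v}) = log (a^{-1/4} rho0 {v, p}) - (log rho0 {p} - log rho0 {v}) ± ε` (`exit_lim`, `spin_succ` with `n = 0`, `rat_main`, `exists_near_bdry`) -/
theorem spin_one (hD : Nice D) {x : Fin 1 → ℂ} (hxD : x 0 ∈ D) : ∃ F > 0, SpinLim D x F ∧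
    ∀ ε > 0, ∃ η > 0, ∀ z ∈ D, ∀ L F₂, z ≠ x 0 → infDist z Dᶜ < η → RatLim D x 0 z L → SpinLim D ![x 0, z] F₂ →
      |2 * Real.log F + L - Real.log F₂| ≤ ε := by
  have hs1 : ∀ v : Fin 1 → Site, spinsOf v = {v 0} := fun v => by simp [spinsOf]
  have hs2 : ∀ v p : Site, spinsOf ![v, p] = {v, p} := fun v p => by
    ext q
    simp [spinsOf, eq_comm]
  have key : ∀ ε > 0, ∃ η > 0, ∀ z ∈ D, ∀ L F₂, z ≠ x 0 → infDist z Dᶜ < η → RatLim D x 0 z L → SpinLim D ![x 0, z] F₂ →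
      ∀ (a : ℕ → ℝ) (E : ℕ → Finset Edge) (ρ : ℕ → ℝ) (v : ℕ → Fin 1 → Site), Appr D a E ρ →
        (∀ i, PtLim a (fun k => v k i) (x i)) → ∀ᶠ k in atTop,
          |Real.log (a k ^ (-(((1 : ℕ) : ℝ) / 8)) * rho0 (E k) (spinsOf (v k))) - (Real.log F₂ - L) / 2| ≤ ε := fun ε hε => by
    obtain ⟨η, hη, H⟩ := exit_lim hD hxD (half_pos hε)
    refine ⟨η, hη, fun z hz L F₂ hzx hd hL h₂ a E ρ v hE hv => ?_⟩
    have hp := ptLim_mesh hE.pos hE.lim z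
    obtain ⟨F', h0, h'⟩ := s4c_two hD hxD hz hzx
    obtain rfl : F' = F₂ := SpinLim.unique (Or.inl hD) h' h₂
    have h3 := (h₂ a E ρ (fun k => ![v k 0, meshIndex (a k) z]) hE (Fin.forall_fin_two.2 ⟨hv 0, hp⟩)).log h0.ne'
    filter_upwards [H z hz hd a E ρ _ _ hE (hv 0) hp, s4c_near (hL a E ρ v _ hE hv hp) (half_pos hε),
      s4c_near h3 (half_pos hε)] with k h1 h2 h3
    rw [s4c_split hE] at h3 ⊢
    rw [hs1, hs1, Function.update_self] at h2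
    rw [hs2] at h3
    rw [hs1]
    push_cast at h3 ⊢
    rw [abs_le] at h1 h2 h3 ⊢
    constructor <;> linarith [h1.1, h1.2, h2.1, h2.2, h3.1, h3.2]
  have hx : Function.Injective x := Function.injective_of_subsingleton x
  obtain ⟨Λ, hΛ⟩ := rat_main (Or.inl hD) hx (fun i => Subsingleton.elim 0 i ▸ hxD) 0
  obtain ⟨F, h0, h1, h2⟩ := s4c_squeeze (Or.inl hD) x fun ε hε => by
    obtain ⟨η, hη, H⟩ := key ε hε
    obtain ⟨z, hz, hz', hd⟩ := exists_near_bdry hD {x 0} (Set.finite_singleton _) hη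
    obtain ⟨F', -, h'⟩ := s4c_two hD hxD hz hz'
    exact ⟨_, H z hz _ F' hz' hd (hΛ z hz fun k hk => (hk (Subsingleton.elim _ _)).elim).1 h'⟩
  refine ⟨F, h0, h1, fun ε hε => ?_⟩
  obtain ⟨η, hη, H⟩ := key _ (half_pos hε)
  refine ⟨η, hη, fun z hz L F₂ hzx hd hL h₂ => ?_⟩
  have := abs_le.1 (h2 _ _ (H z hz L F₂ hzx hd hL h₂))
  rw [abs_le]
  constructor <;> linarith [this.1, this.2]

/-- induction in steps of two -/
theorem spin_exists (hD : NiceP D n) {x : Fin n → ℂ} (hx : Function.Injective x) (hxD : ∀ i, x i ∈ D) :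
    ∃ F > 0, SpinLim D x F := by
  induction n using Nat.twoStepInduction with
  | zero => exact ⟨1, one_pos, spinLim_zero D x⟩
  | one =>
    rcases hD with hD | ⟨-, h⟩
    · obtain ⟨F, h0, h1, -⟩ := spin_one hD (hxD 0)
      exact ⟨F, h0, h1⟩
    · exact absurd h Nat.not_even_one
  | more n ih _ =>
    have hD' : NiceP D n := hD.imp id fun h => ⟨h.1, (Nat.even_add.1 h.2).2 even_two⟩
    obtain ⟨F, h0, h1⟩ := ih hD' (x := Fin.tail (Fin.tail x))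
      (fun i j e => Fin.succ_injective _ (Fin.succ_injective _ (hx e))) fun i => hxD _
    obtain ⟨F₂, h2, h3, -⟩ := spin_succ hD hx hxD h0 h1
    exact ⟨F₂, h2, h3⟩

/-! ### task S4d -/

private def S4dCov (D D' : Set ℂ) (φ : ℂ → ℂ) (n : ℕ) : Prop :=
  ∀ x : Fin n → ℂ, Function.Injective x → (∀ i, x i ∈ D) → ∀ F F' : ℝ, SpinLim D x F → SpinLim D' (fun i => φ (x i)) F' →
    Real.log F = ∑ i, Real.log ‖deriv φ (x i)‖ / 8 + Real.log F'

private theorem s4d_inj {φ : ℂ → ℂ} (hb : Set.BijOn φ D D') {x : Fin n → ℂ} (hx : Function.Injective x) (hxD : ∀ i, x i ∈ D) :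
    Function.Injective fun i => φ (x i) := fun i j h => hx (hb.injOn (hxD i) (hxD j) h)

private theorem s4d_near (hD : IsOpen D) {φ : ℂ → ℂ} (hφ : DifferentiableOn ℂ φ D) (hb : Set.BijOn φ D D') {w : ℂ} (hw : w ∈ D)
    {ε : ℝ} (hε : 0 < ε) : ∀ᶠ z in 𝓝[≠] w, |Real.log ‖deriv φ z‖ - Real.log ‖deriv φ w‖| ≤ ε ∧
      |Real.log ‖φ z - φ w‖ - Real.log ‖z - w‖ - Real.log ‖deriv φ w‖| ≤ ε := by
  have h0 : ‖deriv φ w‖ ≠ 0 := norm_ne_zero_iff.2 (deriv_ne_zero_of_bij hD hφ hb w hw)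
  have hc : ContinuousAt (deriv φ) w := ((hφ.deriv hD).continuousOn.continuousAt (hD.mem_nhds hw))
  have h1 : Tendsto (fun z => Real.log ‖deriv φ z‖) (𝓝[≠] w) (𝓝 (Real.log ‖deriv φ w‖)) :=
    ((hc.norm.log h0).tendsto).mono_left nhdsWithin_le_nhds
  have hd : HasDerivAt φ (deriv φ w) w := (hφ.differentiableAt (hD.mem_nhds hw)).hasDerivAt
  have h2 : Tendsto (fun z => Real.log ‖slope φ w z‖) (𝓝[≠] w) (𝓝 (Real.log ‖deriv φ w‖)) :=
    (hasDerivAt_iff_tendsto_slope.1 hd).norm.log h0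
  filter_upwards [Metric.tendsto_nhds.1 h1 ε hε, Metric.tendsto_nhds.1 h2 ε hε, self_mem_nhdsWithin,
    mem_nhdsWithin_of_mem_nhds (hD.mem_nhds hw)] with z e1 e2 hz hzD
  rw [Real.dist_eq] at e1 e2
  refine ⟨e1.le, ?_⟩
  have hz' : z - w ≠ 0 := sub_ne_zero.2 hz
  have hφz : φ z - φ w ≠ 0 := sub_ne_zero.2 fun h => hz (hb.injOn hzD hw h)
  rw [slope_def_field, norm_div, Real.log_div (norm_ne_zero_iff.2 hφz) (norm_ne_zero_iff.2 hz')] at e2
  exact e2.le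

private theorem s4d_log {F u : ℝ} (hF : 0 < F) (hu : 0 < u) :
    Real.log (F * (C0 * u ^ (-(1 : ℝ) / 4))) = Real.log F + Real.log C0 - Real.log u / 4 := by
  rw [Real.log_mul hF.ne' (mul_pos C0_pos (Real.rpow_pos_of_pos hu _)).ne', Real.log_mul C0_pos.ne' (Real.rpow_pos_of_pos hu _).ne',
    Real.log_rpow hu]
  ring

private theorem s4d_zero (hD : Nice D) (hD' : Nice D') (φ : ℂ → ℂ) : S4dCov D D' φ 0 := by
  intro x _ _ F F' h h'
  rw [SpinLim.unique (Or.inl hD) h (spinLim_zero D x), SpinLim.unique (Or.inl hD') h' (spinLim_zero D' _)]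
  simp

private theorem s4d_succ (hD : Nice D) (hD' : Nice D') {φ : ℂ → ℂ} (hφ : DifferentiableOn ℂ φ D) (hb : Set.BijOn φ D D')
    (ih : S4dCov D D' φ n) : S4dCov D D' φ (n + 2) := by
  intro x hx hxD F F' h h'
  have hx' := s4d_inj hb hx hxD
  have hxD' : ∀ i, φ (x i) ∈ D' := fun i => hb.mapsTo (hxD i)
  have hy : Function.Injective (Fin.tail (Fin.tail x)) := fun i j e =>
    Fin.succ_injective _ (Fin.succ_injective _ (hx e))
  have hyD : ∀ i, Fin.tail (Fin.tail x) i ∈ D := fun i => hxD _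
  obtain ⟨G, hG, hGl⟩ := spin_exists (Or.inl hD) hy hyD
  obtain ⟨G', hG', hGl'⟩ := spin_exists (Or.inl hD') (s4d_inj hb hy hyD) fun i => hb.mapsTo (hyD i)
  have e0 := ih _ hy hyD G G' hGl hGl'
  obtain ⟨F₂, -, hl, H⟩ := spin_succ (Or.inl hD) hx hxD hG hGl
  obtain ⟨F₂', -, hl', H'⟩ := spin_succ (x := fun i => φ (x i)) (Or.inl hD') hx' hxD' hG' hGl'
  obtain rfl := SpinLim.unique (Or.inl hD) h hl
  obtain rfl := SpinLim.unique (Or.inl hD') h' hl'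
  obtain ⟨Λ, hΛ⟩ := rat_main (Or.inl hD) hx hxD 0
  obtain ⟨Λ', hΛ'⟩ := rat_main (Or.inl hD') hx' hxD' 0
  rw [Fin.sum_univ_succ, Fin.sum_univ_succ]
  have e1 : ∑ i : Fin n, Real.log ‖deriv φ (x i.succ.succ)‖ / 8 = Real.log G - Real.log G' := by
    rw [e0, add_sub_cancel_right]; rfl
  rw [e1]
  refine eq_of_forall_dist_le fun ε hε => ?_
  have hε' : 0 < ε / 3 := by positivity
  obtain ⟨η, hη, H1⟩ := H _ hε'
  obtain ⟨η', hη', H2⟩ := H' _ hε'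
  have hc : ContinuousAt φ (x 1) := hφ.continuousOn.continuousAt (hD.isOpen.mem_nhds (hxD 1))
  have hav : ∀ᶠ z in 𝓝[≠] (x 1), ∀ k, z ≠ x k := by
    rw [Filter.eventually_all]
    intro k
    by_cases hk : k = 1
    · subst hk; exact self_mem_nhdsWithin
    · exact mem_nhdsWithin_of_mem_nhds (isOpen_ne.mem_nhds fun e => hk (hx e).symm)
  have v4 : ∀ᶠ z in 𝓝[≠] (x 1), z ∈ D := mem_nhdsWithin_of_mem_nhds (hD.isOpen.mem_nhds (hxD 1))
  have v5 : ∀ᶠ z in 𝓝[≠] (x 1), dist z (x 1) < η := mem_nhdsWithin_of_mem_nhds (Metric.ball_mem_nhds (x 1) hη)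
  have v6 : ∀ᶠ z in 𝓝[≠] (x 1), dist (φ z) (φ (x 1)) < η' :=
    mem_nhdsWithin_of_mem_nhds (Metric.tendsto_nhds.1 hc.tendsto η' hη')
  obtain ⟨z, ⟨a1, a2⟩, a3, a4, a5, a6⟩ := ((s4d_near hD.isOpen hφ hb (hxD 1) hε').and (hav.and (v4.and (v5.and v6)))).exists
  have b3 : ∀ k, φ z ≠ φ (x k) := fun k e => a3 k (hb.injOn a4 (hxD k) e)
  have r := (hΛ z a4 fun k _ => a3 k).1
  have r' := (hΛ' (φ z) (hb.mapsTo a4) fun k _ => b3 k).1
  have c1 := H1 z _ (a3 1) a5 r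
  have c2 := H2 (φ z) _ (b3 1) a6 r'
  have c3 := rat_cov hD hD' hφ hb hx hxD a4 (fun k _ => a3 k) r r'
  rw [s4d_log hG (norm_pos_iff.2 (sub_ne_zero.2 (a3 1)))] at c1
  rw [s4d_log hG' (norm_pos_iff.2 (sub_ne_zero.2 (b3 1)))] at c2
  rw [Real.dist_eq, abs_le]
  rw [abs_le] at a1 a2 c1 c2
  simp only [Fin.succ_zero_eq_one] at *
  constructor <;> linarith [a1.1, a1.2, a2.1, a2.2, c1.1, c1.2, c2.1, c2.2]

private theorem s4d_one (hD : Nice D) (hD' : Nice D') {φ : ℂ → ℂ} (hφ : DifferentiableOn ℂ φ D) (hb : Set.BijOn φ D D') :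
    S4dCov D D' φ 1 := by
  have h2 : S4dCov D D' φ 2 := s4d_succ hD hD' hφ hb (s4d_zero hD hD' φ)
  intro x hx hxD F F' h h'
  have hx' := s4d_inj hb hx hxD
  have hxD' : ∀ i, φ (x i) ∈ D' := fun i => hb.mapsTo (hxD i)
  obtain ⟨F₁, -, hl, H⟩ := spin_one hD (hxD 0)
  obtain ⟨F₁', -, hl', H'⟩ := spin_one (x := fun i => φ (x i)) hD' (hxD' 0)
  obtain rfl := SpinLim.unique (Or.inl hD) h hl
  obtain rfl := SpinLim.unique (Or.inl hD') h' hl'
  obtain ⟨Λ, hΛ⟩ := rat_main (Or.inl hD) hx hxD 0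
  obtain ⟨Λ', hΛ'⟩ := rat_main (Or.inl hD') hx' hxD' 0
  rw [Fin.sum_univ_one]
  refine eq_of_forall_dist_le fun ε hε => ?_
  obtain ⟨η, hη, H1⟩ := H _ hε
  obtain ⟨η', hη', H2⟩ := H' _ hε
  obtain ⟨δ, hδ, H3⟩ := proper_map hD hD' hφ hb hη'
  obtain ⟨z, hz, hz0, hzb⟩ := exists_near_bdry hD {x 0} (Set.finite_singleton _) (lt_min hη hδ)
  have hz1 : z ≠ x 0 := hz0
  have hz2 : φ z ≠ φ (x 0) := fun e => hz1 (hb.injOn hz (hxD 0) e)
  have hv : ∀ k : Fin 1, k ≠ 0 → False := fun k hk => hk (Subsingleton.elim _ _)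
  have r := (hΛ z hz fun k hk => (hv k hk).elim).1
  have r' := (hΛ' (φ z) (hb.mapsTo hz) fun k hk => (hv k hk).elim).1
  have hy : Function.Injective ![x 0, z] := by
    intro i j e
    fin_cases i <;> fin_cases j
    · rfl
    · exact (hz1 e.symm).elim
    · exact (hz1 e).elim
    · rfl
  have hyD : ∀ i, ![x 0, z] i ∈ D := by
    intro i
    fin_cases i
    · exact hxD 0
    · exact hz
  obtain ⟨G, -, hG⟩ := spin_exists (Or.inl hD) hy hyD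
  obtain ⟨G', -, hG'⟩ := spin_exists (Or.inl hD') (s4d_inj hb hy hyD) fun i => hb.mapsTo (hyD i)
  have e0 := h2 _ hy hyD G G' hG hG'
  have e1 : (fun i => φ (![x 0, z] i)) = ![φ (x 0), φ z] := by
    funext i
    fin_cases i <;> rfl
  rw [e1] at hG'
  have c1 := H1 z hz _ G hz1 (hzb.trans_le (min_le_left _ _)) r hG
  have c2 := H2 (φ z) (hb.mapsTo hz) _ G' hz2 (H3 z hz (hzb.trans_le (min_le_right _ _))) r' hG'
  have c3 := rat_cov hD hD' hφ hb hx hxD hz (fun k hk => (hv k hk).elim) r r'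
  rw [Fin.sum_univ_two] at e0
  simp only [Matrix.cons_val_zero, Matrix.cons_val_one] at e0
  rw [Real.dist_eq, abs_le]
  rw [abs_le] at c1 c2
  constructor <;> linarith [c1.1, c1.2, c2.1, c2.2]

private theorem s4d_all (hD : Nice D) (hD' : Nice D') {φ : ℂ → ℂ} (hφ : DifferentiableOn ℂ φ D) (hb : Set.BijOn φ D D') :
    ∀ n, S4dCov D D' φ n
  | 0 => s4d_zero hD hD' φ
  | 1 => s4d_one hD hD' hφ hb
  | n + 2 => s4d_succ hD hD' hφ hb (s4d_all hD hD' hφ hb n)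

/-- **covariance**: induction in steps of two with the formulas of `spin_succ` (let `z → x 1`: `‖φ z - φ (x 1)‖ / ‖z - x 1‖ → ‖φ' (x 1)‖`, `rat_cov`), and `spin_one`
(`proper_map`, `exists_near_bdry`, the case `n = 2`); `SpinLim.unique`. -/
theorem spin_cov (hD : Nice D) (hD' : Nice D') {φ : ℂ → ℂ} (hφ : DifferentiableOn ℂ φ D) (hb : Set.BijOn φ D D')
    {x : Fin n → ℂ} (hx : Function.Injective x) (hxD : ∀ i, x i ∈ D) {F F' : ℝ} (h : SpinLim D x F)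
    (h' : SpinLim D' (fun i => φ (x i)) F') : F = (∏ i, ‖deriv φ (x i)‖ ^ ((1 : ℝ) / 8)) * F' := by
  have e := s4d_all hD hD' hφ hb n x hx hxD F F' h h'
  obtain ⟨G, hG, hl⟩ := spin_exists (Or.inl hD) hx hxD
  obtain ⟨G', hG', hl'⟩ := spin_exists (Or.inl hD') (s4d_inj hb hx hxD) fun i => hb.mapsTo (hxD i)
  obtain rfl := SpinLim.unique (Or.inl hD) h hl
  obtain rfl := SpinLim.unique (Or.inl hD') h' hl'
  have hp : ∀ i, 0 < ‖deriv φ (x i)‖ := fun i => norm_pos_iff.2 (deriv_ne_zero_of_bij hD.isOpen hφ hb _ (hxD i))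
  have hq : 0 < ∏ i, ‖deriv φ (x i)‖ ^ ((1 : ℝ) / 8) := Finset.prod_pos fun i _ => Real.rpow_pos_of_pos (hp i) _
  refine Real.log_injOn_pos hG (mul_pos hq hG') ?_
  rw [e, Real.log_mul hq.ne' hG'.ne', Real.log_prod fun i _ => (Real.rpow_pos_of_pos (hp i) _).ne']
  congr 1
  exact Finset.sum_congr rfl fun i _ => by rw [Real.log_rpow (hp i)]; ring

end Crest.Agent.R165.C
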