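import Crest.Agent.R165.C.K2
import Crest.Agent.R165.C.S4
import Crest.Agent.R165.C.R1

/-! # R165/C: assembly of the limits (block C, owner helper83; statements FROZEN, add lemmas freely inside the namespace) -/

set_option autoImplicit false
noncomputable section
open Classical Filter Topology Metric Crest.ProbabilityR.IsingModel

namespace Crest.Agent.R165.C

variable {D D' : Set ℂ} {n m : ℕ} {x : Fin n → ℂ} {y : Fin m → ℂ}

/-- the value attached to a limit kernel -/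
def val (b : BoundaryCondition) {n m : ℕ} (M : LI n m → LI n m → ℝ) : ℝ :=
  if b = .plus then (-2 * tc) ^ m * limQ M
  else |muC| ^ n * 2 ^ n * (2 * tc) ^ m * (SignType.sign (limP0 M) * limP M)

/-- `F` is the value of the limit -/
def IsVal (D : Set ℂ) (b : BoundaryCondition) {n m : ℕ} (x : Fin n → ℂ) (y : Fin m → ℂ) (F : ℝ) : Prop :=
  ∃ (F₀ : ℝ) (r : Fin m → ℂ) (r' : Fin n → ℂ) (M : LI n m → LI n m → ℝ), SpinLim D x F₀ ∧ LimK D x y r r' M ∧ F = F₀ * val b M

/-! ### task Asm-a -/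

theorem inj_left (h : Function.Injective (Fin.append x y)) : Function.Injective x := by
  exact (Fin.append_injective_iff.1 h).1

theorem inj_right (h : Function.Injective (Fin.append x y)) : Function.Injective y := by
  exact (Fin.append_injective_iff.1 h).2.1

theorem ne_of_inj (h : Function.Injective (Fin.append x y)) (k : Fin m) (i : Fin n) : y k ≠ x i := by
  exact ((Fin.append_injective_iff.1 h).2.2 i k).symm

/-- `spin_exists`, `exists_appr`, `exists_ctx`, `limK_exists` -/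
theorem exists_isVal (hD : NiceP D n) (b : BoundaryCondition) (hxD : ∀ i, x i ∈ D) (hyD : ∀ k, y k ∈ D)
    (hxy : Function.Injective (Fin.append x y)) : ∃ F, IsVal D b x y F := by
  obtain ⟨F₀, -, hF⟩ := spin_exists hD (inj_left hxy) hxD
  obtain ⟨a, E, ρ, hA⟩ := exists_appr hD
  obtain ⟨g, hg⟩ := exists_ctx hD (inj_left hxy) hxD hA (v := fun k i => meshIndex (a k) (x i))
    fun i => ptLim_mesh hA.pos hA.lim (x i)
  obtain ⟨g₀, hg₀⟩ := exists_ctx (x := (![] : Fin 0 → ℂ)) (NiceP.zero' hD) (fun i => i.elim0) (fun i => i.elim0) hA (v := non)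
    fun i => i.elim0
  obtain ⟨ψ, r, r', M, -, hM, -⟩ := limK_exists hg hg₀ hyD hxy (u := fun k l => meshIndex (a k) (y l))
    (fun l => ptLim_mesh hA.pos hA.lim (y l)) fun _ => 0
  exact ⟨_, F₀, r, r', M, hF, hM, rfl⟩

theorem asma_val_eq (hD : NiceP D n) (b : BoundaryCondition) (hxD : ∀ i, x i ∈ D) (hyD : ∀ k, y k ∈ D)
    (hxy : Function.Injective (Fin.append x y)) {r₁ r₂ : Fin m → ℂ} {r₁' r₂' : Fin n → ℂ} {M₁ M₂ : LI n m → LI n m → ℝ}
    (h₁ : LimK D x y r₁ r₁' M₁) (h₂ : LimK D x y r₂ r₂' M₂) : val b M₂ = val b M₁ := by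
  obtain ⟨e1, ε, hε, e2, e3⟩ := limK_unique hD hxy hxD hyD h₁ h₂
  unfold val
  rw [e1, e2, e3]
  rcases hε with rfl | rfl
  · simp only [one_mul]
  · simp only [neg_mul, one_mul, Left.sign_neg, SignType.coe_neg, mul_neg, neg_neg]

/-- `SpinLim.unique`, `limK_unique` -/
theorem IsVal.unique (hD : NiceP D n) {b : BoundaryCondition} (hxD : ∀ i, x i ∈ D) (hyD : ∀ k, y k ∈ D)
    (hxy : Function.Injective (Fin.append x y)) {F F' : ℝ} (h : IsVal D b x y F) (h' : IsVal D b x y F') : F = F' := by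
  obtain ⟨F₀, r, r', M, h1, h2, rfl⟩ := h
  obtain ⟨F₀', r₂, r₂', M₂, h1', h2', rfl⟩ := h'
  rw [SpinLim.unique hD h1 h1', asma_val_eq hD b hxD hyD hxy h2 h2']

/-- `spin_cov`, `limK_pullback`, `limK_unique` -/
theorem IsVal.cov (hD : Nice D) (hD' : Nice D') {φ : ℂ → ℂ} (hφ : DifferentiableOn ℂ φ D) (hb : Set.BijOn φ D D')
    {b : BoundaryCondition} (hxD : ∀ i, x i ∈ D) (hyD : ∀ k, y k ∈ D) (hxy : Function.Injective (Fin.append x y)) {F F' : ℝ}
    (h : IsVal D b x y F) (h' : IsVal D' b (fun i => φ (x i)) (fun k => φ (y k)) F') :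
    F = (∏ i, ‖deriv φ (x i)‖ ^ ((1 : ℝ) / 8)) * (∏ k, ‖deriv φ (y k)‖) * F' := by
  obtain ⟨F₀, r, r', M, h1, h2, rfl⟩ := h
  obtain ⟨F₀', r₂, r₂', M₂, h1', h2', rfl⟩ := h'
  obtain ⟨r₁, r₁', M₁, h3, e1, e2, e3⟩ :=
    limK_pullback hD hD' hφ hb (deriv_ne_zero_of_bij hD.isOpen hφ hb) hxy hxD hyD h2'
  rw [spin_cov hD hD' hφ hb (inj_left hxy) hxD h1 h1', ← asma_val_eq (Or.inl hD) b hxD hyD hxy h2 h3]
  unfold val
  rw [e1, e2, e3]
  split_ifs <;> ring

theorem isVal_plane2 {x y : ℂ} (hxy : x ≠ y) {F : ℝ} (h : IsVal Set.univ .plus ![x, y] (![] : Fin 0 → ℂ) F) :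
    F = C0 * ‖x - y‖ ^ (-(1 : ℝ) / 4) := by
  obtain ⟨F₀, r, r', M, h1, -, rfl⟩ := h
  have hi : Function.Injective (![x, y] : Fin 2 → ℂ) := by
    intro i i' h
    fin_cases i <;> fin_cases i' <;> first | rfl | (exfalso; revert h; simp [hxy, hxy.symm])
  have e := SpinLim.unique (Or.inr ⟨rfl, by decide⟩) h1 (spin_C0 _ hi)
  have e2 : val .plus M = 1 := by
    simp [val, limQ, enL, gauss_one]
  rw [e2, mul_one, e]
  simp

/-! ### task Asm-b -/

theorem asmb_bond (z : Site) (j : Fin 2) : bondEdge z j = (z + (bondEdge 0 j).1, (bondEdge 0 j).2) := by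
  fin_cases j <;> simp [bondEdge, sub_eq_add_neg]

/-- **plus boundary condition along a sequence of domains** `Dk k` (constant, or discs with radius `→ ∞`): `rep_plus` (eventually), `tendsto_of_strictMono_subseq`, `limK_exists` with
`u k l = (bondEdge (meshIndex (a k) (y l)) (j l)).1`, direction `(bondEdge _ (j l)).2` (constant in `k`), `limK_unique`; `meshIndex (a k) (y l) ∈ domainSites (Dk k) (a k)` follows from `hmem`. -/
theorem plus_seq (hD : NiceP D n) (hxD : ∀ i, x i ∈ D) (hyD : ∀ k, y k ∈ D) (hxy : Function.Injective (Fin.append x y))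
    {J : ℝ} (hJ : 0 < J) (R : ℕ) (V : Finset Site → ℝ) (j : Fin m → Fin 2) {F : ℝ} (hF : IsVal D .plus x y F)
    (Dk : ℕ → Set ℂ) {a ρ : ℕ → ℝ} (h : ∀ k, (domainSites (Dk k) (a k)).Finite)
    (hA : Appr D a (fun k => (ePlus_finite (h k)).toFinset) ρ) (hc : ∀ k, ExtConn (domainSites (Dk k) (a k)))
    (hmem : ∀ l, ∀ᶠ k in atTop, meshIndex (a k) (y l) ∈ domainSites (Dk k) (a k)) :
    Tendsto (fun k => a k ^ (-((n : ℝ) / 8 + m)) * domainMixedCorr (Dk k) (a k) .plus J 0 R V (criticalBeta J) x y j) atTop (𝓝 F) := by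
  obtain ⟨F₀, r₀, r₀', M₀, hS, hM₀, rfl⟩ := hF
  have ha := hA.pos
  have ha0 := hA.lim
  have hv : ∀ i, PtLim a (fun k => (fun k i => meshIndex (a k) (x i)) k i) (x i) := fun i => ptLim_mesh ha ha0 (x i)
  obtain ⟨g, hg⟩ := exists_ctx hD (inj_left hxy) hxD hA hv
  obtain ⟨g₀, hg₀⟩ := exists_ctx (x := (![] : Fin 0 → ℂ)) (v := non) (NiceP.zero' hD) (fun i => i.elim0)
    (fun i => i.elim0) hA (fun i => i.elim0)
  have hu : ∀ l, PtLim a (fun k => (fun k l => meshIndex (a k) (y l) + (bondEdge 0 (j l)).1) k l) (y l) :=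
    fun l => (ptLim_mesh ha ha0 (y l)).add_const ha0 _
  have hQ : Tendsto (fun k => (a k)⁻¹ ^ m * gauss (g k) (enD (wOf ↑(ePlus_finite (h k)).toFinset
      (spinsOf fun i => meshIndex (a k) (x i))) (g₀ k)
      (fun l => (meshIndex (a k) (y l) + (bondEdge 0 (j l)).1, (bondEdge 0 (j l)).2)) : Gr HE)) atTop
      (𝓝 (tc ^ m * limQ M₀)) := by
    refine tendsto_of_strictMono_subseq fun ψ hψ => ?_
    obtain ⟨ψ', r, r', M, hψ', hM, h1, -⟩ := limK_exists (hg.subseq hψ) (hg₀.subseq hψ) hyD hxy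
      (u := fun k l => meshIndex (a (ψ k)) (y l) + (bondEdge 0 (j l)).1) (fun l => (hu l).subseq hψ)
      fun l => (bondEdge 0 (j l)).2
    refine ⟨ψ', hψ', ?_⟩
    rw [← (limK_unique hD hxy hxD hyD hM₀ hM).1]
    exact h1
  have h2 := (hS a _ ρ _ hA hv).mul (hQ.const_mul ((-2) ^ m))
  have e : F₀ * val .plus M₀ = F₀ * ((-2) ^ m * (tc ^ m * limQ M₀)) := by
    rw [val, if_pos rfl, mul_pow, mul_assoc]
  rw [e]
  refine h2.congr' ?_
  filter_upwards [eventually_inj (inj_left hxy) hv, eventually_inj (inj_right hxy) hu, eventually_all.2 hmem]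
    with k h3 h4 h5
  have h6 : (fun l => bondEdge (meshIndex (a k) (y l)) (j l)) =
      fun l => (meshIndex (a k) (y l) + (bondEdge 0 (j l)).1, (bondEdge 0 (j l)).2) :=
    funext fun l => asmb_bond _ _
  have h7 : Function.Injective fun l => bondEdge (meshIndex (a k) (y l)) (j l) := by
    rw [h6]
    exact fun l l' hl => h4 (congrArg Prod.fst hl)
  have h8 : IsKer (wOf ↑(ePlus_finite (h k)).toFinset ∅) (g₀ k) := by
    have := (hg₀.ker k).1
    rwa [show spinsOf (non k) = ∅ by simp [spinsOf]] at this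
  rw [rep_plus (h k) (hc k) hJ R V x y j h3 h7 h5 (hg.ker k).1 h8, h6, neg_add, Real.rpow_add (ha k),
    Real.rpow_neg (ha k).le (m : ℝ), Real.rpow_natCast, inv_pow]
  ring

/-! ### task Asm-c -/

theorem asmc_sign {u : ℕ → ℝ} {c : ℝ} (h : Tendsto u atTop (𝓝 c)) (hc : c ≠ 0) :
    Tendsto (fun k => (SignType.sign (u k) : ℝ)) atTop (𝓝 (SignType.sign c : ℝ)) := by
  refine tendsto_const_nhds.congr' ?_
  rcases hc.lt_or_gt with h1 | h1
  · filter_upwards [h.eventually (gt_mem_nhds h1)] with k hk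
    rw [sign_neg h1, sign_neg hk]
  · filter_upwards [h.eventually (lt_mem_nhds h1)] with k hk
    rw [sign_pos h1, sign_pos hk]

theorem asmc_eps {ε t : ℝ} (hε : ε = 1 ∨ ε = -1) (h : 0 ≤ ε * t) (ht : t ≠ 0) : ε = (SignType.sign t : ℝ) := by
  rcases hε with rfl | rfl
  · rw [sign_pos (lt_of_le_of_ne (by linarith) ht.symm)]
    simp
  · rw [sign_neg (lt_of_le_of_ne (by linarith) ht)]
    simp

/-- **free boundary condition**: `rep_free`; along the subsequence `gauss g (spD v) → muC^n limP0 M ≠ 0` (`limP0_ne`), so `ε` is eventually `sign (muC^n limP0 M) = sign (limP0 M)` (`n` even) -/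
theorem free_seq (hD : Nice D) (hn : Even n) (hxD : ∀ i, x i ∈ D) (hyD : ∀ k, y k ∈ D) (hxy : Function.Injective (Fin.append x y))
    {J : ℝ} (hJ : 0 < J) (R : ℕ) (V : Finset Site → ℝ) (j : Fin m → Fin 2) {F : ℝ} (hF : IsVal D .free x y F)
    {a ρ : ℕ → ℝ} (h : ∀ k, (domainSites D (a k)).Finite) (hA : Appr D a (fun k => (eDual_finite (h k)).toFinset) ρ) :
    Tendsto (fun k => a k ^ (-((n : ℝ) / 8 + m)) * domainMixedCorr D (a k) .free J 0 R V (criticalBeta J) x y j) atTop (𝓝 F) := by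
  obtain ⟨F₀, r₀, r₀', M₀, hS, hM₀, rfl⟩ := hF
  have ha := hA.pos
  have ha0 := hA.lim
  have hD' : NiceP D n := Or.inl hD
  have hv : ∀ i, PtLim a (fun k => (fun k i => meshIndex (a k) (x i)) k i) (x i) := fun i => ptLim_mesh ha ha0 (x i)
  obtain ⟨g, hg⟩ := exists_ctx hD' (inj_left hxy) hxD hA hv
  obtain ⟨g₀, hg₀⟩ := exists_ctx (x := (![] : Fin 0 → ℂ)) (v := non) (NiceP.zero' hD') (fun i => i.elim0)
    (fun i => i.elim0) hA (fun i => i.elim0)
  have hu : ∀ l, PtLim a (fun k => (fun k l => meshIndex (a k) (y l)) k l) (y l) :=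
    fun l => ptLim_mesh ha ha0 (y l)
  have hmu : 0 < muC ^ n := hn.pow_pos muC_ne
  have hQ : Tendsto (fun k => (SignType.sign (gauss (g k) (spD fun i => meshIndex (a k) (x i))) : ℝ) *
      ((a k)⁻¹ ^ m * gauss (g k) (spD (fun i => meshIndex (a k) (x i)) * (enD (wOf ↑(eDual_finite (h k)).toFinset
      (spinsOf fun i => meshIndex (a k) (x i))) (g₀ k)
      (fun l => (meshIndex (a k) (y l), j l)) : Gr HE)))) atTop
      (𝓝 (muC ^ n * tc ^ m * (SignType.sign (limP0 M₀) * limP M₀))) ∧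
      ∀ᶠ k in atTop, gauss (g k) (spD fun i => meshIndex (a k) (x i)) ≠ 0 := by
    constructor
    · refine tendsto_of_strictMono_subseq fun ψ hψ => ?_
      obtain ⟨ψ', r, r', M, hψ', hM, -, h1, h2⟩ := limK_exists (hg.subseq hψ) (hg₀.subseq hψ) hyD hxy
        (u := fun k l => meshIndex (a (ψ k)) (y l)) (fun l => (hu l).subseq hψ) j
      refine ⟨ψ', hψ', ?_⟩
      have hne := limP0_ne hD hn (inj_left hxy) hxD hM
      have e : (SignType.sign (limP0 M₀) : ℝ) * limP M₀ = SignType.sign (limP0 M) * limP M := by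
        obtain ⟨-, ε, hε, e2, e3⟩ := limK_unique hD' hxy hxD hyD hM₀ hM
        rw [e2, e3]
        rcases hε with rfl | rfl
        · simp only [one_mul]
        · simp only [neg_mul, one_mul, Left.sign_neg, SignType.coe_neg, mul_neg, neg_neg]
      have h3 := (asmc_sign h2 (mul_ne_zero hmu.ne' hne)).mul h1
      rw [sign_mul, sign_pos hmu, one_mul] at h3
      rw [e, mul_left_comm]
      exact h3
    · by_contra hcon
      obtain ⟨ψ, hψ, hψ0⟩ := extraction_of_frequently_atTop (not_eventually.1 hcon)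
      obtain ⟨ψ', r, r', M, hψ', hM, -, -, h2⟩ := limK_exists (hg.subseq hψ) (hg₀.subseq hψ) hyD hxy
        (u := fun k l => meshIndex (a (ψ k)) (y l)) (fun l => (hu l).subseq hψ) j
      have hne := limP0_ne hD hn (inj_left hxy) hxD hM
      obtain ⟨k, hk⟩ := (h2.eventually_ne (mul_ne_zero hmu.ne' hne)).exists
      exact hψ0 (ψ' k) hk
  have h2 := (hS a _ ρ _ hA hv).mul (hQ.1.const_mul (2 ^ n * 2 ^ m))
  have e : F₀ * val .free M₀ =
      F₀ * (2 ^ n * 2 ^ m * (muC ^ n * tc ^ m * (SignType.sign (limP0 M₀) * limP M₀))) := by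
    rw [val, if_neg (by decide), mul_pow, hn.pow_abs]
    ring
  rw [e]
  refine h2.congr' ?_
  have hm1 : ∀ i, ∀ᶠ k in atTop, meshIndex (a k) (x i) ∈ domainSites D (a k) := fun i =>
    (Tendsto.eventually (hv i) (hD.isOpen.mem_nhds (hxD i))).mono fun k hk => t3b_mem.2 hk
  have hm2 : ∀ l, ∀ᶠ k in atTop, (meshIndex (a k) (y l), j l) ∈ eDual (domainSites D (a k)) := fun l => by
    filter_upwards [Tendsto.eventually (hu l) (hD.isOpen.mem_nhds (hyD l)),
      Tendsto.eventually ((hu l).add_const ha0 (uv (j l))) (hD.isOpen.mem_nhds (hyD l))] with k h3 h4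
    exact ⟨t3b_mem.2 h3, t3b_mem.2 h4⟩
  filter_upwards [eventually_inj (inj_left hxy) hv, eventually_inj (inj_right hxy) hu, eventually_all.2 hm1,
    eventually_all.2 hm2, hQ.2] with k h3 h4 h5 h6 h7
  have h8 : IsKer (wOf ↑(eDual_finite (h k)).toFinset ∅) (g₀ k) := by
    have := (hg₀.ker k).1
    rwa [show spinsOf (non k) = ∅ by simp [spinsOf]] at this
  obtain ⟨ε, hε, h9, h10⟩ := rep_free (h k) hJ R V hn x y j h3 h4 h5 h6 (hg.ker k).1 (hg.ker k).2 h8
  rw [h10, ← asmc_eps hε h9 h7, neg_add, Real.rpow_add (ha k), Real.rpow_neg (ha k).le (m : ℝ), Real.rpow_natCast,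
    inv_pow]
  ring

end Crest.Agent.R165.C
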