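import Crest.Agent.R165.C.B0
import Crest.Agent.R165.C.Z2

/-! # R165/C/B1cx: normalised local gauge at a bulk point -/

set_option autoImplicit false
noncomputable section
open Classical Filter Topology Metric Crest.ProbabilityR.IsingModel

namespace Crest.Agent.R165.C

variable {n : ℕ} {x : Fin n → ℂ} {a : ℕ → ℝ} {v : ℕ → Fin n → Site} {y : ℂ} {u : ℕ → Site}

/-- `loc_gauge` normalised by `σ (u k) = 1`, `R y = r` -/
theorem b1c_gauge (ha : ∀ k, 0 < a k) (ha0 : Tendsto a atTop (𝓝 0)) (hi : Function.Injective x)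
    (hx : ∀ i, PtLim a (fun k => v k i) (x i)) (hyx : ∀ i, y ≠ x i) (hu : PtLim a u y) {r : ℂ}
    (hr : Tendsto (fun k => ((a k ^ ((n : ℝ) / 2) : ℝ) : ℂ) * rtP (spinsOf (v k)) (u k)) atTop (𝓝 r)) :
    ∃ δ > 0, ∃ (R : ℂ → ℂ) (σ : ℕ → Site → ℝ), DifferentiableOn ℂ R (ball y δ) ∧ R y = r ∧
      (∀ z ∈ ball y δ, R z ^ 2 = rhoX x z ∧ R z ≠ 0) ∧ (∀ k, IsSign (σ k)) ∧ (∀ k, σ k (u k) = 1) ∧
      (∀ᶠ k in atTop, ∀ e : Edge, dist ((a k : ℂ) * toC e.1) y < δ →
        σ k e.1 * σ k (e.1 + uv e.2) * eray (spinsOf (v k)) e = 1) ∧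
      CLim a (ball y δ) (fun k p => ((a k ^ ((n : ℝ) / 2) : ℝ) : ℂ) * σ k p * rtP (spinsOf (v k)) p) R := by
  obtain ⟨δ, hδ, R, σ, hd, hR, hσ, he, hl⟩ := loc_gauge ha ha0 v (eventually_inj hi hx) x hx fun i => (hyx i).symm
  have hy := mem_ball_self (x := y) hδ
  have hr2 : r ^ 2 = R y ^ 2 := (rt_sq ha ha0 hi hx hu hr).trans (hR y hy).1.symm
  have hr0 : r ≠ 0 := fun h => (hR y hy).2 (by rw [h] at hr2; simpa using hr2.symm)
  have hε : Tendsto (fun k => (σ k (u k) : ℂ)) atTop (𝓝 (R y / r)) := by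
    refine ((hl y hy u hu).div hr hr0).congr' ?_
    filter_upwards [hr.eventually_ne hr0] with k hk
    rw [Pi.div_apply, div_eq_iff hk, rtP]; ring
  refine ⟨δ, hδ, fun z => R y / r * R z, fun k p => σ k (u k) * σ k p, hd.const_mul _, ?_, fun z hz => ⟨?_, ?_⟩,
    fun k p => ?_, fun k => (hσ k).mul_self _, ?_, fun z hz w hw => ?_⟩
  · beta_reduce; rw [div_mul_eq_mul_div, ← sq, ← hr2, sq, mul_div_cancel_right₀ _ hr0]
  · rw [mul_pow, div_pow, ← hr2, div_self (pow_ne_zero 2 hr0), one_mul, (hR z hz).1]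
  · exact mul_ne_zero (div_ne_zero (hR y hy).2 hr0) (hR z hz).2
  · rcases hσ k (u k) with h | h <;> rcases hσ k p with h' | h' <;> simp [h, h']
  · filter_upwards [he] with k hk e hd
    linear_combination (σ k e.1 * σ k (e.1 + uv e.2) * eray (spinsOf (v k)) e) * (hσ k).mul_self (u k) + hk e hd
  · refine (hε.mul (hl z hz w hw)).congr fun k => ?_
    simp only [rtP]; push_cast; ring

theorem b1c_near (ha : ∀ k, 0 < a k) (ha0 : Tendsto a atTop (𝓝 0)) {δ : ℝ} (hδ : 0 < δ) :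
    ∀ᶠ k in atTop, ∀ p β, dist ((a k : ℂ) * toC p) y < δ → dist ((a k : ℂ) * toC (edgeOf p β).1) y < 2 * δ := by
  filter_upwards [ha0.eventually (gt_mem_nhds (show 0 < δ / 2 by positivity))] with k hk p β hp
  have h1 := dist_le_supd (edgeOf p β).1 p
  have h2 : (supd (edgeOf p β).1 p : ℝ) ≤ 1 := by exact_mod_cast mem_box_iff.1 (edgeOf_fst_mem_box p β)
  have h3 := dist_triangle ((a k : ℂ) * toC (edgeOf p β).1) ((a k : ℂ) * toC p) y
  rw [dist_eq_norm _ ((a k : ℂ) * toC p), ← mul_sub, norm_mul, Complex.norm_real, Real.norm_of_nonneg (ha k).le] at h3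
  nlinarith [mul_le_mul_of_nonneg_left (h1.trans (mul_le_mul_of_nonneg_left h2 (by norm_num))) (ha k).le]

theorem b1c_fld_sub (s s' : Fn) (p : Site) : fld (s - s') p = fld s p - fld s' p := by
  simp only [fld, Pi.sub_apply, Complex.ofReal_sub, mul_sub, Finset.sum_sub_distrib]

theorem b1c_spins_non (k : ℕ) : spinsOf (non k) = ∅ := by simp [spinsOf]

end Crest.Agent.R165.C
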