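import Crest.Agent.R165.Rep
import Crest.Agent.R165.BC.Defs

/-! # R165/C: definitions of block C (owner helper83; FROZEN). Route: `notes165/routeC.md`. -/

set_option autoImplicit false
noncomputable section
open Classical Filter Topology Metric Crest.ProbabilityR.IsingModel

namespace Crest.Agent.R165.C

/-- direction of the half-edge `α` in field space: `s (x, α) ≈ Re (fld s x * bA α)`; `bA α ^ 2 = I ^ α`, `bA (α+2) = I * bA α` -/
def bA (α : Fin 4) : ℂ := (starRingEnd ℂ) om ^ (α : ℕ)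
/-- the residue of the plane kernel with source `(0, α)` is `I * lam0 * bA α` -/
def lam0 : ℝ := -(2 * Real.pi * tc)⁻¹
/-- indicator of a box (the only cut-off used in `bform`) -/
def bI (x : Site) (R : ℕ) : Site → ℝ := fun p => if p ∈ box x R then 1 else 0
/-- gauge transform of a kernel -/
def gaugeK (σ : Site → ℝ) (g : HE → HE → ℝ) : HE → HE → ℝ := fun i j => σ i.1 * σ j.1 * g i j
/-- ratio of partition functions under the flip of `e` (`Zc_flip`) -/
def Rat (w : Edge → ℝ) (g : HE → HE → ℝ) (e : Edge) : ℝ := 1 - 2 * w e * g (he0 e) (he1 e)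
def flipW (e : Edge) (w : Edge → ℝ) : Edge → ℝ := fun e' => (if e' = e then -1 else 1) * w e'
def rtP (S : Finset Site) (p : Site) : ℂ := ∏ v ∈ S, rt (pos p - toC v)
/-- the weights agree on all edges at sites of `W` -/
def AgreeOn (w w' : Edge → ℝ) (W : Set Site) : Prop := ∀ x ∈ W, ∀ α, w (edgeOf x α) = w' (edgeOf x α)
/-- the single branch point `c k` as a family -/
def one (c : ℕ → Site) : ℕ → Fin 1 → Site := fun k _ => c k
/-- no branch point -/
def non : ℕ → Fin 0 → Site := fun _ => ![]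

/-- standing hypotheses: geometries approximating `D`, spins `v k → x`, kernels `g k` -/
structure Ctx (D : Set ℂ) {n : ℕ} (x : Fin n → ℂ) (a : ℕ → ℝ) (E : ℕ → Finset Edge) (ρ : ℕ → ℝ)
    (v : ℕ → Fin n → Site) (g : ℕ → HE → HE → ℝ) : Prop where
  nice : NiceP D n
  appr : Appr D a E ρ
  inj : Function.Injective x
  mem : ∀ i, x i ∈ D
  lim : ∀ i, PtLim a (fun k => v k i) (x i)
  ker : ∀ k, IsKer (wOf ↑(E k) (spinsOf (v k))) (g k) ∧ FinRow (g k)

/-- a decaying solution in the plane with one branch point at the black site `0` -/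
def ZeroMode (φ : Fn) : Prop :=
  SolOn (wOf Set.univ {0}) Set.univ φ ∧ ∃ C : ℝ, ∀ l : ℕ, 1 ≤ l → WB {0} Set.univ l (C / Real.sqrt l) φ

/-- pairing of the corner vector `(x, α)` with `s` (half the corner value if `s` is a solution at `x`) -/
def prC (s : Fn) (x : Site) (α : Fin 4) : ℝ := ∑ β, vC α β * s (x, β)
/-- the corner fermion at the corner `(v, 2)` (white `v`, black `v`) -/
def psiV (v : Site) : GV HE := ∑ β, vC 2 β • Finsupp.single (v, β) (1 : ℝ)

/-- real combinations of `RHbulk` solutions, total residue `β` -/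
def Bulk (D : Set ℂ) {n : ℕ} (x : Fin n → ℂ) (y β : ℂ) (G : ℂ → ℂ) : Prop :=
  ∃ (m : ℕ) (t : Fin m → ℝ) (βs : Fin m → ℂ) (gs : Fin m → ℂ → ℂ), (∀ k, RHbulk D x y (βs k) (gs k)) ∧
    β = ∑ k, (t k : ℂ) * βs k ∧ ∀ z, G z = ∑ k, (t k : ℂ) * gs k z

/-- generators of the limit Gaussian: one per spin (corner fermion), one per energy point and direction `b ∈ ℂ` -/
abbrev LI (n m : ℕ) : Type := Fin n ⊕ (Fin m × ℂ)

/-- the limit covariance in the frames `r`, `r'` -/
structure LimK (D : Set ℂ) {n m : ℕ} (x : Fin n → ℂ) (y : Fin m → ℂ) (r : Fin m → ℂ) (r' : Fin n → ℂ)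
    (M : LI n m → LI n m → ℝ) : Prop where
  hr : ∀ k, r k ^ 2 = rhoX x (y k)
  hr' : ∀ i, r' i ^ 2 = ∏ k ∈ Finset.univ.erase i, (x i - x k)
  anti : Antisym M
  bulk : ∀ (k : Fin m) (b : ℂ), ∃ (G G₀ : ℂ → ℂ) (c : ℂ), Bulk D x (y k) (Complex.I * lam0 * b * r k) G ∧
    Bulk D (![] : Fin 0 → ℂ) (y k) (Complex.I * lam0 * b) G₀ ∧
    Tendsto (fun z => (z - y k) * (G z ^ 2 / rhoX x z - G₀ z ^ 2)) (𝓝[≠] (y k)) (𝓝 (2 * (Complex.I * lam0 * b) * c)) ∧
    (∀ b', M (.inr (k, b)) (.inr (k, b')) = (c * b').re) ∧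
    (∀ l, l ≠ k → ∀ b', M (.inr (k, b)) (.inr (l, b')) = (G (y l) / r l * b').re) ∧
    ∀ i, M (.inr (k, b)) (.inl i) = (G (x i) / r' i).im
  br : ∀ i, ∃ G, RHbr D x i G ∧ G (x i) = r' i ∧ ∀ j, j ≠ i → M (.inl i) (.inl j) = lam0 * (G (x j) / r' j).im

/-- product of the limit energies -/
def enL (n m : ℕ) : Ev (LI n m) := ∏ k : Fin m, th2 (.inr (k, 1)) (.inr (k, Complex.I))
/-- product of the limit corner fermions -/
def spL (n m : ℕ) : Gr (LI n m) := wedge (List.ofFn fun i : Fin n => Finsupp.single (Sum.inl i) (1 : ℝ))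
def limQ {n m : ℕ} (M : LI n m → LI n m → ℝ) : ℝ := gauss M (enL n m : Gr (LI n m))
def limP {n m : ℕ} (M : LI n m → LI n m → ℝ) : ℝ := gauss M (spL n m * (enL n m : Gr (LI n m)))
def limP0 {n m : ℕ} (M : LI n m → LI n m → ℝ) : ℝ := gauss M (spL n m)

/-- product of the centred occupation variables of the edges `e k` (`g₀` = kernel without spins) -/
def enD (w : Edge → ℝ) (g₀ : HE → HE → ℝ) {m : ℕ} (e : Fin m → Edge) : Ev HE :=
  ∏ k, (w (e k) • eM id (e k) - (tc * g₀ (he0 (e k)) (he1 (e k))) • 1)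
/-- product of the corner fermions -/
def spD {n : ℕ} (v : Fin n → Site) : Gr HE := wedge (List.ofFn fun i => psiV (v i))

/-- `a^{-n/8} rho0 → F` along every approximation -/
def SpinLim (D : Set ℂ) {n : ℕ} (x : Fin n → ℂ) (F : ℝ) : Prop :=
  ∀ (a : ℕ → ℝ) (E : ℕ → Finset Edge) (ρ : ℕ → ℝ) (v : ℕ → Fin n → Site), Appr D a E ρ →
    (∀ i, PtLim a (fun k => v k i) (x i)) →
    Tendsto (fun k => a k ^ (-((n : ℝ) / 8)) * rho0 (E k) (spinsOf (v k))) atTop (𝓝 F)

/-- moving the spin `i` from `x i` to `z` multiplies `rho0` by `exp L` in the limit -/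
def RatLim (D : Set ℂ) {n : ℕ} (x : Fin n → ℂ) (i : Fin n) (z : ℂ) (L : ℝ) : Prop :=
  ∀ (a : ℕ → ℝ) (E : ℕ → Finset Edge) (ρ : ℕ → ℝ) (v : ℕ → Fin n → Site) (p : ℕ → Site), Appr D a E ρ →
    (∀ i, PtLim a (fun k => v k i) (x i)) → PtLim a p z →
    Tendsto (fun k => Real.log (rho0 (E k) (spinsOf (Function.update (v k) i (p k)))) -
      Real.log (rho0 (E k) (spinsOf (v k)))) atTop (𝓝 L)

/-- the boundary (mod 2) of `γ` is `S` -/
def BdIs (γ : Finset Edge) (S : Finset Site) : Prop :=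
  ∀ x : Site, Even (Finset.univ.filter fun α : Fin 4 => edgeOf x α ∈ γ).card ↔ x ∉ S

end Crest.Agent.R165.C
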