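import Crest.Agent.R165.C.K2
import Crest.Agent.R165.DU.Dual
import Crest.Agent.R165.DU.Main
import Crest.Agent.R165.DU.Spin

/-! # R165/C: the free kernel with spins (block C, owner helper83; statements FROZEN, add lemmas freely inside the namespace) -/

set_option autoImplicit false
noncomputable section
open Classical Filter Topology Metric Crest.ProbabilityR.IsingModel

namespace Crest.Agent.R165.C

/-! ### task F1a -/

/-- **the corner matrix stays invertible.** By contradiction along a sequence `a k → 0` (`appr_nice`, `exists_ctx`, kernels are unique: `DU.eq_row_of_ker`);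
`limK_exists` with `m = 0`, `limP0_ne`, `muC_ne`. -/
theorem spD_lower {D : Set ℂ} (hD : Nice D) {n : ℕ} (hn : Even n) (x : Fin n → ℂ) (hx : Function.Injective x) (hxD : ∀ i, x i ∈ D) :
    ∃ c > 0, ∃ a₀ > 0, ∀ a, 0 < a → a < a₀ → ∀ g, IsKer (wOf (eDual (domainSites D a)) (spinsOf fun i => meshIndex a (x i))) g →
      FinRow g → c ≤ |gauss g (spD fun i => meshIndex a (x i))| := by
  obtain ⟨a₀, ha₀, ρ₀, -, H⟩ := appr_nice hD
  by_contra hcon
  push Not at hcon
  have hp : ∀ k : ℕ, (0 : ℝ) < 1 / ((k : ℝ) + 1) := fun k => by positivity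
  choose a ha ha' g hg hf hlt using fun k : ℕ => hcon _ (hp k) (min a₀ (1 / ((k : ℝ) + 1))) (lt_min ha₀ (hp k))
  have ha0 : Tendsto a atTop (𝓝 0) := squeeze_zero (fun k => (ha k).le) (fun k => ((ha' k).trans_le (min_le_right _ _)).le)
    tendsto_one_div_add_atTop_nhds_zero_nat
  have hA := (H a (fun k => ⟨ha k, (ha' k).trans_le (min_le_left _ _)⟩) ha0 fun k => hD.sites_finite (ha k)).2.1
  have h : Ctx D x a _ _ (fun k i => meshIndex (a k) (x i)) g := ⟨Or.inl hD, hA, hx, hxD, fun i => ptLim_mesh ha ha0 _,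
    fun k => ⟨by rw [Set.Finite.coe_toFinset]; exact hg k, hf k⟩⟩
  obtain ⟨g₀, h₀⟩ := exists_ctx (x := (![] : Fin 0 → ℂ)) (Or.inl hD) (fun i => i.elim0) (fun i => i.elim0) hA
    (v := non) (fun i => i.elim0)
  have hxy : Function.Injective (Fin.append x (Fin.elim0 : Fin 0 → ℂ)) := by
    rw [Fin.append_elim0]; exact hx.comp (Fin.cast_injective _)
  obtain ⟨ψ, r, r', M, hψ, hM, -, -, hl⟩ := limK_exists h h₀ (fun l => l.elim0) hxy (u := fun _ => Fin.elim0)
    (fun l => l.elim0) Fin.elim0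
  have h0 : Tendsto (fun k => gauss (g k) (spD fun i => meshIndex (a k) (x i))) atTop (𝓝 0) :=
    squeeze_zero_norm (fun k => (hlt k).le) tendsto_one_div_add_atTop_nhds_zero_nat
  exact mul_ne_zero (pow_ne_zero n muC_ne) (limP0_ne hD hn hx hxD hM)
    (tendsto_nhds_unique hl (h0.comp hψ.tendsto_atTop))

/-! ### task F1b: see `DU/Spin.lean` (`DU.freeRow`, `DU.isKer_freeRow`, `DU.freeRow_bound`) -/

theorem f1_bil_psiV {g : HE → HE → ℝ} (hg : Antisym g) (u u' : Site) :
    bil g (psiV u) (psiV u') = ∑ β', ∑ β, vC 2 β' * vC 2 β * g (u, β) (u', β') := by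
  simp only [psiV, map_sum, map_smul, LinearMap.sum_apply, LinearMap.smul_apply, bil_single, smul_eq_mul,
    Finset.mul_sum]
  refine Finset.sum_congr rfl fun β' _ => Finset.sum_congr rfl fun β _ => ?_
  rw [hg (u, β) (u', β')]; ring

/-- the corner matrix of `DU/Spin` and the Pfaffian -/
theorem f1_det_mK {T : Set Site} {n : ℕ} {v : Fin n → Site} {g : HE → HE → ℝ} (hg : IsKer (wOf (eDual T) (spinsOf v)) g)
    (h0 : gauss g (spD v) ≠ 0) : (DU.mK T (spinsOf v) g).det = 4 ^ n * gauss g (spD v) ^ 2 := by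
  have h1 := gauss_wedge_sq' g n fun i => psiV (v i)
  have hv : Function.Injective v := fun i j hij => by
    by_contra hne
    refine pow_ne_zero 2 h0 (h1.trans (Matrix.det_zero_of_row_eq hne ?_))
    funext k; simp only [Matrix.of_apply, hij]
  let e : Fin n ≃ spinsOf v := Equiv.ofBijective (fun i => ⟨v i, Finset.mem_image_of_mem _ (Finset.mem_univ i)⟩)
    ⟨fun i j hij => hv (congrArg Subtype.val hij), fun ⟨u, hu⟩ => by
      obtain ⟨i, -, rfl⟩ := Finset.mem_image.1 hu
      exact ⟨i, rfl⟩⟩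
  rw [← Matrix.det_submatrix_equiv_self e, spD, h1, ← Matrix.det_transpose (Matrix.of _)]
  have h2 : (DU.mK T (spinsOf v) g).submatrix e e =
      (4 : ℝ) • (Matrix.of fun a b => bil g (psiV (v a)) (psiV (v b))).transpose := by
    ext a b
    rw [Matrix.submatrix_apply, DU.mK_apply hg, Matrix.smul_apply, Matrix.transpose_apply, Matrix.of_apply,
      f1_bil_psiV hg.1]
    rfl
  rw [h2, Matrix.det_smul, Fintype.card_fin]

/-! ### task F1c -/

/-- `Nice.reg`, `exists_ker`, `spD_lower`, `solve_bdd`, `free_rows`; all three kernel bounds come from `ker_bound` (with `l' = min (supd + 1) ⌊c' / a⌋` for the entries at `v k`: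
`dB S l' i ≥ dB S l i / C`; shifting a site by one changes `dB` and `supd` by at most `1`; for small `l` use `l = 1`). -/
theorem ker_free_spins' {D : Set ℂ} (hD : Nice D) {n : ℕ} (hn : Even n) (x : Fin n → ℂ) (hx : Function.Injective x)
    (hxD : ∀ i, x i ∈ D) : ∃ C c a₀ : ℝ, 0 < c ∧ 0 < a₀ ∧ ∀ a, 0 < a → a < a₀ →
      ∃ g, IsKer (wFree (domainSites D a) (spinsOf fun i => meshIndex a (x i))) g ∧ FinRow g ∧
        ∀ (l : ℕ) (i j : HE), 1 ≤ l → (l : ℝ) ≤ c / a → l ≤ supd i.1 j.1 + 1 →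
          g i j ^ 2 * (dB (spinsOf fun i => meshIndex a (x i)) l i.1 * dB (spinsOf fun i => meshIndex a (x i)) l j.1) ≤ C ^ 2 := by
  obtain ⟨ρ₀, hρ₀, a₀, ha₀, hreg⟩ := hD.reg
  obtain ⟨c, hc, a₁, ha₁, hlow⟩ := spD_lower hD hn x hx hxD
  obtain ⟨C, K, hC⟩ := ker_bound n
  obtain ⟨C', hC'⟩ := DU.freeRow_bound n C (c ^ 2) (by positivity)
  refine ⟨C', ρ₀ / (2 * (K + 1)), min (min a₀ a₁) (ρ₀ / (2 * (K + 1) ^ 2)), by positivity, by positivity,
    fun a ha hlt => ?_⟩
  have h0 : a < a₀ := hlt.trans_le ((min_le_left _ _).trans (min_le_left _ _))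
  have h1 : a < a₁ := hlt.trans_le ((min_le_left _ _).trans (min_le_right _ _))
  have h2 : a < ρ₀ / (2 * (K + 1) ^ 2) := hlt.trans_le (min_le_right _ _)
  have hT := hD.sites_finite ha
  have hE := (hreg a ha h0).2.1
  obtain ⟨g, hg, hf⟩ := DU.exists_ker_dual hT hE (spinsOf fun i => meshIndex a (x i))
  have hl := hlow a ha h1 g hg hf
  have hne : gauss g (spD fun i => meshIndex a (x i)) ≠ 0 := abs_pos.1 (hc.trans_le hl)
  have hd : c ^ 2 ≤ |(DU.mK (domainSites D a) (spinsOf fun i => meshIndex a (x i)) g).det| := by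
    rw [f1_det_mK hg hne, abs_mul, abs_pow, abs_pow]
    exact (pow_le_pow_left₀ hc.le hl 2).trans
      (le_mul_of_one_le_left (by positivity) (one_le_pow₀ (by norm_num)))
  have hcard : (spinsOf fun i => meshIndex a (x i)).card ≤ n := Finset.card_image_le.trans (by simp)
  refine ⟨_, DU.isKer_freeRow hg hf (abs_pos.1 ((pow_pos hc 2).trans_le hd)), DU.finRow_freeRow _ _ hf,
    hC' _ _ g _ hcard (fun l i j hl1 hl2 hl3 => ?_) hd⟩
  refine hC (eDual_finite hT).toFinset (ρ₀ / a) _ g (by rwa [Set.Finite.coe_toFinset]) hcard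
    (by rwa [Set.Finite.coe_toFinset]) hf l i j hl1 ?_ hl3
  have hK : (0 : ℝ) ≤ K := Nat.cast_nonneg K
  rw [le_div_iff₀ ha, le_div_iff₀ (by positivity)] at hl2
  rw [lt_div_iff₀ (by positivity)] at h2
  rw [le_div_iff₀ ha]
  have hl0 : (0 : ℝ) ≤ l * a := by positivity
  nlinarith [mul_nonneg hK ha.le]

end Crest.Agent.R165.C
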