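import Crest.Agent.R165.C.B1

/-! # R165/C/K2bx: auxiliary lemmas for `entLim_of_limK` -/

set_option autoImplicit false
noncomputable section
open Classical Filter Topology Metric Crest.ProbabilityR.IsingModel

namespace Crest.Agent.R165.C

variable {D : Set ℂ} {n : ℕ} {x : Fin n → ℂ} {a : ℕ → ℝ} {E : ℕ → Finset Edge} {ρ : ℕ → ℝ}
  {v : ℕ → Fin n → Site} {g g₀ : ℕ → HE → HE → ℝ}

theorem k2b_sign {F : ℕ → ℝ} {b : ℝ} (ε : ℕ → ℝ) (hε : ∀ k, ε k = 1 ∨ ε k = -1)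
    (h : ∀ (ψ : ℕ → ℕ) (e : ℝ), StrictMono ψ → e * e = 1 → (∀ k, ε (ψ k) = e) →
      Tendsto (fun k => F (ψ k)) atTop (𝓝 b)) : Tendsto F atTop (𝓝 b) := by
  refine tendsto_of_strictMono_subseq fun ψ hψ => ?_
  have h1 : ∃ᶠ k in atTop, ε (ψ k) = 1 ∨ ε (ψ k) = -1 := (Eventually.of_forall fun k => hε _).frequently
  rcases frequently_or_distrib.1 h1 with h2 | h2
  · obtain ⟨φ, hφ, h3⟩ := extraction_of_frequently_atTop h2
    exact ⟨φ, hφ, h (ψ ∘ φ) 1 (hψ.comp hφ) (by norm_num) h3⟩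
  · obtain ⟨φ, hφ, h3⟩ := extraction_of_frequently_atTop h2
    exact ⟨φ, hφ, h (ψ ∘ φ) (-1) (hψ.comp hφ) (by norm_num) h3⟩

theorem k2b_frame {F : ℕ → ℂ} {r : ℂ} {ε : ℕ → ℝ} (h : Tendsto (fun k => (ε k : ℂ) * F k) atTop (𝓝 r)) {ψ : ℕ → ℕ}
    (hψ : StrictMono ψ) {e : ℝ} (he : e * e = 1) (h' : ∀ k, ε (ψ k) = e) :
    Tendsto (fun k => F (ψ k)) atTop (𝓝 (e * r)) := by
  refine ((h.comp hψ.tendsto_atTop).const_mul (e : ℂ)).congr fun k => ?_
  simp only [Function.comp, h']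
  rw [← mul_assoc, ← Complex.ofReal_mul, he, Complex.ofReal_one, one_mul]

theorem k2b_smul {y b r : ℂ} {G : ℂ → ℂ} (h : Bulk D x y (b * r) G) (t : ℝ) :
    Bulk D x y (b * (t * r)) fun z => t * G z := by
  have := h.comb h t 0
  simp only [Complex.ofReal_zero, zero_mul, add_zero] at this
  rwa [mul_left_comm]

/-- the limit of `cb1` is any given `Bulk` solution -/
theorem k2b_clim (h : Ctx D x a E ρ v g) {y : ℂ} (hy : y ∈ D) (hyx : ∀ i, y ≠ x i) {p : ℕ → Site} (hp : PtLim a p y) {r : ℂ}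
    (hr : Tendsto (fun k => ((a k ^ ((n : ℝ) / 2) : ℝ) : ℂ) * rtP (spinsOf (v k)) (p k)) atTop (𝓝 r)) (α : Fin 4)
    {G : ℂ → ℂ} (hG : Bulk D x y (Complex.I * lam0 * bA α * r) G) :
    CLim a (D \ (Set.range x ∪ {y})) (fun k => gF (a k) (v k) ((a k)⁻¹ • g k (p k, α))) G := by
  obtain ⟨G', h1, h2⟩ := cb1 h hy hyx hp hr α
  intro z hz w hw
  rw [Bulk.unique h.nice h.inj h.mem hy hyx hG h1 z hz.1 fun e => hz.2 (Or.inr e)]
  exact h2 z hz w hw

/-- evaluation of a row next to the branch point `x j` -/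
theorem k2b_ev (h : Ctx D x a E ρ v g) {y : ℂ} {p : ℕ → Site} (hp : PtLim a p y) {N : ℕ → ℝ} (hN : NOK x y a N)
    (α : Fin 4) {j : Fin n} (hj : y ≠ x j) {G : ℂ → ℂ}
    (hl : CLim a (D \ (Set.range x ∪ {y})) (fun k => gF (a k) (v k) (N k • g k (p k, α))) G)
    (hG : ContinuousAt G (x j)) (hB : BrOK x G j) {r' : ℂ}
    (hr' : Tendsto (fun k => ((a k ^ (((n : ℝ) - 1) / 2) : ℝ) : ℂ) * rtP ((spinsOf (v k)).erase (v k j)) (v k j + 0))
      atTop (𝓝 r')) :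
    Tendsto (fun k => Real.sqrt (a k) * N k * ∑ β, vC 2 β * g k (p k, α) (v k j, β)) atTop (𝓝 (muC * (G (x j) / r').im)) := by
  have ha := h.appr.pos
  have ha0 := h.appr.lim
  have hD := NiceP.isOpen' h.nice
  have hO : IsOpen (D \ (x '' {k | k ≠ j} ∪ {y})) :=
    hD.sdiff (((Set.toFinite _).image x).union (Set.finite_singleton _)).isClosed
  obtain ⟨δ, hδ, hb⟩ := nhds_basis_closedBall.mem_iff.1 (hO.mem_nhds (x := x j)
    ⟨h.mem j, fun h' => h'.elim (fun ⟨k, hk, e⟩ => hk (h.inj e)) fun e => hj e.symm⟩)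
  have hU : ball (x j) δ \ {x j} ⊆ D \ (Set.range x ∪ {y}) := fun z hz =>
    ⟨(hb (ball_subset_closedBall hz.1)).1, fun h' => (hb (ball_subset_closedBall hz.1)).2
      (h'.imp_left fun ⟨k, e⟩ => ⟨k, fun e' => hz.2 (by rw [← e, e']; rfl), e⟩)⟩
  have h1 := fun β => cb_eval ha ha0 h.inj h.lim j hδ (fun k => ↑(E k)) (fun k => N k • g k (p k, α)) ?_
    (fun K hK hKU => row_bulkSeq h hp hN α K hK (hKU.trans hU)) (hl.mono hU) hG hB 0 hr' β
  · convert tendsto_finsetSum Finset.univ fun β _ => (h1 β).const_mul (vC 2 β) using 2 with k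
    · rw [Finset.mul_sum]
      refine Finset.sum_congr rfl fun β _ => ?_
      rw [Pi.smul_apply, smul_eq_mul, add_zero]
      ring
    · rw [muC, prC, Finset.sum_div, Finset.sum_mul]
      exact Finset.sum_congr rfl fun β _ => by ring
  · have h2 : δ < dist y (x j) := not_le.1 fun e => (hb e).2 (Or.inr rfl)
    filter_upwards [appr_crit hD h.appr (isCompact_closedBall _ δ) fun z hz => (hb hz).1,
      (hp.dist tendsto_const_nhds).eventually_const_lt h2] with k h3 h4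
    refine ⟨fun q hq => h3 q (ball_subset_closedBall hq), fun q hq β => ?_⟩
    rw [DU.opA_smul, (h.ker k).1.2, if_neg, mul_zero]
    intro e
    rw [← (Prod.mk.inj e).1] at h4
    exact lt_asymm h4 hq

/-- bulk–bulk entries with signed sites -/
theorem k2b_bb (h : Ctx D x a E ρ v g) {y y' : ℂ} (hy : y ∈ D) (hyx : ∀ i, y ≠ x i) (hy' : y' ∈ D) (hyx' : ∀ i, y' ≠ x i)
    (hyy : y' ≠ y) {p p' : ℕ → Site} (hp : PtLim a p y) (hp' : PtLim a p' y') {ε ε' : ℕ → ℝ}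
    (hε : ∀ k, ε k = 1 ∨ ε k = -1) (hε' : ∀ k, ε' k = 1 ∨ ε' k = -1) {r r' : ℂ}
    (hr : Tendsto (fun k => (ε k : ℂ) * (((a k ^ ((n : ℝ) / 2) : ℝ) : ℂ) * rtP (spinsOf (v k)) (p k))) atTop (𝓝 r))
    (hr' : Tendsto (fun k => (ε' k : ℂ) * (((a k ^ ((n : ℝ) / 2) : ℝ) : ℂ) * rtP (spinsOf (v k)) (p' k))) atTop (𝓝 r'))
    (α β : Fin 4) {G : ℂ → ℂ} (hG : Bulk D x y (Complex.I * lam0 * bA α * r) G) :
    Tendsto (fun k => (a k)⁻¹ * ε k * ε' k * g k (p k, α) (p' k, β)) atTop (𝓝 (G y' / r' * bA β).re) := by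
  refine k2b_sign ε hε fun ψ e hψ he h1 => k2b_sign (fun k => ε' (ψ k)) (fun k => hε' _) fun φ e' hφ he' h2 => ?_
  have hχ := hψ.comp hφ
  have h' := h.subseq hχ
  have f1 := k2b_frame hr hχ he fun k => h1 _
  have f2 := k2b_frame hr' hχ he' h2
  have h3 := eval_bulk ((NiceP.isOpen' h.nice).sdiff ((Set.finite_range x).union (Set.finite_singleton _)).isClosed)
    h'.appr.pos h'.appr.lim h.inj h'.lim (fun i hi => hi.2 (Or.inl ⟨i, rfl⟩))
    (row_bulkSeq h' (hp.subseq hχ) (Or.inl ⟨hyx, fun _ => rfl⟩) α)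
    (k2b_clim h' hy hyx (hp.subseq hχ) f1 α (k2b_smul hG e))
    ⟨hy', fun h'' => h''.elim (fun ⟨i, e⟩ => hyx' i e.symm) hyy⟩ (hp'.subseq hχ) f2 β
  convert h3.const_mul (e * e') using 2 with k
  · simp only [Function.comp, Pi.smul_apply, smul_eq_mul, h1, h2]
    ring
  · have e1 : (e : ℂ) * e = 1 := by exact_mod_cast he
    have e2 : (e' : ℂ)⁻¹ = e' := inv_eq_of_mul_eq_one_right (by exact_mod_cast he')
    have e3 : (e' : ℂ) * e' = 1 := by exact_mod_cast he'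
    rw [← Complex.re_ofReal_mul, div_eq_mul_inv (_ * _), mul_inv, e2]
    congr 1
    push_cast
    linear_combination (-(G y' * r'⁻¹ * bA β) * e' * e') * e1 - (G y' * r'⁻¹ * bA β) * e3

/-- bulk–corner entries with a signed site -/
theorem k2b_bc (h : Ctx D x a E ρ v g) {y : ℂ} (hy : y ∈ D) (hyx : ∀ i, y ≠ x i) {p : ℕ → Site} (hp : PtLim a p y)
    {ε : ℕ → ℝ} (hε : ∀ k, ε k = 1 ∨ ε k = -1) {r r' : ℂ}
    (hr : Tendsto (fun k => (ε k : ℂ) * (((a k ^ ((n : ℝ) / 2) : ℝ) : ℂ) * rtP (spinsOf (v k)) (p k))) atTop (𝓝 r))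
    (j : Fin n)
    (hr' : Tendsto (fun k => ((a k ^ (((n : ℝ) - 1) / 2) : ℝ) : ℂ) * rtP ((spinsOf (v k)).erase (v k j)) (v k j + 0))
      atTop (𝓝 r')) (α : Fin 4) {G : ℂ → ℂ} (hG : Bulk D x y (Complex.I * lam0 * bA α * r) G) :
    Tendsto (fun k => (Real.sqrt (a k))⁻¹ * ε k * bil (g k) (Finsupp.single (p k, α) 1) (psiV (v k j))) atTop
      (𝓝 (muC * (G (x j) / r').im)) := by
  refine k2b_sign ε hε fun ψ e hψ he h1 => ?_
  have h' := h.subseq hψ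
  have hG' := k2b_smul hG e
  have h3 := k2b_ev h' (hp.subseq hψ) (Or.inl ⟨hyx, fun _ => rfl⟩) α (hyx j)
    (k2b_clim h' hy hyx (hp.subseq hψ) (k2b_frame hr hψ he h1) α hG')
    (hG'.hol.differentiableAt (((NiceP.isOpen' h.nice).sdiff isClosed_singleton).mem_nhds
      ⟨h.mem j, fun e => hyx j e.symm⟩)).continuousAt (hG'.brOK h.inj j) (hr'.comp hψ.tendsto_atTop)
  convert h3.const_mul e using 2 with k
  · have h4 := Real.sqrt_pos.2 (h.appr.pos (ψ k))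
    have h5 : Real.sqrt (a (ψ k)) * (a (ψ k))⁻¹ = (Real.sqrt (a (ψ k)))⁻¹ := by
      conv_lhs => rw [← Real.mul_self_sqrt (h.appr.pos (ψ k)).le, Real.sqrt_mul_self h4.le]
      field_simp
    simp only [Function.comp, h1, h5, psiV, map_sum, map_smul, (h.ker _).1.1.bil_single, smul_eq_mul]
    ring
  · rw [mul_div_assoc, Complex.im_ofReal_mul]
    linear_combination (-(muC * (G (x j) / r').im)) * he

/-- corner–corner entries -/
theorem k2b_cc (h : Ctx D x a E ρ v g) {r' : Fin n → ℂ}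
    (hr' : ∀ i, Tendsto (fun k => ((a k ^ (((n : ℝ) - 1) / 2) : ℝ) : ℂ) * rtP ((spinsOf (v k)).erase (v k i)) (v k i + 0))
      atTop (𝓝 (r' i))) {i j : Fin n} (hij : j ≠ i) {G : ℂ → ℂ} (hG : RHbr D x i G) (hG' : G (x i) = r' i) :
    Tendsto (fun k => bil (g k) (psiV (v k i)) (psiV (v k j))) atTop (𝓝 (muC ^ 2 * (lam0 * (G (x j) / r' j).im))) := by
  obtain ⟨G₁, b1, b2, b3⟩ := cb2 h i 0 (hr' i)
  have hr0 : r' i ≠ 0 := fun e => prod_erase_ne h.inj i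
    ((rt_sq_br h.appr.pos h.appr.lim h.inj h.lim i 0 (hr' i)).symm.trans (by rw [e, sq, zero_mul]))
  have e1 : G (x j) = G₁ (x j) := by
    rw [eq_smul_rhbr h.nice h.inj h.mem hG.1 hG.2.1 b1 (κ := 1) (by rw [hG', b2, div_self hr0, Complex.one_re]) _ (h.mem j),
      Complex.ofReal_one, one_mul]
  have h1 := fun α => k2b_ev h ((h.lim i).add_const h.appr.lim 0) (N := fun k => (Real.sqrt (a k))⁻¹) (Or.inr fun _ => rfl) α
    (j := j) (fun e => hij (h.inj e).symm) ((b3 α).mono fun z hz => ⟨hz.1, fun h' => hz.2 (Or.inl h')⟩)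
    (continuousAt_const.mul (b1.1.hol.differentiableAt
      (by rw [Set.sdiff_empty]; exact (NiceP.isOpen' h.nice).mem_nhds (h.mem j))).continuousAt)
    (b1b_br (b1.2.1 j hij) _) (hr' j)
  convert tendsto_finsetSum Finset.univ fun α _ => (h1 α).const_mul (vC 2 α) using 2 with k
  · simp only [mul_inv_cancel₀ (Real.sqrt_pos.2 (h.appr.pos k)).ne', one_mul, add_zero, psiV, map_sum, map_smul,
      LinearMap.sum_apply, LinearMap.smul_apply, (h.ker _).1.1.bil_single, smul_eq_mul, Finset.mul_sum]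
    rw [Finset.sum_comm]
    exact Finset.sum_congr rfl fun α _ => Finset.sum_congr rfl fun β _ => by ring
  · simp only [e1, mul_div_assoc, Complex.im_ofReal_mul]
    rw [sq, muC, prC, Finset.sum_div, Finset.sum_mul, Finset.sum_mul]
    exact Finset.sum_congr rfl fun α _ => by ring

/-- diagonal entries -/
theorem k2b_dg (h : Ctx D x a E ρ v g) (h₀ : Ctx D (![] : Fin 0 → ℂ) a E ρ non g₀) {y : ℂ} (hy : y ∈ D) (hyx : ∀ i, y ≠ x i)
    {p : ℕ → Site} (hp : PtLim a p y) {r : ℂ}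
    (hr : Tendsto (fun k => ((a k ^ ((n : ℝ) / 2) : ℝ) : ℂ) * rtP (spinsOf (v k)) (p k)) atTop (𝓝 r)) (α β : Fin 4)
    (j : Fin 2) {G G₀ : ℂ → ℂ} {c : ℂ} (hG : Bulk D x y (Complex.I * lam0 * bA α * r) G)
    (hG₀ : Bulk D (![] : Fin 0 → ℂ) y (Complex.I * lam0 * bA α) G₀)
    (hc : Tendsto (fun z => (z - y) * (G z ^ 2 / rhoX x z - G₀ z ^ 2)) (𝓝[≠] y) (𝓝 (2 * (Complex.I * lam0 * bA α) * c))) :
    Tendsto (fun k => (a k)⁻¹ * (eray (spinsOf (v k)) (p k, j) * g k (p k, α) (p k + uv j, β) -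
      g₀ k (p k, α) (p k + uv j, β))) atTop (𝓝 (c * bA β).re) := by
  obtain ⟨c', h1, -, -, h2⟩ := cb_diag h h₀ hy hyx hp hr α (k2b_clim h hy hyx hp hr α hG)
    (k2b_clim h₀ hy (fun i => i.elim0) hp (r := 1) (by simp [rtP, spinsOf]) α (by rwa [mul_one])) hG₀.res
  have h3 : bA α ≠ 0 := norm_ne_zero_iff.1 (by rw [norm_bA]; exact one_ne_zero)
  rw [mul_left_cancel₀ (mul_ne_zero two_ne_zero (mul_ne_zero (mul_ne_zero Complex.I_ne_zero
    (Complex.ofReal_ne_zero.2 lam0_ne)) h3)) (tendsto_nhds_unique hc h1)]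
  exact h2 j β

end Crest.Agent.R165.C
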