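import Crest.Agent.R165.C.Defs
import Crest.Agent.R165.A.Part

/-! # R165/C: Grassmann lemmas for `wick_lim` -/

set_option autoImplicit false
noncomputable section
open Classical Filter Topology

namespace Crest.Agent.R165.C

variable {I J : Type}

theorem k2c_coe_mul (a b : Ev I) : ((a * b : Ev I) : Gr I) = a * b := rfl

theorem k2c_coe_th2 (i j : I) : ((th2 i j : Ev I) : Gr I) = th i * th j := rfl

theorem k2c_gauss (g : I → I → ℝ) (t : J → GV I) (X : Gr J) :
    gauss (fun i i' => bil g (t i) (t i')) X = gauss g (gmap (Finsupp.linearCombination ℝ t) X) := by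
  have hN : Antisym fun i i' => bil g (t i) (t i') := fun i i' => bil_swap g _ _
  rw [gauss_apply, gauss_apply, ← gmap_mu (Finsupp.linearCombination ℝ t) (g := fun i i' => bil g (t i) (t i'))
    (S := Set.univ) (fun i _ i' _ => by
      rw [hN.bil_single, Finsupp.linearCombination_single, Finsupp.linearCombination_single, one_smul, one_smul])
    (mem_supA_univ X), BA.aug_gmap]

theorem k2c_gmap_th (t : J → GV I) (i : J) :
    gmap (Finsupp.linearCombination ℝ t) (th i) = ExteriorAlgebra.ι ℝ (t i) := by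
  rw [th, gmap_iota, Finsupp.linearCombination_single, one_smul]

theorem k2c_gmap_prod {ι : Type} (T : GV J →ₗ[ℝ] GV I) (s : Finset ι) {f : ι → Ev J} {f' : ι → Ev I}
    (h : ∀ l, gmap T (f l : Gr J) = (f' l : Gr I)) :
    gmap T ((∏ l ∈ s, f l : Ev J) : Gr J) = ((∏ l ∈ s, f' l : Ev I) : Gr I) := by
  induction s using Finset.induction_on with
  | empty => simp
  | insert l s hl ih => rw [Finset.prod_insert hl, Finset.prod_insert hl, k2c_coe_mul, k2c_coe_mul, map_mul, h, ih]

theorem k2c_mu_th_th {d : I → I → ℝ} (hd : Antisym d) (i j : I) :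
    mu d (th i * th j) = th i * th j + d i j • 1 := by
  have h1 : mu d (th j) = th j := by
    have := mu_iota_mul d (Finsupp.single j 1) 1
    rw [mul_one, mu_one, mul_one, ctr_one, add_zero] at this
    exact this
  have h2 := ctr_iota_mul (bil d (Finsupp.single i 1)) (Finsupp.single j 1) (1 : Gr I)
  rw [mul_one, ctr_one, mul_zero, sub_zero, hd.bil_single] at h2
  rw [th, mu_iota_mul, h1]
  exact congrArg _ h2

abbrev K2J (n m : ℕ) : Type := Fin n ⊕ Fin m × Fin 2

/-- the energy monomial -/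
def k2cE (n : ℕ) {m : ℕ} (l : Fin m) : Ev (K2J n m) := th2 (.inr (l, 0)) (.inr (l, 1))

/-- the generators of the spins and of the energies with index in `s` -/
def k2cS (n : ℕ) {m : ℕ} (s : Finset (Fin m)) : Set (K2J n m) := {i | ∀ l t, i = .inr (l, t) → l ∈ s}

theorem k2c_centre {n m : ℕ} {d : K2J n m → K2J n m → ℝ} (hd : Antisym d)
    (hb : ∀ i l t, (∀ t', i ≠ .inr (l, t')) → d i (.inr (l, t)) = 0) (h0 : ∀ i i', d (.inl i) (.inl i') = 0)
    {x : Gr (K2J n m)} (hx : x ∈ supA (k2cS n ∅)) (s : Finset (Fin m)) :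
    x * ((∏ l ∈ s, k2cE n l : Ev (K2J n m)) : Gr (K2J n m)) ∈ supA (k2cS n s) ∧
    mu d (x * ((∏ l ∈ s, k2cE n l : Ev (K2J n m)) : Gr (K2J n m))) =
      x * ((∏ l ∈ s, (k2cE n l + d (.inr (l, 0)) (.inr (l, 1)) • 1) : Ev (K2J n m)) : Gr (K2J n m)) := by
  induction s using Finset.induction_on with
  | empty =>
    simp only [Finset.prod_empty, OneMemClass.coe_one, mul_one]
    refine ⟨hx, ?_⟩
    rw [mu_congr (g' := 0) (fun i hi i' hi' => ?_) hx, mu_zero]
    rcases i with i | ⟨l, t⟩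
    · rcases i' with i' | ⟨l, t⟩
      · exact h0 i i'
      · exact absurd (hi' l t rfl) (by simp)
    · exact absurd (hi l t rfl) (by simp)
  | insert l s hl ih =>
    have hy : (th (.inr (l, 0)) * th (.inr (l, 1)) : Gr (K2J n m)) ∈
        supA {i | ∃ t, i = .inr (l, t)} := Subalgebra.mul_mem _ (th_mem_supA ⟨0, rfl⟩) (th_mem_supA ⟨1, rfl⟩)
    rw [Finset.prod_insert hl, Finset.prod_insert hl, mul_comm (k2cE n l), mul_comm (k2cE n l + _), k2c_coe_mul,
      k2c_coe_mul, ← mul_assoc, ← mul_assoc, k2cE, k2c_coe_th2]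
    have hS : k2cS n s ⊆ k2cS n (insert l s) := fun i hi l' t h => Finset.mem_insert_of_mem (hi l' t h)
    refine ⟨Subalgebra.mul_mem _ (supA_mono hS ih.1) (supA_mono ?_ hy), ?_⟩
    · rintro _ ⟨t, rfl⟩ l' t' h
      rw [Sum.inr.injEq, Prod.mk.injEq] at h
      rw [← h.1]
      exact Finset.mem_insert_self _ _
    · rw [mu_mul ?_ ih.1 hy, ih.2, k2c_mu_th_th hd]
      · rfl
      · rintro i hi _ ⟨t, rfl⟩
        have hi' : i ∈ k2cS n s := hi
        have := hb i l t fun t' h => hl (hi' l t' h)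
        exact ⟨this, by rw [hd, this, neg_zero]⟩

/-- the block-diagonal kernel -/
def k2cD (n : ℕ) {m : ℕ} (c : Fin m → ℝ) : K2J n m → K2J n m → ℝ
  | .inr p, .inr q => if p.1 = q.1 then (((q.2 : ℕ) : ℝ) - ((p.2 : ℕ) : ℝ)) * c p.1 else 0
  | _, _ => 0

theorem k2cD_anti (n : ℕ) {m : ℕ} (c : Fin m → ℝ) : Antisym (k2cD n c) := by
  rintro (i | ⟨l, t⟩) (i' | ⟨l', t'⟩)
  · simp [k2cD]
  · simp [k2cD]
  · simp [k2cD]
  · simp only [k2cD]
    by_cases h : l = l'
    · subst h; simp only [if_true]; ring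
    · rw [if_neg h, if_neg (Ne.symm h), neg_zero]

theorem k2c_gauss_centre {n m : ℕ} (N : K2J n m → K2J n m → ℝ) (c : Fin m → ℝ)
    {x : Gr (K2J n m)} (hx : x ∈ supA (k2cS n ∅)) :
    gauss (N + k2cD n c) (x * ((∏ l, k2cE n l : Ev (K2J n m)) : Gr (K2J n m))) =
      gauss N (x * ((∏ l, (k2cE n l + c l • 1) : Ev (K2J n m)) : Gr (K2J n m))) := by
  have h := (k2c_centre (k2cD_anti n c) (fun i l t hi => ?_) (fun _ _ => rfl) hx Finset.univ).2
  · rw [gauss_apply, mu_add, h, ← gauss_apply]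
    simp [k2cD]
  · rcases i with i | ⟨l', t'⟩
    · rfl
    · simp only [k2cD]
      rw [if_neg]
      rintro rfl
      exact hi t' rfl

/-- product of the spin generators -/
def k2cSp (n m : ℕ) : Gr (K2J n m) := wedge (List.ofFn fun i : Fin n => Finsupp.single (Sum.inl i) (1 : ℝ))

theorem k2cSp_mem (n m : ℕ) : k2cSp n m ∈ supA (k2cS n (∅ : Finset (Fin m))) := by
  unfold k2cSp wedge
  refine Subalgebra.list_prod_mem _ fun y hy => ?_
  simp only [List.map_ofFn, List.mem_ofFn, Function.comp] at hy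
  obtain ⟨i, rfl⟩ := hy
  exact th_mem_supA fun l t h => by cases h

theorem k2cSp_gmap {n m : ℕ} (t : K2J n m → GV I) :
    gmap (Finsupp.linearCombination ℝ t) (k2cSp n m) = wedge (List.ofFn fun i => t (.inl i)) := by
  rw [k2cSp, gmap_wedge, List.map_ofFn]
  congr 2
  funext i
  simp

theorem k2c_wedge_smul {n : ℕ} (c : ℝ) (f : Fin n → GV I) :
    wedge (List.ofFn fun i => c • f i) = c ^ n • wedge (List.ofFn f) := by
  have h := wedge_smul (List.finRange n) (fun _ => c) f
  rw [List.ofFn_eq_map, List.ofFn_eq_map, h]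
  simp

end Crest.Agent.R165.C
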