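import Crest.Agent.R165.C.B1
import Crest.Agent.R165.C.K2bx
import Crest.Agent.R165.C.K2cx

/-! # R165/C: convergence of the Gaussian expectations (block C, owner helper83; statements FROZEN, add lemmas freely inside the namespace) -/

set_option autoImplicit false
noncomputable section
open Classical Filter Topology Metric Crest.ProbabilityR.IsingModel

namespace Crest.Agent.R165.C

variable {D : Set ℂ} {n m : ℕ} {x : Fin n → ℂ} {y : Fin m → ℂ} {a : ℕ → ℝ} {E : ℕ → Finset Edge} {ρ : ℕ → ℝ}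
  {v : ℕ → Fin n → Site} {g g₀ : ℕ → HE → HE → ℝ}

/-- the half-edge `s` of the edge `e` -/
def heS (e : Edge) (s : Fin 2) : HE := if s = 0 then he0 e else he1 e
/-- its sign and direction -/
def sgS (S : Finset Site) (e : Edge) (s : Fin 2) : ℝ := if s = 0 then 1 else eray S e
def dirS (j s : Fin 2) : ℂ := bA (heS (0, j) s).2

/-- entrywise convergence -/
structure EntLim (a : ℕ → ℝ) (v : ℕ → Fin n → Site) (g g₀ : ℕ → HE → HE → ℝ) (u : ℕ → Fin m → Site) (j : Fin m → Fin 2)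
    (M : LI n m → LI n m → ℝ) : Prop where
  cc : ∀ i i', Tendsto (fun k => bil (g k) (psiV (v k i)) (psiV (v k i'))) atTop (𝓝 (muC ^ 2 * M (.inl i) (.inl i')))
  bc : ∀ l s i, Tendsto (fun k => (Real.sqrt (a k))⁻¹ * sgS (spinsOf (v k)) (u k l, j l) s *
    bil (g k) (Finsupp.single (heS (u k l, j l) s) 1) (psiV (v k i))) atTop (𝓝 (muC * M (.inr (l, dirS (j l) s)) (.inl i)))
  bb : ∀ l s l' s', l ≠ l' → Tendsto (fun k => (a k)⁻¹ * sgS (spinsOf (v k)) (u k l, j l) s * sgS (spinsOf (v k)) (u k l', j l') s' *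
    g k (heS (u k l, j l) s) (heS (u k l', j l') s')) atTop (𝓝 (M (.inr (l, dirS (j l) s)) (.inr (l', dirS (j l') s'))))
  dg : ∀ l, Tendsto (fun k => (a k)⁻¹ * (eray (spinsOf (v k)) (u k l, j l) * g k (he0 (u k l, j l)) (he1 (u k l, j l)) -
    g₀ k (he0 (u k l, j l)) (he1 (u k l, j l)))) atTop (𝓝 (M (.inr (l, dirS (j l) 0)) (.inr (l, dirS (j l) 1))))

/-! ### task K2a -/

theorem k2a_bil {X Y : Fin 4 → ℂ} (h : ∀ α β, (Y β * bA α).re = -(X α * bA β).re) (b b' : ℂ) :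
    ((b'.re * Y 0 + b'.im * Y 2) * b).re = -((b.re * X 0 + b.im * X 2) * b').re := by
  have h00 := h 0 0
  have h02 := h 0 2
  have h20 := h 2 0
  have h22 := h 2 2
  simp only [bA_zero, bA_two, mul_one, Complex.mul_I_re] at h00 h02 h20 h22
  simp only [Complex.mul_re, Complex.mul_im, Complex.add_re, Complex.add_im, Complex.ofReal_re, Complex.ofReal_im]
  linear_combination b'.re * b.re * h00 + b'.im * b.re * h02 + b'.re * b.im * h20 + b'.im * b.im * h22

theorem k2a_comb {y r : ℂ} {G : Fin 4 → ℂ → ℂ} (h : ∀ α, Bulk D x y (Complex.I * lam0 * bA α * r) (G α)) (b : ℂ) :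
    Bulk D x y (Complex.I * lam0 * b * r) fun z => b.re * G 0 z + b.im * G 2 z := by
  have := (h 0).comb (h 2) b.re b.im
  rw [bA_zero, bA_two] at this
  convert this using 1
  conv_lhs => rw [← Complex.re_add_im b]
  ring

theorem k2a_sq {y β c : ℂ} {G G₀ R P : ℂ → ℂ} (hR : ∀ᶠ z in 𝓝 y, R z ^ 2 = P z)
    (h : Tendsto (fun z => G z / R z - G₀ z) (𝓝[≠] y) (𝓝 c)) (h₀ : Tendsto (fun z => (z - y) * G₀ z) (𝓝[≠] y) (𝓝 β)) :
    Tendsto (fun z => (z - y) * (G z ^ 2 / P z - G₀ z ^ 2)) (𝓝[≠] y) (𝓝 (2 * β * c)) := by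
  have h1 : Tendsto (fun z : ℂ => z - y) (𝓝[≠] y) (𝓝 0) := by
    rw [← sub_self y]
    exact ((continuous_id.sub continuous_const).tendsto y).mono_left nhdsWithin_le_nhds
  have h2 := (h1.mul (h.pow 2)).add ((h₀.const_mul 2).mul h)
  rw [zero_mul, zero_add] at h2
  refine h2.congr' ((hR.filter_mono nhdsWithin_le_nhds).mono fun z hz => ?_)
  simp only [← hz, ← div_pow]
  ring

theorem k2a_root {y r : ℂ} (hr : r ≠ 0) {R R' P : ℂ → ℂ} (h : ContinuousAt R y) (h' : ContinuousAt R' y) (e : R y = r)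
    (e' : R' y = r) (hR : ∀ᶠ z in 𝓝 y, R z ^ 2 = P z) (hR' : ∀ᶠ z in 𝓝 y, R' z ^ 2 = P z) : ∀ᶠ z in 𝓝 y, R' z = R z := by
  have h1 : ∀ᶠ z in 𝓝 y, (R' + R) z ≠ 0 := (h'.add h).eventually_ne (by
    rw [Pi.add_apply, e, e', ← two_mul]
    exact mul_ne_zero two_ne_zero hr)
  filter_upwards [h1, hR, hR'] with z h2 h3 h4
  rcases sq_eq_sq_iff_eq_or_eq_neg.1 (h4.trans h3.symm) with h5 | h5
  · exact h5
  · exact absurd (eq_neg_iff_add_eq_zero.1 h5) h2

theorem k2a_br (h : Ctx D x a E ρ v g) {r' : Fin n → ℂ}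
    (hr' : ∀ i, Tendsto (fun k => ((a k ^ (((n : ℝ) - 1) / 2) : ℝ) : ℂ) * rtP ((spinsOf (v k)).erase (v k i)) (v k i + 0))
      atTop (𝓝 (r' i))) {i j : Fin n} (hij : j ≠ i) {G : ℂ → ℂ} (hG : RHbr D x i G) (α : Fin 4)
    (hl : CLim a (D \ Set.range x) (fun k => gF (a k) (v k) ((Real.sqrt (a k))⁻¹ • g k (v k i + 0, α)))
      fun z => (lam0 * zm (0, α) / zth : ℝ) * G z) :
    Tendsto (fun k => g k (v k i + 0, α) (v k j + 0, α)) atTop
      (𝓝 (lam0 * (zm (0, α) / zth) ^ 2 * (G (x j) / r' j).im)) := by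
  have ha := h.appr.pos
  have ha0 := h.appr.lim
  have hD := NiceP.isOpen' h.nice
  have hO : IsOpen (D \ x '' {k | k ≠ j}) := hD.sdiff ((Set.toFinite _).image x).isClosed
  obtain ⟨δ, hδ, hb⟩ := nhds_basis_closedBall.mem_iff.1 (hO.mem_nhds (x := x j)
    ⟨h.mem j, fun ⟨k, hk, e⟩ => hk (h.inj e)⟩)
  have hU : ball (x j) δ \ {x j} ⊆ D \ Set.range x := fun z hz =>
    ⟨(hb (ball_subset_closedBall hz.1)).1, fun ⟨k, e⟩ => (hb (ball_subset_closedBall hz.1)).2
      ⟨k, fun e' => hz.2 (by rw [← e, e']; rfl), e⟩⟩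
  have hu : PtLim a (fun k => v k i + 0) (x i) := (h.lim i).add_const ha0 0
  have h1 := cb_eval ha ha0 h.inj h.lim j hδ (fun k => ↑(E k)) (fun k => (Real.sqrt (a k))⁻¹ • g k (v k i + 0, α)) ?_
    (fun K hK hKU => row_bulkSeq h hu (N := fun k => (Real.sqrt (a k))⁻¹) (Or.inr fun _ => rfl) α K hK fun z hz =>
      ⟨(hU (hKU hz)).1, fun h' => (hU (hKU hz)).2 (h'.elim id fun e => ⟨i, e.symm⟩)⟩)
    (hl.mono hU) (continuousAt_const.mul (hG.1.hol.differentiableAt
      (by rw [Set.sdiff_empty]; exact hD.mem_nhds (h.mem j))).continuousAt) ?_ 0 (hr' j) α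
  · convert h1 using 2 with k
    · rw [Pi.smul_apply, smul_eq_mul, mul_inv_cancel_left₀ (Real.sqrt_pos.2 (ha k)).ne']
    · rw [mul_div_assoc (_ : ℂ), Complex.im_ofReal_mul]
      ring
  · have h2 : δ < dist (x i) (x j) := not_le.1 fun e => (hb e).2 ⟨i, hij.symm, rfl⟩
    filter_upwards [appr_crit hD h.appr (isCompact_closedBall _ δ) fun z hz => (hb hz).1,
      (hu.dist tendsto_const_nhds).eventually_const_lt h2] with k h3 h4
    refine ⟨fun p hp => h3 p (ball_subset_closedBall hp), fun p hp β => ?_⟩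
    rw [DU.opA_smul, (h.ker k).1.2, if_neg, mul_zero]
    intro e
    rw [← (Prod.mk.inj e).1] at h4
    exact lt_asymm h4 hp
  · obtain ⟨h2, h3⟩ := hG.2.1 j hij
    have e : cSq x (fun z => (lam0 * zm (0, α) / zth : ℝ) * G z) j = ((lam0 * zm (0, α) / zth) ^ 2 : ℝ) * cSq x G j := by
      simp only [cSq]
      push_cast
      ring
    rw [BrOK, e, Complex.im_ofReal_mul, Complex.re_ofReal_mul, h2, mul_zero]
    exact ⟨rfl, mul_nonpos_of_nonneg_of_nonpos (sq_nonneg _) h3⟩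

/-- **construction of the limit kernel.** Frames by `rt_subseq`, `rt_subseq_br` (`d = 0`; finitely many subsequences). For `b = b₁ + I b₂` let `G_{k,b} = b₁ G_{k,0} + b₂ G_{k,2}`
(`cb1` with the sources `(u k, 0)`, `(u k, 2)`; `bA 0 = 1`, `bA 2 = I`), `c` likewise (`cb_diag`, the `R` form is linear; two continuous roots `R` with the same value agree near `y`);
define `M` by the formulas of `LimK` (`M (inl i) (inr _)` by antisymmetry). Antisymmetry of `M`: on the basis directions the entries are limits of entries of the antisymmetric `g k`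
(`eval_bulk`, `cb_diag`, `cb2` + `cb_eval`), extend by bilinearity. -/
theorem limK_exists0 (h : Ctx D x a E ρ v g) (h₀ : Ctx D (![] : Fin 0 → ℂ) a E ρ non g₀) (hyD : ∀ l, y l ∈ D)
    (hxy : Function.Injective (Fin.append x y)) {u : ℕ → Fin m → Site} (hu : ∀ l, PtLim a (fun k => u k l) (y l))
    {r : Fin m → ℂ} {r' : Fin n → ℂ}
    (hr : ∀ l, Tendsto (fun k => ((a k ^ ((n : ℝ) / 2) : ℝ) : ℂ) * rtP (spinsOf (v k)) (u k l)) atTop (𝓝 (r l)))
    (hr' : ∀ i, Tendsto (fun k => ((a k ^ (((n : ℝ) - 1) / 2) : ℝ) : ℂ) * rtP ((spinsOf (v k)).erase (v k i)) (v k i + 0))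
      atTop (𝓝 (r' i))) : ∃ M, LimK D x y r r' M := by
  have ha := h.appr.pos
  have ha0 := h.appr.lim
  obtain ⟨-, hyy, hyx'⟩ := Fin.append_injective_iff.1 hxy
  have hyx : ∀ l i, y l ≠ x i := fun l i => (hyx' i l).symm
  have hsq : ∀ l, r l ^ 2 = rhoX x (y l) := fun l => rt_sq ha ha0 h.inj h.lim (hu l) (hr l)
  have hr0 : ∀ l, r l ≠ 0 := fun l e => Finset.prod_ne_zero_iff.2 (fun i _ => sub_ne_zero.2 (hyx l i))
    ((hsq l).symm.trans (by rw [e, sq, zero_mul]))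
  choose G hG hGl using fun l α => cb1 h (hyD l) (hyx l) (hu l) (hr l) α
  choose G₀ hG₀ hGl₀ using fun l α => cb1 h₀ (hyD l) (fun i => i.elim0) (hu l) (r := 1) (by simp [rtP, spinsOf]) α
  choose c hc1 hc2 hc3 hc4 using fun l α =>
    cb_diag h h₀ (hyD l) (hyx l) (hu l) (hr l) α (hGl l α) (hGl₀ l α) (hG₀ l α).res
  choose Gb hb1 hb2 hb3 using fun i => cb2 h i 0 (hr' i)
  have hA : ∀ l l', l' ≠ l → ∀ α β, Tendsto (fun k => (a k)⁻¹ * g k (u k l, α) (u k l', β)) atTop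
      (𝓝 (G l α (y l') / r l' * bA β).re) := fun l l' hl α β =>
    eval_bulk ((NiceP.isOpen' h.nice).sdiff ((Set.finite_range x).union (Set.finite_singleton _)).isClosed) ha ha0 h.inj h.lim
      (fun i hi => hi.2 (Or.inl ⟨i, rfl⟩)) (row_bulkSeq h (hu l) (Or.inl ⟨hyx l, fun _ => rfl⟩) α) (hGl l α)
      ⟨hyD l', fun h' => h'.elim (fun ⟨i, e⟩ => hyx l' i e.symm) fun e => hl (hyy e)⟩ (hu l') (hr l') β
  obtain ⟨α₀, -, hα⟩ := Finset.exists_ne_zero_of_sum_ne_zero zm_corner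
  let GG : Fin m → ℂ → ℂ → ℂ := fun l b z => b.re * G l 0 z + b.im * G l 2 z
  refine ⟨fun i j => i.elim
      (fun i => j.elim (fun j => if j = i then 0 else lam0 * (Gb i (x j) / r' j).im)
        fun q => -(GG q.1 q.2 (x i) / r' i).im)
      fun p => j.elim (fun i => (GG p.1 p.2 (x i) / r' i).im)
        fun q => if q.1 = p.1 then ((p.2.re * c p.1 0 + p.2.im * c p.1 2) * q.2).re
          else (GG p.1 p.2 (y q.1) / r q.1 * q.2).re,
    hsq, fun i => rt_sq_br ha ha0 h.inj h.lim i 0 (hr' i), ?_, fun l b => ?_,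
    fun i => ⟨Gb i, hb1 i, hb2 i, fun j hj => if_neg hj⟩⟩
  · rintro (i | ⟨l, b⟩) (j | ⟨l', b'⟩)
    · simp only [Sum.elim_inl]
      by_cases hij : j = i
      · rw [if_pos hij, if_pos hij.symm, neg_zero]
      · rw [if_neg hij, if_neg (Ne.symm hij)]
        have h1 := k2a_br h hr' hij (hb1 i) α₀ (hb3 i α₀)
        have h2 := k2a_br h hr' (Ne.symm hij) (hb1 j) α₀ (hb3 j α₀)
        have h3 := tendsto_nhds_unique h2 (h1.neg.congr fun k => ((h.ker k).1.1 _ _).symm)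
        refine mul_left_cancel₀ (pow_ne_zero 2 (div_ne_zero (right_ne_zero_of_mul hα) zth_ne)) ?_
        linear_combination h3
    · exact (neg_neg _).symm
    · rfl
    · simp only [Sum.elim_inr]
      by_cases hl : l' = l
      · subst hl
        rw [if_pos rfl, if_pos rfl]
        refine k2a_bil (fun α β => tendsto_nhds_unique (hc3 l' β α) ((hc3 l' α β).neg.congr fun k => ?_)) b b'
        rw [(h.ker k).1.1 (u k l', α), (h₀.ker k).1.1 (u k l', α)]
        ring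
      · rw [if_neg hl, if_neg (Ne.symm hl)]
        simp only [GG, add_div, mul_div_assoc]
        refine k2a_bil (X := fun α => G l α (y l') / r l') (Y := fun β => G l' β (y l) / r l)
          (fun α β => tendsto_nhds_unique (hA l' l (Ne.symm hl) β α) ((hA l l' hl α β).neg.congr fun k => ?_)) b b'
        rw [(h.ker k).1.1 (u k l, α), mul_neg]
  · have h1 := k2a_comb (hG₀ l) b
    rw [mul_one] at h1
    refine ⟨GG l b, _, b.re * c l 0 + b.im * c l 2, k2a_comb (hG l) b, h1, ?_, fun b' => if_pos rfl,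
      fun l' hl b' => if_neg hl, fun i => rfl⟩
    obtain ⟨R, a1, a2, a3, a4⟩ := hc2 l 0
    obtain ⟨R', b1, b2, b3, b4⟩ := hc2 l 2
    refine k2a_sq a3 (((a4.const_mul _).add (b4.const_mul _)).congr' ?_) h1.res
    filter_upwards [(k2a_root (hr0 l) a1 b1 a2 b2 a3 b3).filter_mono nhdsWithin_le_nhds] with z hz
    simp only [GG, hz]
    ring

/-! ### task K2b -/

/-- **entries**: for the source `heS (u l, j l) s` use `cb1` at the site `u l` or `u l + uv j` (frame `eray · r`: `rt_step`; apply `cb1` to subsequences on which `eray` is constant, or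
state the limit for `sgS • row`), identify the limit with the solution of `LimK.bulk` by `Bulk.unique`; evaluate by `eval_bulk`, `cb_eval`, `cb_diag`;
`bil g (psiV v) (psiV v') = prC (kC g v 2) v' 2`; `cb2`. -/
theorem entLim_of_limK (h : Ctx D x a E ρ v g) (h₀ : Ctx D (![] : Fin 0 → ℂ) a E ρ non g₀) (hyD : ∀ l, y l ∈ D)
    (hxy : Function.Injective (Fin.append x y)) {u : ℕ → Fin m → Site} (hu : ∀ l, PtLim a (fun k => u k l) (y l))
    {r : Fin m → ℂ} {r' : Fin n → ℂ}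
    (hr : ∀ l, Tendsto (fun k => ((a k ^ ((n : ℝ) / 2) : ℝ) : ℂ) * rtP (spinsOf (v k)) (u k l)) atTop (𝓝 (r l)))
    (hr' : ∀ i, Tendsto (fun k => ((a k ^ (((n : ℝ) - 1) / 2) : ℝ) : ℂ) * rtP ((spinsOf (v k)).erase (v k i)) (v k i + 0))
      atTop (𝓝 (r' i))) {M : LI n m → LI n m → ℝ} (hM : LimK D x y r r' M) (j : Fin m → Fin 2) : EntLim a v g g₀ u j M := by
  have ha := h.appr.pos
  have ha0 := h.appr.lim
  obtain ⟨-, hyy, hyx'⟩ := Fin.append_injective_iff.1 hxy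
  have hyx : ∀ l i, y l ≠ x i := fun l i => (hyx' i l).symm
  have hs : ∀ l s, (∀ k, (heS (u k l, j l) s).2 = (heS (0, j l) s).2) ∧ PtLim a (fun k => (heS (u k l, j l) s).1) (y l) ∧
      (∀ k, sgS (spinsOf (v k)) (u k l, j l) s = 1 ∨ sgS (spinsOf (v k)) (u k l, j l) s = -1) ∧
      Tendsto (fun k => (sgS (spinsOf (v k)) (u k l, j l) s : ℂ) *
        (((a k ^ ((n : ℝ) / 2) : ℝ) : ℂ) * rtP (spinsOf (v k)) (heS (u k l, j l) s).1)) atTop (𝓝 (r l)) := fun l s => by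
    by_cases e : s = 0
    · simp only [heS, sgS, if_pos e, Complex.ofReal_one, one_mul]
      exact ⟨fun _ => rfl, hu l, fun _ => Or.inl trivial, hr l⟩
    · simp only [heS, sgS, if_neg e]
      exact ⟨fun _ => rfl, (hu l).add_const ha0 _, fun _ => DU.eray_sign _ _,
        rt_step ha ha0 h.inj h.lim (hu l) (hyx l) (hr l) (j l)⟩
  have he : ∀ k l s, heS (u k l, j l) s = ((heS (u k l, j l) s).1, (heS (0, j l) s).2) := fun k l s =>
    Prod.ext rfl ((hs l s).1 k)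
  refine ⟨fun i i' => ?_, fun l s i => ?_, fun l s l' s' hl => ?_, fun l => ?_⟩
  · by_cases e : i' = i
    · have h0 : M (.inl i) (.inl i) = 0 := by linarith [hM.anti (.inl i) (.inl i)]
      simp only [e, bil_self, h0, mul_zero, tendsto_const_nhds]
    · obtain ⟨G, b1, b2, b3⟩ := hM.br i
      rw [b3 i' e]
      exact k2b_cc h hr' e b1 b2
  · obtain ⟨G, G₀, c, b1, -, -, -, -, b6⟩ := hM.bulk l (dirS (j l) s)
    obtain ⟨-, a2, a3, a4⟩ := hs l s
    rw [b6]
    refine (k2b_bc h (hyD l) (hyx l) a2 a3 a4 i (hr' i) _ b1).congr fun k => ?_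
    rw [← he]
  · obtain ⟨G, G₀, c, b1, -, -, -, b5, -⟩ := hM.bulk l (dirS (j l) s)
    obtain ⟨-, a2, a3, a4⟩ := hs l s
    obtain ⟨-, a2', a3', a4'⟩ := hs l' s'
    rw [b5 l' hl.symm]
    refine (k2b_bb h (hyD l) (hyx l) (hyD l') (hyx l') (fun e => hl (hyy e).symm) a2 a2' a3 a3' a4 a4' _ _ b1).congr
      fun k => ?_
    rw [← he, ← he]
  · obtain ⟨G, G₀, c, b1, b2, b3, b4, -, -⟩ := hM.bulk l (dirS (j l) 0)
    rw [b4]
    exact k2b_dg h h₀ (hyD l) (hyx l) (hu l) (hr l) _ _ (j l) b1 b2 b3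

/-! ### task K2c -/

/-- the generators at mesh `a` -/
def k2cT (a : ℝ) (v : Fin n → Site) (u : Fin m → Site) (j : Fin m → Fin 2) : K2J n m → GV HE
  | .inl i => psiV (v i)
  | .inr p => ((Real.sqrt a)⁻¹ * sgS (spinsOf v) (u p.1, j p.1) p.2) • Finsupp.single (heS (u p.1, j p.1) p.2) 1

/-- the limit generators -/
def k2cL (n : ℕ) (j : Fin m → Fin 2) : K2J n m → GV (LI n m)
  | .inl i => muC • Finsupp.single (.inl i) 1
  | .inr p => Finsupp.single (.inr (p.1, dirS (j p.1) p.2)) 1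

theorem k2c_entries (ha : ∀ k, 0 < a k) (hg : ∀ k, Antisym (g k)) {u : ℕ → Fin m → Site} {j : Fin m → Fin 2}
    {M : LI n m → LI n m → ℝ} (hM : Antisym M) (h : EntLim a v g g₀ u j M) (i i' : K2J n m) :
    Tendsto (fun k => ((fun i i' => bil (g k) (k2cT (a k) (v k) (u k) j i) (k2cT (a k) (v k) (u k) j i')) +
      k2cD n fun l => -((a k)⁻¹ * g₀ k (he0 (u k l, j l)) (he1 (u k l, j l)))) i i') atTop
      (𝓝 (bil M (k2cL n j i) (k2cL n j i'))) := by
  have hs : ∀ k, (Real.sqrt (a k))⁻¹ * (Real.sqrt (a k))⁻¹ = (a k)⁻¹ := fun k => by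
    rw [← mul_inv, Real.mul_self_sqrt (ha k).le]
  rcases i with i | ⟨l, s⟩ <;> rcases i' with i' | ⟨l', s'⟩ <;>
    simp only [Pi.add_apply, k2cT, k2cL, k2cD, map_smul, LinearMap.smul_apply, smul_eq_mul, hM.bil_single,
      (hg _).bil_single, add_zero]
  · convert h.cc i i' using 2
    ring
  · rw [hM (.inr (l', dirS (j l') s')) (.inl i), mul_neg]
    refine (h.bc l' s' i).neg.congr fun k => ?_
    rw [bil_swap (g k) (psiV (v k i))]
    ring
  · exact h.bc l s i'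
  · by_cases hl : l = l'
    · subst hl
      have h0 : ∀ (I : Type) (N : I → I → ℝ), Antisym N → ∀ i, N i i = 0 := fun I N hN i => by linarith [hN i i]
      simp only [if_true]
      have hd := h.dg l
      fin_cases s <;> fin_cases s'
      · simp [h0 _ _ (hg _), h0 _ _ hM]
      · refine hd.congr fun k => ?_
        simp only [sgS, heS, Fin.zero_eta, Fin.mk_one, if_true, one_ne_zero, if_false, Nat.cast_one, Nat.cast_zero]
        rw [← hs k]
        ring
      · simp only [Fin.zero_eta, Fin.mk_one]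
        rw [hM (.inr (l, dirS (j l) 0))]
        refine hd.neg.congr fun k => ?_
        simp only [sgS, heS, if_true, one_ne_zero, if_false, Nat.cast_one, Nat.cast_zero]
        rw [hg k (he0 _) (he1 _), ← hs k]
        ring
      · simp [h0 _ _ (hg _), h0 _ _ hM]
    · simp only [if_neg hl, add_zero]
      refine (h.bb l s l' s' hl).congr fun k => ?_
      rw [← hs k]
      ring

theorem k2c_dir (j : Fin 2) : ((starRingEnd ℂ) (dirS j 0) * dirS j 1).im = 1 := by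
  fin_cases j
  · simp [dirS, heS, he0, he1, bA_zero, bA_two]
  · have h : (starRingEnd ℂ) (bA 1) * bA 1 = 1 := by
      rw [Complex.conj_mul', norm_bA]; simp
    have e : (starRingEnd ℂ) (bA 1) * (Complex.I * bA 1) = Complex.I := by
      rw [mul_left_comm, h, mul_one]
    simp only [dirS, heS, he0, he1, Fin.mk_one, if_true, one_ne_zero, if_false, Matrix.cons_val_one,
      Matrix.cons_val_fin_one, bA_three, e, Complex.I_im]

theorem k2c_en {a : ℝ} (ha : 0 < a) {E : Finset Edge} (v : Fin n → Site) {u : Fin m → Site} {j : Fin m → Fin 2}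
    (hw : ∀ l, (u l, j l) ∈ E) (g₀ : HE → HE → ℝ) :
    tc ^ m • gmap (Finsupp.linearCombination ℝ (k2cT a v u j))
      ((∏ l, (k2cE n l + (-(a⁻¹ * g₀ (he0 (u l, j l)) (he1 (u l, j l)))) • 1) : Ev (K2J n m)) : Gr (K2J n m)) =
      a⁻¹ ^ m • (enD (wOf ↑E (spinsOf v)) g₀ (fun l => (u l, j l)) : Gr HE) := by
  have hs : (Real.sqrt a)⁻¹ * (Real.sqrt a)⁻¹ = a⁻¹ := by rw [← mul_inv, Real.mul_self_sqrt ha.le]
  rw [k2c_gmap_prod _ _ (f' := fun l => (a⁻¹ * eray (spinsOf v) (u l, j l)) • eM id (u l, j l) -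
    (a⁻¹ * g₀ (he0 (u l, j l)) (he1 (u l, j l))) • (1 : Ev HE)) fun l => ?_]
  · rw [← Subalgebra.coe_smul, ← Subalgebra.coe_smul]
    congr 1
    have e1 : tc ^ m = ∏ _l : Fin m, tc := by simp
    have e2 : a⁻¹ ^ m = ∏ _l : Fin m, a⁻¹ := by simp
    rw [enD, e1, e2, ← Finset.prod_smul, ← Finset.prod_smul]
    refine Finset.prod_congr rfl fun l _ => ?_
    rw [wOf, if_pos (Finset.mem_coe.2 (hw l)), smul_sub, smul_sub, smul_smul, smul_smul, smul_smul, smul_smul]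
    congr 2 <;> ring
  · simp only [Subalgebra.coe_add, Subalgebra.coe_smul, Subalgebra.coe_sub, OneMemClass.coe_one, k2cE, eM, k2c_coe_th2,
      map_add, map_smul, map_one, map_mul, k2c_gmap_th, k2cT, sgS, heS, if_true, one_ne_zero, if_false, id,
      smul_mul_smul_comm]
    rw [neg_smul, sub_eq_add_neg, mul_one, ← mul_assoc, hs]
    rfl

theorem k2c_enL (j : Fin m → Fin 2) : gmap (Finsupp.linearCombination ℝ (k2cL n j))
    ((∏ l, k2cE n l : Ev (K2J n m)) : Gr (K2J n m)) =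
    ((∏ l : Fin m, th2 (.inr (l, dirS (j l) 0)) (.inr (l, dirS (j l) 1)) : Ev (LI n m)) : Gr (LI n m)) :=
  k2c_gmap_prod _ _ fun l => by
    rw [k2cE, k2c_coe_th2, k2c_coe_th2, map_mul, k2c_gmap_th, k2c_gmap_th]
    rfl

/-- **Wick.** On the finite index set `Fin n ⊕ Fin m × Fin 2` let `T k θ_i = psiV (v i)`, `T k θ_{l,s} = (√a)⁻¹ sgS θ_{heS}`; `N k = bil (g k) (T ·) (T ·)`, `gmap_mu`. The centring:
`Π (tc θθ - c_l) = mu (-d) Π tc θθ` for the block-diagonal kernel `d` (`mu_mul`; or expand both sides), `mu_add`; so the expectation is `gauss (N k - d k)` of a fixed element;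
`gauss_tendsto`; finally `gmap_mu` to `LI n m` and `gauss_dir` (`Im (conj (dirS j 0) * dirS j 1) = 1`). `hw`: the edges are critical. -/
theorem wick_lim (ha : ∀ k, 0 < a k) (hg : ∀ k, Antisym (g k)) {u : ℕ → Fin m → Site} {j : Fin m → Fin 2}
    (hw : ∀ᶠ k in atTop, ∀ l, (u k l, j l) ∈ E k) {M : LI n m → LI n m → ℝ} (hM : Antisym M)
    (hl : ∀ (i : LI n m) (k : Fin m) (b : ℂ), M i (.inr (k, b)) = b.re * M i (.inr (k, 1)) + b.im * M i (.inr (k, Complex.I)))
    (h : EntLim a v g g₀ u j M) :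
    Tendsto (fun k => (a k)⁻¹ ^ m * gauss (g k) (enD (wOf ↑(E k) (spinsOf (v k))) (g₀ k) (fun l => (u k l, j l)) : Gr HE)) atTop
      (𝓝 (tc ^ m * limQ M)) ∧
    Tendsto (fun k => (a k)⁻¹ ^ m * gauss (g k) (spD (v k) * (enD (wOf ↑(E k) (spinsOf (v k))) (g₀ k) (fun l => (u k l, j l)) : Gr HE)))
      atTop (𝓝 (muC ^ n * tc ^ m * limP M)) ∧
    Tendsto (fun k => gauss (g k) (spD (v k))) atTop (𝓝 (muC ^ n * limP0 M)) := by
  have hent := k2c_entries ha hg hM h
  have hdir := gauss_dir hM hl (fun l => dirS (j l) 0) (fun l => dirS (j l) 1)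
  simp only [k2c_dir, Finset.prod_const_one, one_mul] at hdir
  have hsp : ∀ k, gmap (Finsupp.linearCombination ℝ (k2cT (a k) (v k) (u k) j)) (k2cSp n m) = spD (v k) := fun k =>
    k2cSp_gmap _
  have hspL : gmap (Finsupp.linearCombination ℝ (k2cL n j)) (k2cSp n m) = muC ^ n • spL n m := by
    rw [k2cSp_gmap, spL, ← k2c_wedge_smul]
    rfl
  have key : ∀ X ∈ supA (k2cS n (∅ : Finset (Fin m))), Tendsto (fun k => (a k)⁻¹ ^ m * gauss (g k)
      (gmap (Finsupp.linearCombination ℝ (k2cT (a k) (v k) (u k) j)) X *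
        (enD (wOf ↑(E k) (spinsOf (v k))) (g₀ k) (fun l => (u k l, j l)) : Gr HE))) atTop
      (𝓝 (tc ^ m * gauss M (gmap (Finsupp.linearCombination ℝ (k2cL n j)) X *
        ((∏ l : Fin m, th2 (.inr (l, dirS (j l) 0)) (.inr (l, dirS (j l) 1)) : Ev (LI n m)) : Gr (LI n m))))) := by
    intro X hX
    have h1 := (gauss_tendsto hent (X * ((∏ l, k2cE n l : Ev (K2J n m)) : Gr (K2J n m)))).const_mul (tc ^ m)
    rw [k2c_gauss, map_mul, k2c_enL] at h1
    refine h1.congr' (hw.mono fun k hk => ?_)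
    simp only
    rw [k2c_gauss_centre _ _ hX, k2c_gauss, map_mul, ← smul_eq_mul (tc ^ m), ← smul_eq_mul ((a k)⁻¹ ^ m),
      ← (gauss (g k)).map_smul, ← (gauss (g k)).map_smul, ← mul_smul_comm, ← mul_smul_comm, k2c_en (ha k) (v k) hk]
  refine ⟨?_, ?_, ?_⟩
  · have h1 := key 1 (one_mem _)
    simp only [map_one, one_mul] at h1
    rwa [hdir.1] at h1
  · have h1 := key _ (k2cSp_mem n m)
    simp only [hsp] at h1
    rw [hspL, smul_mul_assoc, map_smul, hdir.2, smul_eq_mul] at h1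
    convert h1 using 2
    ring
  · have h1 := gauss_tendsto hent (k2cSp n m)
    rw [k2c_gauss, hspL, map_smul, smul_eq_mul] at h1
    refine h1.congr fun k => ?_
    have h2 := (k2c_centre (k2cD_anti n fun l => -((a k)⁻¹ * g₀ k (he0 (u k l, j l)) (he1 (u k l, j l))))
      (fun i l t hi => ?_) (fun _ _ => rfl) (k2cSp_mem n m) ∅).2
    · simp only [Finset.prod_empty, OneMemClass.coe_one, mul_one] at h2
      rw [gauss_apply, mu_add, h2, ← gauss_apply, k2c_gauss, hsp]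
    · rcases i with i | ⟨l', t'⟩
      · rfl
      · simp only [k2cD]
        rw [if_neg]
        rintro rfl
        exact hi t' rfl

/-! ### owner -/

theorem common_subseq {ι : Type} [Finite ι] (f : ι → ℕ → ℂ)
    (h : ∀ i (ψ : ℕ → ℕ), StrictMono ψ → ∃ (ψ' : ℕ → ℕ) (r : ℂ), StrictMono ψ' ∧ Tendsto (fun k => f i (ψ (ψ' k))) atTop (𝓝 r)) :
    ∃ (ψ : ℕ → ℕ) (r : ι → ℂ), StrictMono ψ ∧ ∀ i, Tendsto (fun k => f i (ψ k)) atTop (𝓝 (r i)) := by
  have key : ∀ s : Finset ι, ∃ ψ : ℕ → ℕ, StrictMono ψ ∧ ∀ i ∈ s, ∃ r, Tendsto (fun k => f i (ψ k)) atTop (𝓝 r) := by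
    intro s
    induction s using Finset.induction_on with
    | empty => exact ⟨id, strictMono_id, by simp⟩
    | insert i s _ ih =>
      obtain ⟨ψ, hψ, hs⟩ := ih
      obtain ⟨ψ', r, hψ', hr⟩ := h i ψ hψ
      refine ⟨ψ ∘ ψ', hψ.comp hψ', fun j hj => ?_⟩
      rcases Finset.mem_insert.1 hj with rfl | hj
      · exact ⟨r, hr⟩
      · obtain ⟨r', hr'⟩ := hs j hj
        exact ⟨r', hr'.comp hψ'.tendsto_atTop⟩
  haveI := Fintype.ofFinite ι
  obtain ⟨ψ, hψ, hs⟩ := key Finset.univ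
  choose r hr using fun i => hs i (Finset.mem_univ i)
  exact ⟨ψ, r, hψ, hr⟩

theorem limK_exists (h : Ctx D x a E ρ v g) (h₀ : Ctx D (![] : Fin 0 → ℂ) a E ρ non g₀) (hyD : ∀ l, y l ∈ D)
    (hxy : Function.Injective (Fin.append x y)) {u : ℕ → Fin m → Site} (hu : ∀ l, PtLim a (fun k => u k l) (y l))
    (j : Fin m → Fin 2) : ∃ (ψ : ℕ → ℕ) (r : Fin m → ℂ) (r' : Fin n → ℂ) (M : LI n m → LI n m → ℝ), StrictMono ψ ∧
      LimK D x y r r' M ∧
      Tendsto (fun k => (a (ψ k))⁻¹ ^ m * gauss (g (ψ k))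
        (enD (wOf ↑(E (ψ k)) (spinsOf (v (ψ k)))) (g₀ (ψ k)) (fun l => (u (ψ k) l, j l)) : Gr HE)) atTop (𝓝 (tc ^ m * limQ M)) ∧
      Tendsto (fun k => (a (ψ k))⁻¹ ^ m * gauss (g (ψ k)) (spD (v (ψ k)) *
        (enD (wOf ↑(E (ψ k)) (spinsOf (v (ψ k)))) (g₀ (ψ k)) (fun l => (u (ψ k) l, j l)) : Gr HE))) atTop
        (𝓝 (muC ^ n * tc ^ m * limP M)) ∧
      Tendsto (fun k => gauss (g (ψ k)) (spD (v (ψ k)))) atTop (𝓝 (muC ^ n * limP0 M)) := by
  have ha := h.appr.pos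
  have ha0 := h.appr.lim
  obtain ⟨ψ, rr, hψ, hrr⟩ := common_subseq (ι := Fin m ⊕ Fin n)
    (Sum.elim (fun l k => ((a k ^ ((n : ℝ) / 2) : ℝ) : ℂ) * rtP (spinsOf (v k)) (u k l))
      fun i k => ((a k ^ (((n : ℝ) - 1) / 2) : ℝ) : ℂ) * rtP ((spinsOf (v k)).erase (v k i)) (v k i + 0)) (by
      rintro (l | i) ψ hψ
      · exact rt_subseq (a := a ∘ ψ) (v := fun k => v (ψ k)) (u := fun k => u (ψ k) l) (fun k => ha _)
          (ha0.comp hψ.tendsto_atTop) h.inj (fun i => (h.lim i).subseq hψ) ((hu l).subseq hψ)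
      · exact rt_subseq_br (a := a ∘ ψ) (v := fun k => v (ψ k)) (fun k => ha _)
          (ha0.comp hψ.tendsto_atTop) h.inj (fun i => (h.lim i).subseq hψ) i 0)
  have h' := h.subseq hψ
  have h₀' := h₀.subseq hψ
  have hu' : ∀ l, PtLim (a ∘ ψ) (fun k => u (ψ k) l) (y l) := fun l => (hu l).subseq hψ
  obtain ⟨M, hM⟩ := limK_exists0 (u := fun k => u (ψ k)) (r := fun l => rr (.inl l)) (r' := fun i => rr (.inr i)) h' h₀' hyD hxy hu'
    (fun l => hrr (.inl l)) fun i => hrr (.inr i)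
  have hE := entLim_of_limK (u := fun k => u (ψ k)) h' h₀' hyD hxy hu' (fun l => hrr (.inl l)) (fun i => hrr (.inr i)) hM j
  refine ⟨ψ, _, _, M, hψ, hM, wick_lim (a := a ∘ ψ) (E := fun k => E (ψ k)) (fun k => ha _) (fun k => (h'.ker k).1.1) ?_ hM.anti
    (hM.lin h.nice hxy h.mem hyD) hE⟩
  rw [eventually_all]
  intro l
  obtain ⟨δ, hδ, hb⟩ := Metric.isOpen_iff.1 (NiceP.isOpen' h.nice) (y l) (hyD l)
  filter_upwards [h'.appr.inn (closedBall (y l) (δ / 2)) (isCompact_closedBall _ _)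
    ((closedBall_subset_ball (by linarith)).trans hb), (hu' l).eventually (closedBall_mem_nhds (y l) (half_pos hδ))] with k hk hk'
  exact hk (u (ψ k) l, j l) hk'

end Crest.Agent.R165.C
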