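import Crest.Agent.R165.C.Asm
import Crest.Agent.R165.C.F1
import Crest.Agent.R165.CW.Main

/-! # R165 block C: the unperturbed critical model (`lam = 0`)
Public statements (FROZEN). The sub-architect splits into CB (kernels), CS (spins), CW (Wu), CE (energies), CF (free).
Recipes: notes165/route.md §C. -/

set_option autoImplicit false
noncomputable section
open Classical Filter Topology Crest.ProbabilityR.IsingModel

namespace Crest.Agent.R165

/-- **free kernel with spins** (block CF; used by D): exists for small mesh, with a geometry-dependent bound -/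
theorem ker_free_spins {D : Set ℂ} (hD : Nice D) {n : ℕ} (hn : Even n) (x : Fin n → ℂ) (hx : Function.Injective x)
    (hxD : ∀ i, x i ∈ D) : ∃ C c a₀ : ℝ, 0 < c ∧ 0 < a₀ ∧ ∀ a, 0 < a → a < a₀ →
      ∃ g, IsKer (wFree (domainSites D a) (spinsOf fun i => meshIndex a (x i))) g ∧ FinRow g ∧
        ∀ (l : ℕ) (i j : HE), 1 ≤ l → (l : ℝ) ≤ c / a → l ≤ supd i.1 j.1 + 1 →
          g i j ^ 2 * (dB (spinsOf fun i => meshIndex a (x i)) l i.1 * dB (spinsOf fun i => meshIndex a (x i)) l j.1) ≤ C ^ 2 :=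
  C.ker_free_spins' hD hn x hx hxD

namespace C

/-- the limit -/
def Fval (D : Set ℂ) (b : BoundaryCondition) (n m : ℕ) (x : Fin n → ℂ) (y : Fin m → ℂ) : ℝ :=
  if h : ∃ F, IsVal D b x y F then h.choose else 0

theorem fval_spec {D : Set ℂ} {n m : ℕ} {x : Fin n → ℂ} {y : Fin m → ℂ} (hD : NiceP D n) (b : BoundaryCondition)
    (hxD : ∀ i, x i ∈ D) (hyD : ∀ k, y k ∈ D) (hxy : Function.Injective (Fin.append x y)) :
    IsVal D b x y (Fval D b n m x y) := by
  have h := exists_isVal hD b hxD hyD hxy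
  rw [Fval, dif_pos h]
  exact h.choose_spec

theorem mesh_eq (a : ℝ) (z : Site) : meshPoint a z = (a : ℂ) * toC z := by
  apply Complex.ext <;> simp [meshPoint, toC]

theorem mesh_mem {a : ℕ → ℝ} (ha : ∀ k, 0 < a k) (ha0 : Tendsto a atTop (𝓝 0)) {D : Set ℂ} (hD : IsOpen D) {z : ℂ}
    (hz : z ∈ D) : ∀ᶠ k in atTop, meshIndex (a k) z ∈ domainSites D (a k) := by
  have h := (ptLim_mesh ha ha0 z).eventually (hD.mem_nhds hz)
  filter_upwards [h] with k hk
  show meshPoint _ _ ∈ D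
  rw [mesh_eq]
  exact hk

theorem append_map {n m : ℕ} (φ : ℂ → ℂ) (x : Fin n → ℂ) (y : Fin m → ℂ) :
    Fin.append (fun i => φ (x i)) (fun k => φ (y k)) = fun i => φ (Fin.append x y i) := by
  funext i
  refine Fin.addCases (fun i => ?_) (fun i => ?_) i <;> simp

theorem append_mem {n m : ℕ} {D : Set ℂ} {x : Fin n → ℂ} {y : Fin m → ℂ} (hx : ∀ i, x i ∈ D) (hy : ∀ k, y k ∈ D) (i) :
    Fin.append x y i ∈ D := by
  refine Fin.addCases (fun i => ?_) (fun i => ?_) i <;> simp [hx, hy]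

end C

/-- **the `lam = 0` theorem** -/
theorem C_main {J : ℝ} (hJ : 0 < J) (R : ℕ) (V : Finset Site → ℝ) :
    ∃ (F : Set ℂ → BoundaryCondition → (n m : ℕ) → (Fin n → ℂ) → (Fin m → ℂ) → ℝ) (C₀ : ℝ), C₀ ≠ 0 ∧
      (∀ D, Nice D → ∀ (b : BoundaryCondition) (n m : ℕ) (x : Fin n → ℂ) (y : Fin m → ℂ) (j : Fin m → Fin 2),
        (b = .plus ∨ (b = .free ∧ Even n)) → (∀ i, x i ∈ D) → (∀ k, y k ∈ D) → Function.Injective (Fin.append x y) →
        Tendsto (fun a : ℝ => a ^ (-((n : ℝ) / 8 + m)) * domainMixedCorr D a b J 0 R V (criticalBeta J) x y j)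
          (𝓝[>] 0) (𝓝 (F D b n m x y))) ∧
      (∀ D D', Nice D → Nice D' → ∀ φ : ℂ → ℂ, DifferentiableOn ℂ φ D → Set.BijOn φ D D' →
        ∀ (b : BoundaryCondition) (n m : ℕ) (x : Fin n → ℂ) (y : Fin m → ℂ),
        (b = .plus ∨ (b = .free ∧ Even n)) → (∀ i, x i ∈ D) → (∀ k, y k ∈ D) → Function.Injective (Fin.append x y) →
        F D b n m x y = (∏ i, ‖deriv φ (x i)‖ ^ ((1 : ℝ) / 8)) * (∏ k, ‖deriv φ (y k)‖) *
          F D' b n m (fun i => φ (x i)) (fun k => φ (y k))) ∧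
      (∀ (n m : ℕ) (x : Fin n → ℂ) (y : Fin m → ℂ) (j : Fin m → Fin 2), Even n → Function.Injective (Fin.append x y) →
        ∀ ε > 0, ∃ a₀ > 0, ∃ K₀ : ℝ, ∀ a, 0 < a → a < a₀ → ∀ K, K₀ ≤ K →
          |a ^ (-((n : ℝ) / 8 + m)) * domainMixedCorr (Metric.ball 0 K) a .plus J 0 R V (criticalBeta J) x y j -
            F Set.univ .plus n m x y| ≤ ε) ∧
      ∀ x y : ℂ, x ≠ y → F Set.univ .plus 2 0 ![x, y] ![] = C₀ * ‖x - y‖ ^ (-(1 : ℝ) / 4) := by
  refine ⟨C.Fval, C.C0, C.C0_pos.ne', ?_, ?_, ?_, ?_⟩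
  · intro D hD b n m x y j hb hx hy hxy
    obtain ⟨a₀, h0, ρ₀, -, hA⟩ := C.appr_nice hD
    refine C.tendsto_of_seq h0 fun a ha ha0 => ?_
    have hf : ∀ k, (domainSites D (a k)).Finite := fun k => hD.sites_finite (ha k).1
    obtain ⟨h1, h2, h3⟩ := hA a ha ha0 hf
    rcases hb with rfl | ⟨rfl, hn⟩
    · exact C.plus_seq (Or.inl hD) hx hy hxy hJ R V j (C.fval_spec (Or.inl hD) _ hx hy hxy) (fun _ => D) hf h1 h3
        fun l => C.mesh_mem (fun k => (ha k).1) ha0 hD.isOpen (hy l)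
    · exact C.free_seq hD hn hx hy hxy hJ R V j (C.fval_spec (Or.inl hD) _ hx hy hxy) hf h2
  · intro D D' hD hD' φ hφ hb b n m x y _ hx hy hxy
    have hxy' : Function.Injective (Fin.append (fun i => φ (x i)) fun k => φ (y k)) := by
      rw [C.append_map]
      exact fun i i' h => hxy (hb.injOn (C.append_mem hx hy i) (C.append_mem hx hy i') h)
    exact C.IsVal.cov hD hD' hφ hb hx hy hxy (C.fval_spec (Or.inl hD) _ hx hy hxy)
      (C.fval_spec (Or.inl hD') _ (fun i => hb.mapsTo (hx i)) (fun i => hb.mapsTo (hy i)) hxy')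
  · intro n m x y j hn hxy ε hε
    by_contra hcon
    push Not at hcon
    obtain ⟨c, -, M₀, hM, hA⟩ := C.appr_disc
    have key : ∀ k : ℕ, ∃ a, 0 < a ∧ a < 1 / ((k : ℝ) + 1) ∧ ∃ K, max M₀ ((k : ℝ) + 1) ≤ K ∧
        ε < |a ^ (-((n : ℝ) / 8 + m)) * domainMixedCorr (Metric.ball 0 K) a .plus J 0 R V (criticalBeta J) x y j -
          C.Fval Set.univ .plus n m x y| := fun k => hcon _ (by positivity) _
    choose a ha0 ha1 K hK hε' using key
    have hal : Tendsto a atTop (𝓝 0) :=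
      squeeze_zero (fun k => (ha0 k).le) (fun k => (ha1 k).le) tendsto_one_div_add_atTop_nhds_zero_nat
    have hK1 : ∀ k : ℕ, (k : ℝ) + 1 ≤ K k := fun k => (le_max_right _ _).trans (hK k)
    have hKl : Tendsto K atTop atTop :=
      tendsto_atTop_mono hK1 (tendsto_atTop_add_const_right _ _ tendsto_natCast_atTop_atTop)
    have hK0 : ∀ k, (1 : ℝ) ≤ K k := fun k => le_trans (by have : (0 : ℝ) ≤ k := Nat.cast_nonneg k; linarith) (hK1 k)
    have hf : ∀ k, (domainSites (Metric.ball 0 (K k)) (a k)).Finite := fun k =>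
      (nice_ball (lt_of_lt_of_le one_pos (hK0 k))).sites_finite (ha0 k)
    have hM' : ∀ k, 0 < a k ∧ M₀ ≤ K k / a k := fun k => ⟨ha0 k, by
      have h1 : a k ≤ 1 := (ha1 k).le.trans (by
        rw [div_le_one (by positivity)]; have : (0 : ℝ) ≤ k := Nat.cast_nonneg k; linarith)
      rw [le_div_iff₀ (ha0 k)]
      have := (le_max_left _ _).trans (hK k)
      nlinarith [ha0 k]⟩
    obtain ⟨h1, h3⟩ := hA a K hM' hal hKl ⟨1, one_pos, hK0⟩ hf
    have hP : NiceP Set.univ n := Or.inr ⟨rfl, hn⟩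
    have hl := C.plus_seq hP (fun _ => trivial) (fun _ => trivial) hxy hJ R V j
      (C.fval_spec hP _ (fun _ => trivial) (fun _ => trivial) hxy) (fun k => Metric.ball 0 (K k)) hf h1 h3 (fun l => by
        filter_upwards [C.mesh_mem ha0 hal Metric.isOpen_ball (Metric.mem_ball_self (x := y l) one_pos),
          hKl.eventually_ge_atTop (‖y l‖ + 1)] with k hk hk'
        simp only [domainSites, Set.mem_ofPred_eq, Metric.mem_ball, dist_zero_right] at hk ⊢
        have := norm_le_insert' (meshPoint (a k) (meshIndex (a k) (y l))) (y l)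
        rw [dist_eq_norm] at hk
        linarith)
    have := (Metric.tendsto_nhds.1 hl ε hε).exists
    obtain ⟨k, hk⟩ := this
    rw [Real.dist_eq] at hk
    exact absurd (hε' k) (not_lt.2 hk.le)
  · intro x y hxy
    have hP : NiceP Set.univ 2 := Or.inr ⟨rfl, by decide⟩
    refine C.isVal_plane2 hxy (C.fval_spec hP _ (fun _ => trivial) (fun _ => trivial) ?_)
    intro i i' h
    fin_cases i <;> fin_cases i' <;> first | rfl | (exfalso; revert h; simp [Fin.append, Fin.addCases, hxy, hxy.symm])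

end Crest.Agent.R165
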