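import Crest.Agent.R165.C.B1

/-! # R165/C: auxiliary lemmas for `step_lim` (helper18) -/

set_option autoImplicit false
noncomputable section
open Classical Filter Topology Metric Crest.ProbabilityR.IsingModel

namespace Crest.Agent.R165.C

theorem s1b_spins_one (c : ℕ → Site) (k : ℕ) : spinsOf (one c k) = {c k} := by
  ext u; simp [spinsOf, one]

theorem s1b_log {a t : ℕ → ℝ} {A : ℝ} (ha : ∀ k, 0 < a k) (ha0 : Tendsto a atTop (𝓝 0)) (ht : Tendsto t atTop (𝓝 A)) :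
    Tendsto (fun k => (a k)⁻¹ * Real.log |1 + a k * t k|) atTop (𝓝 A) := by
  have h1 := (hasDerivAt_iff_isLittleO_nhds_zero.1 (Real.hasDerivAt_log (one_ne_zero (α := ℝ))))
  have hu : Tendsto (fun k => a k * t k) atTop (𝓝 0) := by simpa using ha0.mul ht
  have h2 := h1.comp_tendsto hu
  have h3 : (fun k => a k * t k) =O[atTop] a := by
    have := (Asymptotics.isBigO_refl a atTop).mul (ht.isBigO_one ℝ)
    simpa using this
  have h4 := (h2.trans_isBigO h3).tendsto_div_nhds_zero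
  have h5 := h4.add ht
  rw [zero_add] at h5
  refine h5.congr fun k => ?_
  have := (ha k).ne'
  simp only [Function.comp, Real.log_abs, Real.log_one, inv_one, smul_eq_mul]
  field_simp
  ring

theorem s1b_gF_smul {n : ℕ} (a t : ℝ) (v : Fin n → Site) (s : Fn) (p : Site) : gF a v (t • s) p = t * gF a v s p := by
  have := gF_comb a v t 0 s s p
  simpa using this

theorem s1b_edge_ne {y : Site} (hy : 2 ≤ supd y 0) (α : Fin 4) (j : Fin 2) : edgeOf y α ≠ bondEdge 0 j := by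
  obtain ⟨p, q⟩ := y
  intro h
  have h2 : ¬ supd (p, q) 0 ≤ 1 := by omega
  apply h2
  rw [supd_le]
  fin_cases α <;> fin_cases j <;> simp [edgeOf, bondEdge, Prod.ext_iff] at h ⊢ <;> omega

/-- the difference of the two zero modes solves the equation away from the origin -/
theorem s1b_sol {j : Fin 2} {φ' : Fn} (hφ' : SolOn (flipW (bondEdge 0 j) (wOf Set.univ {0})) Set.univ φ') (c : Site) :
    SolOn (wOf Set.univ {c}) {p | 2 ≤ supd p c} (shift (-c) (φ' - zm)) := by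
  have h1 := solOn_shift_one hφ' c
  have h2 := solOn_shift_one zm_zeroMode.1 c
  simp only [wOf_univ_shift] at h2
  have h3 : SolOn (wOf Set.univ {c}) {p | 2 ≤ supd p c} (shift (-c) φ') := by
    refine solOn_congr ?_ (DU.SolOn.mono h1 (Set.subset_univ _))
    intro p hp α
    have h4 : ((edgeOf p α).1 - c, (edgeOf p α).2) = edgeOf (p - c) α := by
      have := sh_edgeOf (-c) p α
      simpa [sub_eq_add_neg] using this.symm
    have h5 : edgeOf (p - c) α ≠ bondEdge 0 j := s1b_edge_ne (by rw [supd_sub]; exact hp) α j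
    simp only [flipW]
    rw [← wOf_univ_shift c, h4, if_neg h5, one_mul]
  exact DU.SolOn.sub h3 (DU.SolOn.mono h2 (Set.subset_univ _))

theorem s1b_far {a : ℕ → ℝ} (ha : ∀ k, 0 < a k) {c : ℕ → Site} {x₀ : ℂ} (hc : PtLim a c x₀) {K : Set ℂ} (hK : IsCompact K)
    (hKx : x₀ ∉ K) : ∃ t > 0, ∀ᶠ k in atTop, ∀ p, (a k : ℂ) * toC p ∈ K → t ≤ a k * supd p (c k) := by
  obtain ⟨t, ht, hb⟩ := Metric.isOpen_iff.1 hK.isClosed.isOpen_compl x₀ hKx
  refine ⟨t / 3, by positivity, ?_⟩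
  filter_upwards [Metric.tendsto_nhds.1 hc (t / 2) (by positivity)] with k hk p hp
  have h1 : t ≤ dist ((a k : ℂ) * toC p) x₀ := by
    by_contra h
    exact hb (mem_ball.2 (not_le.1 h)) hp
  have h2 := blk_dist (ha k) (mem_box_supd.2 (le_refl (supd p (c k)))) x₀
  linarith

theorem s1b_bulk {a : ℕ → ℝ} (ha : ∀ k, 0 < a k) (ha0 : Tendsto a atTop (𝓝 0)) {c : ℕ → Site} {x₀ : ℂ} (hc : PtLim a c x₀)
    {j : Fin 2} {φ' : Fn} (hφ' : SolOn (flipW (bondEdge 0 j) (wOf Set.univ {0})) Set.univ φ') {C : ℝ}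
    (hb : ∀ p α, |(φ' - zm) (p, α)| * ((supd p 0 : ℝ) + 1) ^ (3 / 2 : ℝ) ≤ C) {U : Set ℂ} (hU : x₀ ∉ U) :
    BulkSeq U a (one c) (fun _ => Set.univ)
      fun k => (a k)⁻¹ • ((Real.sqrt (a k))⁻¹ • shift (-c k) (φ' - zm)) := by
  intro K hK hKU
  obtain ⟨t, ht, hfar⟩ := s1b_far ha hc hK fun h => hU (hKU h)
  refine ⟨C / t ^ (3 / 2 : ℝ), ?_⟩
  filter_upwards [hfar, ha0.eventually (gt_mem_nhds (show 0 < t / 2 by positivity))] with k hk hk2
  have hak := ha k
  refine ⟨fun _ _ _ => Set.mem_univ _, ?_, ?_⟩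
  · rw [s1b_spins_one]
    refine DU.SolOn.smul (DU.SolOn.smul (DU.SolOn.mono (s1b_sol hφ' (c k)) fun p hp => ?_) _) _
    have h1 := hk p hp
    have h2 : (2 : ℝ) < supd p (c k) := by
      by_contra h
      nlinarith [not_lt.1 h]
    have : 2 < supd p (c k) := by exact_mod_cast h2
    exact this.le
  · intro p hp α
    have h1 := hk p hp
    have h2 := hb (p - c k) α
    rw [supd_sub] at h2
    have h3 : t ^ (3 / 2 : ℝ) ≤ (a k * ((supd p (c k) : ℝ) + 1)) ^ (3 / 2 : ℝ) :=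
      Real.rpow_le_rpow ht.le (by nlinarith) (by norm_num)
    rw [Real.mul_rpow hak.le (by positivity)] at h3
    have h4 : a k ^ (3 / 2 : ℝ) = a k * Real.sqrt (a k) := by
      rw [Real.sqrt_eq_rpow, show (3 / 2 : ℝ) = 1 + 1 / 2 by norm_num, Real.rpow_add hak, Real.rpow_one]
    have h5 : 0 < Real.sqrt (a k) := Real.sqrt_pos.2 hak
    have h6 : 0 < t ^ (3 / 2 : ℝ) := Real.rpow_pos_of_pos ht _
    simp only [Pi.smul_apply, smul_eq_mul, shift, abs_mul, abs_inv, abs_of_pos hak, abs_of_pos h5]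
    rw [← sub_eq_add_neg, le_div_iff₀ h6]
    have h7 : 0 ≤ |(φ' - zm) (p - c k, α)| := abs_nonneg _
    calc (a k)⁻¹ * ((√(a k))⁻¹ * |(φ' - zm) (p - c k, α)|) * t ^ (3 / 2 : ℝ)
        ≤ (a k)⁻¹ * ((√(a k))⁻¹ * |(φ' - zm) (p - c k, α)|) *
          (a k ^ (3 / 2 : ℝ) * ((supd p (c k) : ℝ) + 1) ^ (3 / 2 : ℝ)) := by gcongr
      _ = |(φ' - zm) (p - c k, α)| * ((supd p (c k) : ℝ) + 1) ^ (3 / 2 : ℝ) := by rw [h4]; field_simp
      _ ≤ C := h2

theorem s1b_clim {a : ℕ → ℝ} (ha : ∀ k, 0 < a k) (ha0 : Tendsto a atTop (𝓝 0)) {c : ℕ → Site} {x₀ : ℂ} (hc : PtLim a c x₀)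
    {ψ : Fn} {b : ℂ} (hl : Tendsto (fun p => gfld {0} ψ p * toC p) cofinite (𝓝 b)) {U : Set ℂ} (hU : x₀ ∉ U) :
    CLim a U (fun k => gF (a k) (one c k) ((a k)⁻¹ • ((Real.sqrt (a k))⁻¹ • shift (-c k) ψ))) fun z => b / (z - x₀) := by
  intro z hz p hp
  have hzx : z ≠ x₀ := fun h => hU (h ▸ hz)
  have h1 := clim_of_cofinite hl ha0 hc z hzx p hp
  have h2 : Tendsto (fun k => (a k : ℂ) * toC (p k) - a k * toC (c k)) atTop (𝓝 (z - x₀)) := Tendsto.sub hp hc
  have h3 := h1.div h2 (sub_ne_zero.2 hzx)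
  refine h3.congr' ?_
  filter_upwards [h2.eventually_ne (sub_ne_zero.2 hzx)] with k hk
  have hak : (a k : ℂ) ≠ 0 := by exact_mod_cast (ha k).ne'
  have h4 : toC (p k) - toC (c k) ≠ 0 := fun h => hk (by rw [← mul_sub, h, mul_zero])
  rw [s1b_gF_smul]
  have h5 := gF_shift (ha k) (c k) ψ (p k)
  simp only [Pi.div_apply]
  rw [show one c k = fun _ : Fin 1 => c k from rfl, h5, toC_sub, ← mul_sub]
  push_cast
  field_simp

/-- logarithmic derivative of the local root -/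
theorem s1b_deriv {n : ℕ} {x : Fin n → ℂ} (hx : Function.Injective x) (i : Fin n) {δ : ℝ} (hδ : 0 < δ) {R G : ℂ → ℂ}
    (hR : DifferentiableOn ℂ R (ball (x i) δ))
    (hR2 : ∀ z ∈ ball (x i) δ, R z ^ 2 = ∏ k ∈ Finset.univ.erase i, (z - x k) ∧ R z ≠ 0)
    (hG : DifferentiableAt ℂ G (x i)) (hG0 : G (x i) ≠ 0) :
    R (x i) / G (x i) * deriv (fun z => G z / R z) (x i) = 2 * coefA x i G := by
  have hb : ball (x i) δ ∈ 𝓝 (x i) := ball_mem_nhds _ hδ
  have hRd : DifferentiableAt ℂ R (x i) := hR.differentiableAt hb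
  have hR0 := (hR2 _ (mem_ball_self hδ)).2
  have h1 : logDeriv (fun z => R z ^ 2) (x i) = logDeriv (fun z => ∏ k ∈ Finset.univ.erase i, (z - x k)) (x i) := by
    have : (fun z => R z ^ 2) =ᶠ[𝓝 (x i)] fun z => ∏ k ∈ Finset.univ.erase i, (z - x k) := by
      filter_upwards [hb] with z hz using (hR2 z hz).1
    simp only [logDeriv_apply, this.deriv_eq, this.eq_of_nhds]
  rw [logDeriv_fun_pow hRd, logDeriv_prod (fun k hk => sub_ne_zero.2 fun h => (Finset.mem_erase.1 hk).1 (hx h).symm)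
    (fun k _ => by fun_prop)] at h1
  have h2 : ∀ k, logDeriv (fun z => z - x k) (x i) = (x i - x k)⁻¹ := fun k => by
    simp [logDeriv_apply]
  simp only [h2, logDeriv_apply] at h1
  rw [deriv_fun_div hG hRd hR0, coefA, ← h1]
  push_cast
  field_simp

theorem s1b_update {n : ℕ} {v : Fin n → Site} (hv : Function.Injective v) (i : Fin n) {q : Site}
    (hq : Function.Injective (Function.update v i q)) (hqi : q ≠ v i) :
    spinsOf (Function.update v i q) = symmDiff (spinsOf v) {v i, q} := by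
  have hq' : ∀ k, v k ≠ q := fun k h => by
    by_cases hk : k = i
    · exact hqi (by rw [← h, hk])
    · exact hk (hq (by simp [Function.update_of_ne hk, h]))
  ext u
  simp only [spinsOf, Finset.mem_image, Finset.mem_univ, true_and, Finset.mem_symmDiff, Finset.mem_insert,
    Finset.mem_singleton]
  constructor
  · rintro ⟨k, rfl⟩
    by_cases hk : k = i
    · subst hk
      right
      simp only [Function.update_self]
      exact ⟨Or.inr trivial, fun ⟨k', h⟩ => hq' k' h⟩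
    · left
      rw [Function.update_of_ne hk]
      exact ⟨⟨k, rfl⟩, fun h => h.elim (fun h => hk (hv h)) (hq' k)⟩
  · rintro (⟨⟨k, rfl⟩, h⟩ | ⟨h | h, h'⟩)
    · have hk : k ≠ i := fun hk => h (Or.inl (by rw [hk]))
      exact ⟨k, Function.update_of_ne hk _ _⟩
    · exact (h' ⟨i, h.symm⟩).elim
    · exact ⟨i, by simp [h]⟩

variable {D : Set ℂ} {n : ℕ} {x : Fin n → ℂ} {a : ℕ → ℝ} {E : ℕ → Finset Edge} {ρ : ℕ → ℝ} {v : ℕ → Fin n → Site}
  {g : ℕ → HE → HE → ℝ}

theorem s1b_agree {E : Set Edge} {S : Finset Site} {σ : Site → ℝ} {c p : Site} {α : Fin 4} (hE : edgeOf p α ∈ E)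
    (h : σ (edgeOf p α).1 * σ ((edgeOf p α).1 + uv (edgeOf p α).2) * eray S (edgeOf p α) = eray {c} (edgeOf p α)) :
    gaugeW σ (wOf E S) (edgeOf p α) = wOf Set.univ {c} (edgeOf p α) := by
  simp only [gaugeW, wOf, if_pos hE, Set.mem_univ, if_true]
  rw [← h]; ring

theorem s1b_bf (h : Ctx D x a E ρ v g) (i : Fin n) {j : Fin 2} {φ' : Fn}
    (hφ' : SolOn (flipW (bondEdge 0 j) (wOf Set.univ {0})) Set.univ φ') {C : ℝ}
    (hb : ∀ p α, |(φ' - zm) (p, α)| * ((supd p 0 : ℝ) + 1) ^ (3 / 2 : ℝ) ≤ C)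
    (hl : Tendsto (fun p => gfld {0} (φ' - zm) p * toC p) cofinite (𝓝 (Complex.I * zth * Complex.I ^ (j : ℕ) / 2)))
    (d : Site) (α : Fin 4) {r' : ℂ}
    (hr : Tendsto (fun k => ((a k ^ (((n : ℝ) - 1) / 2) : ℝ) : ℂ) * rtP ((spinsOf (v k)).erase (v k i)) (v k i + d)) atTop (𝓝 r'))
    {G : ℂ → ℂ} (hG : RHbr D x i G) : ∃ (σ : ℕ → Site → ℝ) (R₀ : ℝ), (∀ k, IsSign (σ k)) ∧
      (∀ᶠ k in atTop, 2 ≤ ⌊R₀ / a k⌋₊ ∧
        AgreeOn (gaugeW (σ k) (wOf ↑(E k) (spinsOf (v k)))) (wOf Set.univ {v k i}) (box (v k i) ⌊R₀ / a k⌋₊)) ∧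
      Tendsto (fun k => (a k)⁻¹ * bform (wOf Set.univ {v k i}) (bI (v k i) ⌊R₀ / a k⌋₊) (shift (-v k i) (φ' - zm))
        (gaugeK (σ k) (g k) (v k i + d, α))) atTop (𝓝 (-zm (d, α) * (coefA x i G * Complex.I ^ (j : ℕ)).re)) := by
  have ha := h.appr.pos
  have ha0 := h.appr.lim
  have hDo := NiceP.isOpen' h.nice
  obtain ⟨G₁, hG₁, hG₁r, hc2⟩ := cb2 h i d hr
  rw [(rhbr_unique h.nice h.inj h.mem hG hG₁).2]
  obtain ⟨δ, hδ, R, σ, hδx, hRd, hR2, hσ, hσe, hRl, -⟩ := loc_branch ha ha0 h.inj h.lim i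
  obtain ⟨δ₁, hδ₁, hδD⟩ := Metric.isOpen_iff.1 hDo (x i) (h.mem i)
  obtain ⟨R₀, hR₀, hR₁, hR₂⟩ : ∃ R₀ : ℝ, 0 < R₀ ∧ 4 * R₀ ≤ δ ∧ 4 * R₀ ≤ δ₁ :=
    ⟨min δ δ₁ / 4, by positivity, by linarith [min_le_left δ δ₁], by linarith [min_le_right δ δ₁]⟩
  have hcl : closedBall (x i) (2 * R₀) ⊆ D := (closedBall_subset_ball (by linarith)).trans hδD
  have hag : ∀ᶠ k in atTop, ∀ p, dist ((a k : ℂ) * toC p) (x i) ≤ 2 * R₀ → ∀ β,
      gaugeW (σ k) (wOf ↑(E k) (spinsOf (v k))) (edgeOf p β) = wOf Set.univ {v k i} (edgeOf p β) := by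
    filter_upwards [hσe, appr_crit hDo h.appr (isCompact_closedBall (x i) (2 * R₀)) hcl,
      ha0.eventually (gt_mem_nhds hR₀)] with k h1 h2 h3 p hp β
    refine s1b_agree (h2 p hp β) (h1 _ ?_)
    have := blk_dist (ha k) (edgeOf_fst_mem_box p β) (x i)
    push_cast at this
    linarith
  have hU : ball (x i) (2 * R₀) \ {x i} ⊆ ball (x i) δ \ {x i} :=
    Set.sdiff_subset_sdiff_left (ball_subset_ball (by linarith))
  have hUD : ball (x i) (2 * R₀) \ {x i} ⊆ D \ Set.range x := by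
    rintro z ⟨hz, hz'⟩
    refine ⟨hcl (ball_subset_closedBall hz), ?_⟩
    rintro ⟨k, rfl⟩
    by_cases hk : k = i
    · exact hz' (by rw [hk]; rfl)
    · exact hδx k hk (ball_subset_ball (by linarith) hz)
  have hu : PtLim a (fun k => v k i + d) (x i) := (h.lim i).add_const ha0 d
  have hrow := row_bulkSeq h hu (N := fun k => (Real.sqrt (a k))⁻¹) (Or.inr fun _ => rfl) α
  set κ : ℝ := lam0 * zm (d, α) / zth with hκ
  set s : ℕ → Fn := fun k => gaugeF (σ k) ((Real.sqrt (a k))⁻¹ • g k (v k i + d, α)) with hs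
  have hxU : ∀ i' : Fin 1, (fun _ => x i) i' ∉ ball (x i) (2 * R₀) \ {x i} := fun _ hh => hh.2 rfl
  have hs1 : BulkSeq (ball (x i) (2 * R₀) \ {x i}) a (one fun k => v k i) (fun _ => Set.univ) s := by
    intro K hK hKU
    obtain ⟨C', hC'⟩ := hrow K hK fun z hz => ⟨(hUD (hKU hz)).1, by
      rintro (h1 | h1)
      · exact (hUD (hKU hz)).2 h1
      · exact (hKU hz).2 h1⟩
    refine ⟨C', ?_⟩
    filter_upwards [hC', hag] with k hk hk'
    refine ⟨fun _ _ _ => Set.mem_univ _, ?_, fun p hp β => ?_⟩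
    · rw [s1b_spins_one]
      exact SolOn.gauge (hσ k) hk.2.1 fun p hp β => (hk' p (le_of_lt (hKU hp).1) β).symm
    · rw [hs]; simp only []; rw [abs_gaugeF (hσ k)]; exact hk.2.2 p hp β
  have hs2 : CLim a (ball (x i) (2 * R₀) \ {x i}) (fun k => gF (a k) (one (fun k => v k i) k) (s k))
      fun z => (κ : ℂ) * G₁ z / R z := by
    intro z hz p hp
    have hRz := (hR2 z (hU hz).1).2
    have h1 := hc2 α z (hUD hz) p hp
    have h2 := hRl z (hU hz).1 p hp
    refine (h1.div h2 hRz).congr' ?_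
    filter_upwards [eventually_inj h.inj h.lim, h2.eventually_ne hRz] with k hk hne
    have hak := ha k
    have h3 : ((a k ^ ((n : ℝ) / 2) : ℝ) : ℂ) = ((a k ^ (((1 : ℕ) : ℝ) / 2) : ℝ) : ℂ) * ((a k ^ (((n : ℝ) - 1) / 2) : ℝ) : ℂ) := by
      rw [← Complex.ofReal_mul, ← Real.rpow_add hak]; congr 2; push_cast; ring
    have h4 : (σ k (p k) : ℂ) * σ k (p k) = 1 := by exact_mod_cast (hσ k).mul_self (p k)
    have h5 : ∏ u ∈ spinsOf (v k), rt (pos (p k) - toC u) =
        rt (pos (p k) - toC (v k i)) * rtP ((spinsOf (v k)).erase (v k i)) (p k) :=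
      (Finset.mul_prod_erase _ _ (Finset.mem_image_of_mem _ (Finset.mem_univ i))).symm
    simp only [Pi.div_apply]
    rw [div_eq_iff hne]
    simp only [gF, gfld, s1b_spins_one, Finset.prod_singleton, hs, fld_gauge, h5, h3]
    linear_combination (-(((a k ^ (((1 : ℕ) : ℝ) / 2) : ℝ) : ℂ) * ((a k ^ (((n : ℝ) - 1) / 2) : ℝ) : ℂ) *
      fld ((√(a k))⁻¹ • g k (v k i + d, α)) (p k) * rt (pos (p k) - toC (v k i)) *
        rtP ((spinsOf (v k)).erase (v k i)) (p k))) * h4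
  have ht1 := s1b_bulk ha ha0 (h.lim i) hφ' hb (U := ball (x i) (2 * R₀) \ {x i}) fun hh => hh.2 rfl
  have ht2 := s1b_clim ha ha0 (h.lim i) hl (U := ball (x i) (2 * R₀) \ {x i}) fun hh => hh.2 rfl
  have hinj : ∀ᶠ k in atTop, Function.Injective (one (fun k => v k i) k) :=
    Eventually.of_forall fun k => Function.injective_of_subsingleton _
  have hlim1 : ∀ i' : Fin 1, PtLim a (fun k => one (fun k => v k i) k i') ((fun _ => x i) i') := fun _ => h.lim i
  have hP := clim_fld_mul ha ha0 hinj hlim1 hxU ht2 hs2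
  have hG₁d : DifferentiableOn ℂ G₁ D := by simpa using hG₁.1.hol
  set b : ℂ := Complex.I * zth * Complex.I ^ (j : ℕ) / 2 with hbb
  have hΨ : DifferentiableOn ℂ (fun z => b * κ * (G₁ z / R z)) (ball (x i) (2 * R₀)) :=
    (((hG₁d.mono (ball_subset_closedBall.trans hcl)).div (hRd.mono (ball_subset_ball (by linarith)))
      fun z hz => (hR2 z (ball_subset_ball (by linarith) hz)).2).const_mul _)
  have hB := bform_lim ha ha0 hinj hlim1 (h.lim i) hR₀ hxU ht1 hs1 hΨ (fun z hz p hp => by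
    have := hP z hz p hp
    convert this using 2
    have hz' : z - x i ≠ 0 := sub_ne_zero.2 hz.2
    simp only [rhoX, Finset.univ_unique, Finset.prod_singleton]
    field_simp)
  -- the sign
  have hr0 : r' ≠ 0 := by
    intro h0
    have := hG₁.2.2
    rw [cSq, hG₁r, h0] at this
    simp at this
  have hε : Tendsto (fun k => (σ k (v k i + d) : ℂ)) atTop (𝓝 (R (x i) / r')) := by
    refine ((hRl (x i) (mem_ball_self hδ) _ hu).div hr hr0).congr' ?_
    filter_upwards [hr.eventually_ne hr0] with k hk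
    simp only [Pi.div_apply]
    rw [div_eq_iff hk]; ring
  have hεim : (R (x i) / r').im = 0 := by
    have h1 := (Complex.continuous_im.tendsto _).comp hε
    have h2 : (Complex.im ∘ fun k => (σ k (v k i + d) : ℂ)) = fun _ => 0 := by funext k; simp
    rw [h2] at h1
    exact (tendsto_nhds_unique tendsto_const_nhds h1).symm
  have hεre : Tendsto (fun k => σ k (v k i + d)) atTop (𝓝 (R (x i) / r').re) := by
    simpa [Function.comp_def] using (Complex.continuous_re.tendsto _).comp hε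
  refine ⟨σ, R₀, hσ, ?_, ?_⟩
  · filter_upwards [hag, ha0.eventually (gt_mem_nhds (show 0 < R₀ / 2 by positivity)),
      Metric.tendsto_nhds.1 (h.lim i) (R₀ / 2) (by positivity)] with k h1 h2 h3
    have hak := ha k
    refine ⟨Nat.le_floor (by rw [le_div_iff₀ hak]; push_cast; linarith), fun p hp β => h1 p ?_ β⟩
    have h4 := blk_dist hak (Finset.mem_coe.1 hp) (x i)
    have h5 : (⌊R₀ / a k⌋₊ : ℝ) ≤ R₀ / a k := Nat.floor_le (by positivity)
    rw [le_div_iff₀ hak] at h5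
    linarith
  · have h1 := hεre.mul hB
    have hd := s1b_deriv h.inj i hδ hRd hR2 (hG₁d.differentiableAt (hDo.mem_nhds (h.mem i))) (hG₁r ▸ hr0)
    rw [hG₁r] at hd
    convert h1 using 2 with k
    · have hak := ha k
      have h5 : 0 < Real.sqrt (a k) := Real.sqrt_pos.2 hak
      have h6 : gaugeK (σ k) (g k) (v k i + d, α) = (σ k (v k i + d) * Real.sqrt (a k)) • s k := by
        funext q
        simp only [hs, gaugeK, gaugeF, Pi.smul_apply, smul_eq_mul]
        field_simp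
      have h7 := bform_smul (wOf Set.univ {v k i}) (v k i) ⌊R₀ / a k⌋₊ ((a k)⁻¹ * (Real.sqrt (a k))⁻¹) 1
        (shift (-v k i) (φ' - zm)) (s k)
      have h8 := bform_smul (wOf Set.univ {v k i}) (v k i) ⌊R₀ / a k⌋₊ 1 (σ k (v k i + d) * Real.sqrt (a k))
        (shift (-v k i) (φ' - zm)) (s k)
      rw [one_smul] at h7 h8
      rw [s1b_spins_one, smul_smul, h7, h6, h8]
      have h9 : Real.sqrt (a k) * Real.sqrt (a k) = a k := Real.mul_self_sqrt hak.le
      have h10 : (a k)⁻¹ * Real.sqrt (a k) = a k * ((a k)⁻¹ * (Real.sqrt (a k))⁻¹) := by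
        rw [← mul_assoc, mul_inv_cancel₀ hak.ne', one_mul, inv_mul_eq_div, div_eq_iff hak.ne', inv_mul_eq_div,
          eq_div_iff h5.ne', h9]
      linear_combination (σ k (v k i + d) * bform (wOf Set.univ {v k i}) (bI (v k i) ⌊R₀ / a k⌋₊)
        (shift (-v k i) (φ' - zm)) (s k)) * h10
    · rw [deriv_const_mul_field]
      have h2 : (R (x i) / r').re * (2 * Real.pi * tc * (b * κ * deriv (fun z => G₁ z / R z) (x i)).im) =
          2 * Real.pi * tc * (b * κ * (R (x i) / r' * deriv (fun z => G₁ z / R z) (x i))).im := by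
        have : b * κ * (R (x i) / r' * deriv (fun z => G₁ z / R z) (x i)) =
            R (x i) / r' * (b * κ * deriv (fun z => G₁ z / R z) (x i)) := by ring
        rw [this, Complex.mul_im (R (x i) / r'), hεim]; ring
      rw [h2, hd]
      have h3 : b * κ * (2 * coefA x i G₁) = Complex.I * (((zth * κ : ℝ) : ℂ) * (coefA x i G₁ * Complex.I ^ (j : ℕ))) := by
        rw [hbb]; push_cast; ring
      rw [h3, Complex.I_mul_im, Complex.re_ofReal_mul, hκ, lam0]
      have := zth_ne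
      have := tc_pos.1.ne'
      have := Real.pi_ne_zero
      field_simp

end Crest.Agent.R165.C
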