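import Crest.Agent.R165.C.S1

/-! # R165/C: macroscopic moves of one spin (block C, owner helper83; statements FROZEN, add lemmas freely inside the namespace) -/

set_option autoImplicit false
noncomputable section
open Classical Filter Topology Metric Crest.ProbabilityR.IsingModel

namespace Crest.Agent.R165.C

variable {D D' : Set ℂ} {n : ℕ} {x : Fin n → ℂ}

/-! ### task S2a -/

theorem RatLim.unique (hD : NiceP D n) {i : Fin n} {z : ℂ} {L L' : ℝ} (h : RatLim D x i z L) (h' : RatLim D x i z L') : L = L' := by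
  obtain ⟨a, E, ρ, hE⟩ := exists_appr hD
  have hv := fun j => ptLim_mesh hE.pos hE.lim (x j)
  have hp := ptLim_mesh hE.pos hE.lim z
  exact tendsto_nhds_unique (h a E ρ (fun k j => meshIndex (a k) (x j)) _ hE hv hp)
    (h' a E ρ (fun k j => meshIndex (a k) (x j)) _ hE hv hp)

theorem SpinLim.unique (hD : NiceP D n) {F F' : ℝ} (h : SpinLim D x F) (h' : SpinLim D x F') : F = F' := by
  obtain ⟨a, E, ρ, hE⟩ := exists_appr hD
  have hv := fun j => ptLim_mesh hE.pos hE.lim (x j)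
  exact tendsto_nhds_unique (h a E ρ (fun k j => meshIndex (a k) (x j)) hE hv) (h' a E ρ (fun k j => meshIndex (a k) (x j)) hE hv)

theorem s2a_upd (hx : Function.Injective x) (hxD : ∀ i, x i ∈ D) {i : Fin n} {z : ℂ} (hz : z ∈ D \ (x '' {i}ᶜ)) :
    Function.Injective (Function.update x i z) ∧ ∀ j, Function.update x i z j ∈ D := by
  refine ⟨fun j j' h => ?_, fun j => ?_⟩
  · by_cases h1 : j = i <;> by_cases h2 : j' = i
    · rw [h1, h2]
    · rw [h1, Function.update_self, Function.update_of_ne h2] at h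
      exact absurd ⟨j', h2, h.symm⟩ hz.2
    · rw [h2, Function.update_self, Function.update_of_ne h1] at h
      exact absurd ⟨j, h1, h⟩ hz.2
    · rw [Function.update_of_ne h1, Function.update_of_ne h2] at h
      exact hx h
  · by_cases h1 : j = i
    · rw [h1, Function.update_self]; exact hz.1
    · rw [Function.update_of_ne h1]; exact hxD j

theorem s2a_ptLim {a : ℕ → ℝ} {v : ℕ → Fin n → Site} (hv : ∀ j, PtLim a (fun k => v k j) (x j)) (i : Fin n) {p : ℕ → Site}
    {z : ℂ} (hp : PtLim a p z) (j : Fin n) : PtLim a (fun k => Function.update (v k) i (p k) j) (Function.update x i z j) := by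
  by_cases h1 : j = i
  · simpa only [h1, Function.update_self] using hp
  · simpa only [Function.update_of_ne h1] using hv j

theorem s2a_clm (c : ℂ) : Complex.reCLM.smulRight (c * Complex.I ^ ((0 : Fin 2) : ℕ)).re +
    Complex.imCLM.smulRight (c * Complex.I ^ ((1 : Fin 2) : ℕ)).re =
    Complex.reCLM.comp (c • ContinuousLinearMap.id ℝ ℂ : ℂ →L[ℝ] ℂ) := by
  ext w
  simp
  ring

/-- `U = D \ (x '' {i}ᶜ)` is open and connected (`NiceP.preconnected_diff`). `𝒜 z = coefA (update x i z) i (choose exists_rhbr)` (`rhbr_unique`: independent of the choice).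
For each approximation and each `v`, `L k p = log rho0 (E k) (spinsOf (update (v k) i p))`, `step_lim` for `update (v k) i (p k)` is the hypothesis of `int_lemma`.
Take `Λ` from one approximation (`exists_appr`, `ptLim_mesh`); the `Λ'` of another one has the same derivative on `U`, so the same differences. -/
theorem rat_main (hD : NiceP D n) (hx : Function.Injective x) (hxD : ∀ i, x i ∈ D) (i : Fin n) :
    ∃ Λ : ℂ → ℝ, ∀ z ∈ D, (∀ k, k ≠ i → z ≠ x k) → RatLim D x i z (Λ z - Λ (x i)) ∧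
      (∃ G, RHbr D (Function.update x i z) i G) ∧ ∀ G, RHbr D (Function.update x i z) i G →
        HasFDerivAt Λ (Complex.reCLM.comp (coefA (Function.update x i z) i G • ContinuousLinearMap.id ℝ ℂ : ℂ →L[ℝ] ℂ)) z := by
  obtain ⟨hU, hc⟩ := hD.preconnected_diff (x '' {i}ᶜ) (Set.toFinite _)
  set U := D \ (x '' {i}ᶜ) with hUd
  have hex : ∀ z, ∃ G, z ∈ U → RHbr D (Function.update x i z) i G := fun z => by
    by_cases hz : z ∈ U
    · obtain ⟨G, hG⟩ := exists_rhbr hD (s2a_upd hx hxD hz).1 (s2a_upd hx hxD hz).2 i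
      exact ⟨G, fun _ => hG⟩
    · exact ⟨0, fun h => absurd h hz⟩
  choose G hG using hex
  have hi : x i ∈ U := ⟨hxD i, fun ⟨j, hj, e⟩ => hj (hx e)⟩
  have key : ∀ (a : ℕ → ℝ) (E : ℕ → Finset Edge) (ρ : ℕ → ℝ) (v : ℕ → Fin n → Site), Appr D a E ρ →
      (∀ j, PtLim a (fun k => v k j) (x j)) → ∃ Λ : ℂ → ℝ, (∀ z ∈ U, HasFDerivAt Λ
        (Complex.reCLM.comp (coefA (Function.update x i z) i (G z) • ContinuousLinearMap.id ℝ ℂ : ℂ →L[ℝ] ℂ)) z) ∧
      ∀ z ∈ U, ∀ p, PtLim a p z → Tendsto (fun k => Real.log (rho0 (E k) (spinsOf (Function.update (v k) i (p k)))) -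
        Real.log (rho0 (E k) (spinsOf (v k)))) atTop (𝓝 (Λ z - Λ (x i))) := by
    intro a E ρ v hE hv
    obtain ⟨Λ, h1, h2⟩ := int_lemma hU hc hE.pos hE.lim (fun k p => Real.log (rho0 (E k) (spinsOf (Function.update (v k) i p))))
      (fun j z => (coefA (Function.update x i z) i (G z) * Complex.I ^ (j : ℕ)).re) (fun j z hz p hp => by
        have := step_lim hD (s2a_upd hx hxD hz).1 (s2a_upd hx hxD hz).2 hE (s2a_ptLim hv i hp) i (hG z hz) j
        simpa only [Function.update_idem, Function.update_self] using this)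
    refine ⟨Λ, fun z hz => s2a_clm _ ▸ h1 z hz, fun z hz p hp => ?_⟩
    simpa only [Function.update_eq_self] using h2 (x i) hi z hz _ p (hv i) hp
  obtain ⟨a₀, E₀, ρ₀, hE₀⟩ := exists_appr hD
  obtain ⟨Λ, hΛ, -⟩ := key a₀ E₀ ρ₀ (fun k j => meshIndex (a₀ k) (x j)) hE₀ fun j => ptLim_mesh hE₀.pos hE₀.lim (x j)
  refine ⟨Λ, fun z hz hzx => ?_⟩
  have hzU : z ∈ U := ⟨hz, fun ⟨j, hj, e⟩ => hzx j hj e.symm⟩
  refine ⟨fun a E ρ v p hE hv hp => ?_, ⟨G z, hG z hzU⟩, fun G' hG' => ?_⟩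
  · obtain ⟨Λ', h1, h2⟩ := key a E ρ v hE hv
    have h3 : ∀ w ∈ U, HasFDerivAt (Λ - Λ') (0 : ℂ →L[ℝ] ℝ) w := fun w hw => by
      simpa only [sub_self] using (hΛ w hw).sub (h1 w hw)
    have h4 := hU.is_const_of_fderiv_eq_zero (𝕜 := ℝ) hc (fun w hw => (h3 w hw).differentiableAt.differentiableWithinAt)
      (fun w hw => (h3 w hw).fderiv) hzU hi
    simp only [Pi.sub_apply] at h4
    rw [show Λ z - Λ (x i) = Λ' z - Λ' (x i) by linarith]
    exact h2 z hzU p hp
  · rw [(rhbr_unique hD (s2a_upd hx hxD hzU).1 (s2a_upd hx hxD hzU).2 hG' (hG z hzU)).2]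
    exact hΛ z hzU

/-- for `v' → update x i z` take `v = update v' i (meshIndex a (x i))`, `p = v' i`; `rho0_pos` -/
theorem spin_move {F L : ℝ} {i : Fin n} {z : ℂ} (h : SpinLim D x F) (hr : RatLim D x i z L) :
    SpinLim D (Function.update x i z) (F * Real.exp L) := by
  intro a E ρ v hE hv
  have hv' : ∀ j, PtLim a (fun k => Function.update (v k) i (meshIndex (a k) (x i)) j) (x j) := fun j => by
    simpa only [Function.update_idem, Function.update_eq_self] using s2a_ptLim hv i (ptLim_mesh hE.pos hE.lim (x i)) j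
  have hp : PtLim a (fun k => v k i) z := by simpa only [Function.update_self] using hv i
  have h1 := h a E ρ _ hE hv'
  have h2 := hr a E ρ _ _ hE hv' hp
  simp only [Function.update_idem, Function.update_eq_self] at h2
  refine (h1.mul ((Real.continuous_exp.tendsto L).comp h2)).congr fun k => ?_
  have p1 := rho0_pos (hE.reg k) (spinsOf (v k))
  have p2 := rho0_pos (hE.reg k) (spinsOf (Function.update (v k) i (meshIndex (a k) (x i))))
  simp only [Function.comp]
  rw [Real.exp_sub, Real.exp_log p1, Real.exp_log p2]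
  field_simp

theorem SpinLim.perm {F : ℝ} (h : SpinLim D x F) (π : Equiv.Perm (Fin n)) : SpinLim D (x ∘ π) F := by
  intro a E ρ v hE hv
  have h1 := h a E ρ (fun k => v k ∘ π.symm) hE fun j => by
    simpa only [Function.comp, Equiv.apply_symm_apply] using hv (π.symm j)
  refine h1.congr fun k => ?_
  have : spinsOf (v k ∘ π.symm) = spinsOf (v k) := by
    rw [spinsOf, spinsOf, ← Finset.image_image, Finset.image_univ_equiv]
  rw [this]

theorem spinLim_zero (D : Set ℂ) (x : Fin 0 → ℂ) : SpinLim D x 1 := by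
  intro a E ρ v hE hv
  refine tendsto_const_nhds.congr fun k => ?_
  have : spinsOf (v k) = ∅ := by simp [spinsOf]
  rw [this, rho0_empty]
  simp

/-! ### task S2b -/

theorem s2b_const {U : Set ℂ} (hU : IsOpen U) (hc : IsPreconnected U) {u : ℂ → ℝ}
    (h : ∀ w ∈ U, HasFDerivAt u (reM 0) w) {z w : ℂ} (hz : z ∈ U) (hw : w ∈ U) : u z = u w := by
  refine hU.is_const_of_fderiv_eq_zero (𝕜 := ℝ) hc (fun p hp => (h p hp).differentiableAt.differentiableWithinAt)
    (fun p hp => ?_) hz hw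
  rw [(h p hp).fderiv]
  ext v; simp [reM_apply]

theorem s2b_inj (hx : Function.Injective x) {i : Fin n} {w : ℂ} (hw : ∀ k, k ≠ i → w ≠ x k) :
    Function.Injective (Function.update x i w) := by
  intro k l h
  by_cases hk : k = i <;> by_cases hl : l = i
  · rw [hk, hl]
  · subst hk
    rw [Function.update_self, Function.update_of_ne hl] at h
    exact absurd h (hw l hl)
  · subst hl
    rw [Function.update_self, Function.update_of_ne hk] at h
    exact absurd h.symm (hw k hk)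
  · rw [Function.update_of_ne hk, Function.update_of_ne hl] at h
    exact hx h

theorem s2b_mem {i : Fin n} {w : ℂ} : w ∈ D \ (x '' {i}ᶜ) ↔ w ∈ D ∧ ∀ k, k ≠ i → w ≠ x k := by
  refine and_congr Iff.rfl ⟨fun h k hk e => h ⟨k, hk, e.symm⟩, fun h ⟨k, hk, e⟩ => h k hk e.symm⟩

theorem s2b_lin {u v t : ℂ → ℝ} {a b c w : ℂ} {r : ℝ} (hu : HasFDerivAt u (reM a) w) (hv : HasFDerivAt v (reM b) w)
    (ht : HasFDerivAt t (reM c) w) (e : a - b - r * c = 0) :
    HasFDerivAt (fun p => u p - v p - r * t p) (reM 0) w := by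
  refine ((hu.sub hv).sub (ht.const_mul r)).congr_fderiv ?_
  rw [← e]
  ext; simp [reM_apply]; ring

/-- `Λ - Λ' ∘ φ - (1/8) log ‖φ'‖` has zero derivative on the connected set `D \ (x '' {i}ᶜ)` (`coefA_pullback`, `CA.Gd.log_norm`) -/
theorem rat_cov (hD : Nice D) (hD' : Nice D') {φ : ℂ → ℂ} (hφ : DifferentiableOn ℂ φ D) (hb : Set.BijOn φ D D')
    (hx : Function.Injective x) (hxD : ∀ i, x i ∈ D) {i : Fin n} {z : ℂ} (hz : z ∈ D) (hzx : ∀ k, k ≠ i → z ≠ x k) {L L' : ℝ}
    (h : RatLim D x i z L) (h' : RatLim D' (fun i => φ (x i)) i (φ z) L') :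
    L = L' + (Real.log ‖deriv φ z‖ - Real.log ‖deriv φ (x i)‖) / 8 := by
  have hx' : Function.Injective fun i => φ (x i) := fun k l e => hx (hb.injOn (hxD k) (hxD l) e)
  have hxD' : ∀ k, φ (x k) ∈ D' := fun k => hb.mapsTo (hxD k)
  obtain ⟨Λ, hΛ⟩ := rat_main (D := D) (Or.inl hD) hx hxD i
  obtain ⟨Λ', hΛ'⟩ := rat_main (D := D') (x := fun i => φ (x i)) (Or.inl hD') hx' hxD' i
  have hne : ∀ w ∈ D, (∀ k, k ≠ i → w ≠ x k) → ∀ k, k ≠ i → φ w ≠ φ (x k) := fun w hw h k hk e =>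
    h k hk (hb.injOn hw (hxD k) e)
  have e1 := RatLim.unique (Or.inl hD) h (hΛ z hz hzx).1
  have e2 := RatLim.unique (Or.inl hD') h' (hΛ' (φ z) (hb.mapsTo hz) (hne z hz hzx)).1
  obtain ⟨hU, hc⟩ := NiceP.preconnected_diff (D := D) (n := n) (Or.inl hD) (x '' {i}ᶜ) (Set.toFinite _)
  have h0 : ∀ w ∈ D, deriv φ w ≠ 0 := fun w hw => Lib.RMT.deriv_ne_zero_of_injOn hD.isOpen hφ hb.injOn hw
  have hlog := Gd.log_norm hD.isOpen (hφ.deriv hD.isOpen) h0
  have key := s2b_const hU hc (u := fun p => Λ p - Λ' (φ p) - (1 / 8 : ℝ) * Real.log ‖deriv φ p‖) (fun w hw => ?_)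
    (s2b_mem.2 ⟨hz, hzx⟩) (s2b_mem.2 ⟨hxD i, fun k hk e => hk (hx e).symm⟩)
  · rw [e1, e2]
    beta_reduce at key ⊢
    linarith
  obtain ⟨hwD, hw⟩ := s2b_mem.1 hw
  obtain ⟨-, ⟨G, hG⟩, h1⟩ := hΛ w hwD hw
  obtain ⟨-, ⟨G', hG'⟩, h2⟩ := hΛ' (φ w) (hb.mapsTo hwD) (hne w hwD hw)
  have eu : (fun k => φ (Function.update x i w k)) = Function.update (fun k => φ (x k)) i (φ w) := by
    funext k
    by_cases hk : k = i
    · subst hk; simp
    · simp [Function.update_of_ne hk]
  have hp := coefA_pullback hD hD' hφ hb (s2b_inj hx hw) (i := i) (fun k => ?_) hG (eu ▸ hG')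
  · rw [eu, Function.update_self] at hp
    refine s2b_lin (h1 G hG) (hasF_comp (h2 G' hG') (hφ.differentiableAt (hD.isOpen.mem_nhds hwD)).hasDerivAt)
      (hlog.2 w hwD) ?_
    rw [hp]
    have := h0 w hwD
    push_cast
    field_simp
    ring
  · by_cases hk : k = i
    · subst hk; simpa using hwD
    · simpa [Function.update_of_ne hk] using hxD k

/-- `coefA_plane` -/
theorem rat_plane {x : Fin 2 → ℂ} (hx : Function.Injective x) {z : ℂ} (hz : z ≠ x 1) :
    RatLim Set.univ x 0 z (-(Real.log ‖z - x 1‖ - Real.log ‖x 0 - x 1‖) / 4) := by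
  have hP : NiceP Set.univ 2 := Or.inr ⟨rfl, even_two⟩
  obtain ⟨Λ, hΛ⟩ := rat_main hP hx (fun _ => Set.mem_univ _) 0
  have hk : ∀ {w : ℂ}, w ≠ x 1 ↔ ∀ k : Fin 2, k ≠ 0 → w ≠ x k := fun {w} =>
    ⟨fun h k hk => by
      have : k = 1 := by fin_cases k <;> simp_all
      rw [this]; exact h, fun h => h 1 (by decide)⟩
  obtain ⟨hU, hc⟩ := NiceP.preconnected_diff hP (x '' {0}ᶜ) (Set.toFinite _)
  have h0 : ∀ w ∈ Set.univ \ (x '' {0}ᶜ), w - x 1 ≠ 0 := fun w hw => sub_ne_zero.2 (hk.2 (s2b_mem.1 hw).2)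
  have hlog := Gd.log_norm hU (f := fun w => w - x 1) (by fun_prop) h0
  have key := s2b_const hU hc (u := fun p => Λ p - 0 - (-1 / 4 : ℝ) * Real.log ‖p - x 1‖) (fun w hw => ?_)
    (s2b_mem.2 ⟨Set.mem_univ z, hk.1 hz⟩) (s2b_mem.2 ⟨Set.mem_univ (x 0), fun k hk e => hk (hx e).symm⟩)
  · have := (hΛ z (Set.mem_univ z) (hk.1 hz)).1
    convert this using 1
    beta_reduce at key
    linarith
  obtain ⟨-, hw'⟩ := s2b_mem.1 hw
  obtain ⟨-, ⟨G, hG⟩, h1⟩ := hΛ w (Set.mem_univ w) hw'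
  have hp := coefA_plane (s2b_inj hx hw') hG
  rw [Function.update_self, Function.update_of_ne (by decide)] at hp
  refine s2b_lin (h1 G hG) ((Gd.const Set.univ 0).2 w (Set.mem_univ w)) (hlog.2 w hw) ?_
  rw [hp]
  have := h0 w hw
  have e : deriv (fun w => w - x 1) w = 1 := by simp
  beta_reduce
  rw [e]
  push_cast
  field_simp
  ring

end Crest.Agent.R165.C
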