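import Crest.Agent.R165.C.S1

/-! # R165/C: auxiliary lemmas for `merge_step`, `exit_step` (helper18) -/

set_option autoImplicit false
noncomputable section
open Classical Filter Topology Metric Crest.ProbabilityR.IsingModel

namespace Crest.Agent.R165.C

theorem s3b1_bond (p : Site) (j : Fin 2) : ∃ α, bondEdge p j = edgeOf p α ∧ (he1 (bondEdge p j)).1 = p ∧
    supd (he0 (bondEdge p j)).1 p ≤ 1 := by
  obtain ⟨a, b⟩ := p
  fin_cases j
  · exact ⟨3, rfl, by simp [he1, bondEdge, uv], by simp [he0, bondEdge, supd]⟩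
  · exact ⟨2, rfl, by simp [he1, bondEdge, uv], by simp [he0, bondEdge, supd]⟩

theorem s3b1_he {p : Site} {j : Fin 2} {h : HE} (hh : h = he0 (bondEdge p j) ∨ h = he1 (bondEdge p j)) : supd h.1 p ≤ 1 := by
  obtain ⟨α, -, h1, h0⟩ := s3b1_bond p j
  rcases hh with rfl | rfl
  · exact h0
  · rw [h1, supd_self]; omega

theorem s3b1_uv (p : Site) (j : Fin 2) : supd (p + uv j) p = 1 := by
  obtain ⟨β, hβ⟩ := loc_uv j
  rw [hβ, supd_dv]

theorem s3b1_ends {y c : Site} {N : ℕ} (hy : y ∈ box c N) (α : Fin 4) :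
    (edgeOf y α).1 ∈ box c (N + 1) ∧ (edgeOf y α).1 + uv (edgeOf y α).2 ∈ box c (N + 1) := by
  obtain ⟨a, b⟩ := y
  rw [mem_box'] at hy
  simp only [mem_box']
  fin_cases α <;> simp [edgeOf, uv] at hy ⊢ <;> omega

theorem s3b1_sqrt {d M r R : ℝ} (hM : 0 ≤ M) (hR : 0 < R) (h : d ^ 2 * R ≤ M ^ 2 * r) :
    |d| ≤ M * Real.sqrt r / Real.sqrt R := by
  have h1 := Real.sqrt_le_sqrt h
  rw [Real.sqrt_mul (sq_nonneg d), Real.sqrt_mul (sq_nonneg M), Real.sqrt_sq_eq_abs, Real.sqrt_sq hM] at h1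
  rwa [le_div_iff₀ (Real.sqrt_pos.2 hR)]

/-- gauge the far spins away -/
theorem s3b1_gauge {E₀ E₁ : Set Edge} {S T : Finset Site} {c : Site} {N : ℕ}
    (hS : ∀ v ∈ box c (N + 2), v ∈ S ↔ v ∈ T) (hE : ∀ y ∈ box c N, ∀ α, edgeOf y α ∈ E₀ ↔ edgeOf y α ∈ E₁) :
    ∃ σ, IsSign σ ∧ ∀ w, AgreeOn w (wOf E₀ S) (box c N) → AgreeOn (gaugeW σ w) (wOf E₁ T) (box c N) := by
  obtain ⟨σ, hσ, h⟩ := exists_gauge S T c (N + 1) hS
  refine ⟨σ, hσ, fun w hw y hy α => ?_⟩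
  have h1 := s3b1_ends (Finset.mem_coe.1 hy) α
  have h2 := h _ h1.1 h1.2
  have h3 := hE y hy α
  simp only [gaugeW, hw y hy α, wOf]
  by_cases he : edgeOf y α ∈ E₀
  · rw [if_pos he, if_pos (h3.1 he), ← h2]; ring
  · rw [if_neg he, if_neg (mt h3.2 he), mul_zero]

theorem s3b1_abs {σ : Site → ℝ} (hσ : IsSign σ) (g : HE → HE → ℝ) (i j : HE) : |gaugeK σ g i j| = |g i j| := by
  rcases hσ i.1 with h | h <;> rcases hσ j.1 with h' | h' <;> simp [gaugeK, h, h']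

theorem s3b1_abs_sub {σ : Site → ℝ} (hσ : IsSign σ) (g g' : HE → HE → ℝ) (i j : HE) :
    |(gaugeK σ g i - gaugeK σ g' i) j| = |(g i - g' i) j| := by
  have := s3b1_abs hσ (g - g') i j
  simp only [gaugeK, Pi.sub_apply] at this ⊢
  rw [← this]; congr 1; ring

/-- from a weighted bound on the difference of the rows to the difference of the ratios -/
theorem s3b1_core : ∃ C : ℝ, 0 ≤ C ∧ ∀ (w w' : Edge → ℝ) (g g' : HE → HE → ℝ) (E₀ : Set Edge) (T : Finset Site) (b p : Site)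
    (j : Fin 2) (r₀ R : ℕ) (M : ℝ), IsKer w g → IsKer w' g' → 0 ≤ M → supd p b + 2 ≤ r₀ → R ≤ supd p b →
    AgreeOn w (wOf E₀ T) (box b (2 * r₀)) → AgreeOn w' (wOf E₀ T) (box b (2 * r₀)) →
    (∀ h, h = he0 (bondEdge p j) ∨ h = he1 (bondEdge p j) → WB T (box b (2 * r₀)) r₀ M (g h - g' h)) →
    (R < 2 ∨ (p ∈ T ∧ Crit E₀ (box p R) ∧ ∀ v ∈ T, v ≠ p → 2 * R + 1 ≤ supd v p)) →
    |Rat w g (bondEdge p j) - Rat w' g' (bondEdge p j)| ≤ C * M * Real.sqrt r₀ / (R + 1) := by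
  obtain ⟨C, hC⟩ := step_cmp
  refine ⟨4 + 2 * |C|, by positivity, ?_⟩
  intro w w' g g' E₀ T b p j r₀ R M hg hg' hM hr hR hw hw' hd hcase
  have hsq : 0 ≤ M * Real.sqrt r₀ := by positivity
  have hpb : p ∈ box b (2 * r₀) := mem_box.2 (by omega)
  by_cases hR2 : R < 2
  · obtain ⟨α, he, h1, -⟩ := s3b1_bond p j
    have e1 := hw p hpb α
    have e2 := hw' p hpb α
    rw [← he] at e1 e2
    have h2 := hd _ (Or.inl rfl) (he1 (bondEdge p j)).1 (by rw [h1]; exact hpb) (he1 (bondEdge p j)).2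
    have h3 : (1 : ℝ) ≤ dB T r₀ (he1 (bondEdge p j)).1 :=
      le_dB (by exact_mod_cast (by omega : 1 ≤ r₀)) fun v _ => by linarith [Nat.cast_nonneg (α := ℝ) (supd (he1 (bondEdge p j)).1 v)]
    have h4 : |(g (he0 (bondEdge p j)) - g' (he0 (bondEdge p j))) (he1 (bondEdge p j))| ≤ M * Real.sqrt r₀ := by
      have := s3b1_sqrt hM one_pos ((mul_le_mul_of_nonneg_left h3 (sq_nonneg _)).trans h2)
      simpa using this
    have h5 := abs_wOf_le E₀ T (bondEdge p j)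
    have h6 : Rat w g (bondEdge p j) - Rat w' g' (bondEdge p j) = -2 * (wOf E₀ T (bondEdge p j) *
        (g (he0 (bondEdge p j)) - g' (he0 (bondEdge p j))) (he1 (bondEdge p j))) := by
      simp only [Rat, e1, e2, Pi.sub_apply]; ring
    have h7 : (R : ℝ) + 1 ≤ 2 := by exact_mod_cast (by omega : R + 1 ≤ 2)
    rw [h6, abs_mul, abs_mul, le_div_iff₀ (by positivity)]
    have h8 := mul_le_mul h5 h4 (abs_nonneg _) zero_le_one
    have h9 : |(-2 : ℝ)| = 2 := by norm_num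
    rw [h9]
    have h10 := mul_nonneg (abs_nonneg C) hsq
    have h11 := mul_nonneg (abs_nonneg (wOf E₀ T (bondEdge p j)))
      (abs_nonneg ((g (he0 (bondEdge p j)) - g' (he0 (bondEdge p j))) (he1 (bondEdge p j))))
    nlinarith
  · obtain ⟨hpT, hcr, hfar⟩ := hcase.resolve_left hR2
    have hsub : box p (R + 1) ⊆ box b (2 * r₀) := box_subset_box (mem_box.2 le_rfl) (by omega)
    have hsub' : (↑(box p R) : Set Site) ⊆ ↑(box b (2 * r₀)) :=
      Finset.coe_subset.2 ((box_mono p (Nat.le_succ R)).trans hsub)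
    obtain ⟨σ, hσ, hag⟩ := s3b1_gauge (E₀ := E₀) (E₁ := Set.univ) (S := T) (T := {p}) (c := p) (N := R)
      (fun v hv => ⟨fun hT => by
        by_contra hne
        have := hfar v hT (by simpa using hne)
        have := mem_box.1 hv
        omega, fun h => by rw [Finset.mem_singleton.1 h]; exact hpT⟩)
      (fun y hy α => ⟨fun _ => Set.mem_univ _, fun _ => hcr y hy α⟩)
    have hR0 : (0 : ℝ) < R := by exact_mod_cast (by omega : 0 < R)
    have h1 := hC _ _ _ _ p j R (M * Real.sqrt r₀ / Real.sqrt R) (isKer_gauge hσ hg) (isKer_gauge hσ hg') (by omega)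
      (hag w fun y hy => hw y (hsub' hy)) (hag w' fun y hy => hw' y (hsub' hy)) (fun h hh y hy α => by
        rw [s3b1_abs_sub hσ]
        have hy' := Finset.mem_sdiff.1 (Finset.mem_coe.1 hy)
        have hy1 := mem_box.1 hy'.1
        have hy2 := mt mem_box.2 hy'.2
        refine s3b1_sqrt hM hR0 (le_trans (mul_le_mul_of_nonneg_left ?_ (sq_nonneg _)) (hd h hh y (hsub hy'.1) α))
        refine le_dB (by exact_mod_cast (by omega : R ≤ r₀)) fun v hv => ?_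
        have : R ≤ supd y v + 1 := by
          by_cases hvp : v = p
          · rw [hvp]; omega
          · have := hfar v hv hvp
            have := supd_triangle v y p
            have := supd_comm v y
            omega
        exact_mod_cast this)
    rw [rat_gauge hσ, rat_gauge hσ] at h1
    refine h1.trans ?_
    have h2 : Real.sqrt R * Real.sqrt R = R := Real.mul_self_sqrt hR0.le
    have h3 : 0 < Real.sqrt R := Real.sqrt_pos.2 hR0
    have h4 : C * (M * Real.sqrt r₀ / Real.sqrt R) / Real.sqrt R = C * (M * Real.sqrt r₀) / R := by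
      rw [← mul_div_assoc, div_div, h2]
    rw [h4, div_le_div_iff₀ hR0 (by positivity)]
    have h5 : (2 : ℝ) ≤ R := by exact_mod_cast (by omega : 2 ≤ R)
    have h6 := mul_le_mul_of_nonneg_right (le_abs_self C) hsq
    have h7 := mul_nonneg (abs_nonneg C) hsq
    nlinarith [mul_le_mul_of_nonneg_right h6 (by positivity : (0 : ℝ) ≤ R + 1)]

/-- the row is small on a far frame -/
theorem s3b1_frame (n : ℕ) : ∃ (C : ℝ) (K : ℕ), 0 ≤ C ∧ ∀ (E : Finset Edge) (ρ : ℝ) (S : Finset Site) (g : HE → HE → ℝ) (b : Site)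
    (m : ℕ) (h : HE), Reg ↑E ρ → S.card ≤ n → IsKer (wOf ↑E S) g → FinRow g → 1 ≤ m → (K * (m + K) : ℝ) ≤ ρ →
    supd h.1 b ≤ m → (∀ v ∈ S, supd v b ≤ m ∨ 9 * m ≤ supd v b) →
    SB (frame b (2 * m) (4 * (2 * m))) (C / Real.sqrt m) (g h) := by
  obtain ⟨C, K, hC⟩ := ker_bound n
  refine ⟨|C|, K, abs_nonneg _, fun E ρ S g b m h hE hS hg hf hm hρ hh hv y hy α => ?_⟩
  have hy' := Finset.mem_sdiff.1 (Finset.mem_coe.1 hy)
  have hy1 := mem_box.1 hy'.1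
  have hy2 := mt mem_box.2 hy'.2
  have hm' : (1 : ℝ) ≤ m := by exact_mod_cast hm
  have h1 := hC E ρ S g hE hS hg hf m h (y, α) hm hρ (by
    have := supd_triangle y h.1 b
    have := supd_comm y h.1
    simp only; omega)
  have h2 : (1 : ℝ) ≤ dB S m h.1 := le_dB hm' fun v _ => by linarith [Nat.cast_nonneg (α := ℝ) (supd h.1 v)]
  have h3 : (m : ℝ) ≤ dB S m y := le_dB le_rfl fun v hvS => by
    have : m ≤ supd y v + 1 := by
      have := supd_triangle y v b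
      have := supd_triangle v y b
      have := supd_comm y v
      rcases hv v hvS with h | h <;> omega
    exact_mod_cast this
  have h4 : g h (y, α) ^ 2 * m ≤ |C| ^ 2 * 1 := by
    rw [sq_abs, mul_one]
    refine le_trans (mul_le_mul_of_nonneg_left ?_ (sq_nonneg _)) h1
    simp only
    nlinarith
  simpa using s3b1_sqrt (abs_nonneg C) (by linarith) h4

theorem s3b1_log {C t t' : ℝ} (hC : 0 < C) (h : C⁻¹ ≤ |t|) (h' : C⁻¹ ≤ |t'|) :
    abs (Real.log |t| - Real.log |t'|) ≤ C * |t - t'| := by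
  have hc : 0 < C⁻¹ := inv_pos.2 hC
  have key : ∀ u v : ℝ, C⁻¹ ≤ u → C⁻¹ ≤ v → Real.log u - Real.log v ≤ C * |u - v| := fun u v hu hv => by
    have hu0 : 0 < u := hc.trans_le hu
    have hv0 : 0 < v := hc.trans_le hv
    rw [← Real.log_div hu0.ne' hv0.ne']
    refine (Real.log_le_sub_one_of_pos (div_pos hu0 hv0)).trans ?_
    rw [div_sub_one hv0.ne', div_le_iff₀ hv0]
    have h1 : 1 ≤ C * v := by rwa [inv_le_iff_one_le_mul₀' hC] at hv
    nlinarith [le_abs_self (u - v), abs_nonneg (u - v)]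
  have h1 := mul_le_mul_of_nonneg_left (abs_abs_sub_abs_le t t') hC.le
  rw [abs_le]
  constructor
  · have := key _ _ h' h
    rw [abs_sub_comm] at this
    linarith
  · linarith [key _ _ h h']

theorem s3b1_num {m r R : ℝ} (hm : 1 ≤ m) (hr : 0 ≤ r) (h : r + 1 ≤ 17 * (R + 1)) :
    1 / Real.sqrt m * ((2 * m) / (r + 2)) ^ (1 / 4 : ℝ) * Real.sqrt (r + 2) / (R + 1) ≤
      68 * (m ^ (-(1 / 4) : ℝ) * (r + 1) ^ (-(3 / 4) : ℝ)) := by
  have hm0 : 0 < m := by linarith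
  obtain ⟨u, hu0, rfl⟩ : ∃ u : ℝ, 0 < u ∧ m = u ^ 4 := ⟨m ^ (1 / 4 : ℝ), Real.rpow_pos_of_pos hm0 _, by
    rw [← Real.rpow_natCast, ← Real.rpow_mul hm0.le]; norm_num⟩
  obtain ⟨q, hq0, hq⟩ : ∃ q : ℝ, 0 < q ∧ r + 1 = q ^ 4 := ⟨(r + 1) ^ (1 / 4 : ℝ), Real.rpow_pos_of_pos (by linarith) _, by
    rw [← Real.rpow_natCast, ← Real.rpow_mul (by linarith)]; norm_num⟩
  obtain ⟨z, hz0, hz⟩ : ∃ z : ℝ, 0 < z ∧ r + 2 = z ^ 4 := ⟨(r + 2) ^ (1 / 4 : ℝ), Real.rpow_pos_of_pos (by linarith) _, by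
    rw [← Real.rpow_natCast, ← Real.rpow_mul (by linarith)]; norm_num⟩
  have p4 : ∀ (x t : ℝ), 0 < x → (x ^ 4) ^ t = x ^ (4 * t) := fun x t hx => by
    rw [← Real.rpow_natCast, ← Real.rpow_mul hx.le]; norm_num
  have s4 : ∀ x : ℝ, 0 < x → Real.sqrt (x ^ 4) = x ^ 2 := fun x hx => by
    rw [show x ^ 4 = (x ^ 2) ^ 2 by ring, Real.sqrt_sq (by positivity)]
  have h1 : (2 * u ^ 4 / (r + 2)) ^ (1 / 4 : ℝ) ≤ 2 * u / z := by
    rw [hz]
    calc (2 * u ^ 4 / z ^ 4) ^ (1 / 4 : ℝ) ≤ ((2 * u / z) ^ 4) ^ (1 / 4 : ℝ) := by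
          refine Real.rpow_le_rpow (by positivity) ?_ (by norm_num)
          rw [div_pow, mul_pow]; gcongr; norm_num
      _ = 2 * u / z := by rw [p4 _ _ (by positivity)]; norm_num
  have h2 : z ≤ 2 * q := by
    refine le_of_pow_le_pow_left₀ (n := 4) (by norm_num) (by positivity) ?_
    rw [mul_pow, ← hz, ← hq]; linarith
  have h3 : (u ^ 4) ^ (-(1 / 4) : ℝ) = u⁻¹ := by rw [p4 _ _ hu0]; norm_num [Real.rpow_neg_one]
  have h4 : (r + 1) ^ (-(3 / 4) : ℝ) = (q ^ 3)⁻¹ := by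
    rw [hq, p4 _ _ hq0, show (4 : ℝ) * -(3 / 4) = -((3 : ℕ) : ℝ) by norm_num, Real.rpow_neg hq0.le, Real.rpow_natCast]
  rw [h3, h4, s4 u hu0]
  calc 1 / u ^ 2 * (2 * u ^ 4 / (r + 2)) ^ (1 / 4 : ℝ) * Real.sqrt (r + 2) / (R + 1)
      ≤ 1 / u ^ 2 * (2 * u / z) * Real.sqrt (r + 2) / (q ^ 4 / 17) := by
        gcongr
        linarith
    _ = 34 * z / (u * q ^ 4) := by rw [hz, s4 z hz0]; field_simp; norm_num
    _ ≤ 34 * (2 * q) / (u * q ^ 4) := by gcongr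
    _ = 68 * (u⁻¹ * (q ^ 3)⁻¹) := by field_simp; norm_num

/-- common part of `merge_step` and `exit_step` -/
theorem s3b1_master (n : ℕ) : ∃ (C : ℝ) (K : ℕ), 0 ≤ C ∧ ∀ (E E' : Finset Edge) (ρ ρ' : ℝ) (S S' T : Finset Site) (E₀ : Set Edge)
    (b p : Site) (j : Fin 2) (m R : ℕ) (C₁ : ℝ), Reg ↑E ρ → Reg ↑E' ρ' → S.card ≤ n → S'.card ≤ n → K ≤ m →
    (K * m : ℝ) ≤ ρ → (K * m : ℝ) ≤ ρ' → supd p b + 2 ≤ m → 0 ≤ C₁ →
    (∀ v, supd v b < 9 * m → (v ∈ S ↔ v ∈ T)) → (∀ v, supd v b < 9 * m → (v ∈ S' ↔ v ∈ T)) → (∀ v ∈ T, supd v b ≤ m) →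
    (∀ y ∈ box b (8 * m), ∀ α, edgeOf y α ∈ (↑E : Set Edge) ↔ edgeOf y α ∈ E₀) →
    (∀ y ∈ box b (8 * m), ∀ α, edgeOf y α ∈ (↑E' : Set Edge) ↔ edgeOf y α ∈ E₀) →
    (∀ (s : Fn) (M : ℝ), 0 ≤ M → SolOn (wOf E₀ T) (box b (4 * (2 * m))) s → SB (frame b (2 * m) (4 * (2 * m))) M s →
      WB T (box b (2 * (supd p b + 2))) (supd p b + 2)
        (C₁ * M * (((2 * m : ℕ) : ℝ) / ((supd p b + 2 : ℕ) : ℝ)) ^ (1 / 4 : ℝ)) s) →
    R ≤ supd p b → supd p b + 1 ≤ 17 * (R + 1) →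
    (R < 2 ∨ (p ∈ T ∧ Crit E₀ (box p R) ∧ ∀ v ∈ T, v ≠ p → 2 * R + 1 ≤ supd v p)) →
    |(Real.log (rho0 E (symmDiff S {p, p + uv j})) - Real.log (rho0 E S)) -
      (Real.log (rho0 E' (symmDiff S' {p, p + uv j})) - Real.log (rho0 E' S'))| ≤
      C * C₁ * ((m : ℝ) ^ (-(1 / 4) : ℝ) * ((supd p b : ℝ) + 1) ^ (-(3 / 4) : ℝ)) := by
  obtain ⟨C₂, hC₂, hcore⟩ := s3b1_core
  obtain ⟨C₃, K₃, hC₃, hfr⟩ := s3b1_frame n
  obtain ⟨C₄, K₄, hC₄, hrat⟩ := rat_bounds n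
  refine ⟨C₄ * C₂ * (2 * C₃) * 68, 2 * K₃ + K₄ + 3, by positivity, ?_⟩
  intro E E' ρ ρ' S S' T E₀ b p j m R C₁ hE hE' hS hS' hKm hρ hρ' hpm hC₁ hST hST' hT hEE hEE' hit hR hR' hcase
  have hm1 : (1 : ℝ) ≤ m := by exact_mod_cast (by omega : 1 ≤ m)
  have hK3 : (K₃ : ℝ) ≤ m := by exact_mod_cast (by omega : K₃ ≤ m)
  have hK3' : (0 : ℝ) ≤ K₃ := Nat.cast_nonneg _
  have hK4' : (0 : ℝ) ≤ K₄ := Nat.cast_nonneg _
  push_cast at hρ hρ'
  -- one geometry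
  have one : ∀ (E : Finset Edge) (ρ : ℝ) (S : Finset Site), Reg ↑E ρ → S.card ≤ n → (2 * K₃ + K₄ + 3 : ℝ) * m ≤ ρ →
      (∀ v, supd v b < 9 * m → (v ∈ S ↔ v ∈ T)) →
      (∀ y ∈ box b (8 * m), ∀ α, edgeOf y α ∈ (↑E : Set Edge) ↔ edgeOf y α ∈ E₀) →
      ∃ w g, IsKer w g ∧ AgreeOn w (wOf E₀ T) (box b (8 * m)) ∧ C₄⁻¹ ≤ |Rat w g (bondEdge p j)| ∧
        Real.log (rho0 E (symmDiff S {p, p + uv j})) - Real.log (rho0 E S) = Real.log |Rat w g (bondEdge p j)| ∧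
        ∀ h, h = he0 (bondEdge p j) ∨ h = he1 (bondEdge p j) →
          SB (frame b (2 * m) (4 * (2 * m))) (C₃ / Real.sqrt m) (g h) := by
    intro E ρ S hE hS hρ hST hEE
    obtain ⟨g, hg, hf⟩ := exists_ker hE S
    obtain ⟨σ, hσ, hag⟩ := s3b1_gauge (E₀ := ↑E) (E₁ := E₀) (S := S) (T := T) (c := b) (N := 8 * m)
      (fun v hv => hST v (by have := mem_box.1 hv; omega)) hEE
    have h1 := (hrat E ρ S g (bondEdge p j) hE hS (by nlinarith) hg hf).1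
    refine ⟨_, _, isKer_gauge hσ hg, hag _ fun _ _ _ => rfl, by rwa [rat_gauge hσ], ?_, fun h hh y hy α => ?_⟩
    · have h2 := rho0_move hg hf (bondEdge p j)
      rw [(edgeB_bondEdge p j).1, (edgeB_bondEdge p j).2] at h2
      have h3 : 0 < |Rat (wOf ↑E S) g (bondEdge p j)| := lt_of_lt_of_le (by positivity) h1
      rw [h2, Real.log_mul (rho0_pos hE S).ne' h3.ne', rat_gauge hσ]; ring
    · rw [s3b1_abs hσ]
      refine hfr E ρ S g b m h hE hS hg hf (by omega) (by nlinarith) ?_ (fun v hv => ?_) y hy α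
      · have := s3b1_he hh
        have := supd_triangle h.1 p b
        omega
      · by_cases h9 : supd v b < 9 * m
        · exact Or.inl (hT v ((hST v h9).1 hv))
        · exact Or.inr (by omega)
  obtain ⟨w, g, hg, hw, hb, hl, hs⟩ := one E ρ S hE hS hρ hST hEE
  obtain ⟨w', g', hg', hw', hb', hl', hs'⟩ := one E' ρ' S' hE' hS' hρ' hST' hEE'
  rw [hl, hl']
  refine (s3b1_log (by linarith) hb hb').trans ?_
  have hsub : (↑(box b (2 * (supd p b + 2))) : Set Site) ⊆ ↑(box b (8 * m)) := Finset.coe_subset.2 (box_mono b (by omega))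
  have hM : 0 ≤ 2 * C₃ / Real.sqrt m := by positivity
  have h1 := hcore w w' g g' E₀ T b p j (supd p b + 2) R _ hg hg' (by positivity) le_rfl hR (fun y hy => hw y (hsub hy))
    (fun y hy => hw' y (hsub hy)) (fun h hh => hit (g h - g' h) _ hM (fun y hy α => by
      have hy' : y ∈ (↑(box b (8 * m)) : Set Site) := by rwa [show 4 * (2 * m) = 8 * m by ring] at hy
      have e1 : opA w (g h) (y, α) = opA (wOf E₀ T) (g h) (y, α) := DU.opA_congr_w (Or.inl (hw y hy' α))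
      have e2 : opA w' (g' h) (y, α) = opA (wOf E₀ T) (g' h) (y, α) := DU.opA_congr_w (Or.inl (hw' y hy' α))
      rw [DU.opA_sub, ← e1, ← e2, hg.2, hg'.2, sub_self]) fun y hy α => by
      have := hs h hh y hy α
      have := hs' h hh y hy α
      have := abs_sub (g h (y, α)) (g' h (y, α))
      rw [Pi.sub_apply, mul_div_assoc]
      linarith) hcase
  have h2 := s3b1_num hm1 (Nat.cast_nonneg (supd p b)) (R := R) (by exact_mod_cast hR')
  push_cast at h1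
  have h3 : 0 ≤ C₄ * C₂ * (2 * C₃) * C₁ := by positivity
  calc C₄ * |Rat w g (bondEdge p j) - Rat w' g' (bondEdge p j)| ≤ C₄ * _ := mul_le_mul_of_nonneg_left h1 (by linarith)
    _ = C₄ * C₂ * (2 * C₃) * C₁ * (1 / Real.sqrt m * ((2 * m) / ((supd p b : ℝ) + 2)) ^ (1 / 4 : ℝ) *
        Real.sqrt ((supd p b : ℝ) + 2) / (R + 1)) := by ring
    _ ≤ C₄ * C₂ * (2 * C₃) * C₁ * _ := mul_le_mul_of_nonneg_left h2 h3
    _ = _ := by ring

theorem s3b1_scale {l m : ℕ} (hm : 1 ≤ m) (h : l ≤ 81 * m) (hl : 1 ≤ l) :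
    (m : ℝ) ^ (-(1 / 4) : ℝ) ≤ 3 * (l : ℝ) ^ (-(1 / 4) : ℝ) := by
  have hm' : (0 : ℝ) < m := by exact_mod_cast hm
  have hl' : (0 : ℝ) < l := by exact_mod_cast hl
  have h1 : ((81 : ℝ) * m) ^ (-(1 / 4) : ℝ) ≤ (l : ℝ) ^ (-(1 / 4) : ℝ) :=
    Real.rpow_le_rpow_of_nonpos hl' (by exact_mod_cast h) (by norm_num)
  rw [Real.mul_rpow (by norm_num) hm'.le] at h1
  have h2 : (81 : ℝ) ^ (-(1 / 4) : ℝ) = 1 / 3 := by
    rw [show (81 : ℝ) = 3 ^ (4 : ℝ) by norm_num, ← Real.rpow_mul (by norm_num)]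
    norm_num [Real.rpow_neg_one]
  rw [h2] at h1
  linarith

end Crest.Agent.R165.C
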