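import Crest.Agent.R165.Cont

/-! # R165/C/T1bx: auxiliary lemmas for 2D Riemann sums (helper42) -/

set_option autoImplicit false
noncomputable section
open Classical Filter Topology Metric Crest.ProbabilityR.IsingModel MeasureTheory

namespace Crest.Agent.R165.C

theorem t1b_floor {a : ℝ} (ha : 0 < a) (x : ℝ) : |a * (⌊x / a⌋ : ℝ) - x| ≤ a := by
  have h1 := Int.floor_le (x / a)
  have h2 := Int.lt_floor_add_one (x / a)
  rw [le_div_iff₀ ha] at h1
  rw [div_lt_iff₀ ha] at h2
  rw [abs_le]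
  constructor <;> nlinarith

theorem t1b_dist {a : ℝ} (ha : 0 < a) (z : ℂ) : ‖(a : ℂ) * toC (meshIndex a z) - z‖ ≤ 2 * a := by
  refine (Complex.norm_le_abs_re_add_abs_im _).trans ?_
  have h1 := t1b_floor ha z.re
  have h2 := t1b_floor ha z.im
  have e1 : ((a : ℂ) * toC (meshIndex a z) - z).re = a * (⌊z.re / a⌋ : ℝ) - z.re := by
    simp [toC, meshIndex]
  have e2 : ((a : ℂ) * toC (meshIndex a z) - z).im = a * (⌊z.im / a⌋ : ℝ) - z.im := by
    simp [toC, meshIndex]
  rw [e1, e2]
  linarith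

theorem t1b_fib {a : ℝ} (ha : 0 < a) (p : Site) :
    {z : ℂ | meshIndex a z = p} = Complex.measurableEquivRealProd ⁻¹'
      (Set.Ico (a * p.1) (a * p.1 + a) ×ˢ Set.Ico (a * p.2) (a * p.2 + a)) := by
  have key : ∀ (x : ℝ) (n : ℤ), ⌊x / a⌋ = n ↔ x ∈ Set.Ico (a * n) (a * n + a) := by
    intro x n
    rw [Int.floor_eq_iff, le_div_iff₀ ha, div_lt_iff₀ ha, Set.mem_Ico]
    constructor <;> rintro ⟨h1, h2⟩ <;> constructor <;> nlinarith
  ext z
  simp only [Set.mem_ofPred_eq, Set.mem_preimage, Complex.measurableEquivRealProd_apply, Set.mem_prod, ← key,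
    meshIndex, Prod.ext_iff]

theorem t1b_meas {a : ℝ} (ha : 0 < a) (p : Site) : MeasurableSet {z : ℂ | meshIndex a z = p} := by
  rw [t1b_fib ha]
  exact Complex.measurableEquivRealProd.measurable (measurableSet_Ico.prod measurableSet_Ico)

theorem t1b_vol {a : ℝ} (ha : 0 < a) (p : Site) :
    volume {z : ℂ | meshIndex a z = p} = ENNReal.ofReal (a ^ 2) := by
  rw [t1b_fib ha, Complex.volume_preserving_equiv_real_prod.measure_preimage
    (measurableSet_Ico.prod measurableSet_Ico).nullMeasurableSet, Measure.volume_eq_prod, Measure.prod_prod,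
    Real.volume_Ico, Real.volume_Ico, ← ENNReal.ofReal_mul (by linarith)]
  congr 1
  ring

theorem t1b_measurable {a : ℝ} (ha : 0 < a) (F : Site → ℝ) : Measurable fun z : ℂ => F (meshIndex a z) := by
  have h : Measurable (meshIndex a) := measurable_to_countable' fun p => t1b_meas ha p
  exact (measurable_of_countable F).comp h

theorem t1b_int {a : ℝ} (ha : 0 < a) (F : Site → ℝ) (hF : (Function.support F).Finite) :
    ∫ z : ℂ, F (meshIndex a z) = a ^ 2 * ∑ᶠ p, F p := by
  rw [finsum_eq_sum F hF]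
  have e : (fun z : ℂ => F (meshIndex a z)) =
      fun z => ∑ p ∈ hF.toFinset, Set.indicator {z : ℂ | meshIndex a z = p} (fun _ => F p) z := by
    funext z
    rw [Finset.sum_eq_single (meshIndex a z)]
    · simp
    · intro p _ hp
      exact Set.indicator_of_notMem (fun h => hp (Eq.symm h)) _
    · intro h
      have : F (meshIndex a z) = 0 := by simpa using h
      simp [this]
  rw [e, integral_finsetSum, Finset.mul_sum]
  · refine Finset.sum_congr rfl fun p _ => ?_
    rw [integral_indicator_const _ (t1b_meas ha p), Measure.real, t1b_vol ha, ENNReal.toReal_ofReal (by positivity),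
      smul_eq_mul]
  · intro p _
    refine (integrable_indicator_iff (t1b_meas ha p)).2 (integrableOn_const ?_)
    rw [t1b_vol ha]
    exact ENNReal.ofReal_ne_top

theorem t1b_finite {a : ℝ} (ha : 0 < a) (R : ℝ) : {p : Site | ‖(a : ℂ) * toC p‖ < R}.Finite := by
  obtain ⟨N, hN⟩ := exists_nat_gt (R / a)
  refine ((Set.finite_Icc (-(N : ℤ)) N).prod (Set.finite_Icc (-(N : ℤ)) N)).subset fun p hp => ?_
  have h1 : ‖toC p‖ < N := by
    have : a * ‖toC p‖ < R := by simpa [abs_of_pos ha] using hp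
    rw [div_lt_iff₀ ha] at hN
    nlinarith
  have h2 := (Complex.abs_re_le_norm (toC p)).trans_lt h1
  have h3 := (Complex.abs_im_le_norm (toC p)).trans_lt h1
  simp only [toC] at h2 h3
  rw [abs_lt] at h2 h3
  obtain ⟨h2, h2'⟩ := h2
  obtain ⟨h3, h3'⟩ := h3
  refine ⟨⟨?_, ?_⟩, ?_, ?_⟩
  · exact_mod_cast h2.le
  · exact_mod_cast h2'.le
  · exact_mod_cast h3.le
  · exact_mod_cast h3'.le

theorem t1b_riemann2 {a : ℕ → ℝ} (ha : ∀ k, 0 < a k) (ha0 : Tendsto a atTop (𝓝 0)) (F : ℕ → Site → ℝ) (f : ℂ → ℝ)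
    (C R : ℝ) (hb : ∀ᶠ k in atTop, ∀ p, |F k p| ≤ C ∧ (R ≤ ‖(a k : ℂ) * toC p‖ → F k p = 0))
    (hl : ∀ᵐ z : ℂ, Tendsto (fun k => F k (meshIndex (a k) z)) atTop (𝓝 (f z))) :
    Tendsto (fun k => a k ^ 2 * ∑ᶠ p, F k p) atTop (𝓝 (∫ z, f z)) := by
  have h1 : ∀ᶠ k in atTop, a k < 1 := ha0.eventually (gt_mem_nhds one_pos)
  have hd : Tendsto (fun k => ∫ z : ℂ, F k (meshIndex (a k) z)) atTop (𝓝 (∫ z, f z)) := by
    refine tendsto_integral_filter_of_dominated_convergence (Set.indicator (ball (0 : ℂ) (R + 2)) fun _ => C)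
      (Eventually.of_forall fun k => (t1b_measurable (ha k) _).aestronglyMeasurable) ?_ ?_ hl
    · filter_upwards [hb, h1] with k hk hk1
      refine ae_of_all _ fun z => ?_
      by_cases hz : z ∈ ball (0 : ℂ) (R + 2)
      · rw [Set.indicator_of_mem hz]
        exact (hk _).1
      · rw [Set.indicator_of_notMem hz, (hk _).2, norm_zero]
        rw [mem_ball_zero_iff, not_lt] at hz
        have h2 := t1b_dist (ha k) z
        have h3 := norm_sub_norm_le z ((a k : ℂ) * toC (meshIndex (a k) z))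
        rw [norm_sub_rev] at h3
        linarith
    · exact (integrable_indicator_iff measurableSet_ball).2 (integrableOn_const measure_ball_lt_top.ne)
  refine hd.congr' ?_
  filter_upwards [hb] with k hk
  refine t1b_int (ha k) _ ((t1b_finite (ha k) R).subset fun p hp => ?_)
  by_contra h
  exact hp ((hk p).2 (not_lt.1 h))

theorem t1b_ptLim {a : ℕ → ℝ} (ha : ∀ k, 0 < a k) (ha0 : Tendsto a atTop (𝓝 0)) (z : ℂ) :
    PtLim a (fun k => meshIndex (a k) z) z := by
  rw [PtLim, tendsto_iff_norm_sub_tendsto_zero]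
  refine squeeze_zero (fun _ => norm_nonneg _) (fun k => t1b_dist (ha k) z) ?_
  simpa using ha0.const_mul 2

end Crest.Agent.R165.C
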