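import Mathlib

/-! # R165/C/T1c: the residue on a square (helper33) -/

set_option autoImplicit false
noncomputable section
open Metric Complex

namespace Crest.Agent.R165.C

theorem t1c_log {R : ℝ} (hR : 0 < R) :
    log ((R : ℂ) + (R : ℝ) * I) - log ((R : ℂ) + (-R : ℝ) * I) = Real.pi / 2 * I := by
  have h2 : (0 : ℝ) < Real.sqrt 2 * R := by positivity
  have hr : ((Real.sqrt 2 : ℝ) : ℂ) ^ 2 = 2 := by
    rw [← ofReal_pow, Real.sq_sqrt (by norm_num)]; norm_num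
  have hpi := Real.pi_pos
  have e1 : (R : ℂ) + (R : ℝ) * I =
      ((Real.sqrt 2 * R : ℝ) : ℂ) * (cos ((Real.pi / 4 : ℝ) : ℂ) + sin ((Real.pi / 4 : ℝ) : ℂ) * I) := by
    rw [← ofReal_cos, ← ofReal_sin, Real.cos_pi_div_four, Real.sin_pi_div_four]
    push_cast
    linear_combination (-(R + R * I) / 2) * hr
  have ha : arg ((R : ℂ) + (R : ℝ) * I) = Real.pi / 4 := by
    rw [e1, arg_real_mul _ h2, arg_cos_add_sin_mul_I ⟨by linarith, by linarith⟩]
  have e2 : (R : ℂ) + (-R : ℝ) * I = (starRingEnd ℂ) ((R : ℂ) + (R : ℝ) * I) := by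
    simp
  rw [e2, log_conj _ (by rw [ha]; linarith), sub_conj, log_im, ha]
  push_cast
  ring

theorem t1c_side {Ψ Φ P : ℂ → ℂ} {x₀ d u : ℂ} {R : ℝ} (hR : 0 < R) (hu : ‖u‖ = 1)
    (hΨ : ContinuousOn Ψ (ball x₀ (2 * R))) (hP : ∀ z ∈ ball x₀ (2 * R), HasDerivAt P (Φ z) z)
    (he : ∀ w, Ψ (x₀ + w) = Ψ x₀ + d * w + w ^ 2 * Φ (x₀ + w)) :
    u * ∫ t in (-R)..R, Ψ (x₀ + u * (R + t * I)) / (u * (R + t * I)) ^ 2 =
      -I * ((P (x₀ + u * I * (R - R * I)) - Ψ x₀ / (u * I * (R - R * I))) -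
        (P (x₀ + u * (R - R * I)) - Ψ x₀ / (u * (R - R * I)))) + Real.pi / 2 * d := by
  have hu0 : u ≠ 0 := by rintro rfl; simp at hu
  have hsl : ∀ t : ℝ, (R : ℂ) + t * I ∈ slitPlane := fun t => Or.inl (by simpa using hR)
  have hw : ∀ t : ℝ, (R : ℂ) + t * I ≠ 0 := fun t => slitPlane_ne_zero (hsl t)
  have hmem : ∀ t ∈ Set.uIcc (-R) R, x₀ + u * (R + t * I) ∈ ball x₀ (2 * R) := fun t ht => by
    rw [Set.uIcc_of_le (by linarith)] at ht
    rw [mem_ball, dist_eq_norm, add_sub_cancel_left, norm_mul, hu, one_mul]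
    refine lt_of_pow_lt_pow_left₀ 2 (by linarith) ?_
    rw [Complex.sq_norm, normSq_add_mul_I]
    nlinarith [ht.1, ht.2]
  rw [← intervalIntegral.integral_const_mul]
  have key := intervalIntegral.integral_eq_sub_of_hasDerivAt (a := -R) (b := R)
    (f := fun t : ℝ => -I * (P (x₀ + u * (R + t * I)) - Ψ x₀ / (u * (R + t * I)) + d * log (R + t * I)))
    (f' := fun t : ℝ => u * (Ψ (x₀ + u * (R + t * I)) / (u * (R + t * I)) ^ 2)) (fun t ht => ?_) ?_
  · rw [key]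
    have e1 : u * ((R : ℂ) + (R : ℝ) * I) = u * I * (R - R * I) := by
      linear_combination (u * R) * I_mul_I
    have e2 : u * ((R : ℂ) + (-R : ℝ) * I) = u * (R - R * I) := by push_cast; ring
    rw [e1, e2]
    linear_combination (-I * d) * t1c_log hR - (Real.pi / 2 * d) * I_mul_I
  · have h1 : HasDerivAt (fun τ : ℂ => (R : ℂ) + τ * I) I (t : ℂ) := by
      simpa using ((hasDerivAt_id (t : ℂ)).mul_const I).const_add (R : ℂ)
    have h2 : HasDerivAt (fun τ : ℂ => u * ((R : ℂ) + τ * I)) (u * I) (t : ℂ) := h1.const_mul u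
    have h3 := (hP _ (hmem t ht)).comp (t : ℂ) (h2.const_add x₀)
    have h4 := (hasDerivAt_const (t : ℂ) (Ψ x₀)).div h2 (mul_ne_zero hu0 (hw t))
    have h5 := (h1.clog (hsl t)).const_mul d
    have h6 := (((h3.sub h4).add h5).const_mul (-I)).comp_ofReal
    refine HasDerivAt.congr_deriv h6 ?_
    rw [he]
    have := hw t
    generalize (R : ℂ) + t * I = w at this ⊢
    generalize Φ (x₀ + u * w) = φ
    field_simp
    linear_combination -(Ψ x₀ + d * (u * w) + (u * w) ^ 2 * φ) * I_mul_I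
  · refine ContinuousOn.intervalIntegrable (continuousOn_const.mul (ContinuousOn.div ?_ (by fun_prop) ?_))
    · exact hΨ.comp (by fun_prop) hmem
    · exact fun t _ => pow_ne_zero _ (mul_ne_zero hu0 (hw t))

theorem t1c_square_res {Ψ : ℂ → ℂ} {x₀ : ℂ} {R : ℝ} (hR : 0 < R) (hΨ : DifferentiableOn ℂ Ψ (ball x₀ (2 * R))) :
    ∑ α : Fin 4, I ^ (α : ℕ) * ∫ t in (-R)..R,
      Ψ (x₀ + I ^ (α : ℕ) * (R + t * I)) / (I ^ (α : ℕ) * (R + t * I)) ^ 2 = 2 * Real.pi * deriv Ψ x₀ := by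
  have hn : ball x₀ (2 * R) ∈ nhds x₀ := ball_mem_nhds _ (by linarith)
  obtain ⟨P, hP⟩ := ((differentiableOn_dslope hn).2 ((differentiableOn_dslope hn).2 hΨ)).isExactOn_ball
  have he : ∀ w, Ψ (x₀ + w) = Ψ x₀ + deriv Ψ x₀ * w + w ^ 2 * dslope (dslope Ψ x₀) x₀ (x₀ + w) := fun w => by
    have h1 := sub_smul_dslope Ψ x₀ (x₀ + w)
    have h2 := sub_smul_dslope (dslope Ψ x₀) x₀ (x₀ + w)
    rw [dslope_same] at h2
    rw [add_sub_cancel_left, smul_eq_mul] at h1 h2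
    linear_combination -h1 - w * h2
  rw [Finset.sum_congr rfl fun α _ => t1c_side hR (by simp) hΨ.continuousOn hP he, Fin.sum_univ_four]
  have e1 : I ^ ((0 : Fin 4) : ℕ) * I = I ^ ((1 : Fin 4) : ℕ) := (pow_succ _ _).symm
  have e2 : I ^ ((1 : Fin 4) : ℕ) * I = I ^ ((2 : Fin 4) : ℕ) := (pow_succ _ _).symm
  have e3 : I ^ ((2 : Fin 4) : ℕ) * I = I ^ ((3 : Fin 4) : ℕ) := (pow_succ _ _).symm
  have e4 : I ^ ((3 : Fin 4) : ℕ) * I = I ^ ((0 : Fin 4) : ℕ) := (pow_succ _ _).symm.trans (I_pow_four.trans (pow_zero _).symm)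
  rw [e1, e2, e3, e4]
  ring

end Crest.Agent.R165.C
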