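import Crest.Agent.R165.C.Defs
import Crest.Agent.R165.BC.CLim
import Crest.Agent.R165.BC.Osc
import Crest.Agent.R165.C.T1cx
import Crest.Agent.R165.C.T1bx

/-! # R165/C: Riemann sums, contour sums, subsequence principles (block C, owner helper83; statements FROZEN, add lemmas freely inside the namespace) -/

set_option autoImplicit false
noncomputable section
open Classical Filter Topology Metric Crest.ProbabilityR.IsingModel

namespace Crest.Agent.R165.C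

variable {a : ℕ → ℝ}

/-! ### task T1a -/

theorem t1a_floor {c t : ℝ} (hc : 0 < c) {j : ℤ} : t ∈ Set.Ico (c * j) (c * j + c) ↔ ⌊t / c⌋ = j := by
  rw [Int.floor_eq_iff, le_div_iff₀' hc, div_lt_iff₀' hc, mul_add_one, Set.mem_Ico]

theorem t1a_int {c : ℝ} (hc : 0 < c) (s : Finset ℤ) (F : ℤ → ℂ) :
    ∫ t : ℝ, (if ⌊t / c⌋ ∈ s then F ⌊t / c⌋ else 0) = c * ∑ j ∈ s, F j := by
  have h : ∀ t : ℝ, (if ⌊t / c⌋ ∈ s then F ⌊t / c⌋ else 0) =
      ∑ j ∈ s, (Set.Ico (c * j) (c * j + c)).indicator (fun _ => F j) t := fun t => by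
    simp only [Set.indicator, t1a_floor hc, Finset.sum_ite_eq]
  simp only [h]
  rw [MeasureTheory.integral_finsetSum _ fun j _ =>
    (MeasureTheory.integrable_indicator_iff measurableSet_Ico).2 (by simp), Finset.mul_sum]
  exact Finset.sum_congr rfl fun j _ => by simp [hc.le]

theorem t1a_tendsto (ha : ∀ k, 0 < a k) (ha0 : Tendsto a atTop (𝓝 0)) (t : ℝ) :
    Tendsto (fun k => a k * ⌊t / a k⌋) atTop (𝓝 t) :=
  tendsto_of_tendsto_of_tendsto_of_le_of_le (g := fun k => t - a k) (by simpa using ha0.const_sub t) tendsto_const_nhds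
    (fun k => by linarith [((t1a_floor (ha k)).2 (rfl : ⌊t / a k⌋ = _)).2]) fun k => ((t1a_floor (ha k)).2 rfl).1

theorem t1a_bdd (ha : ∀ k, 0 < a k) (ha0 : Tendsto a atTop (𝓝 0)) {α β : ℝ} (hαβ : α ≤ β) (m M : ℕ → ℤ)
    (hm : Tendsto (fun k => a k * m k) atTop (𝓝 α)) (hM : Tendsto (fun k => a k * M k) atTop (𝓝 β))
    (F : ℕ → ℤ → ℂ) (f : ℝ → ℂ)
    (hF : ∀ t ∈ Set.Icc α β, ∀ j : ℕ → ℤ, Tendsto (fun k => a k * j k) atTop (𝓝 t) →
      Tendsto (fun k => F k (j k)) atTop (𝓝 (f t))) :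
    ∃ C : ℝ, ∀ᶠ k in atTop, ∀ j ∈ Finset.Icc (m k) (M k), ‖F k j‖ ≤ C := by
  have h1 : CLim a {z | z.re ∈ Set.Icc α β} (fun k p => F k p.1) fun z => f z.re := fun z hz v hv =>
    hF _ hz _ (by simpa [Function.comp_def, toC] using (Complex.continuous_re.tendsto z).comp hv)
  have h2 : ∀ t ∈ Set.Icc α β, ∃ δ > 0, ∀ᶠ k in atTop, ∀ j : ℤ, a k * j ∈ ball t δ → ‖F k j‖ ≤ ‖f t‖ + 1 := fun t ht => by
    obtain ⟨δ, hδ, h⟩ := h1.unif ha ha0 (z := t) ht one_pos
    refine ⟨δ, hδ, h.mono fun k hk j hj => ?_⟩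
    have h3 := hk (j, 0) (by
      rwa [show (a k : ℂ) * toC (j, 0) = (a k * j : ℝ) from Complex.ext (by simp [toC]) (by simp [toC]),
        Complex.dist_eq, ← Complex.ofReal_sub, Complex.norm_real])
    linarith [norm_sub_norm_le (F k j) (f t), show ‖F k j - f t‖ < 1 from dist_eq_norm (F k j) (f t) ▸ h3]
  choose! δ hδ h2 using h2
  obtain ⟨T, hT, hc⟩ := (isCompact_Icc (a := α) (b := β)).elim_nhds_subcover (fun t => ball t (δ t))
    fun t ht => ball_mem_nhds t (hδ t ht)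
  have hα := Set.left_mem_Icc.2 hαβ
  have hβ := Set.right_mem_Icc.2 hαβ
  refine ⟨∑ t ∈ T, (‖f t‖ + 1) + (‖f α‖ + 1) + (‖f β‖ + 1), ?_⟩
  have h0 : 0 ≤ ∑ t ∈ T, (‖f t‖ + 1) := by positivity
  filter_upwards [(eventually_all_finset T).2 fun t ht => h2 t (hT t ht), h2 α hα, h2 β hβ,
    hm.eventually (lt_mem_nhds (sub_lt_self α (hδ α hα))), hM.eventually (gt_mem_nhds (lt_add_of_pos_right β (hδ β hβ)))]
    with k h3 h4 h5 h6 h7 j hj
  have h8 := mul_le_mul_of_nonneg_left (Int.cast_le (R := ℝ).2 (Finset.mem_Icc.1 hj).1) (ha k).le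
  have h9 := mul_le_mul_of_nonneg_left (Int.cast_le (R := ℝ).2 (Finset.mem_Icc.1 hj).2) (ha k).le
  rcases lt_or_ge (a k * j) α with h | h
  · have := h4 j (by rw [Real.ball_eq_Ioo]; exact ⟨by linarith, by linarith [hδ α hα]⟩)
    linarith [norm_nonneg (f β)]
  rcases lt_or_ge β (a k * j) with h' | h'
  · have := h5 j (by rw [Real.ball_eq_Ioo]; exact ⟨by linarith [hδ β hβ], by linarith⟩)
    linarith [norm_nonneg (f α)]
  obtain ⟨t, ht, h10⟩ := Set.mem_iUnion₂.1 (hc ⟨h, h'⟩)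
  have := (h3 t ht j h10).trans (Finset.single_le_sum (f := fun t => ‖f t‖ + 1) (fun _ _ => by positivity) ht)
  linarith [norm_nonneg (f α), norm_nonneg (f β)]

/-- 1D Riemann sums under continuous convergence. Recipe: `f` is continuous on `Icc α β` and the convergence is uniform
(contradiction + `IsCompact.tendsto_subseq`, as `CLim.unif_compact`); write `a * Σ_j F j = ∫ t, F ⌊t/a⌋` on
`[a m, a (M+1))` and use dominated convergence (`MeasureTheory.tendsto_integral_of_dominated_convergence`) or a direct ε-proof. -/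
theorem riemann1 (ha : ∀ k, 0 < a k) (ha0 : Tendsto a atTop (𝓝 0)) {α β : ℝ} (hαβ : α ≤ β) (m M : ℕ → ℤ)
    (hm : Tendsto (fun k => a k * m k) atTop (𝓝 α)) (hM : Tendsto (fun k => a k * M k) atTop (𝓝 β))
    (F : ℕ → ℤ → ℂ) (f : ℝ → ℂ)
    (hF : ∀ t ∈ Set.Icc α β, ∀ j : ℕ → ℤ, Tendsto (fun k => a k * j k) atTop (𝓝 t) →
      Tendsto (fun k => F k (j k)) atTop (𝓝 (f t))) :
    Tendsto (fun k => (a k : ℂ) * ∑ j ∈ Finset.Icc (m k) (M k), F k j) atTop (𝓝 (∫ t in α..β, f t)) := by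
  obtain ⟨C, hC⟩ := t1a_bdd ha ha0 hαβ m M hm hM F f hF
  simp only [← fun k => t1a_int (ha k) (Finset.Icc (m k) (M k)) (F k)]
  rw [intervalIntegral.integral_of_le hαβ, ← MeasureTheory.integral_indicator measurableSet_Ioc]
  refine MeasureTheory.tendsto_integral_filter_of_dominated_convergence
    ((Set.Icc (α - 1) (β + 2)).indicator fun _ => |C|) (.of_forall fun k => ?_) ?_
    ((MeasureTheory.integrable_indicator_iff measurableSet_Icc).2 (by simp)) ?_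
  · exact ((measurable_from_top (f := fun j : ℤ => if j ∈ Finset.Icc (m k) (M k) then F k j else 0)).comp
      (Int.measurable_floor.comp (measurable_id.div_const _))).aestronglyMeasurable
  · filter_upwards [hC, hm.eventually (lt_mem_nhds (sub_one_lt α)), hM.eventually (gt_mem_nhds (lt_add_one β)),
      ha0.eventually (gt_mem_nhds one_pos)] with k h1 h2 h3 h4
    refine .of_forall fun t => ?_
    split_ifs with h
    · have h5 := (t1a_floor (ha k)).2 (rfl : ⌊t / a k⌋ = _)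
      have h6 := Finset.mem_Icc.1 h
      have h7 := mul_le_mul_of_nonneg_left (Int.cast_le (R := ℝ).2 h6.1) (ha k).le
      have h8 := mul_le_mul_of_nonneg_left (Int.cast_le (R := ℝ).2 h6.2) (ha k).le
      rw [Set.indicator_of_mem (show t ∈ Set.Icc (α - 1) (β + 2) from ⟨by linarith [h5.1], by linarith [h5.2]⟩)]
      exact (h1 _ h).trans (le_abs_self C)
    · exact norm_zero.trans_le (Set.indicator_nonneg (fun _ _ => abs_nonneg C) t)
  · filter_upwards [MeasureTheory.Measure.ae_ne _ α, MeasureTheory.Measure.ae_ne _ β] with t h1 h2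
    have h3 := t1a_tendsto ha ha0 t
    by_cases h : t ∈ Set.Ioc α β
    · rw [Set.indicator_of_mem h]
      refine (hF t ⟨h.1.le, h.2⟩ _ h3).congr' ?_
      filter_upwards [hm.eventually_lt h3 h.1, h3.eventually_lt hM (h.2.lt_of_ne h2)] with k h4 h5
      rw [if_pos (Finset.mem_Icc.2 ⟨(Int.cast_lt.1 (lt_of_mul_lt_mul_left h4 (ha k).le)).le,
        (Int.cast_lt.1 (lt_of_mul_lt_mul_left h5 (ha k).le)).le⟩)]
    · rw [Set.indicator_of_notMem h]
      refine tendsto_const_nhds.congr' ?_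
      rcases not_and_or.1 h with h | h
      · filter_upwards [h3.eventually_lt hm ((not_lt.1 h).lt_of_ne h1)] with k h4
        rw [if_neg fun h5 => (Finset.mem_Icc.1 h5).1.not_gt (Int.cast_lt.1 (lt_of_mul_lt_mul_left h4 (ha k).le))]
      · filter_upwards [hM.eventually_lt h3 (not_le.1 h)] with k h4
        rw [if_neg fun h5 => (Finset.mem_Icc.1 h5).2.not_gt (Int.cast_lt.1 (lt_of_mul_lt_mul_left h4 (ha k).le))]

/-! ### task T1b -/

/-- 2D Riemann sums by dominated convergence: `a² Σ_p F p = ∫ z, F (meshIndex a z)` (each fibre of `meshIndex a` is a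
half-open square of area `a²`; `Complex.volume_preserving_equiv_real_prod`), bound `C · indicator (ball 0 (R + 2))`. -/
theorem riemann2 (ha : ∀ k, 0 < a k) (ha0 : Tendsto a atTop (𝓝 0)) (F : ℕ → Site → ℝ) (f : ℂ → ℝ) (C R : ℝ)
    (hb : ∀ᶠ k in atTop, ∀ p, |F k p| ≤ C ∧ (R ≤ ‖(a k : ℂ) * toC p‖ → F k p = 0))
    (hl : ∀ᵐ z : ℂ, Tendsto (fun k => F k (meshIndex (a k) z)) atTop (𝓝 (f z))) :
    Tendsto (fun k => a k ^ 2 * ∑ᶠ p, F k p) atTop (𝓝 (∫ z, f z)) :=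
  t1b_riemann2 ha ha0 F f C R hb hl

theorem ptLim_mesh (ha : ∀ k, 0 < a k) (ha0 : Tendsto a atTop (𝓝 0)) (z : ℂ) :
    PtLim a (fun k => meshIndex (a k) z) z :=
  t1b_ptLim ha ha0 z

/-! ### task T1c -/

/-- residue on a square. Recipe: `Ψ z = Ψ x₀ + Ψ' (z - x₀) + (z - x₀)² Φ z` with `Φ` holomorphic (`dslope` twice,
`differentiableOn_dslope`); `Φ` gives `0` (`Complex.integral_boundary_rect_eq_zero_of_differentiableOn`, or a primitive
on the ball: `DifferentiableOn.isExactOn_ball`); `Σ_α I^α / (I^α w)² = 0` (`Σ I^{-α} = 0`);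
`Σ_α I^α / (I^α w) = 4 / w` and `∫_{-R}^{R} dt / (R + t I) = π / 2` (`integral_one_div_one_add_sq`, odd part vanishes). -/
theorem square_res {Ψ : ℂ → ℂ} {x₀ : ℂ} {R : ℝ} (hR : 0 < R) (hΨ : DifferentiableOn ℂ Ψ (ball x₀ (2 * R))) :
    ∑ α : Fin 4, Complex.I ^ (α : ℕ) * ∫ t in (-R)..R,
      Ψ (x₀ + Complex.I ^ (α : ℕ) * (R + t * Complex.I)) / (Complex.I ^ (α : ℕ) * (R + t * Complex.I)) ^ 2 =
      2 * Real.pi * deriv Ψ x₀ :=
  t1c_square_res hR hΨ

/-! ### task T1d -/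

/-- the side `α` of a box -/
def side (c : Site) (R : ℕ) (α : Fin 4) : Finset Site := (box c R).filter fun p => p + dv α ∉ box c R
/-- boundary sum against the outer normal -/
def bSum (P : Site → ℂ) (c : Site) (R : ℕ) : ℂ := ∑ α : Fin 4, Complex.I ^ (α : ℕ) * ∑ p ∈ side c R α, P p

theorem t1d_sum (P : Site → ℂ) (c : Site) (R : ℕ) (α : Fin 4) : ∑ p ∈ side c R α, P p =
    ∑ j ∈ Finset.Icc (-(R : ℤ)) R, P (c + (R : ℤ) • dv α + j • dv (α + 1)) := by
  symm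
  refine Finset.sum_nbij (fun j => c + (R : ℤ) • dv α + j • dv (α + 1)) (fun j hj => ?_) (fun j _ j' _ h => ?_)
    (fun p hp => ?_) fun _ _ => rfl
  · rw [Finset.mem_Icc] at hj
    fin_cases α <;> simp [side, box, dv] <;> omega
  · fin_cases α <;> simpa [dv] using h
  · obtain ⟨p1, p2⟩ := p
    obtain ⟨c1, c2⟩ := c
    fin_cases α <;> simp [side, box, dv] at hp ⊢
    · exact ⟨p2 - c2, by omega, by omega, by omega⟩
    · exact ⟨c1 - p1, by omega, by omega, by omega⟩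
    · exact ⟨c2 - p2, by omega, by omega, by omega⟩
    · exact ⟨p1 - c1, by omega, by omega, by omega⟩

theorem t1d_toC (c : Site) (R j : ℤ) (α : Fin 4) :
    toC (c + R • dv α + j • dv (α + 1)) = toC c + Complex.I ^ (α : ℕ) * (R + j * Complex.I) := by
  fin_cases α <;> apply Complex.ext <;> simp [toC, dv, pow_succ]

theorem t1d_floor (ha : ∀ k, 0 < a k) (ha0 : Tendsto a atTop (𝓝 0)) {R : ℝ} (hR : 0 < R) :
    Tendsto (fun k => a k * (⌊R / a k⌋₊ : ℝ)) atTop (𝓝 R) := by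
  have h1 : Tendsto (fun k => R - a k) atTop (𝓝 R) := by simpa using ha0.const_sub R
  refine tendsto_of_tendsto_of_tendsto_of_le_of_le h1 tendsto_const_nhds (fun k => ?_) fun k => ?_
  · have := Nat.lt_floor_add_one (R / a k)
    rw [div_lt_iff₀ (ha k)] at this
    simp only
    linarith
  · have := Nat.floor_le (div_pos hR (ha k)).le
    rw [le_div_iff₀ (ha k)] at this
    simp only
    linarith

/-- Recipe: `side c R α` is the image of `Icc (-R) R` under `j ↦ c + R • dv α + j • dv (α+1)`; `riemann1` on each side, `square_res`. -/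
theorem contour_lim (ha : ∀ k, 0 < a k) (ha0 : Tendsto a atTop (𝓝 0)) {c : ℕ → Site} {x₀ : ℂ} (hc : PtLim a c x₀)
    {R : ℝ} (hR : 0 < R) {Ψ : ℂ → ℂ} (hΨ : DifferentiableOn ℂ Ψ (ball x₀ (2 * R))) {P : ℕ → Site → ℂ}
    (hP : CLim a (ball x₀ (2 * R) \ {x₀}) P fun z => Ψ z / (z - x₀) ^ 2) :
    Tendsto (fun k => (a k : ℂ) * bSum (P k) (c k) ⌊R / a k⌋₊) atTop (𝓝 (2 * Real.pi * deriv Ψ x₀)) := by
  rw [← square_res hR hΨ]
  simp only [bSum, Finset.mul_sum (s := Finset.univ), t1d_sum, mul_left_comm (a _ : ℂ)]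
  refine tendsto_finsetSum _ fun α _ => Tendsto.const_mul _ ?_
  have hN := t1d_floor ha ha0 hR
  refine riemann1 ha ha0 (by linarith) (fun k => -(⌊R / a k⌋₊ : ℤ)) (fun k => (⌊R / a k⌋₊ : ℤ))
    (by simpa using hN.neg) (by simpa using hN)
    (fun k j => P k (c k + (⌊R / a k⌋₊ : ℤ) • dv α + j • dv (α + 1))) _ fun t ht j hj => ?_
  have hz : x₀ + Complex.I ^ (α : ℕ) * (R + t * Complex.I) ∈ ball x₀ (2 * R) \ {x₀} := by
    refine ⟨?_, fun h => ?_⟩
    · rw [mem_ball_iff_norm, add_sub_cancel_left, norm_mul, norm_pow, Complex.norm_I, one_pow, one_mul,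
        Complex.norm_add_mul_I, Real.sqrt_lt' (by linarith)]
      nlinarith [ht.1, ht.2]
    · have h1 := (mul_eq_zero.1 (add_eq_left.1 (Set.mem_singleton_iff.1 h))).resolve_left
        (pow_ne_zero _ Complex.I_ne_zero)
      have h2 := congrArg Complex.re h1
      simp at h2
      linarith
  have := hP _ hz (fun k => c k + (⌊R / a k⌋₊ : ℤ) • dv α + j k • dv (α + 1)) (by
    have h1 := (Complex.continuous_ofReal.tendsto _).comp hN
    have h2 := (Complex.continuous_ofReal.tendsto _).comp hj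
    refine (Tendsto.add hc ((h1.add (h2.mul_const Complex.I)).const_mul (Complex.I ^ (α : ℕ)))).congr fun k => ?_
    simp only [t1d_toC, Function.comp]
    push_cast
    ring)
  simpa only [add_sub_cancel_left] using this

/-! ### task T1e -/

theorem t1e_sub {β : Type} [TopologicalSpace β] {u : ℕ → β} {b : β}
    (h : ∀ ψ : ℕ → ℕ, StrictMono ψ → ∃ ψ' : ℕ → ℕ, StrictMono ψ' ∧ Tendsto (fun k => u (ψ (ψ' k))) atTop (𝓝 b)) :
    Tendsto u atTop (𝓝 b) := by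
  refine tendsto_of_subseq_tendsto fun ns hns => ?_
  obtain ⟨φ, -, h2⟩ := strictMono_subseq_of_tendsto_atTop hns
  obtain ⟨ψ', -, h3⟩ := h _ h2
  exact ⟨φ ∘ ψ', h3⟩

theorem t1e_norm : Tendsto (fun p : Site => ‖toC p‖) cofinite atTop := by
  refine tendsto_atTop.2 fun b => ?_
  rw [eventually_cofinite]
  refine (box 0 ⌈b⌉₊).finite_toSet.subset fun p hp => ?_
  have h1 := supd_le_dist p 0
  have h2 : toC 0 = 0 := Complex.ext (by simp [toC]) (by simp [toC])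
  rw [h2, sub_zero] at h1
  have h3 : (supd p 0 : ℝ) ≤ ⌈b⌉₊ := h1.trans ((not_le.1 hp).le.trans (Nat.le_ceil b))
  exact mem_box_iff.2 (by exact_mod_cast h3)

theorem t1e_half {ι : Type} {l : Filter ι} {F : ι → ℂ} {c : ℂ} (hc : c ≠ 0)
    (h : Tendsto (fun p => F p ^ 2) l (𝓝 (c ^ 2))) (h' : ∀ᶠ p in l, ‖F p - c‖ < ‖c‖ / 4) : Tendsto F l (𝓝 c) := by
  have h0 : 0 < ‖c‖ := norm_pos_iff.2 hc
  rw [tendsto_iff_norm_sub_tendsto_zero] at h ⊢
  refine squeeze_zero' (Eventually.of_forall fun _ => norm_nonneg _) ?_ (by simpa using h.div_const ‖c‖)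
  filter_upwards [h'] with p hp
  have h1 : ‖(2 : ℂ) * c‖ ≤ ‖F p + c‖ + ‖F p - c‖ := by
    rw [show (2 : ℂ) * c = (F p + c) - (F p - c) by ring]
    exact norm_sub_le _ _
  rw [norm_mul, Complex.norm_two] at h1
  rw [le_div_iff₀ h0, show F p ^ 2 - c ^ 2 = (F p - c) * (F p + c) by ring, norm_mul]
  exact mul_le_mul_of_nonneg_left (by linarith) (norm_nonneg _)

/-- subsequence principle (`tendsto_of_subseq_tendsto` / `Filter.tendsto_of_subseq_tendsto`, `PtLim.subseq`) -/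
theorem clim_of_subseq {β : Type} [TopologicalSpace β] {U : Set ℂ} {F : ℕ → Site → β} {f : ℂ → β}
    (h : ∀ ψ : ℕ → ℕ, StrictMono ψ → ∃ ψ' : ℕ → ℕ, StrictMono ψ' ∧
      CLim (fun k => a (ψ (ψ' k))) U (fun k => F (ψ (ψ' k))) f) : CLim a U F f := by
  intro z hz v hv
  refine t1e_sub fun ψ hψ => ?_
  obtain ⟨ψ', h1, h2⟩ := h ψ hψ
  exact ⟨ψ', h1, h2 z hz _ (hv.subseq (hψ.comp h1))⟩

theorem tendsto_of_strictMono_subseq {β : Type} [TopologicalSpace β] {u : ℕ → β} {b : β}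
    (h : ∀ ψ : ℕ → ℕ, StrictMono ψ → ∃ ψ' : ℕ → ℕ, StrictMono ψ' ∧ Tendsto (fun k => u (ψ (ψ' k))) atTop (𝓝 b)) :
    Tendsto u atTop (𝓝 b) := by
  exact t1e_sub h

theorem tendsto_of_seq {f : ℝ → ℝ} {F a₀ : ℝ} (h0 : 0 < a₀)
    (h : ∀ a : ℕ → ℝ, (∀ k, 0 < a k ∧ a k < a₀) → Tendsto a atTop (𝓝 0) → Tendsto (fun k => f (a k)) atTop (𝓝 F)) :
    Tendsto f (𝓝[>] 0) (𝓝 F) := by
  refine tendsto_iff_seq_tendsto.2 fun x hx => ?_
  have h1 : Tendsto x atTop (𝓝 0) := hx.mono_right nhdsWithin_le_nhds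
  have h2 : ∀ᶠ k in atTop, (if 0 < x k ∧ x k < a₀ then x k else a₀ / 2) = x k := by
    filter_upwards [hx.eventually self_mem_nhdsWithin, h1.eventually (gt_mem_nhds h0)] with k h3 h4
    exact if_pos ⟨h3, h4⟩
  refine (h (fun k => if 0 < x k ∧ x k < a₀ then x k else a₀ / 2) (fun k => ?_) (h1.congr' (h2.mono fun _ => Eq.symm))).congr'
    (h2.mono fun k hk => congrArg f hk)
  split_ifs with h3
  · exact h3
  · constructor <;> linarith

/-- limits at infinity from scaling limits: for `p k → ∞` take `a k = ‖toC (p k)‖⁻¹` and a subsequence with `a k * p k → z`, `‖z‖ = 1` -/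
theorem tendsto_cofinite_of_clim {β : Type} [TopologicalSpace β] {F : Site → β} {c : β}
    (h : ∀ a : ℕ → ℝ, (∀ k, 0 < a k) → Tendsto a atTop (𝓝 0) → ∃ ψ : ℕ → ℕ, StrictMono ψ ∧
      CLim (a ∘ ψ) {0}ᶜ (fun _ => F) fun _ => c) : Tendsto F cofinite (𝓝 c) := by
  intro s hs
  by_contra hn
  have hinf : (F ⁻¹' s)ᶜ.Infinite := hn
  let ns : ℕ → Site := fun k => hinf.natEmbedding _ k
  have h1 : Tendsto ns atTop cofinite := by
    rw [← Nat.cofinite_eq_atTop]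
    exact (Subtype.val_injective.comp (hinf.natEmbedding _).injective).tendsto_cofinite
  have h2 : Tendsto (fun k => ‖toC (ns k)‖ + 1) atTop atTop := tendsto_atTop_add_const_right _ _ (t1e_norm.comp h1)
  have h3 : Tendsto (fun k => (‖toC (ns k)‖ + 1)⁻¹) atTop (𝓝 0) := h2.inv_tendsto_atTop
  have h4 : ∀ k, ‖(((‖toC (ns k)‖ + 1)⁻¹ : ℝ) : ℂ) * toC (ns k)‖ = 1 - (‖toC (ns k)‖ + 1)⁻¹ := fun k => by
    rw [norm_mul, Complex.norm_real, Real.norm_of_nonneg (by positivity)]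
    field_simp
    ring
  obtain ⟨z, -, φ, hφ, hz⟩ := (isCompact_closedBall (0 : ℂ) 1).tendsto_subseq
    (x := fun k => (((‖toC (ns k)‖ + 1)⁻¹ : ℝ) : ℂ) * toC (ns k)) fun k => by
      rw [mem_closedBall_zero_iff, h4]
      exact sub_le_self _ (by positivity)
  have h5 : ‖z‖ = 1 - 0 := tendsto_nhds_unique hz.norm
    (((tendsto_const_nhds.sub h3).comp hφ.tendsto_atTop).congr fun k => (h4 (φ k)).symm)
  obtain ⟨ψ, hψ, h6⟩ := h (fun k => (‖toC (ns (φ k))‖ + 1)⁻¹) (fun k => by positivity) (h3.comp hφ.tendsto_atTop)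
  have h7 := h6 z (fun h0 => by rw [Set.mem_singleton_iff.1 h0] at h5; simp at h5) (fun k => ns (φ (ψ k)))
    (hz.comp hψ.tendsto_atTop)
  obtain ⟨k, hk⟩ := (h7.eventually hs).exists
  exact (hinf.natEmbedding _ (φ (ψ k))).2 hk

theorem clim_of_cofinite {β : Type} [TopologicalSpace β] {F : Site → β} {b : β} (h : Tendsto F cofinite (𝓝 b))
    (ha0 : Tendsto a atTop (𝓝 0)) {c : ℕ → Site} {x₀ : ℂ} (hc : PtLim a c x₀) :
    CLim a {x₀}ᶜ (fun k p => F (p - c k)) fun _ => b := by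
  intro z hz v hv
  refine h.comp (le_cofinite_iff_eventually_ne.2 fun p => ?_)
  have h1 : Tendsto (fun k => (a k : ℂ) * toC (v k) - (a k : ℂ) * toC (c k + p)) atTop (𝓝 (z - x₀)) :=
    Tendsto.sub hv (hc.add_const ha0 p)
  rw [eventually_map]
  filter_upwards [h1.eventually_ne (sub_ne_zero.2 hz)] with k hk
  intro he
  apply hk
  rw [← he, add_sub_cancel, sub_self]

/-- a square root with vanishing steps has an eventually constant sign (outside a large box the sites are connected: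
`osc_frame`-type argument, or move outwards and then along the boundary of a huge box) -/
theorem sign_const {F : Site → ℂ} {c : ℂ} (h : Tendsto (fun p => F p ^ 2) cofinite (𝓝 (c ^ 2)))
    (hs : ∀ j, Tendsto (fun p => F (p + uv j) - F p) cofinite (𝓝 0)) :
    Tendsto F cofinite (𝓝 c) ∨ Tendsto F cofinite (𝓝 (-c)) := by
  rcases eq_or_ne c 0 with rfl | hc
  · left
    rw [tendsto_zero_iff_norm_tendsto_zero]
    have := h.norm.sqrt
    simpa using this
  have h0 : 0 < ‖c‖ := norm_pos_iff.2 hc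
  have h1 : ∀ᶠ p in cofinite, (‖F p - c‖ < ‖c‖ / 4 ∨ ‖F p - -c‖ < ‖c‖ / 4) ∧ ∀ j, ‖F (p + uv j) - F p‖ < ‖c‖ := by
    refine Eventually.and ?_ (eventually_all.2 fun j => ?_)
    · filter_upwards [(tendsto_iff_norm_sub_tendsto_zero.1 h).eventually
        (gt_mem_nhds (show 0 < ‖c‖ / 4 * (‖c‖ / 4) by positivity))] with p hp
      rw [show F p ^ 2 - c ^ 2 = (F p - c) * (F p - -c) by ring, norm_mul] at hp
      by_contra hn
      rw [not_or, not_lt, not_lt] at hn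
      exact hp.not_ge (mul_le_mul hn.1 hn.2 (by positivity) (norm_nonneg _))
    · exact (tendsto_zero_iff_norm_tendsto_zero.1 (hs j)).eventually (gt_mem_nhds h0)
  rw [eventually_cofinite] at h1
  set r : ℕ := h1.toFinset.sup fun p => supd p 0 with hr
  have h2 : ∀ p, p ∉ box 0 r →
      (‖F p - c‖ < ‖c‖ / 4 ∨ ‖F p - -c‖ < ‖c‖ / 4) ∧ ∀ j, ‖F (p + uv j) - F p‖ < ‖c‖ := fun p hp => by
    by_contra hn
    exact hp (mem_box_iff.2 (Finset.le_sup (f := fun p => supd p 0) (h1.mem_toFinset.2 hn)))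
  have h3 : ∀ x y : ℂ, ‖x - c‖ < ‖c‖ / 4 → ‖y - -c‖ < ‖c‖ / 4 → ¬ ‖x - y‖ < ‖c‖ := fun x y hx hy hxy => by
    have h4 : ‖(2 : ℂ) * c‖ ≤ ‖x - y‖ + ‖y - -c‖ + ‖x - c‖ := by
      rw [show (2 : ℂ) * c = (x - y) + (y - -c) - (x - c) by ring]
      exact (norm_sub_le _ _).trans (add_le_add_left (norm_add_le _ _) _)
    rw [norm_mul, Complex.norm_two] at h4
    linarith
  let u : Site → ℝ := fun p => if ‖F p - c‖ < ‖c‖ / 4 then 1 else 0
  have h4 : ∀ p q, p ∉ box 0 r → q ∉ box 0 r → u p = u q := fun p q hp hq => by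
    have := osc_frame u 0 r (max (supd p 0) (supd q 0)) le_rfl (fun x hx j hx' => ?_)
      (Finset.mem_sdiff.2 ⟨mem_box_iff.2 (le_max_left _ _), hp⟩)
      (Finset.mem_sdiff.2 ⟨mem_box_iff.2 (le_max_right _ _), hq⟩)
    · rwa [zero_mul, norm_le_zero_iff, sub_eq_zero] at this
    · have h5 := h2 x (Finset.mem_sdiff.1 hx).2
      have h6 := (h2 _ (Finset.mem_sdiff.1 hx').2).1
      simp only [u]
      split_ifs with h7 h8 h8
      · simp
      · exact (h3 _ _ h7 (h5.1.resolve_left h8) (h5.2 j)).elim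
      · exact (h3 _ _ h8 (h6.resolve_left h7) (by rw [norm_sub_rev]; exact h5.2 j)).elim
      · simp
  have h5 : ∀ᶠ p in cofinite, p ∉ box (0 : Site) r := (box 0 r).eventually_cofinite_notMem
  by_cases h6 : ∀ p, p ∉ box 0 r → ‖F p - c‖ < ‖c‖ / 4
  · exact Or.inl (t1e_half hc h (h5.mono h6))
  · push Not at h6
    obtain ⟨q, hq, hq'⟩ := h6
    refine Or.inr (t1e_half (neg_ne_zero.2 hc) (by rwa [neg_sq]) (h5.mono fun p hp => ?_))
    rw [norm_neg]
    refine (h2 p hp).1.resolve_left fun h7 => ?_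
    have := h4 p q hp hq
    simp only [u, if_pos h7, if_neg hq'.not_gt] at this
    exact one_ne_zero this

/-! ### task T1f -/

/-- local boundedness spreads over a connected set: the set of `z ∈ U` with the property is open and closed in `U`
(`osc_box` on a small box; `IsPreconnected.subset_of_closure_inter_subset` or `IsPreconnected.induction₂`) -/
theorem loc_bdd {U : Set ℂ} (hU : IsOpen U) (hc : IsPreconnected U) (ha : ∀ k, 0 < a k) (ha0 : Tendsto a atTop (𝓝 0))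
    (F : ℕ → Site → ℝ)
    (hs : ∀ z ∈ U, ∃ C : ℝ, ∃ δ > 0, ∀ᶠ k in atTop, ∀ p j, dist ((a k : ℂ) * toC p) z < δ → |F k (p + uv j) - F k p| ≤ C * a k)
    {z₀ : ℂ} (hz₀ : z₀ ∈ U) {p₀ : ℕ → Site} (hp₀ : PtLim a p₀ z₀) {C₀ : ℝ} (h0 : ∀ᶠ k in atTop, |F k (p₀ k)| ≤ C₀) :
    ∀ K, IsCompact K → K ⊆ U → ∃ C : ℝ, ∀ᶠ k in atTop, ∀ p, (a k : ℂ) * toC p ∈ K → |F k p| ≤ C := by
  let Q : ℂ → Prop := fun z => ∃ v, PtLim a v z ∧ ∃ C : ℝ, ∀ᶠ k in atTop, |F k (v k)| ≤ C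
  have key : ∀ z ∈ U, ∃ δ > 0, ∀ w ∈ ball z δ, Q w →
      ∃ C : ℝ, ∀ᶠ k in atTop, ∀ p, dist ((a k : ℂ) * toC p) z < δ → |F k p| ≤ C := by
    intro z hz
    obtain ⟨C, δ, hδ, h⟩ := hs z hz
    obtain ⟨δ', hδ', h'⟩ := equi_of_steps ha ha0 F hδ (C := C) h 1 one_pos
    refine ⟨δ', hδ', fun w hw ⟨v, hv, C', hC'⟩ => ⟨C' + 1, ?_⟩⟩
    filter_upwards [h', hC', hv.eventually (isOpen_ball.mem_nhds hw)] with k k1 k2 k3 p hp
    have e := k1 p (v k) hp k3
    rw [Real.norm_eq_abs] at e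
    have e2 := abs_sub_abs_le_abs_sub (F k p) (F k (v k))
    linarith
  have key2 : ∀ z ∈ U, ∃ δ > 0, ∀ w ∈ ball z δ, ∀ w' ∈ ball z δ, Q w → Q w' := by
    intro z hz
    obtain ⟨δ, hδ, h⟩ := key z hz
    refine ⟨δ, hδ, fun w hw w' hw' hQ => ?_⟩
    obtain ⟨C, hC⟩ := h w hw hQ
    obtain ⟨v, hv⟩ := exists_ptLim ha ha0 w'
    refine ⟨v, hv, C, ?_⟩
    filter_upwards [hC, hv.eventually (isOpen_ball.mem_nhds hw')] with k k1 k2
    exact k1 _ k2
  have hQ : ∀ z ∈ U, Q z := fun z hz => by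
    refine hc.induction₂' (fun x y => Q x → Q y) (fun x hx => ?_) (fun x y z _ _ _ h1 h2 h => h2 (h1 h)) hz₀ hz
      ⟨p₀, hp₀, C₀, h0⟩
    obtain ⟨δ, hδ, h⟩ := key2 x hx
    filter_upwards [mem_nhdsWithin_of_mem_nhds (ball_mem_nhds x hδ)] with y hy
    exact ⟨h x (mem_ball_self hδ) y hy, h y hy x (mem_ball_self hδ)⟩
  intro K hK hKU
  refine hK.induction_on (p := fun K => ∃ C : ℝ, ∀ᶠ k in atTop, ∀ p, (a k : ℂ) * toC p ∈ K → |F k p| ≤ C)
    ⟨0, Eventually.of_forall fun k p hp => hp.elim⟩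
    (fun s t hst ⟨C, hC⟩ => ⟨C, hC.mono fun k hk p hp => hk p (hst hp)⟩)
    (fun s t ⟨C, hC⟩ ⟨C', hC'⟩ => ⟨max C C', ?_⟩) fun z hz => ?_
  · filter_upwards [hC, hC'] with k k1 k2 p hp
    rcases hp with hp | hp
    exacts [(k1 p hp).trans (le_max_left _ _), (k2 p hp).trans (le_max_right _ _)]
  · obtain ⟨δ, hδ, h⟩ := key z (hKU hz)
    exact ⟨ball z δ, mem_nhdsWithin_of_mem_nhds (ball_mem_nhds z hδ), h z (mem_ball_self hδ) (hQ z (hKU hz))⟩

/-- **integration of lattice gradients.** Fix `z₀, p₀`, `F k p = L k p - L k (p₀ k)`; `loc_bdd`, `equi_of_steps`,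
`clim_compact`, `clim_hasFDerivAt` give a limit `Λ` along subsequences, `Λ z₀ = 0`; two such limits have the same derivative on the
connected open `U` (`IsOpen.eqOn_of_fderiv_eq`, `IsOpen.is_const_of_fderiv_eq_zero`), so `clim_of_subseq` applies. -/
theorem int_lemma {U : Set ℂ} (hU : IsOpen U) (hc : IsPreconnected U) (ha : ∀ k, 0 < a k) (ha0 : Tendsto a atTop (𝓝 0))
    (L : ℕ → Site → ℝ) (A : Fin 2 → ℂ → ℝ) (h : ∀ j, CLim a U (fun k p => (a k)⁻¹ * (L k (p + uv j) - L k p)) (A j)) :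
    ∃ Λ : ℂ → ℝ, (∀ z ∈ U, HasFDerivAt Λ (Complex.reCLM.smulRight (A 0 z) + Complex.imCLM.smulRight (A 1 z)) z) ∧
      ∀ z ∈ U, ∀ z' ∈ U, ∀ p p', PtLim a p z → PtLim a p' z' →
        Tendsto (fun k => L k (p' k) - L k (p k)) atTop (𝓝 (Λ z' - Λ z)) := by
  rcases U.eq_empty_or_nonempty with rfl | ⟨z₀, hz₀⟩
  · exact ⟨0, fun z hz => hz.elim, fun z hz => hz.elim⟩
  obtain ⟨p₀, hp₀⟩ := exists_ptLim ha ha0 z₀
  let F : ℕ → Site → ℝ := fun k p => L k p - L k (p₀ k)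
  have hF : ∀ k p j, F k (p + uv j) - F k p = L k (p + uv j) - L k p := fun k p j => by simp only [F]; ring
  have hs : ∀ z ∈ U, ∃ C : ℝ, ∃ δ > 0, ∀ᶠ k in atTop, ∀ p j, dist ((a k : ℂ) * toC p) z < δ →
      |F k (p + uv j) - F k p| ≤ C * a k := by
    intro z hz
    obtain ⟨δ₀, h0, H0⟩ := (h 0).unif ha ha0 hz one_pos
    obtain ⟨δ₁, h1, H1⟩ := (h 1).unif ha ha0 hz one_pos
    refine ⟨|A 0 z| + |A 1 z| + 1, min δ₀ δ₁, lt_min h0 h1, ?_⟩
    filter_upwards [H0, H1] with k k0 k1 p j hp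
    have e : dist ((a k)⁻¹ * (L k (p + uv j) - L k p)) (A j z) < 1 := by
      fin_cases j
      exacts [k0 p (hp.trans_le (min_le_left _ _)), k1 p (hp.trans_le (min_le_right _ _))]
    have e2 : |A j z| ≤ |A 0 z| + |A 1 z| := by
      fin_cases j
      · exact le_add_of_nonneg_right (abs_nonneg _)
      · exact le_add_of_nonneg_left (abs_nonneg _)
    rw [Real.dist_eq] at e
    have e3 := abs_sub_abs_le_abs_sub ((a k)⁻¹ * (L k (p + uv j) - L k p)) (A j z)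
    have e4 : |(a k)⁻¹ * (L k (p + uv j) - L k p)| ≤ |A 0 z| + |A 1 z| + 1 := by linarith
    rwa [abs_mul, abs_of_pos (inv_pos.2 (ha k)), inv_mul_le_iff₀ (ha k), mul_comm, ← hF] at e4
  have hb : ∀ z ∈ U, ∃ C : ℝ, ∃ δ > 0, ∀ᶠ k in atTop, ∀ p, dist ((a k : ℂ) * toC p) z < δ → ‖F k p‖ ≤ C := by
    intro z hz
    obtain ⟨δ, hδ, hδU⟩ := nhds_basis_closedBall.mem_iff.1 (hU.mem_nhds hz)
    obtain ⟨C, hC⟩ := loc_bdd hU hc ha ha0 F hs hz₀ hp₀ (C₀ := 0) (Eventually.of_forall fun k => by simp [F]) _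
      (isCompact_closedBall z δ) hδU
    exact ⟨C, δ, hδ, hC.mono fun k hk p hp => hk p (mem_closedBall.2 hp.le)⟩
  have sub : ∀ ψ : ℕ → ℕ, StrictMono ψ → ∃ (ψ' : ℕ → ℕ) (Λ : ℂ → ℝ), StrictMono ψ' ∧
      CLim (fun k => a (ψ (ψ' k))) U (fun k => F (ψ (ψ' k))) Λ ∧ Λ z₀ = 0 ∧
      ∀ z ∈ U, HasFDerivAt Λ (Complex.reCLM.smulRight (A 0 z) + Complex.imCLM.smulRight (A 1 z)) z := by
    intro ψ hψ
    have hψ' := hψ.tendsto_atTop
    obtain ⟨ψ', Λ, h1, h2⟩ := clim_compact (a := a ∘ ψ) (U := U) (fun k => ha _) (ha0.comp hψ') (fun k => F (ψ k))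
      (fun z hz => by
        obtain ⟨C, δ, hδ, H⟩ := hb z hz
        exact ⟨C, δ, hδ, hψ'.eventually H⟩)
      (fun z hz ε hε => by
        obtain ⟨C, δ, hδ, H⟩ := hs z hz
        obtain ⟨δ', hδ', H'⟩ := equi_of_steps ha ha0 F hδ (C := C) H ε hε
        exact ⟨δ', hδ', hψ'.eventually H'⟩)
    have h3 := hψ.comp h1
    refine ⟨ψ', Λ, h1, h2, ?_, fun z hz => ?_⟩
    · have t := h2 z₀ hz₀ _ (hp₀.subseq h3)
      simp only [F, Function.comp, sub_self] at t
      exact (tendsto_nhds_unique t tendsto_const_nhds)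
    · refine clim_hasFDerivAt hU (a := (a ∘ ψ) ∘ ψ') (fun k => ha _) (ha0.comp h3.tendsto_atTop) h2 A (fun j => ?_) hz
      have t := (h j).subseq ha ha0 h3
      simp only [hF, smul_eq_mul]
      exact t
  obtain ⟨-, Λ, -, -, h0, hΛ⟩ := sub id strictMono_id
  have hlim : CLim a U F Λ := by
    refine clim_of_subseq fun ψ hψ => ?_
    obtain ⟨ψ', Λ', h1, h2, h3, h4⟩ := sub ψ hψ
    have e : U.EqOn Λ' Λ := hU.eqOn_of_fderiv_eq (𝕜 := ℝ) hc
      (fun z hz => (h4 z hz).differentiableAt.differentiableWithinAt)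
      (fun z hz => (hΛ z hz).differentiableAt.differentiableWithinAt)
      (fun z hz => (h4 z hz).fderiv.trans (hΛ z hz).fderiv.symm) hz₀ (h3.trans h0.symm)
    exact ⟨ψ', h1, fun z hz v hv => e hz ▸ h2 z hz v hv⟩
  refine ⟨Λ, hΛ, fun z hz z' hz' p p' hp hp' => ?_⟩
  refine ((hlim z' hz' p' hp').sub (hlim z hz p hp)).congr fun k => ?_
  simp only [F]
  ring

/-- squeeze: a family of sequences that is eventually `ε`-close to one number `Φ ε`, for each `ε`, converges to one limit -/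
theorem squeeze_family {τ : Type} [Nonempty τ] (X : τ → ℕ → ℝ)
    (h : ∀ ε > 0, ∃ Φ : ℝ, ∀ t, ∀ᶠ k in atTop, |X t k - Φ| ≤ ε) : ∃ F : ℝ, ∀ t, Tendsto (X t) atTop (𝓝 F) := by
  have hc : ∀ t, CauchySeq (X t) := fun t => by
    refine Metric.cauchySeq_iff.2 fun ε hε => ?_
    obtain ⟨Φ, hΦ⟩ := h (ε / 4) (by positivity)
    obtain ⟨N, hN⟩ := eventually_atTop.1 (hΦ t)
    refine ⟨N, fun m hm n hn => ?_⟩
    have h1 := abs_le.1 (hN m hm)
    have h2 := abs_le.1 (hN n hn)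
    rw [Real.dist_eq, abs_lt]
    constructor <;> linarith [h1.1, h1.2, h2.1, h2.2]
  choose F hF using fun t => cauchySeq_tendsto_of_complete (hc t)
  obtain ⟨t₀⟩ := ‹Nonempty τ›
  refine ⟨F t₀, fun t => ?_⟩
  have e : F t = F t₀ := by
    refine eq_of_forall_dist_le fun ε hε => ?_
    obtain ⟨Φ, hΦ⟩ := h (ε / 2) (by positivity)
    have h1 : ∀ t, |F t - Φ| ≤ ε / 2 := fun t => le_of_tendsto ((hF t).sub_const Φ).abs (hΦ t)
    have h2 := abs_le.1 (h1 t)
    have h3 := abs_le.1 (h1 t₀)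
    rw [Real.dist_eq, abs_le]
    constructor <;> linarith [h2.1, h2.2, h3.1, h3.2]
  exact e ▸ hF t

end Crest.Agent.R165.C
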