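import Crest.Agent.R165.C.Defs
import Crest.Agent.R165.BC.Bulk
import Crest.Agent.R165.BC.Gauge

/-! # R165/C/T2bx: auxiliary lemmas for task T2b (helper14) -/

set_option autoImplicit false
noncomputable section
open Classical Filter Topology Metric

namespace Crest.Agent.R165.C

theorem t2b_opp (α : Fin 4) : ∃ (ε : ℝ) (γ : Fin 4), |ε| = 1 ∧ (∀ (s : Fn) (x : Site), opp s x α = ε * s (x + dv α, γ)) ∧
    ∀ (c : ℂ) (x : Site), (c * bA α).im = -(ε * cSol c (x, γ)) := by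
  induction α using b1_fin4
  · refine ⟨1, 2, by simp, fun s ⟨a, b⟩ => by rw [opp_0, add_dv_0, one_mul], fun c x => ?_⟩
    rw [cSol_2]; simp [bA]
  · refine ⟨1, 3, by simp, fun s ⟨a, b⟩ => by rw [opp_1, add_dv_1, one_mul], fun c x => ?_⟩
    rw [cSol_3]; simp [bA, om_eq]; ring
  · refine ⟨-1, 0, by simp, fun s ⟨a, b⟩ => by rw [opp_2, add_dv_2, neg_one_mul], fun c x => ?_⟩
    rw [cSol_0]
    show (c * (starRingEnd ℂ) om ^ 2).im = _
    rw [← map_pow, om_sq]; simp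
  · refine ⟨-1, 1, by simp, fun s ⟨a, b⟩ => by rw [opp_3, add_dv_3, neg_one_mul], fun c x => ?_⟩
    rw [cSol_1]
    show (c * (starRingEnd ℂ) om ^ 3).im = _
    rw [← map_pow, om_cube]; simp; ring

theorem t2b_pl : ∃ C : ℝ, ∀ (s : Fn) (x : Site) (R : ℕ) (M : ℝ), 1 ≤ R → SolOn wPl (box x (4 * R + 8)) s →
    SB (box x (4 * R + 8)) M s → ∀ α, |s (x, α) - (fld s x * bA α).re| ≤ C * M / R ∧
      |opp s x α + (fld s x * bA α).im| ≤ C * M / R := by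
  obtain ⟨C, hC⟩ := interior
  refine ⟨2 * C, fun s x R M hR hs hM α => ?_⟩
  have e₁ := (hC s x R M hR hs hM x (self_mem_box x R) α 0 0 0).2.2.2.1
  have h0 : 0 ≤ C * M / R := (abs_nonneg _).trans e₁
  have e : 2 * C * M / R = 2 * (C * M / R) := by ring
  rw [e]
  refine ⟨le_trans e₁ (by linarith), ?_⟩
  obtain ⟨ε, γ, hε, h1, h2⟩ := t2b_opp α
  have e₂ := (hC s x R M hR hs hM x (self_mem_box x R) γ α 0 0).2.2.2.1
  have e₃ := (hC s x R M hR hs hM x (self_mem_box x R) γ α 0 0).1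
  rw [h1, h2 _ x, ← sub_eq_add_neg, ← mul_sub, abs_mul, hε, one_mul]
  exact (abs_sub_le _ (s (x, γ)) _).trans (by simp only [mas, dif] at e₂ e₃; linarith)

theorem t2b_edge (σ : Site → ℝ) (p : Site) (α : Fin 4) :
    σ (edgeOf p α).1 * σ ((edgeOf p α).1 + uv (edgeOf p α).2) = σ p * σ (p + dv α) := by
  obtain ⟨a, b⟩ := p
  induction α using b1_fin4
  · rw [edgeOf_0, add_uv_0, add_dv_0]
  · rw [edgeOf_1, add_uv_1, add_dv_1]
  · rw [edgeOf_2, add_uv_0, add_dv_2, sub_add_cancel, mul_comm]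
  · rw [edgeOf_3, add_uv_1, add_dv_3, sub_add_cancel, mul_comm]

theorem t2b_opp_gauge (σ : Site → ℝ) (s : Fn) (p : Site) (α : Fin 4) :
    opp (gaugeF σ s) p α = σ (p + dv α) * opp s p α := by
  simp only [opp, sv, gaugeF]
  split_ifs <;> ring

theorem t2b_compact {P : ℕ → ℂ → Prop} {K : Set ℂ} (hK : IsCompact K)
    (h : ∀ z ∈ K, ∃ δ > 0, ∀ᶠ k in atTop, ∀ w, dist w z < δ → P k w) : ∀ᶠ k in atTop, ∀ w ∈ K, P k w := by
  refine hK.induction_on (p := fun S => ∀ᶠ k in atTop, ∀ w ∈ S, P k w) (by simp) (fun S T hST hT => ?_)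
    (fun S T hS hT => ?_) fun z hz => ?_
  · filter_upwards [hT] with k hk w hw using hk w (hST hw)
  · filter_upwards [hS, hT] with k h1 h2 w hw using hw.elim (h1 w) (h2 w)
  · obtain ⟨δ, hδ, h1⟩ := h z hz
    exact ⟨ball z δ, mem_nhdsWithin_of_mem_nhds (ball_mem_nhds z hδ), h1⟩

variable {a : ℕ → ℝ} {n : ℕ} {v : ℕ → Fin n → Site} {x : Fin n → ℂ} {E : ℕ → Set Edge} {s : ℕ → Fn} {U : Set ℂ}

theorem t2b_loc (hU : IsOpen U) (ha : ∀ k, 0 < a k) (ha0 : Tendsto a atTop (𝓝 0))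
    (hv : ∀ᶠ k in atTop, Function.Injective (v k)) (hx : ∀ i, PtLim a (fun k => v k i) (x i)) (hxU : ∀ i, x i ∉ U)
    (h : BulkSeq U a v E s) {z₀ : ℂ} (hz : z₀ ∈ U) :
    ∃ δ > 0, ∃ C : ℝ, ∀ᶠ k in atTop, ∀ p, dist ((a k : ℂ) * toC p) z₀ < δ → ∀ α,
      |s k (p, α) - (fld (s k) p * bA α).re| ≤ C * a k ∧
      |eray (spinsOf (v k)) (edgeOf p α) * opp (s k) p α + (fld (s k) p * bA α).im| ≤ C * a k := by
  obtain ⟨δ₁, hδ₁, R, σ, -, -, hσ, hσe, -⟩ := loc_gauge ha ha0 v hv x hx (z₀ := z₀) fun i hi => hxU i (hi ▸ hz)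
  obtain ⟨δ₂, hδ₂, hb⟩ := Metric.isOpen_iff.1 hU z₀ hz
  obtain ⟨δ, hδ, h1, h2⟩ : ∃ δ : ℝ, 0 < δ ∧ 20 * δ < δ₁ ∧ 20 * δ < δ₂ :=
    ⟨min δ₁ δ₂ / 40, by positivity, by linarith [min_le_left δ₁ δ₂], by linarith [min_le_right δ₁ δ₂]⟩
  obtain ⟨M, hM⟩ := h (closedBall z₀ (20 * δ)) (isCompact_closedBall _ _) ((closedBall_subset_ball h2).trans hb)
  obtain ⟨C₁, hC₁⟩ := t2b_pl
  refine ⟨δ, hδ, |C₁ * M| * (2 / δ) ^ 1, ?_⟩
  filter_upwards [hM, hσe, ha0.eventually (gt_mem_nhds (half_pos hδ))] with k ⟨hcr, hsol, hsb⟩ he hak p hp α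
  have hk := ha k
  obtain ⟨r, r1, r2, r3⟩ := blk_radius hk hδ hak
  have hd : ∀ q ∈ box p (4 * r + 9), dist ((a k : ℂ) * toC q) z₀ < 20 * δ := fun q hq => by
    have := blk_dist hk hq z₀
    push_cast at this
    nlinarith
  have hK : ∀ q ∈ box p (4 * r + 8), q ∈ {q | (a k : ℂ) * toC q ∈ closedBall z₀ (20 * δ)} := fun q hq =>
    (hd q (box_mono p (by omega) hq)).le
  have he' : ∀ q ∈ box p (4 * r + 8), ∀ α, σ k (edgeOf q α).1 * σ k ((edgeOf q α).1 + uv (edgeOf q α).2) *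
      eray (spinsOf (v k)) (edgeOf q α) = 1 := fun q hq α => by
    have e0 : box q 1 ⊆ box p (4 * r + 9) := box_sub hq (by omega)
    exact he (edgeOf q α) ((hd _ (e0 (edgeOf_fst_mem_box q α))).trans h1)
  have hw : ∀ q ∈ box p (4 * r + 8), ∀ α,
      wPl (edgeOf q α) = gaugeW (σ k) (wOf (E k) (spinsOf (v k))) (edgeOf q α) := fun q hq α => by
    rw [gaugeW, wOf, if_pos (hcr q (hK q hq) α), mul_left_comm, he' q hq α, mul_one, wPl]
  have hS : SolOn wPl (box p (4 * r + 8)) (gaugeF (σ k) (s k)) :=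
    SolOn.gauge (hσ k) (fun q hq α => hsol q (hK q hq) α) hw
  have hB : SB (box p (4 * r + 8)) M (gaugeF (σ k) (s k)) := fun q hq α => by
    rw [abs_gaugeF (hσ k)]
    exact hsb q (hK q hq) α
  obtain ⟨g1, g2⟩ := hC₁ _ p r M r1 hS hB α
  have b1 : C₁ * M / r ≤ |C₁ * M| * (2 / δ) ^ 1 * a k := by
    simpa using blk_div (m := 1) (c := C₁ * M) hk hδ r1 r3 le_rfl
  have e1 := he' p (self_mem_box _ _) α
  rw [t2b_edge] at e1
  rw [fld_gauge, mul_assoc, Complex.re_ofReal_mul, gaugeF, ← mul_sub, abs_mul] at g1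
  rw [fld_gauge, mul_assoc, Complex.im_ofReal_mul, t2b_opp_gauge] at g2
  have s1 : |σ k p| = 1 := by rcases hσ k p with e | e <;> simp [e]
  refine ⟨by rw [s1, one_mul] at g1; exact g1.trans b1, le_trans ?_ (g2.trans b1)⟩
  have e2 : σ k (p + dv α) = σ k p * eray (spinsOf (v k)) (edgeOf p α) := by
    have := (hσ k).mul_self (p + dv α)
    have := (hσ k).mul_self p
    rcases hσ k p with e | e <;> rcases hσ k (p + dv α) with e' | e' <;> rw [e, e'] at e1 ⊢ <;> linarith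
  rw [e2, mul_assoc, ← mul_add, abs_mul, s1, one_mul]

theorem t2b_rt_sq (w : ℂ) : rt w ^ 2 = w := by
  simp only [rt]; rw [mul_pow, gb_half_sq, Complex.I_sq]; ring

theorem t2b_rtP_sq {a : ℝ} (ha : 0 < a) {v : Fin n → Site} (hv : Function.Injective v) (p : Site) :
    (((a ^ ((n : ℝ) / 2) : ℝ) : ℂ) * rtP (spinsOf v) p) ^ 2 = ∏ i, (a : ℂ) * (pos p - toC (v i)) := by
  rw [mul_pow, rtP, spinsOf, Finset.prod_image hv.injOn, ← Finset.prod_pow, Finset.prod_mul_distrib, Finset.prod_const,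
    Finset.card_univ, Fintype.card_fin, ← Complex.ofReal_pow, ← Real.rpow_natCast, ← Real.rpow_mul ha.le,
    show (n : ℝ) / 2 * (2 : ℕ) = n by push_cast; ring, Real.rpow_natCast, Complex.ofReal_pow]
  simp only [t2b_rt_sq]

theorem t2b_rtP_lim (ha : ∀ k, 0 < a k) (ha0 : Tendsto a atTop (𝓝 0))
    (hv : ∀ᶠ k in atTop, Function.Injective (v k)) (hx : ∀ i, PtLim a (fun k => v k i) (x i)) {u : ℕ → Site} {z : ℂ}
    (hu : PtLim a u z) :
    Tendsto (fun k => (((a k ^ ((n : ℝ) / 2) : ℝ) : ℂ) * rtP (spinsOf (v k)) (u k)) ^ 2) atTop (𝓝 (rhoX x z)) := by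
  refine (tendsto_finsetProd Finset.univ fun i _ => gb_lim ha0 (hx i) hu).congr' ?_
  filter_upwards [hv] with k hk
  rw [t2b_rtP_sq (ha k) hk]

end Crest.Agent.R165.C
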