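import Crest.Agent.R165.C.T1
import Crest.Agent.R165.C.T2bx
import Crest.Agent.R165.BC.Main
import Crest.Agent.R165.BC.Bulk
import Crest.Agent.R165.BC.Gauge
import Crest.Agent.R165.DU.Corner

/-! # R165/C: bform and flux through a box, limits (block C, owner helper83; statements FROZEN, add lemmas freely inside the namespace) -/

set_option autoImplicit false
noncomputable section
open Classical Filter Topology Metric Crest.ProbabilityR.IsingModel

namespace Crest.Agent.R165.C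

variable {a : ℕ → ℝ} {n : ℕ} {v : ℕ → Fin n → Site} {x : Fin n → ℂ} {E : ℕ → Set Edge} {s s' : ℕ → Fn} {U : Set ℂ}

/-! ### task T2a (exact identities) -/

theorem bA_sq (α : Fin 4) : bA α ^ 2 = Complex.I ^ (α : ℕ) := by
  rw [bA, ← pow_mul, mul_comm, pow_mul, ← map_pow, om_sq]
  congr 1
  exact Complex.ext (by simp) (by simp)

theorem norm_bA (α : Fin 4) : ‖bA α‖ = 1 := by
  have h := congrArg norm (bA_sq α)
  rw [norm_pow, norm_pow, Complex.norm_I, one_pow] at h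
  exact (pow_eq_one_iff_of_nonneg (norm_nonneg _) two_ne_zero).1 h

theorem bA_zero : bA 0 = 1 := by
  simp [bA]

theorem bA_two : bA 2 = Complex.I := by
  simpa [bA] using bA_sq 1

theorem bA_three : bA 3 = Complex.I * bA 1 := by
  rw [← bA_two, bA, bA, bA, ← pow_add]
  rfl

theorem lam0_ne : lam0 ≠ 0 := by
  have := tc_pos.1
  have := Real.pi_pos
  exact neg_ne_zero.2 (by positivity)

theorem t2a_fin (S : Fin 4 → Finset Site) (B : Finset Site) (h : ∀ α, S α ⊆ B) (F : Fn) :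
    (Function.support fun i : HE => if i.1 ∈ S i.2 then F i else 0).Finite ∧
      ∑ᶠ i : HE, (if i.1 ∈ S i.2 then F i else 0) = ∑ α, ∑ p ∈ S α, F (p, α) := by
  have h1 : (Function.support fun i : HE => if i.1 ∈ S i.2 then F i else 0) ⊆ ↑(B ×ˢ (Finset.univ : Finset (Fin 4))) :=
    fun i hi => by
      by_cases h2 : i.1 ∈ S i.2
      · simpa using h _ h2
      · simp [h2] at hi
  refine ⟨(Finset.finite_toSet _).subset h1, ?_⟩
  rw [finsum_eq_sum_of_support_subset _ h1, Finset.sum_product_right]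
  refine Finset.sum_congr rfl fun α _ => ?_
  simp only
  rw [← Finset.sum_filter, Finset.filter_mem_eq_inter, Finset.inter_eq_right.2 (h α)]


/-- pair the half-edge `(p, α)`, `p ∈ side`, with the opposite one `(p + dv α, α + 2)` -/
theorem bform_box (w : Edge → ℝ) (c : Site) (R : ℕ) (s s' : Fn) :
    bform w (bI c R) s s' =
      -∑ α : Fin 4, ∑ p ∈ side c R α, w (edgeOf p α) * (s (p, α) * opp s' p α + opp s p α * s' (p, α)) := by
  obtain ⟨f1, e1⟩ := t2a_fin (side c R) (box c R) (fun _ => Finset.filter_subset _ _)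
    fun i => w (edgeOf i.1 i.2) * (s i * opp s' i.1 i.2)
  obtain ⟨f2, e2⟩ := t2a_fin (side c R) (box c R) (fun _ => Finset.filter_subset _ _)
    fun i => w (edgeOf i.1 i.2) * (opp s i.1 i.2 * s' i)
  obtain ⟨f3, e3⟩ := b1_swap heOpp (g := fun i => if i.1 + dv i.2 ∈ side c R (i.2 + 2) then
      w (edgeOf i.1 i.2) * (s i * opp s' i.1 i.2) else 0) f2 fun ⟨p, α⟩ => by
    have e : α + 2 + 2 = α := by rw [add_assoc]; exact add_zero α
    simp only [heOpp_apply, add_dv_dv, e, edgeOf_opp]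
    split_ifs
    · rw [mul_comm (s _), opp_mul_opp]; ring
    · simp
  simp only [mul_add, Finset.sum_add_distrib]
  rw [← e1, ← e2, neg_add, ← e3, add_comm, ← sub_eq_add_neg, ← finsum_sub_distrib f3 f1, bform]
  refine finsum_congr fun ⟨p, α⟩ => ?_
  simp only [side, bI, Finset.mem_filter, add_dv_dv]
  by_cases h1 : p ∈ box c R <;> by_cases h2 : p + dv α ∈ box c R <;> simp [h1, h2] <;> ring

theorem green_box (w : Edge → ℝ) (c : Site) (R : ℕ) (s s' : Fn) :
    bform w (bI c R) s s' = -∑ p ∈ box c R, ∑ α : Fin 4, (s (p, α) * opA w s' (p, α) + opA w s (p, α) * s' (p, α)) := by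
  rw [green w (bI c R) ((box c R).finite_toSet.subset fun p hp => by_contra fun h => hp (if_neg h)), Finset.sum_comm,
    ← (t2a_fin (fun _ => box c R) _ (fun _ => subset_rfl) fun i => s i * opA w s' i + opA w s i * s' i).2]
  simp only [bI, ite_mul, one_mul, zero_mul]

theorem abs_bform_box_le {w : Edge → ℝ} (hw : ∀ e, |w e| ≤ 1) (c : Site) {R : ℕ} (hR : 1 ≤ R) {s s' : Fn} {M M' : ℝ}
    (h : SB (frame c (R - 1) (R + 1)) M s) (h' : SB (frame c (R - 1) (R + 1)) M' s') :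
    |bform w (bI c R) s s'| ≤ 8 * (2 * R + 1) * (M * M') := by
  have hc : ∀ α, (side c R α).card ≤ 2 * R + 1 := fun α => by
    have e : ∀ t : ℤ, (Finset.Icc (t - R) (t + R)).card = 2 * R + 1 := fun t => by rw [Int.card_Icc]; omega
    by_cases hα : α = 0 ∨ α = 2
    · rw [← e c.2]
      refine Finset.card_le_card_of_injOn Prod.snd (fun p hp => ?_) fun p hp q hq h => ?_
      · simp only [side, Finset.coe_filter, Set.mem_ofPred_eq, mem_box', Finset.coe_Icc, Set.mem_Icc] at hp ⊢; omega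
      · rcases hα with rfl | rfl <;>
          simp only [side, Finset.coe_filter, Set.mem_ofPred_eq, mem_box', add_dv0, add_dv2] at hp hq <;> ext <;> omega
    · rw [← e c.1]
      refine Finset.card_le_card_of_injOn Prod.fst (fun p hp => ?_) fun p hp q hq h => ?_
      · simp only [side, Finset.coe_filter, Set.mem_ofPred_eq, mem_box', Finset.coe_Icc, Set.mem_Icc] at hp ⊢; omega
      · rcases (by omega : α = 1 ∨ α = 3) with rfl | rfl <;>
          simp only [side, Finset.coe_filter, Set.mem_ofPred_eq, mem_box', add_dv1, add_dv3] at hp hq <;> ext <;> omega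
  have ho : ∀ (s : Fn) p α, |opp s p α| = |s (p + dv α, α + 2)| := fun s p α => by
    obtain ⟨a, b⟩ := p
    induction α using b1_fin4 <;> simp [opp, sv]
  have hm : ∀ α, ∀ p ∈ side c R α, p ∈ frame c (R - 1) (R + 1) ∧ p + dv α ∈ frame c (R - 1) (R + 1) := fun α p hp => by
    have h1 := supd_triangle (p + dv α) p c
    simp only [side, frame, Finset.mem_filter, Finset.mem_sdiff, mem_box_supd, supd_dv] at hp h1 ⊢
    omega
  have h0 : (c.1 + R, c.2) ∈ frame c (R - 1) (R + 1) := by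
    simp only [frame, Finset.mem_sdiff, mem_box']; omega
  have hM := (abs_nonneg _).trans (h _ h0 0)
  have hM' := (abs_nonneg _).trans (h' _ h0 0)
  rw [bform_box, abs_neg]
  refine (Finset.abs_sum_le_sum_abs _ _).trans ((Finset.sum_le_card_nsmul _ _ ((2 * R + 1) * (2 * (M * M')))
    fun α _ => (Finset.abs_sum_le_sum_abs _ _).trans ((Finset.sum_le_card_nsmul _ _ (2 * (M * M')) fun p hp => ?_).trans
      ?_)).trans_eq (by simp; ring))
  · rw [abs_mul]
    refine (mul_le_of_le_one_left (abs_nonneg _) (hw _)).trans ((abs_add_le _ _).trans ?_)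
    rw [abs_mul, abs_mul, ho, ho, two_mul]
    exact add_le_add (mul_le_mul (h _ (hm α p hp).1 _) (h' _ (hm α p hp).2 _) (abs_nonneg _) hM)
      (mul_le_mul (h _ (hm α p hp).2 _) (h' _ (hm α p hp).1 _) (abs_nonneg _) hM)
  · rw [nsmul_eq_mul]
    exact mul_le_mul_of_nonneg_right (by exact_mod_cast hc α) (by positivity)

theorem bform_congr {w w' : Edge → ℝ} {c : Site} {R : ℕ} (h : AgreeOn w w' (box c R)) (s s' : Fn) :
    bform w (bI c R) s s' = bform w' (bI c R) s s' := by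
  rw [bform_box, bform_box]
  exact congrArg _ (Finset.sum_congr rfl fun α _ => Finset.sum_congr rfl fun p hp => by
    rw [h p (Finset.mem_filter.1 hp).1 α])

theorem t2a_opp_sub (s s' : Fn) (p : Site) (α : Fin 4) : opp (s - s') p α = opp s p α - opp s' p α := by
  simp only [opp, sv, Pi.sub_apply]
  split_ifs <;> ring


theorem bform_sub_left (w : Edge → ℝ) (c : Site) (R : ℕ) (s₁ s₂ s' : Fn) :
    bform w (bI c R) (s₁ - s₂) s' = bform w (bI c R) s₁ s' - bform w (bI c R) s₂ s' := by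
  simp only [bform_box, t2a_opp_sub, Pi.sub_apply, neg_sub_neg, ← Finset.sum_sub_distrib, ← Finset.sum_neg_distrib]
  exact Finset.sum_congr rfl fun α _ => Finset.sum_congr rfl fun p _ => by ring

theorem bform_sub_right (w : Edge → ℝ) (c : Site) (R : ℕ) (s s₁ s₂ : Fn) :
    bform w (bI c R) s (s₁ - s₂) = bform w (bI c R) s s₁ - bform w (bI c R) s s₂ := by
  simp only [bform_box, t2a_opp_sub, Pi.sub_apply, neg_sub_neg, ← Finset.sum_sub_distrib, ← Finset.sum_neg_distrib]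
  exact Finset.sum_congr rfl fun α _ => Finset.sum_congr rfl fun p _ => by ring

theorem bform_smul (w : Edge → ℝ) (c : Site) (R : ℕ) (t t' : ℝ) (s s' : Fn) :
    bform w (bI c R) (t • s) (t' • s') = t * t' * bform w (bI c R) s s' := by
  have e : ∀ (t : ℝ) (s : Fn) p α, opp (t • s) p α = t * opp s p α := fun t s p α => by
    simp only [opp, sv, Pi.smul_apply, smul_eq_mul]
    split_ifs <;> ring
  simp only [bform_box, e, Pi.smul_apply, smul_eq_mul, Finset.mul_sum, ← Finset.sum_neg_distrib]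
  exact Finset.sum_congr rfl fun α _ => Finset.sum_congr rfl fun p _ => by ring

theorem sum_lap_box (H : Site → ℝ) (c : Site) (R : ℕ) :
    ∑ p ∈ box c R, lap H p = ∑ α : Fin 4, ∑ p ∈ side c R α, (H (p + dv α) - H p) := by
  have h0 : ∑ i ∈ (box c R ×ˢ (Finset.univ : Finset (Fin 4))).filter (fun i => i.1 + dv i.2 ∈ box c R),
      (H (i.1 + dv i.2) - H i.1) = 0 :=
    Finset.sum_involution (fun i _ => heOpp i) (fun ⟨p, α⟩ _ => by simp only [heOpp_apply, add_dv_dv]; ring)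
      (fun ⟨p, α⟩ _ _ h => by
        have := congrArg Prod.snd h
        simp only [heOpp_apply] at this
        omega)
      (fun ⟨p, α⟩ h => by
        simp only [heOpp_apply, add_dv_dv, Finset.mem_filter, Finset.mem_product, Finset.mem_univ, and_true] at h ⊢
        exact h.symm) fun i _ => heOpp.left_inv i
  rw [Finset.sum_filter, Finset.sum_product_right] at h0
  simp only [lap, side, Finset.sum_filter]
  rw [Finset.sum_comm, ← sub_eq_zero]
  refine Eq.trans ?_ h0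
  rw [← Finset.sum_sub_distrib]
  refine Finset.sum_congr rfl fun α _ => ?_
  rw [← Finset.sum_sub_distrib]
  exact Finset.sum_congr rfl fun p _ => by split_ifs <;> simp

theorem solOn_congr {w w' : Edge → ℝ} {W : Set Site} (h : AgreeOn w w' W) {s : Fn} (hs : SolOn w W s) : SolOn w' W s := by
  intro p hp α
  rw [← hs p hp α, opA, opA, h p hp α]

/-! ### task T2b -/

/-- half-edge values from the field. Recipe: compactness of `K` + `bulk_loc` (or `exists_gauge` + `interior`): `mas → 0`,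
`opp s p α = sv s (p + dv α) (α+2)`, gauged field has steps `O(a)`, `sv (cSol c) p m = Re (c conj om ^ m)`, `conj om ^ 2 = I`. -/
theorem edge_approx (hU : IsOpen U) (ha : ∀ k, 0 < a k) (ha0 : Tendsto a atTop (𝓝 0))
    (hv : ∀ᶠ k in atTop, Function.Injective (v k)) (hx : ∀ i, PtLim a (fun k => v k i) (x i)) (hxU : ∀ i, x i ∉ U)
    (h : BulkSeq U a v E s) {K : Set ℂ} (hK : IsCompact K) (hKU : K ⊆ U) {ε : ℝ} (hε : 0 < ε) :
    ∀ᶠ k in atTop, ∀ p, (a k : ℂ) * toC p ∈ K → ∀ α, |s k (p, α) - (fld (s k) p * bA α).re| ≤ ε ∧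
      |eray (spinsOf (v k)) (edgeOf p α) * opp (s k) p α + (fld (s k) p * bA α).im| ≤ ε := by
  have key := t2b_compact (K := K) (P := fun k w => ∀ p, (a k : ℂ) * toC p = w → ∀ α,
      |s k (p, α) - (fld (s k) p * bA α).re| ≤ ε ∧
      |eray (spinsOf (v k)) (edgeOf p α) * opp (s k) p α + (fld (s k) p * bA α).im| ≤ ε) hK fun z hz => by
    obtain ⟨δ, hδ, C, hC⟩ := t2b_loc hU ha ha0 hv hx hxU h (hKU hz)
    have h0 : Tendsto (fun k => C * a k) atTop (𝓝 0) := by simpa using ha0.const_mul C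
    refine ⟨δ, hδ, ?_⟩
    filter_upwards [hC, h0.eventually (gt_mem_nhds hε)] with k hk hk' w hw p hp α
    subst hp
    exact ⟨(hk p hw α).1.trans hk'.le, (hk p hw α).2.trans hk'.le⟩
  filter_upwards [key] with k hk p hp using hk _ hp p rfl

/-- `rt z ^ 2 = z`, so `a ^ n * rtP ^ 2 → rhoX x z ≠ 0` -/
theorem clim_fld_mul (ha : ∀ k, 0 < a k) (ha0 : Tendsto a atTop (𝓝 0))
    (hv : ∀ᶠ k in atTop, Function.Injective (v k)) (hx : ∀ i, PtLim a (fun k => v k i) (x i)) (hxU : ∀ i, x i ∉ U)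
    {G G' : ℂ → ℂ} (h : CLim a U (fun k => gF (a k) (v k) (s k)) G) (h' : CLim a U (fun k => gF (a k) (v k) (s' k)) G') :
    CLim a U (fun k p => fld (s k) p * fld (s' k) p) fun z => G z * G' z / rhoX x z := by
  intro z hz u hu
  have h0 : rhoX x z ≠ 0 := Finset.prod_ne_zero_iff.2 fun i _ e => hxU i (sub_eq_zero.1 e ▸ hz)
  have h1 := t2b_rtP_lim ha ha0 hv hx hu
  refine (((h z hz u hu).mul (h' z hz u hu)).div h1 h0).congr' ?_
  filter_upwards [h1.eventually_ne h0] with k hk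
  simp only [Pi.div_apply]
  rw [div_eq_iff hk, gF, gF, gfld, gfld, rtP]
  ring

/-! ### task T2c -/

theorem t2c_card (c : Site) (N : ℕ) (α : Fin 4) : (side c N α).card ≤ 2 * N + 1 := by
  have h1 : ∀ (t : ℤ) (f : Site → ℤ), (∀ p ∈ side c N α, f p ∈ Finset.Icc (t - N) (t + N)) →
      Set.InjOn f (side c N α) → (side c N α).card ≤ 2 * N + 1 := fun t f h h' =>
    (Finset.card_le_card_of_injOn f h h').trans (by rw [Int.card_Icc]; omega)
  have h2 : ∀ p, p ∈ side c N α ↔ p ∈ box c N ∧ p + dv α ∉ box c N := fun p => Finset.mem_filter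
  simp only [mem_box'] at h2
  fin_cases α
  · refine h1 c.2 Prod.snd (fun p hp => ?_) fun p hp q hq e => ?_
    · have := (h2 p).1 hp
      rw [Finset.mem_Icc]; omega
    · have a1 := (h2 p).1 hp
      have a2 := (h2 q).1 hq
      simp [dv] at a1 a2
      exact Prod.ext (by omega) e
  · refine h1 c.1 Prod.fst (fun p hp => ?_) fun p hp q hq e => ?_
    · have := (h2 p).1 hp
      rw [Finset.mem_Icc]; omega
    · have a1 := (h2 p).1 hp
      have a2 := (h2 q).1 hq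
      simp [dv] at a1 a2
      exact Prod.ext e (by omega)
  · refine h1 c.2 Prod.snd (fun p hp => ?_) fun p hp q hq e => ?_
    · have := (h2 p).1 hp
      rw [Finset.mem_Icc]; omega
    · have a1 := (h2 p).1 hp
      have a2 := (h2 q).1 hq
      simp [dv] at a1 a2
      exact Prod.ext (by omega) e
  · refine h1 c.1 Prod.fst (fun p hp => ?_) fun p hp q hq e => ?_
    · have := (h2 p).1 hp
      rw [Finset.mem_Icc]; omega
    · have a1 := (h2 p).1 hp
      have a2 := (h2 q).1 hq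
      simp [dv] at a1 a2
      exact Prod.ext e (by omega)

/-- the annulus that contains the sides of the box -/
def t2cK (x₀ : ℂ) (R : ℝ) : Set ℂ := closedBall x₀ (15 / 8 * R) \ ball x₀ (R / 2)

theorem t2c_compact (x₀ : ℂ) (R : ℝ) : IsCompact (t2cK x₀ R) := (isCompact_closedBall _ _).diff isOpen_ball

theorem t2c_sub (x₀ : ℂ) {R : ℝ} (hR : 0 < R) : t2cK x₀ R ⊆ ball x₀ (2 * R) \ {x₀} := fun z hz =>
  ⟨closedBall_subset_ball (by linarith) hz.1, fun h => hz.2 (by rw [h]; exact mem_ball_self (by positivity))⟩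

theorem t2c_geo (ha : ∀ k, 0 < a k) (ha0 : Tendsto a atTop (𝓝 0)) {c : ℕ → Site} {x₀ : ℂ} (hc : PtLim a c x₀)
    {R : ℝ} (hR : 0 < R) : ∀ᶠ k in atTop, ∀ α, ∀ p ∈ side (c k) ⌊R / a k⌋₊ α,
      (a k : ℂ) * toC p ∈ t2cK x₀ R ∧ (a k : ℂ) * toC (p + dv α) ∈ t2cK x₀ R := by
  filter_upwards [ha0.eventually (gt_mem_nhds (by positivity : 0 < R / 8)),
    Metric.tendsto_nhds.1 hc (R / 8) (by positivity)] with k h1 h2 α p hp
  have hak := ha k
  have h3 : a k * ⌊R / a k⌋₊ ≤ R := by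
    rw [← le_div_iff₀' hak]
    exact Nat.floor_le (by positivity)
  have h4 : R < a k * (⌊R / a k⌋₊ + 1) := by
    rw [← div_lt_iff₀' hak]
    exact Nat.lt_floor_add_one _
  have key : ∀ q, ⌊R / a k⌋₊ ≤ supd q (c k) → supd q (c k) ≤ ⌊R / a k⌋₊ + 1 → (a k : ℂ) * toC q ∈ t2cK x₀ R := by
    intro q q1 q2
    have q3 : (⌊R / a k⌋₊ : ℝ) ≤ supd q (c k) := by exact_mod_cast q1
    have q4 : (supd q (c k) : ℝ) ≤ ⌊R / a k⌋₊ + 1 := by exact_mod_cast q2
    have e : dist ((a k : ℂ) * toC q) ((a k : ℂ) * toC (c k)) = a k * ‖toC q - toC (c k)‖ := by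
      rw [dist_eq_norm, ← mul_sub, norm_mul, Complex.norm_real, Real.norm_of_nonneg hak.le]
    have b1 := mul_le_mul_of_nonneg_left (q3.trans (supd_le_dist q (c k))) hak.le
    have b2 := mul_le_mul_of_nonneg_left (dist_le_supd q (c k)) hak.le
    have b3 := mul_le_mul_of_nonneg_left q4 hak.le
    have t1 := dist_triangle ((a k : ℂ) * toC q) ((a k : ℂ) * toC (c k)) x₀
    have t2 := dist_triangle_right ((a k : ℂ) * toC q) ((a k : ℂ) * toC (c k)) x₀
    refine ⟨mem_closedBall.2 ?_, fun h => ?_⟩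
    · nlinarith
    · rw [mem_ball] at h
      nlinarith
  obtain ⟨p1, p2⟩ := Finset.mem_filter.1 hp
  rw [mem_box_supd] at p1 p2
  have t1 := supd_triangle (p + dv α) p (c k)
  rw [supd_dv] at t1
  exact ⟨key _ (by omega) (by omega), key _ (by omega) (by omega)⟩

theorem t2c_lim (ha : ∀ k, 0 < a k) (ha0 : Tendsto a atTop (𝓝 0)) (c : ℕ → Site) {R : ℝ} (hR : 0 < R)
    {P : ℕ → Site → ℂ} {L : ℂ} (hP : Tendsto (fun k => (a k : ℂ) * bSum (P k) (c k) ⌊R / a k⌋₊) atTop (𝓝 L))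
    (φ : ℂ →L[ℝ] ℝ) (T : ℕ → Site → Fin 4 → ℝ) {B : ℝ}
    (h : ∀ ε > 0, ε ≤ 1 → ∀ᶠ k in atTop, ∀ α, ∀ p ∈ side (c k) ⌊R / a k⌋₊ α,
      |T k p α - φ (Complex.I ^ (α : ℕ) * P k p)| ≤ B * ε) :
    Tendsto (fun k => a k * ∑ α : Fin 4, ∑ p ∈ side (c k) ⌊R / a k⌋₊ α, T k p α) atTop (𝓝 (φ L)) := by
  refine ((φ.continuous.tendsto L).comp hP).congr_dist (Metric.tendsto_nhds.2 fun η hη => ?_)
  have hM : 0 < 4 * (2 * R + 1) * |B| + 1 := by positivity
  have hε : 0 < min 1 (η / (4 * (2 * R + 1) * |B| + 1)) := by positivity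
  have hε' := (le_div_iff₀ hM).1 (min_le_right 1 (η / (4 * (2 * R + 1) * |B| + 1)))
  filter_upwards [h _ hε (min_le_left _ _), ha0.eventually (gt_mem_nhds one_pos)] with k h1 h2
  generalize min 1 (η / (4 * (2 * R + 1) * |B| + 1)) = ε at hε hε' h1
  have hak := ha k
  have h3 : a k * ⌊R / a k⌋₊ ≤ R := by
    rw [← le_div_iff₀' hak]
    exact Nat.floor_le (by positivity)
  have e : φ ((a k : ℂ) * bSum (P k) (c k) ⌊R / a k⌋₊) =
      a k * ∑ α : Fin 4, ∑ p ∈ side (c k) ⌊R / a k⌋₊ α, φ (Complex.I ^ (α : ℕ) * P k p) := by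
    rw [← Complex.real_smul, map_smul, smul_eq_mul, bSum, map_sum]
    simp only [Finset.mul_sum, map_sum]
  have h4 : ∀ α, |∑ p ∈ side (c k) ⌊R / a k⌋₊ α, T k p α - ∑ p ∈ side (c k) ⌊R / a k⌋₊ α, φ (Complex.I ^ (α : ℕ) * P k p)| ≤
      (2 * ⌊R / a k⌋₊ + 1) * (|B| * ε) := by
    intro α
    rw [← Finset.sum_sub_distrib]
    refine (Finset.abs_sum_le_sum_abs _ _).trans ((Finset.sum_le_card_nsmul _ _ (|B| * ε) fun p hp =>
      (h1 α p hp).trans (mul_le_mul_of_nonneg_right (le_abs_self B) hε.le)).trans ?_)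
    rw [nsmul_eq_mul]
    exact mul_le_mul_of_nonneg_right (by exact_mod_cast t2c_card _ _ α) (by positivity)
  have h5 := (Finset.abs_sum_le_sum_abs _ _).trans (Finset.sum_le_card_nsmul Finset.univ _ _ fun α _ => h4 α)
  rw [Finset.card_univ, Fintype.card_fin, nsmul_eq_mul, Finset.sum_sub_distrib] at h5
  rw [Real.dist_0_eq_abs, abs_dist, Function.comp_apply, e, dist_comm, Real.dist_eq, ← mul_sub, abs_mul, abs_of_pos hak]
  have h6 : 0 ≤ |B| * ε := by positivity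
  have h7 := mul_le_mul_of_nonneg_left h5 hak.le
  have h8 := mul_le_mul_of_nonneg_right h3 h6
  have h9 := mul_le_mul_of_nonneg_right h2.le h6
  push_cast at h7
  nlinarith

theorem t2c_alg {u o u' o' C C' ε : ℝ} {z z' : ℂ} (hu : |u| ≤ C) (hu' : |u'| ≤ C') (hz : ‖z‖ ≤ 2 * C) (hz' : ‖z'‖ ≤ 2 * C')
    (h1 : |u - z.re| ≤ ε) (h2 : |o + z.im| ≤ ε) (h1' : |u' - z'.re| ≤ ε) (h2' : |o' + z'.im| ≤ ε) :
    |u * o' + o * u' + (z * z').im| ≤ 3 * (C + C') * ε := by
  have e : u * o' + o * u' + (z * z').im =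
      (u * (o' + z'.im) - (u - z.re) * z'.im) + ((o + z.im) * u' - z.im * (u' - z'.re)) := by
    rw [Complex.mul_im]; ring
  have hε := (abs_nonneg _).trans h1
  have b1 := mul_le_mul hu h2' (abs_nonneg _) ((abs_nonneg _).trans hu)
  have b2 := mul_le_mul h1 ((Complex.abs_im_le_norm z').trans hz') (abs_nonneg _) hε
  have b3 := mul_le_mul h2 hu' (abs_nonneg _) hε
  have b4 := mul_le_mul ((Complex.abs_im_le_norm z).trans hz) h1' (abs_nonneg _) ((norm_nonneg _).trans hz)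
  rw [← abs_mul] at b1 b2 b3 b4
  rw [e]
  refine (abs_add_le _ _).trans ((add_le_add (abs_sub _ _) (abs_sub _ _)).trans ?_)
  linarith

theorem t2c_alg' {u o C ε : ℝ} {z : ℂ} (hu : |u| ≤ C) (hz : ‖z‖ ≤ 2 * C) (h1 : |u - z.re| ≤ ε) (h2 : |o + z.im| ≤ ε)
    (hε1 : ε ≤ 1) : |o ^ 2 - u ^ 2 + (z * z).re| ≤ (1 + 7 * C) * ε := by
  have e : o ^ 2 - u ^ 2 + (z * z).re =
      ((o + z.im) * (o + z.im) - 2 * ((o + z.im) * z.im)) - ((u - z.re) * u + (u - z.re) * z.re) := by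
    rw [Complex.mul_re]; ring
  have hε := (abs_nonneg _).trans h1
  have b1 := mul_le_mul h2 (h2.trans hε1) (abs_nonneg _) hε
  have b2 := mul_le_mul h2 ((Complex.abs_im_le_norm z).trans hz) (abs_nonneg _) hε
  have b3 := mul_le_mul h1 hu (abs_nonneg _) hε
  have b4 := mul_le_mul h1 ((Complex.abs_re_le_norm z).trans hz) (abs_nonneg _) hε
  rw [← abs_mul] at b1 b2 b3 b4
  rw [e]
  refine (abs_sub _ _).trans ((add_le_add (abs_sub _ _) (abs_add_le _ _)).trans ?_)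
  rw [abs_mul 2, abs_two]
  linarith

theorem t2c_norm {s : Fn} {p : Site} {C : ℝ} (h : ∀ α, |s (p, α)| ≤ C) (α : Fin 4) : ‖fld s p * bA α‖ ≤ 2 * C := by
  rw [norm_mul, norm_bA, mul_one]
  exact norm_fld_le h

theorem t2c_mul (f f' : ℂ) (α : Fin 4) : Complex.I ^ (α : ℕ) * (f * f') = f * bA α * (f' * bA α) := by
  rw [← bA_sq]; ring

/-- **limit of the bilinear form**: by `bform_box` and `edge_approx` the edge `(p, α)` contributes
`tc * Im (fld s p * fld s' p * I ^ α) + o(1)`; `O(1/a)` edges; `contour_lim`. -/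
theorem bform_lim (ha : ∀ k, 0 < a k) (ha0 : Tendsto a atTop (𝓝 0))
    (hv : ∀ᶠ k in atTop, Function.Injective (v k)) (hx : ∀ i, PtLim a (fun k => v k i) (x i))
    {c : ℕ → Site} {x₀ : ℂ} (hc : PtLim a c x₀) {R : ℝ} (hR : 0 < R) (hxU : ∀ i, x i ∉ ball x₀ (2 * R) \ {x₀})
    (hs : BulkSeq (ball x₀ (2 * R) \ {x₀}) a v E s) (hs' : BulkSeq (ball x₀ (2 * R) \ {x₀}) a v E s')
    {Ψ : ℂ → ℂ} (hΨ : DifferentiableOn ℂ Ψ (ball x₀ (2 * R)))
    (hP : CLim a (ball x₀ (2 * R) \ {x₀}) (fun k p => fld (s k) p * fld (s' k) p) fun z => Ψ z / (z - x₀) ^ 2) :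
    Tendsto (fun k => a k * bform (wOf (E k) (spinsOf (v k))) (bI (c k) ⌊R / a k⌋₊) (s k) (s' k)) atTop
      (𝓝 (2 * Real.pi * tc * (deriv Ψ x₀).im)) := by
  have hU : IsOpen (ball x₀ (2 * R) \ {x₀}) := isOpen_ball.sdiff isClosed_singleton
  have hK := t2c_compact x₀ R
  have hKU := t2c_sub x₀ hR
  obtain ⟨C, hC⟩ := hs _ hK hKU
  obtain ⟨C', hC'⟩ := hs' _ hK hKU
  have key := t2c_lim ha ha0 c hR (contour_lim ha ha0 hc hR hΨ hP) (tc • Complex.imCLM)
    (fun k p α => -(wOf (E k) (spinsOf (v k)) (edgeOf p α) *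
      (s k (p, α) * opp (s' k) p α + opp (s k) p α * s' k (p, α)))) (B := tc * (3 * (C + C'))) fun ε hε _ => by
    filter_upwards [t2c_geo ha ha0 hc hR, hC, hC', edge_approx hU ha ha0 hv hx hxU hs hK hKU hε,
      edge_approx hU ha ha0 hv hx hxU hs' hK hKU hε] with k g1 g2 g3 g4 g5 α p hp
    have hp' := (g1 α p hp).1
    have := t2c_alg (g2.2.2 p hp' α) (g3.2.2 p hp' α) (t2c_norm (g2.2.2 p hp') α) (t2c_norm (g3.2.2 p hp') α)
      (g4 p hp' α).1 (g4 p hp' α).2 (g5 p hp' α).1 (g5 p hp' α).2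
    rw [wOf, if_pos (g2.1 p hp' α), t2c_mul, smul_apply, Complex.imCLM_apply, smul_eq_mul,
      ← abs_neg, mul_assoc tc (3 * _)]
    refine le_trans (le_of_eq ?_) (mul_le_mul_of_nonneg_left this tc_pos.1.le)
    rw [← abs_of_pos tc_pos.1, ← abs_mul, abs_of_pos tc_pos.1]
    congr 1
    ring
  convert key using 2
  · rw [bform_box]
    simp only [Finset.sum_neg_distrib]
  · simp
    ring

/-- **limit of the flux of `Hw`**: `sum_lap_box`, `IsH.white`, `opp² - s² = -Re (fld² I^α) + o(1)`. -/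
theorem flux_lim (ha : ∀ k, 0 < a k) (ha0 : Tendsto a atTop (𝓝 0))
    (hv : ∀ᶠ k in atTop, Function.Injective (v k)) (hx : ∀ i, PtLim a (fun k => v k i) (x i))
    {c : ℕ → Site} {x₀ : ℂ} (hc : PtLim a c x₀) {R : ℝ} (hR : 0 < R) (hxU : ∀ i, x i ∉ ball x₀ (2 * R) \ {x₀})
    (hs : BulkSeq (ball x₀ (2 * R) \ {x₀}) a v E s) (Hw : ℕ → Site → ℝ)
    (hH : ∀ K, IsCompact K → K ⊆ ball x₀ (2 * R) \ {x₀} → ∀ᶠ k in atTop,
      ∃ Hb, IsH (wOf (E k) (spinsOf (v k))) (s k) {p | (a k : ℂ) * toC p ∈ K} (Hw k) Hb)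
    {Ψ : ℂ → ℂ} (hΨ : DifferentiableOn ℂ Ψ (ball x₀ (2 * R)))
    (hP : CLim a (ball x₀ (2 * R) \ {x₀}) (fun k p => fld (s k) p * fld (s k) p) fun z => Ψ z / (z - x₀) ^ 2) :
    Tendsto (fun k => a k * ∑ p ∈ box (c k) ⌊R / a k⌋₊, lap (Hw k) p) atTop
      (𝓝 (-(2 * Real.pi * (1 - tc ^ 2)) * (deriv Ψ x₀).re)) := by
  have hU : IsOpen (ball x₀ (2 * R) \ {x₀}) := isOpen_ball.sdiff isClosed_singleton
  have hK := t2c_compact x₀ R
  have hKU := t2c_sub x₀ hR
  obtain ⟨C, hC⟩ := hs _ hK hKU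
  have ht : 0 < 1 - tc ^ 2 := by nlinarith [tc_pos.1, tc_pos.2]
  have key := t2c_lim ha ha0 c hR (contour_lim ha ha0 hc hR hΨ hP) ((-(1 - tc ^ 2)) • Complex.reCLM)
    (fun k p α => Hw k (p + dv α) - Hw k p) (B := (1 - tc ^ 2) * (1 + 7 * C)) fun ε hε hε1 => by
    filter_upwards [t2c_geo ha ha0 hc hR, hC, edge_approx hU ha ha0 hv hx hxU hs hK hKU hε, hH _ hK hKU]
      with k g1 g2 g4 ⟨Hb, g5⟩ α p hp
    have hp' := (g1 α p hp).1
    have := t2c_alg' (g2.2.2 p hp' α) (t2c_norm (g2.2.2 p hp') α) (g4 p hp' α).1 (g4 p hp' α).2 hε1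
    rw [mul_pow, eray_sq, one_mul] at this
    rw [g5.white g2.2.1 hp' (g1 α p hp).2, wOf, if_pos (g2.1 p hp' α), mul_pow, eray_sq, mul_one, t2c_mul,
      smul_apply, Complex.reCLM_apply, smul_eq_mul, mul_assoc (1 - tc ^ 2)]
    refine le_trans (le_of_eq ?_) (mul_le_mul_of_nonneg_left this ht.le)
    rw [← abs_of_pos ht, ← abs_mul, abs_of_pos ht]
    congr 1
    ring
  convert key using 2
  · rw [sum_lap_box]
  · simp
    ring

/-! ### task T2d (frames) -/

theorem eventually_inj (hi : Function.Injective x) (hx : ∀ i, PtLim a (fun k => v k i) (x i)) :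
    ∀ᶠ k in atTop, Function.Injective (v k) := by
  have h : ∀ᶠ k in atTop, ∀ i j, i ≠ j → v k i ≠ v k j := by
    refine eventually_all.2 fun i => eventually_all.2 fun j => ?_
    by_cases hij : i = j
    · exact Eventually.of_forall fun k h => (h hij).elim
    · have h1 := ((hx i).sub (hx j)).eventually_ne (sub_ne_zero.2 (hi.ne hij))
      filter_upwards [h1] with k hk _ he
      exact hk (by simp [he])
  filter_upwards [h] with k hk i j hij
  by_contra hne
  exact hk i j hne hij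

theorem t2d_rt (z : ℂ) : rt z ^ 2 = z := by
  have h : ((-z) ^ (1 / 2 : ℂ)) ^ 2 = -z := by simpa using Complex.cpow_nat_inv_pow (-z) (n := 2) two_ne_zero
  rw [rt, mul_pow, Complex.I_sq, h]
  ring

theorem t2d_sq (ha : ∀ k, 0 < a k) (ha0 : Tendsto a atTop (𝓝 0)) (hi : Function.Injective x)
    (hx : ∀ i, PtLim a (fun k => v k i) (x i)) (t : Finset (Fin n)) {e : ℝ} (he : e = t.card) {u : ℕ → Site} {y : ℂ}
    (hu : PtLim a u y) : Tendsto (fun k => (((a k ^ (e / 2) : ℝ) : ℂ) * rtP (t.image (v k)) (u k)) ^ 2) atTop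
      (𝓝 (∏ i ∈ t, (y - x i))) := by
  have h0 : Tendsto (fun k => (a k : ℂ) * ((1 + Complex.I) / 2)) atTop (𝓝 0) := by
    simpa using ((Complex.continuous_ofReal.tendsto 0).comp ha0).mul_const ((1 + Complex.I) / 2)
  have h1 : Tendsto (fun k => ∏ i ∈ t, ((a k : ℂ) * toC (u k) + (a k : ℂ) * ((1 + Complex.I) / 2) -
      (a k : ℂ) * toC (v k i))) atTop (𝓝 (∏ i ∈ t, (y - x i))) :=
    tendsto_finset_prod _ fun i _ => by simpa using (Tendsto.add hu h0).sub (hx i)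
  refine h1.congr' ?_
  filter_upwards [eventually_inj hi hx] with k hk
  have h2 : (a k ^ (e / 2)) ^ 2 = a k ^ t.card := by
    rw [← Real.rpow_natCast, ← Real.rpow_mul (ha k).le, he, ← Real.rpow_natCast]
    congr 1
    push_cast
    ring
  rw [mul_pow, ← Complex.ofReal_pow, h2, rtP, Finset.prod_image fun i _ j _ h => hk h, ← Finset.prod_pow,
    Complex.ofReal_pow, ← Finset.prod_const, ← Finset.prod_mul_distrib]
  refine Finset.prod_congr rfl fun i _ => ?_
  rw [t2d_rt, pos]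
  ring

theorem t2d_sub {w : ℕ → ℂ} {c : ℂ} (h : Tendsto (fun k => w k ^ 2) atTop (𝓝 c)) :
    ∃ (ψ : ℕ → ℕ) (r : ℂ), StrictMono ψ ∧ Tendsto (fun k => w (ψ k)) atTop (𝓝 r) := by
  obtain ⟨B, hB⟩ := (Metric.isBounded_range_of_tendsto _ h).exists_norm_le
  obtain ⟨r, -, ψ, hψ, hr⟩ := tendsto_subseq_of_bounded (isBounded_closedBall (x := (0 : ℂ)) (r := B + 1)) (x := w)
    fun k => by
      have h1 := hB _ ⟨k, rfl⟩
      rw [norm_pow] at h1
      rw [mem_closedBall_zero_iff]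
      nlinarith [sq_nonneg (‖w k‖ - 1), norm_nonneg (w k)]
  exact ⟨ψ, r, hψ, hr⟩

theorem t2d_sq_br (ha : ∀ k, 0 < a k) (ha0 : Tendsto a atTop (𝓝 0)) (hi : Function.Injective x)
    (hx : ∀ i, PtLim a (fun k => v k i) (x i)) (i : Fin n) (d : Site) :
    Tendsto (fun k => (((a k ^ (((n : ℝ) - 1) / 2) : ℝ) : ℂ) * rtP ((spinsOf (v k)).erase (v k i)) (v k i + d)) ^ 2)
      atTop (𝓝 (∏ k ∈ Finset.univ.erase i, (x i - x k))) := by
  have he : (n : ℝ) - 1 = (Finset.univ.erase i).card := by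
    rw [Finset.card_erase_of_mem (Finset.mem_univ i), Finset.card_univ, Fintype.card_fin, Nat.cast_pred i.pos]
  refine (t2d_sq ha ha0 hi hx _ he ((hx i).add_const ha0 d)).congr' ?_
  filter_upwards [eventually_inj hi hx] with k hk
  rw [Finset.image_erase hk, spinsOf]

/-- `(a^{n/2} rtP)² → rhoX x y`, bounded sequence, `tendsto_subseq_of_bounded` -/
theorem rt_subseq (ha : ∀ k, 0 < a k) (ha0 : Tendsto a atTop (𝓝 0)) (hi : Function.Injective x)
    (hx : ∀ i, PtLim a (fun k => v k i) (x i)) {u : ℕ → Site} {y : ℂ} (hu : PtLim a u y) :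
    ∃ (ψ : ℕ → ℕ) (r : ℂ), StrictMono ψ ∧
      Tendsto (fun k => ((a (ψ k) ^ ((n : ℝ) / 2) : ℝ) : ℂ) * rtP (spinsOf (v (ψ k))) (u (ψ k))) atTop (𝓝 r) := by
  exact t2d_sub (t2d_sq ha ha0 hi hx Finset.univ (e := n) (by simp) hu)

theorem rt_sq (ha : ∀ k, 0 < a k) (ha0 : Tendsto a atTop (𝓝 0)) (hi : Function.Injective x)
    (hx : ∀ i, PtLim a (fun k => v k i) (x i)) {u : ℕ → Site} {y : ℂ} (hu : PtLim a u y) {r : ℂ}
    (hr : Tendsto (fun k => ((a k ^ ((n : ℝ) / 2) : ℝ) : ℂ) * rtP (spinsOf (v k)) (u k)) atTop (𝓝 r)) :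
    r ^ 2 = rhoX x y := by
  exact tendsto_nhds_unique (hr.pow 2) (t2d_sq ha ha0 hi hx Finset.univ (e := n) (by simp) hu)

theorem rt_subseq_br (ha : ∀ k, 0 < a k) (ha0 : Tendsto a atTop (𝓝 0)) (hi : Function.Injective x)
    (hx : ∀ i, PtLim a (fun k => v k i) (x i)) (i : Fin n) (d : Site) :
    ∃ (ψ : ℕ → ℕ) (r : ℂ), StrictMono ψ ∧ Tendsto (fun k => ((a (ψ k) ^ (((n : ℝ) - 1) / 2) : ℝ) : ℂ) *
      rtP ((spinsOf (v (ψ k))).erase (v (ψ k) i)) (v (ψ k) i + d)) atTop (𝓝 r) := by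
  exact t2d_sub (t2d_sq_br ha ha0 hi hx i d)

theorem rt_sq_br (ha : ∀ k, 0 < a k) (ha0 : Tendsto a atTop (𝓝 0)) (hi : Function.Injective x)
    (hx : ∀ i, PtLim a (fun k => v k i) (x i)) (i : Fin n) (d : Site) {r : ℂ}
    (hr : Tendsto (fun k => ((a k ^ (((n : ℝ) - 1) / 2) : ℝ) : ℂ) * rtP ((spinsOf (v k)).erase (v k i)) (v k i + d))
      atTop (𝓝 r)) : r ^ 2 = ∏ k ∈ Finset.univ.erase i, (x i - x k) := by
  exact tendsto_nhds_unique (hr.pow 2) (t2d_sq_br ha ha0 hi hx i d)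

/-- `loc_gauge` at `y`: `σ (u) σ (u + uv j) eray = 1` and `a^{n/2} σ rtP → R y` at both sites -/
theorem rt_step (ha : ∀ k, 0 < a k) (ha0 : Tendsto a atTop (𝓝 0)) (hi : Function.Injective x)
    (hx : ∀ i, PtLim a (fun k => v k i) (x i)) {u : ℕ → Site} {y : ℂ} (hu : PtLim a u y) (hy : ∀ i, y ≠ x i) {r : ℂ}
    (hr : Tendsto (fun k => ((a k ^ ((n : ℝ) / 2) : ℝ) : ℂ) * rtP (spinsOf (v k)) (u k)) atTop (𝓝 r)) (j : Fin 2) :
    Tendsto (fun k => (eray (spinsOf (v k)) (u k, j) : ℂ) *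
      (((a k ^ ((n : ℝ) / 2) : ℝ) : ℂ) * rtP (spinsOf (v k)) (u k + uv j))) atTop (𝓝 r) := by
  obtain ⟨δ, hδ, R, σ, -, -, hσ, he, hR⟩ := loc_gauge ha ha0 v (eventually_inj hi hx) x hx fun i => (hy i).symm
  have h1 := hR y (mem_ball_self hδ) u hu
  have h2 := hR y (mem_ball_self hδ) _ (hu.add_const ha0 (uv j))
  have h3 := h1.dist h2
  rw [dist_self] at h3
  refine hr.congr_dist (h3.congr' ?_)
  filter_upwards [he, hu.eventually (ball_mem_nhds y hδ)] with k hk hk'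
  have h4 := hk (u k, j) hk'
  simp only [rtP, dist_eq_norm] at h4 ⊢
  generalize ((a k ^ ((n : ℝ) / 2) : ℝ) : ℂ) = A
  generalize ∏ w ∈ spinsOf (v k), rt (pos (u k) - toC w) = P
  generalize ∏ w ∈ spinsOf (v k), rt (pos (u k + uv j) - toC w) = Q
  generalize eray (spinsOf (v k)) (u k, j) = η at h4
  rcases hσ k (u k) with e1 | e1 <;> rcases hσ k (u k + uv j) with e2 | e2 <;> rw [e1, e2] at h4 ⊢
  · obtain rfl : η = 1 := by linarith
    simp
  · obtain rfl : η = -1 := by linarith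
    simp
  · obtain rfl : η = -1 := by linarith
    rw [← norm_neg]; congr 1; push_cast; ring
  · obtain rfl : η = 1 := by linarith
    rw [← norm_neg]; congr 1; push_cast; ring

/-- evaluation at a bulk half-edge (`edge_approx` with `K = closedBall y δ`) -/
theorem eval_bulk (hU : IsOpen U) (ha : ∀ k, 0 < a k) (ha0 : Tendsto a atTop (𝓝 0)) (hi : Function.Injective x)
    (hx : ∀ i, PtLim a (fun k => v k i) (x i)) (hxU : ∀ i, x i ∉ U) (h : BulkSeq U a v E s) {G : ℂ → ℂ}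
    (hG : CLim a U (fun k => gF (a k) (v k) (s k)) G) {u : ℕ → Site} {y : ℂ} (hy : y ∈ U) (hu : PtLim a u y) {r : ℂ}
    (hr : Tendsto (fun k => ((a k ^ ((n : ℝ) / 2) : ℝ) : ℂ) * rtP (spinsOf (v k)) (u k)) atTop (𝓝 r)) (α : Fin 4) :
    Tendsto (fun k => s k (u k, α)) atTop (𝓝 (G y / r * bA α).re) := by
  have hr0 : r ≠ 0 := fun h0 => by
    have h1 := rt_sq ha ha0 hi hx hu hr
    rw [h0, zero_pow two_ne_zero, rhoX, eq_comm, Finset.prod_eq_zero_iff] at h1
    obtain ⟨i, -, hi'⟩ := h1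
    exact hxU i (sub_eq_zero.1 hi' ▸ hy)
  have h1 : Tendsto (fun k => fld (s k) (u k)) atTop (𝓝 (G y / r)) := by
    refine ((hG y hy u hu).div hr hr0).congr' ?_
    filter_upwards [hr.eventually_ne hr0] with k hk
    rw [Pi.div_apply, div_eq_iff hk, gF, gfld, rtP]
    ring
  have h2 := (Complex.continuous_re.tendsto _).comp (h1.mul_const (bA α))
  obtain ⟨δ, hδ, hK⟩ := nhds_basis_closedBall.mem_iff.1 (hU.mem_nhds hy)
  refine h2.congr_dist (Metric.tendsto_nhds.2 fun ε hε => ?_)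
  filter_upwards [edge_approx hU ha ha0 (eventually_inj hi hx) hx hxU h (isCompact_closedBall y δ) hK (half_pos hε),
    hu.eventually (closedBall_mem_nhds y hδ)] with k hk hk'
  have h3 := (hk _ hk' α).1
  rw [Real.dist_eq, sub_zero, abs_of_nonneg dist_nonneg, Real.dist_eq, abs_sub_comm]
  exact h3.trans_lt (half_lt_self hε)

/-! ### task T2e -/

theorem t2e_prod {M : Type} [CommMonoid M] {m : ℕ} (i : Fin (m + 1)) (f : Fin (m + 1) → M) :
    ∏ k ∈ Finset.univ.erase i, f k = ∏ j, f (i.succAbove j) := by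
  rw [← Finset.compl_singleton, ← Fin.image_succAbove_univ, Finset.prod_image fun _ _ _ _ h => Fin.succAbove_right_injective h]

theorem t2e_spins {m : ℕ} (i : Fin (m + 1)) {w : Fin (m + 1) → Site} (hw : Function.Injective w) :
    spinsOf (fun j => w (i.succAbove j)) = (spinsOf w).erase (w i) := by
  ext p
  simp only [spinsOf, Finset.mem_image, Finset.mem_univ, true_and, Finset.mem_erase]
  constructor
  · rintro ⟨j, rfl⟩
    exact ⟨fun h => Fin.succAbove_ne i j (hw h), _, rfl⟩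
  · rintro ⟨h, j, rfl⟩
    obtain ⟨l, rfl⟩ := Fin.exists_succAbove_eq (x := j) (y := i) fun e => h (by rw [e])
    exact ⟨l, rfl⟩

/-- **local picture at the branch point `x i`**: `loc_gauge` for the family without `i` (`n = n' + 1`, `Fin.succAbove i`),
`eray_symmDiff` / multiplicativity of `eray` on disjoint unions. -/
theorem loc_branch (ha : ∀ k, 0 < a k) (ha0 : Tendsto a atTop (𝓝 0)) (hi : Function.Injective x)
    (hx : ∀ i, PtLim a (fun k => v k i) (x i)) (i : Fin n) :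
    ∃ δ > 0, ∃ (R : ℂ → ℂ) (σ : ℕ → Site → ℝ), (∀ k, k ≠ i → x k ∉ ball (x i) δ) ∧ DifferentiableOn ℂ R (ball (x i) δ) ∧
      (∀ z ∈ ball (x i) δ, R z ^ 2 = ∏ k ∈ Finset.univ.erase i, (z - x k) ∧ R z ≠ 0) ∧ (∀ k, IsSign (σ k)) ∧
      (∀ᶠ k in atTop, ∀ e : Edge, dist ((a k : ℂ) * toC e.1) (x i) < δ →
        σ k e.1 * σ k (e.1 + uv e.2) * eray (spinsOf (v k)) e = eray {v k i} e) ∧
      CLim a (ball (x i) δ) (fun k p => ((a k ^ (((n : ℝ) - 1) / 2) : ℝ) : ℂ) * σ k p *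
        rtP ((spinsOf (v k)).erase (v k i)) p) R ∧
      ∀ (s : ℕ → Fn) (G : ℂ → ℂ), CLim a (ball (x i) δ \ {x i}) (fun k => gF (a k) (v k) (s k)) G →
        CLim a (ball (x i) δ \ {x i}) (fun k => gF (a k) (one (fun k => v k i) k) (gaugeF (σ k) (s k))) fun z => G z / R z := by
  obtain ⟨m, rfl⟩ : ∃ m, n = m + 1 := ⟨n - 1, by have := i.2; omega⟩
  have hv := eventually_inj hi hx
  obtain ⟨δ, hδ, R, σ, h1, h2, h3, h4, h5⟩ := loc_gauge ha ha0 (fun k j => v k (i.succAbove j))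
    (hv.mono fun k hk => hk.comp Fin.succAbove_right_injective) (fun j => x (i.succAbove j))
    (fun j => hx _) (z₀ := x i) fun j h => Fin.succAbove_ne i j (hi h)
  have hm : ∀ k, v k i ∈ spinsOf (v k) := fun k => Finset.mem_image_of_mem _ (Finset.mem_univ i)
  have h2' : ∀ z ∈ ball (x i) δ, R z ^ 2 = ∏ k ∈ Finset.univ.erase i, (z - x k) ∧ R z ≠ 0 := fun z hz =>
    ⟨by rw [t2e_prod]; exact (h2 z hz).1, (h2 z hz).2⟩
  have h5' : CLim a (ball (x i) δ) (fun k p => ((a k ^ ((((m + 1 : ℕ) : ℝ) - 1) / 2) : ℝ) : ℂ) * σ k p *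
      rtP ((spinsOf (v k)).erase (v k i)) p) R := fun z hz p hp => by
    refine (h5 z hz p hp).congr' ?_
    filter_upwards [hv] with k hk
    rw [t2e_spins i hk, Nat.cast_succ, add_sub_cancel_right, rtP]
  refine ⟨δ, hδ, R, σ, fun k hk hb => (h2' _ hb).2 ?_, h1, h2', h3, ?_, h5', fun s G hG z hz p hp => ?_⟩
  · refine pow_eq_zero_iff (two_ne_zero) |>.1 ?_
    rw [(h2' _ hb).1]
    exact Finset.prod_eq_zero (Finset.mem_erase.2 ⟨hk, Finset.mem_univ k⟩) (sub_self _)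
  · filter_upwards [hv, h4] with k hk hk' e he
    have := hk' e he
    rw [t2e_spins i hk, gb_eray_prod] at this
    rw [gb_eray_prod (spinsOf (v k)), ← Finset.mul_prod_erase _ _ (hm k), mul_left_comm, this, mul_one]
  · have hR := h5' z hz.1 p hp
    refine ((hG z hz p hp).div hR (h2' z hz.1).2).congr' ?_
    filter_upwards [hR.eventually_ne (h2' z hz.1).2] with k hk
    rw [Pi.div_apply, div_eq_iff hk]
    have e : spinsOf (one (fun k => v k i) k) = {v k i} := by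
      ext q
      simp [spinsOf, one]
    have e2 : a k ^ ((((m + 1 : ℕ) : ℝ)) / 2) = a k ^ (((1 : ℕ) : ℝ) / 2) * a k ^ ((((m + 1 : ℕ) : ℝ) - 1) / 2) := by
      rw [← Real.rpow_add (ha k)]
      congr 1
      push_cast
      ring
    simp only [gF, gfld, fld_gauge, e, Finset.prod_singleton, rtP]
    rw [e2, ← Finset.mul_prod_erase _ _ (hm k)]
    rcases h3 k (p k) with h | h <;> rw [h] <;> push_cast <;> ring

theorem t2e_loc (hU : IsOpen U) (ha : ∀ k, 0 < a k) (ha0 : Tendsto a atTop (𝓝 0))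
    (h : BulkSeq U a non (fun _ => Set.univ) s) {z₀ : ℂ} (hz : z₀ ∈ U) :
    ∃ C : ℝ, ∃ δ > 0, ∀ᶠ k in atTop, ∀ p, dist ((a k : ℂ) * toC p) z₀ < δ →
      (∀ j, ‖fld (s k) (p + uv j) - fld (s k) p‖ ≤ C * a k) ∧
      ∀ i j, ‖(fld (s k) (p + uv i + uv j) - fld (s k) (p + uv i)) - (fld (s k) (p + uv j) - fld (s k) p)‖ ≤
        C * a k ^ 2 := by
  obtain ⟨δ₂, hδ₂, hb⟩ := Metric.isOpen_iff.1 hU z₀ hz
  obtain ⟨δ, hδ, h2⟩ : ∃ δ : ℝ, 0 < δ ∧ 20 * δ < δ₂ := ⟨δ₂ / 40, by positivity, by linarith⟩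
  obtain ⟨M, hM⟩ := h (closedBall z₀ (20 * δ)) (isCompact_closedBall _ _) ((closedBall_subset_ball h2).trans hb)
  obtain ⟨C₁, hC₁⟩ := fld_est
  refine ⟨max (|C₁ * M| * (2 / δ) ^ 1) (|C₁ * M| * (2 / δ) ^ 2), δ, hδ, ?_⟩
  filter_upwards [hM, ha0.eventually (gt_mem_nhds (half_pos hδ))] with k ⟨_, hsol, hsb⟩ hak p hp
  have hk := ha k
  obtain ⟨r, r1, r2, r3⟩ := blk_radius hk hδ hak
  have hK : ∀ q ∈ box p (4 * r + 8), q ∈ {q | (a k : ℂ) * toC q ∈ closedBall z₀ (20 * δ)} := fun q hq => by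
    have := blk_dist hk hq z₀
    push_cast at this
    change dist _ _ ≤ _
    nlinarith
  have hw : wOf Set.univ (spinsOf (non k)) = wPl := by
    funext e
    simp [wOf, wPl, spinsOf, eray_empty]
  rw [hw] at hsol
  obtain ⟨-, g2, g3, -⟩ := hC₁ (s k) p r M r1 (fun q hq α => hsol q (hK q hq) α) (fun q hq α => hsb q (hK q hq) α) p
    (self_mem_box p r)
  exact ⟨fun j => (g2 j).trans (by
      simpa only [pow_one] using blk_div (c := C₁ * M) (m := 1) hk hδ r1 r3 (le_max_left _ (|C₁ * M| * (2 / δ) ^ 2))),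
    fun i j => (g3 i j).trans (blk_div hk hδ r1 r3 (le_max_right _ _))⟩

/-- limit of lattice derivatives: `fld_est`/`bulk_loc` give bounded, equicontinuous difference quotients; `clim_compact`,
`clim_hasFDerivAt`, uniqueness of the derivative, `clim_of_subseq`. -/
theorem deriv_lim (hU : IsOpen U) (ha : ∀ k, 0 < a k) (ha0 : Tendsto a atTop (𝓝 0))
    (h : BulkSeq U a non (fun _ => Set.univ) s) {f : ℂ → ℂ} (hf : CLim a U (fun k => fld (s k)) f)
    (hd : DifferentiableOn ℂ f U) (j : Fin 2) :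
    CLim a U (fun k p => ((a k : ℂ))⁻¹ * (fld (s k) (p + uv j) - fld (s k) p)) fun z => Complex.I ^ (j : ℕ) * deriv f z := by
  refine clim_of_subseq fun ψ hψ => ?_
  have hb : ∀ k, 0 < (a ∘ ψ) k := fun k => ha _
  have hb0 : Tendsto (a ∘ ψ) atTop (𝓝 0) := ha0.comp hψ.tendsto_atTop
  have hl := fun z (hz : z ∈ U) => t2e_loc (s := fun k => s (ψ k)) hU hb hb0 (h.subseq hψ) hz
  obtain ⟨ψ', d, hψ', hd'⟩ := clim_compact (U := U) (β := Fin 2 → ℂ) hb hb0
    (fun k p i => ((a ∘ ψ) k)⁻¹ • (fld (s (ψ k)) (p + uv i) - fld (s (ψ k)) p)) (fun z hz => by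
      obtain ⟨C, δ, hδ, hC⟩ := hl z hz
      refine ⟨|C|, δ, hδ, hC.mono fun k hk p hp => (pi_norm_le_iff_of_nonneg (abs_nonneg C)).2 fun i => ?_⟩
      rw [norm_smul, norm_inv, Real.norm_of_nonneg (hb k).le, inv_mul_le_iff₀ (hb k), mul_comm]
      exact ((hk p hp).1 i).trans (mul_le_mul_of_nonneg_right (le_abs_self C) (hb k).le))
    (fun z hz => by
      obtain ⟨C, δ, hδ, hC⟩ := hl z hz
      refine equi_of_steps hb hb0 _ (C := |C|) hδ (hC.mono fun k hk p l hp =>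
        (pi_norm_le_iff_of_nonneg (mul_nonneg (abs_nonneg C) (hb k).le)).2 fun i => ?_)
      rw [Pi.sub_apply, ← smul_sub, norm_smul, norm_inv, Real.norm_of_nonneg (hb k).le, inv_mul_le_iff₀ (hb k)]
      refine ((hk p hp).2 l i).trans ?_
      have := mul_le_mul_of_nonneg_right (le_abs_self C) (sq_nonneg ((a ∘ ψ) k))
      linarith)
  refine ⟨ψ', hψ', fun z hz p hp => ?_⟩
  have hD := clim_hasFDerivAt hU (fun k => hb (ψ' k)) (hb0.comp hψ'.tendsto_atTop)
    ((hf.subseq ha ha0 hψ).subseq hb hb0 hψ') (fun i z => d z i)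
    (fun i z hz p hp => (tendsto_pi_nhds.1 (hd' z hz p hp)) i) hz
  have hD' := ((hd.differentiableAt (hU.mem_nhds hz)).hasDerivAt.hasFDerivAt).restrictScalars ℝ
  have e := hD.unique hD'
  have e0 := congrArg (fun L : ℂ →L[ℝ] ℂ => L 1) e
  have e1 := congrArg (fun L : ℂ →L[ℝ] ℂ => L Complex.I) e
  have e2 : d z j = Complex.I ^ (j : ℕ) * deriv f z := by
    fin_cases j
    · simpa using e0
    · simpa using e1
  have := (tendsto_pi_nhds.1 (hd' z hz p hp)) j
  rw [e2] at this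
  simpa using this

end Crest.Agent.R165.C
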