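import Crest.Agent.R165.C.T2

/-! # R165/C: auxiliary lemmas for `src_bulk` (task Z1c) -/

set_option autoImplicit false
noncomputable section
open Classical Filter Topology Metric Crest.ProbabilityR.IsingModel

namespace Crest.Agent.R165.C

theorem z1c_w (k : ℕ) : wOf Set.univ (spinsOf (non k)) = wPl := by
  funext e
  simp [wOf, wPl, spinsOf, eray]

theorem z1c_norm (x y : Site) : ‖toC x - toC y‖ ≤ 2 * ((supd x y : ℝ) + 1) := by
  refine (Complex.norm_le_abs_re_add_abs_im _).trans ?_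
  have h1 : |((x.1 - y.1 : ℤ) : ℝ)| ≤ supd x y := by
    rw [← Int.cast_abs, ← Int.natCast_natAbs, Int.cast_natCast]
    exact_mod_cast le_max_left _ _
  have h2 : |((x.2 - y.2 : ℤ) : ℝ)| ≤ supd x y := by
    rw [← Int.cast_abs, ← Int.natCast_natAbs, Int.cast_natCast]
    exact_mod_cast le_max_right _ _
  push_cast at h1 h2
  simp only [toC, Complex.sub_re, Complex.sub_im]
  linarith

/-- the singular part -/
def z1c_sing (t : ℝ) (u : Site) (q : Fin 4 → ℝ) : Fn := t⁻¹ • ∑ β, q β • gPl (u, β)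

theorem z1c_opA (t : ℝ) (u : Site) (q : Fin 4 → ℝ) (p : Site) (β : Fin 4) :
    opA wPl (z1c_sing t u q) (p, β) = if p = u then t⁻¹ * q β else 0 := by
  rw [z1c_sing, DU.opA_smul, DU.opA_sum]
  simp only [DU.opA_smul, gPl_ker.2, Prod.mk.injEq]
  by_cases h : p = u
  · simp [h]
  · simp [h]

theorem z1c_fld (t : ℝ) (u : Site) (q : Fin 4 → ℝ) (s : Fn) (p : Site) :
    fld (s - z1c_sing t u q) p = fld s p - (t : ℂ)⁻¹ * ∑ β, (q β : ℂ) * fld (gPl (0, β)) (p - u) := by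
  have h : ∀ β α, gPl (u, β) (p, α) = gPl (0, β) (p - u, α) := fun β α => by
    have := gPl_shift u (0, β) (p - u, α)
    simpa using this
  simp only [fld, z1c_sing, Pi.sub_apply, Pi.smul_apply, Pi.add_apply, smul_eq_mul, h, Fin.sum_univ_four]
  push_cast
  ring

theorem z1c_bd (q : Fin 4 → ℝ) : ∃ C : ℝ, 0 ≤ C ∧ ∀ (t η : ℝ) (u p : Site) (α : Fin 4), 0 < t → 0 < η →
    η ≤ ‖(t : ℂ) * toC p - t * toC u‖ → |z1c_sing t u q (p, α)| ≤ C / η := by
  obtain ⟨C, hC⟩ := gPl_bound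
  refine ⟨2 * |C| * ∑ β, |q β|, by positivity, fun t η u p α ht hη h => ?_⟩
  have hs : (0 : ℝ) < (supd u p : ℝ) + 1 := by positivity
  have h1 : η ≤ t * (2 * ((supd u p : ℝ) + 1)) := by
    refine h.trans ?_
    rw [← mul_sub, norm_mul, Complex.norm_real, Real.norm_of_nonneg ht.le, norm_sub_rev]
    exact mul_le_mul_of_nonneg_left (z1c_norm u p) ht.le
  have h2 : ∀ β, t⁻¹ * |gPl (u, β) (p, α)| ≤ 2 * |C| / η := fun β => by
    have h3 : |gPl (u, β) (p, α)| ≤ |C| / ((supd u p : ℝ) + 1) :=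
      (hC _ _).trans (div_le_div_of_nonneg_right (le_abs_self C) hs.le)
    rw [le_div_iff₀ hs] at h3
    rw [le_div_iff₀ hη, inv_mul_eq_div, div_mul_eq_mul_div, div_le_iff₀ ht]
    nlinarith [abs_nonneg (gPl (u, β) (p, α)), mul_le_mul_of_nonneg_left h1 (abs_nonneg (gPl (u, β) (p, α))),
      mul_le_mul_of_nonneg_left h3 ht.le]
  simp only [z1c_sing, Pi.smul_apply, Finset.sum_apply, smul_eq_mul]
  rw [abs_mul, abs_of_pos (inv_pos.2 ht)]
  calc t⁻¹ * |∑ β, q β * gPl (u, β) (p, α)| ≤ t⁻¹ * ∑ β, |q β| * |gPl (u, β) (p, α)| := by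
        refine mul_le_mul_of_nonneg_left ((Finset.abs_sum_le_sum_abs _ _).trans (le_of_eq ?_)) (inv_pos.2 ht).le
        simp only [abs_mul]
    _ = ∑ β, |q β| * (t⁻¹ * |gPl (u, β) (p, α)|) := by
        rw [Finset.mul_sum]
        exact Finset.sum_congr rfl fun β _ => by ring
    _ ≤ ∑ β, |q β| * (2 * |C| / η) :=
        Finset.sum_le_sum fun β _ => mul_le_mul_of_nonneg_left (h2 β) (abs_nonneg _)
    _ = _ := by rw [← Finset.sum_mul]; ring

variable {a : ℕ → ℝ}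

theorem z1c_bulk (ha : ∀ k, 0 < a k) {y : ℂ} {u : ℕ → Site} (hu : PtLim a u y) {U : Set ℂ} (hy : y ∉ U)
    (q : Fin 4 → ℝ) {s : ℕ → Fn} (hb : BulkSeq U a non (fun _ => Set.univ) s) :
    BulkSeq U a non (fun _ => Set.univ) fun k => s k - z1c_sing (a k) (u k) q := by
  intro K hK hKU
  obtain ⟨C, hC⟩ := hb K hK hKU
  obtain ⟨C', -, hC'⟩ := z1c_bd q
  obtain ⟨η, hη, hηK⟩ : ∃ η > 0, ∀ z ∈ K, η ≤ dist z y := by
    obtain ⟨η, hη, h⟩ := Metric.isOpen_iff.1 hK.isClosed.isOpen_compl y fun h => hy (hKU h)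
    exact ⟨η, hη, fun z hz => not_lt.1 fun hlt => h hlt hz⟩
  refine ⟨C + C' / (η / 2), ?_⟩
  filter_upwards [hC, (Metric.tendsto_nhds.1 hu) (η / 2) (half_pos hη)] with k hk hk2
  obtain ⟨h1, h2, h3⟩ := hk
  have hfar : ∀ p, (a k : ℂ) * toC p ∈ K → η / 2 ≤ ‖(a k : ℂ) * toC p - a k * toC (u k)‖ := fun p hp => by
    have := hηK _ hp
    have h4 := dist_triangle ((a k : ℂ) * toC p) (a k * toC (u k)) y
    rw [← dist_eq_norm]
    linarith
  refine ⟨h1, fun p hp α => ?_, fun p hp α => ?_⟩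
  · have hne : p ≠ u k := fun h => by
      have := hfar p hp
      rw [h, sub_self, norm_zero] at this
      linarith
    rw [DU.opA_sub, h2 p hp α, z1c_w, z1c_opA, if_neg hne, sub_zero]
  · refine (abs_sub _ _).trans (add_le_add (h3 p hp α) ?_)
    exact hC' _ _ _ _ _ (ha k) (half_pos hη) (hfar p hp)

theorem z1c_clim (ha0 : Tendsto a atTop (𝓝 0)) {y : ℂ} {u : ℕ → Site} (hu : PtLim a u y) {F : Site → ℂ} {κ : ℂ}
    (hF : Tendsto (fun p => F p * toC p) cofinite (𝓝 κ)) :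
    CLim a {y}ᶜ (fun k p => (a k : ℂ)⁻¹ * F (p - u k)) fun z => κ / (z - y) := by
  intro z hz v hv
  have hzy : z - y ≠ 0 := sub_ne_zero.2 hz
  have h1 := clim_of_cofinite hF ha0 hu z hz v hv
  have h2 : Tendsto (fun k => (a k : ℂ) * toC (v k - u k)) atTop (𝓝 (z - y)) := by
    simpa only [toC_sub, mul_sub] using hv.sub hu
  refine (h1.div h2 hzy).congr' ?_
  filter_upwards [h2.eventually_ne hzy] with k hk
  have h3 := left_ne_zero_of_mul hk
  have h4 := right_ne_zero_of_mul hk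
  simp only [Pi.div_apply]
  field_simp

end Crest.Agent.R165.C
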