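import Crest.Agent.R165.C.T2
import Crest.Agent.R165.DU.Main
import Crest.Agent.R165.BC.Shift
import Crest.Agent.R165.C.Z1cx

/-! # R165/C: regular parts, the plane kernel (block C, owner helper83; statements FROZEN, add lemmas freely inside the namespace) -/

set_option autoImplicit false
noncomputable section
open Classical Filter Topology Metric Crest.ProbabilityR.IsingModel

namespace Crest.Agent.R165.C

variable {a : ℕ → ℝ}

/-! ### task Z1a -/

theorem z1a_non (k : ℕ) : spinsOf (non k) = ∅ := by simp [spinsOf]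

theorem z1a_w : wOf Set.univ ∅ = wPl := by
  funext e
  simp [wOf, eray, wPl]

theorem z1a_gF (t : ℝ) (k : ℕ) (s : Fn) : gF t (non k) s = fld s := by
  funext p
  simp [gF, gfld, z1a_non]

theorem z1a_bulk (ha : ∀ k, 0 < a k) (ha0 : Tendsto a atTop (𝓝 0)) {y : ℂ} {δ : ℝ} (hδ : 0 < δ) {d : ℕ → Fn}
    (hsol : ∀ᶠ k in atTop, SolOn wPl {p | dist ((a k : ℂ) * toC p) y < δ} (d k))
    (hb : BulkSeq (ball y δ \ {y}) a non (fun _ => Set.univ) d) : BulkSeq (ball y (δ / 20)) a non (fun _ => Set.univ) d := by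
  obtain ⟨C, K, hC⟩ := apriori_sup
  obtain ⟨M, hM⟩ := hb (closedBall y (7 / 10 * δ) \ ball y (δ / 20)) ((isCompact_closedBall _ _).diff isOpen_ball) (by
    rintro z ⟨h1, h2⟩
    refine ⟨closedBall_subset_ball (by linarith) h1, fun h => h2 ?_⟩
    rw [Set.mem_singleton_iff.1 h]
    exact mem_ball_self (by positivity))
  have hc := ptLim_mesh ha ha0 y
  intro K' _ hK'
  refine ⟨|C * M|, ?_⟩
  have h1 : ∀ᶠ k in atTop, a k < δ / 100 / (K + 1) := ha0.eventually (gt_mem_nhds (by positivity))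
  have h2 : ∀ᶠ k in atTop, dist ((a k : ℂ) * toC (meshIndex (a k) y)) y < δ / 100 :=
    (Metric.tendsto_nhds.1 hc) _ (by positivity)
  filter_upwards [hsol, hM, h1, h2] with k hs hM h1 h2
  set c := meshIndex (a k) y
  have hak := ha k
  have hK0 : (0 : ℝ) ≤ K := Nat.cast_nonneg K
  have h1' : a k * (K + 1) < δ / 100 := by rwa [lt_div_iff₀ (by positivity)] at h1
  have h1'' : 0 ≤ a k * K := by positivity
  obtain ⟨l, hl1, hl2⟩ : ∃ l : ℕ, a k * l ≤ δ / 10 ∧ δ / 10 < a k * (l + 1) := by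
    refine ⟨⌊δ / 10 / a k⌋₊, ?_, ?_⟩
    · rw [← le_div_iff₀' hak]
      exact Nat.floor_le (by positivity)
    · rw [← div_lt_iff₀' hak]
      exact Nat.lt_floor_add_one _
  have hd : ∀ p, dist ((a k : ℂ) * toC p) ((a k : ℂ) * toC c) = a k * ‖toC p - toC c‖ := fun p => by
    rw [dist_eq_norm, ← mul_sub, norm_mul, Complex.norm_real, Real.norm_of_nonneg hak.le]
  have hup : ∀ p, supd p c ≤ 4 * l → dist ((a k : ℂ) * toC p) y ≤ 7 / 10 * δ := fun p hp => by
    have e1 := dist_triangle ((a k : ℂ) * toC p) ((a k : ℂ) * toC c) y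
    have e2 : (supd p c : ℝ) ≤ 4 * l := by exact_mod_cast hp
    have e3 : a k * ‖toC p - toC c‖ ≤ a k * (3 / 2 * (4 * l)) :=
      mul_le_mul_of_nonneg_left ((dist_le_supd p c).trans (by linarith)) hak.le
    rw [hd] at e1
    linarith
  have hlo : ∀ p, dist ((a k : ℂ) * toC p) y < δ / 20 → supd p c ≤ l := fun p hp => by
    have e1 := dist_triangle_right ((a k : ℂ) * toC p) ((a k : ℂ) * toC c) y
    have e3 : a k * supd p c ≤ a k * ‖toC p - toC c‖ := mul_le_mul_of_nonneg_left (supd_le_dist p c) hak.le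
    rw [hd] at e1
    have e4 : a k * supd p c < a k * (l + 1) := by linarith
    have e5 := lt_of_mul_lt_mul_left e4 hak.le
    exact Nat.lt_succ_iff.1 (by exact_mod_cast e5)
  have hKl : K + 1 ≤ l := by
    have e4 : a k * (K + 1) < a k * l := by linarith
    have e5 := lt_of_mul_lt_mul_left e4 hak.le
    exact_mod_cast e5.le
  have hW := hC Set.univ (K * l) ∅ c l (d k) M (reg_univ _) (by omega) le_rfl (by
    rw [z1a_w]
    intro p hp
    exact hs p (lt_of_le_of_lt (hup p (mem_box_supd.1 hp)) (by linarith))) (by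
    intro p hp
    have hp' : p ∈ box c (4 * l) ∧ p ∉ box c l := Finset.mem_sdiff.1 hp
    exact hM.2.2 p ⟨hup p (mem_box_supd.1 hp'.1), fun h => hp'.2 (mem_box_supd.2 (hlo p h))⟩)
  refine ⟨fun _ _ _ => Set.mem_univ _, ?_, fun p hp α => ?_⟩
  · rw [z1a_non, z1a_w]
    intro p hp
    exact hs p (ball_subset_ball (by linarith : δ / 20 ≤ δ) (hK' hp))
  · have e1 := hW p (mem_box_supd.2 ((hlo p (hK' hp)).trans (by omega))) α
    have e2 : dB ∅ l p = l := by simp [dB]
    have e3 : (0 : ℝ) < l := by exact_mod_cast (by omega : 0 < l)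
    rw [e2] at e1
    exact sq_le_sq.1 (le_of_mul_le_mul_right e1 e3)

/-- **regular part.** A solution in a full ball that is bounded on the punctured ball is bounded in the ball
(`apriori_sup` with `E = univ`, `S = ∅`, `reg_univ`; `dB ∅ l p = l`; `wOf univ ∅ = wPl`), so `lim_bulk0` applies on `ball y (δ/C)` with
`n = 0`; the limit along a subsequence is continuous at `y` and equals `Γ` off `y` (`CLim.unique`), so `c` does not depend on it. -/
theorem reg_lim (ha : ∀ k, 0 < a k) (ha0 : Tendsto a atTop (𝓝 0)) {y : ℂ} {δ : ℝ} (hδ : 0 < δ) {d : ℕ → Fn}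
    (hsol : ∀ᶠ k in atTop, SolOn wPl {p | dist ((a k : ℂ) * toC p) y < δ} (d k))
    (hb : BulkSeq (ball y δ \ {y}) a non (fun _ => Set.univ) d) {Γ : ℂ → ℂ}
    (hΓ : CLim a (ball y δ \ {y}) (fun k => fld (d k)) Γ) :
    ∃ c : ℂ, Tendsto Γ (𝓝[≠] y) (𝓝 c) ∧ ∀ u, PtLim a u y → ∀ α, Tendsto (fun k => d k (u k, α)) atTop (𝓝 (c * bA α).re) := by
  have hB := z1a_bulk ha ha0 hδ hsol hb
  have hy : y ∈ ball y (δ / 20) := mem_ball_self (by positivity)
  have key : ∀ ψ : ℕ → ℕ, StrictMono ψ → ∃ (ψ' : ℕ → ℕ) (c : ℂ), StrictMono ψ' ∧ Tendsto Γ (𝓝[≠] y) (𝓝 c) ∧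
      ∀ u, PtLim a u y → ∀ α, Tendsto (fun k => d (ψ (ψ' k)) (u (ψ (ψ' k)), α)) atTop (𝓝 (c * bA α).re) := by
    intro ψ hψ
    obtain ⟨ψ', g, hψ', hg, h1, -⟩ := lim_bulk0 (x := ![]) isOpen_ball (fun k => ha (ψ k)) (ha0.comp hψ.tendsto_atTop)
      (Eventually.of_forall fun k i => i.elim0) (fun i => i.elim0) (fun i => i.elim0) (hB.subseq hψ)
    have hp := hψ.comp hψ'
    have ha' : ∀ k, 0 < (a ∘ ψ ∘ ψ') k := fun k => ha _
    have ha0' : Tendsto (a ∘ ψ ∘ ψ') atTop (𝓝 0) := ha0.comp hp.tendsto_atTop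
    refine ⟨ψ', g y, hψ', ?_, fun u hu α => ?_⟩
    · have h2 : CLim (a ∘ ψ ∘ ψ') (ball y (δ / 20) \ {y}) (fun k => fld (d (ψ (ψ' k)))) g := by
        have := h1.mono (Set.sdiff_subset (t := {y}))
        simp only [z1a_gF] at this
        exact this
      have h3 := h2.unique ha' ha0' ((hΓ.subseq ha ha0 hp).mono
        (Set.sdiff_subset_sdiff_left (ball_subset_ball (by linarith))))
      have h4 : Tendsto g (𝓝[≠] y) (𝓝 (g y)) :=
        ((hg.continuousOn.continuousAt (isOpen_ball.mem_nhds hy)).tendsto).mono_left nhdsWithin_le_nhds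
      refine h4.congr' ?_
      filter_upwards [self_mem_nhdsWithin, mem_nhdsWithin_of_mem_nhds (isOpen_ball.mem_nhds hy)] with z hz hz'
      exact h3 ⟨hz', hz⟩
    · have := eval_bulk (x := ![]) (r := 1) isOpen_ball ha' ha0' (fun i => i.elim0) (fun i => i.elim0) (fun i => i.elim0)
        (hB.subseq hp) h1 hy (hu.subseq hp) (by simp [z1a_non, rtP]) α
      rwa [div_one] at this
  obtain ⟨-, c, -, hc, -⟩ := key id strictMono_id
  refine ⟨c, hc, fun u hu α => tendsto_of_strictMono_subseq fun ψ hψ => ?_⟩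
  obtain ⟨ψ', c', hψ', hc', h⟩ := key ψ hψ
  rw [tendsto_nhds_unique hc hc']
  exact ⟨ψ', hψ', h u hu α⟩

/-! ### task Z1b -/

theorem z1b_toC0 : toC 0 = 0 := by simp [toC, Complex.ext_iff]

theorem z1b_w (k : ℕ) : wOf Set.univ (spinsOf (non k)) = wPl := by
  funext e; simp [wOf, spinsOf, eray, wPl]

theorem z1b_gF (a : ℝ) (k : ℕ) (s : Fn) : gF a (non k) s = fld s := by
  funext p; simp [gF, gfld, spinsOf]

theorem z1b_fld (c : ℝ) (s : Fn) (p : Site) : fld (c • s) p = c * fld s p := by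
  simpa using fld_comb c 0 s s p

/-- **asymptotics of the plane kernel.** `tendsto_cofinite_of_clim`: `s k = (a k)⁻¹ • gPl (0, α)` is a `BulkSeq` on `{0}ᶜ` (`gPl_bound`),
`lim_bulk0` gives `f` holomorphic with `‖f z‖ ≤ C / ‖z‖`, so `z f z` is a bounded entire function (`CA.removable`,
`Differentiable.apply_eq_apply_of_bounded`) `= κ`; `bform_lim` with `cSol c` (`fld_cSol`, `opA_cSol`), `Ψ z = c κ z`, and `green_box`:
`-(c * bA α).re = 2 π tc (c κ).im` for `c = 1, I`. -/
theorem plane_asymp (α : Fin 4) :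
    Tendsto (fun p => fld (gPl (0, α)) p * toC p) cofinite (𝓝 (Complex.I * lam0 * bA α)) := by
  obtain ⟨C, hC⟩ := gPl_bound
  have hB : ∀ p β, |gPl (0, α) (p, β)| * ‖toC p‖ ≤ 3 / 2 * |C| := fun p β => by
    have h1 := hC (0, α) (p, β)
    have h2 := dist_le_supd 0 p
    rw [z1b_toC0, zero_sub, norm_neg] at h2
    rw [le_div_iff₀ (by positivity)] at h1
    nlinarith [abs_nonneg (gPl (0, α) (p, β)), le_abs_self C]
  have hF : ∀ p, ‖fld (gPl (0, α)) p * toC p‖ ≤ 3 * |C| := fun p => by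
    rcases (norm_nonneg (toC p)).eq_or_lt with h0 | h0
    · rw [norm_mul, ← h0, mul_zero]; positivity
    · have := norm_fld_le (s := gPl (0, α)) (p := p) (M := 3 / 2 * |C| / ‖toC p‖) fun β => (le_div_iff₀ h0).2 (hB p β)
      rw [norm_mul, ← le_div_iff₀ h0]
      exact this.trans_eq (by ring)
  refine tendsto_cofinite_of_clim fun a ha ha0 => ?_
  have hb : BulkSeq {0}ᶜ a non (fun _ => Set.univ) fun k => (a k)⁻¹ • gPl (0, α) := fun K hK hKU => by
    obtain ⟨δ, hδ, h1⟩ := Metric.isOpen_iff.1 hK.isClosed.isOpen_compl 0 fun h => hKU h rfl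
    refine ⟨3 / 2 * |C| / δ, Eventually.of_forall fun k => ⟨fun _ _ _ => trivial, fun p hp β => ?_, fun p hp β => ?_⟩⟩
    · have hp0 : p ≠ 0 := by
        rintro rfl
        exact hKU hp (by simp [z1b_toC0])
      rw [z1b_w, opA_smul, Pi.smul_apply, gPl_ker.2, if_neg fun h => hp0 (congrArg Prod.fst h), smul_zero]
    · have h2 : δ ≤ a k * ‖toC p‖ := by
        have : δ ≤ ‖(a k : ℂ) * toC p‖ := not_lt.1 fun h => h1 (mem_ball_zero_iff.2 h) hp
        rwa [norm_mul, Complex.norm_real, Real.norm_eq_abs, abs_of_pos (ha k)] at this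
      beta_reduce
      rw [Pi.smul_apply, smul_eq_mul, abs_mul, abs_of_pos (inv_pos.2 (ha k)), le_div_iff₀ hδ]
      refine (mul_le_mul_of_nonneg_left h2 (mul_nonneg (inv_pos.2 (ha k)).le (abs_nonneg _))).trans ?_
      rw [mul_mul_mul_comm, inv_mul_cancel₀ (ha k).ne', one_mul]
      exact hB p β
  obtain ⟨ψ, f, hψ, hf, h1, -⟩ := lim_bulk0 (x := ![]) isOpen_compl_singleton ha ha0
    (Eventually.of_forall fun k i => i.elim0) (fun i => i.elim0) (fun i => i.elim0) hb
  have ha' : ∀ k, 0 < (a ∘ ψ) k := fun k => ha _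
  have ha0' : Tendsto (a ∘ ψ) atTop (𝓝 0) := ha0.comp hψ.tendsto_atTop
  simp only [z1b_gF] at h1
  have h2 : CLim (a ∘ ψ) {0}ᶜ (fun _ p => fld (gPl (0, α)) p * toC p) fun z => z * f z := fun z hz v hv => by
    refine (Tendsto.mul hv (h1 z hz v hv)).congr fun k => ?_
    have : (a (ψ k) : ℂ) ≠ 0 := Complex.ofReal_ne_zero.2 (ha _).ne'
    simp only [z1b_fld, Function.comp]
    push_cast
    field_simp
  have h3 : ∀ z : ℂ, z ≠ 0 → ‖z * f z‖ ≤ 3 * |C| := fun z hz => by
    obtain ⟨v, hv⟩ := exists_ptLim ha' ha0' z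
    exact le_of_tendsto' (h2 z hz v hv).norm fun k => hF _
  obtain ⟨κ, hκ⟩ : ∃ κ, ∀ z : ℂ, z ≠ 0 → z * f z = κ := by
    obtain ⟨G, hG1, hG2⟩ := removable isOpen_univ (Set.mem_univ 0) (g := fun z => z * f z)
      (differentiableOn_id.mul (hf.mono fun z hz => hz.2)) (by
        refine squeeze_zero_norm' (a := fun z => ‖z‖ * (3 * |C|)) ?_ ?_
        · filter_upwards [self_mem_nhdsWithin] with z hz
          rw [sub_zero, norm_mul]
          exact mul_le_mul_of_nonneg_left (h3 z hz) (norm_nonneg _)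
        · have : Continuous fun z : ℂ => ‖z‖ * (3 * |C|) := by fun_prop
          simpa using (this.tendsto 0).mono_left nhdsWithin_le_nhds)
    refine ⟨G 0, fun z hz => ?_⟩
    rw [← hG2 z hz]
    refine (differentiableOn_univ.1 hG1).apply_eq_apply_of_bounded
      (isBounded_iff_forall_norm_le.2 ⟨max (3 * |C|) ‖G 0‖, ?_⟩) z 0
    rintro _ ⟨w, rfl⟩
    by_cases hw : w = 0
    · rw [hw]; exact le_max_right _ _
    · rw [hG2 w hw]; exact (h3 w hw).trans (le_max_left _ _)
  have key : ∀ c : ℂ, -(c * bA α).re = 2 * Real.pi * tc * (c * κ).im := fun c => by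
    have hsub : ball (0 : ℂ) (2 * 1) \ {0} ⊆ {0}ᶜ := fun z hz => hz.2
    have h4 := bform_lim (x := ![]) (v := non) (E := fun _ => Set.univ) (s := fun k => (a (ψ k))⁻¹ • gPl (0, α))
      (s' := fun _ => cSol c) ha' ha0' (Eventually.of_forall fun k i => i.elim0) (fun i => i.elim0) (c := fun _ => 0)
      (x₀ := 0) (by simp [PtLim, z1b_toC0]) one_pos (fun i => i.elim0)
      (fun K hK hKU => hb.subseq hψ K hK (hKU.trans hsub))
      (fun K hK hKU => ⟨‖c‖, Eventually.of_forall fun k => ⟨fun _ _ _ => trivial, fun p _ β => by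
        rw [z1b_w, opA_cSol], fun p _ β => by
          refine (Complex.abs_re_le_norm _).trans_eq ?_
          rw [norm_mul]
          exact (congrArg _ (norm_bA β)).trans (mul_one _)⟩⟩)
      (Ψ := fun z => c * κ * z) (by fun_prop) fun z hz v hv => by
        have hz0 : z ≠ 0 := hz.2
        have e : c * κ * z / (z - 0) ^ 2 = f z * c := by
          rw [← hκ z hz0, sub_zero]; field_simp
        simp only [fld_cSol, e]
        exact (h1 z hz0 v hv).mul_const c
    have e : deriv (fun z => c * κ * z) 0 = c * κ := by simp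
    rw [e] at h4
    refine tendsto_nhds_unique (tendsto_const_nhds.congr fun k => ?_) h4
    rw [z1b_w, green_box, Finset.sum_eq_single (0 : Site), Finset.sum_eq_single α]
    · rw [opA_cSol, mul_zero, opA_smul, Pi.smul_apply, gPl_ker.2, if_pos rfl]
      have := (ha (ψ k)).ne'
      simp only [Function.comp, smul_eq_mul, cSol, bA]
      field_simp
      ring
    · intro β _ hβ
      rw [opA_cSol, mul_zero, opA_smul, Pi.smul_apply, gPl_ker.2, if_neg fun h => hβ (congrArg Prod.snd h)]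
      simp
    · simp
    · intro p _ hp
      refine Finset.sum_eq_zero fun β _ => ?_
      rw [opA_cSol, mul_zero, opA_smul, Pi.smul_apply, gPl_ker.2, if_neg fun h => hp (congrArg Prod.fst h)]
      simp
    · intro h
      exact absurd (mem_box_iff.2 (by simp [supd])) h
  have hκ' : κ = Complex.I * lam0 * bA α := by
    have k1 := key 1
    have k2 := key Complex.I
    have h0 : tc ≠ 0 := fun h => lam0_ne (by rw [lam0, h, mul_zero, inv_zero, neg_zero])
    simp only [one_mul, Complex.mul_re, Complex.mul_im, Complex.I_re, Complex.I_im, zero_mul, zero_sub, zero_add,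
      neg_neg] at k1 k2
    refine Complex.ext ?_ ?_
    · simp only [Complex.mul_re, Complex.mul_im, Complex.I_re, Complex.I_im, Complex.ofReal_re, Complex.ofReal_im, lam0, k2]
      field_simp
      ring
    · simp only [Complex.mul_re, Complex.mul_im, Complex.I_re, Complex.I_im, Complex.ofReal_re, Complex.ofReal_im, lam0,
        neg_eq_iff_eq_neg.1 k1]
      field_simp
      ring
  exact ⟨ψ, hψ, fun z hz v hv => by simpa only [hκ z hz, hκ'] using h2 z hz v hv⟩

/-! ### task Z1c -/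

/-- **residue at a bulk source**: `d k = s k - (a k)⁻¹ • Σ_β q β • gPl (u k, β)` solves the homogeneous equation near `y`
(`gPl_ker`, `gPl_shift`, `gPl_bound`); `plane_asymp` + `clim_of_cofinite` give its limit `Γ - κ / (z - y)`; `reg_lim`. -/
theorem src_bulk (ha : ∀ k, 0 < a k) (ha0 : Tendsto a atTop (𝓝 0)) {y : ℂ} {u : ℕ → Site} (hu : PtLim a u y) {δ : ℝ}
    (hδ : 0 < δ) (q : Fin 4 → ℝ) {s : ℕ → Fn}
    (hsol : ∀ᶠ k in atTop, ∀ p β, dist ((a k : ℂ) * toC p) y < δ →
      opA wPl (s k) (p, β) = if p = u k then (a k)⁻¹ * q β else 0)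
    (hb : BulkSeq (ball y δ \ {y}) a non (fun _ => Set.univ) s) {Γ : ℂ → ℂ}
    (hΓ : CLim a (ball y δ \ {y}) (fun k => fld (s k)) Γ) :
    Tendsto (fun z => (z - y) * Γ z) (𝓝[≠] y) (𝓝 (Complex.I * lam0 * ∑ β, (q β : ℂ) * bA β)) := by
  have hyU : y ∉ ball y δ \ {y} := fun h => h.2 rfl
  have hlim : CLim a (ball y δ \ {y}) (fun k => fld (s k - z1c_sing (a k) (u k) q))
      fun z => Γ z - ∑ β, (q β : ℂ) * (Complex.I * lam0 * bA β / (z - y)) := by
    intro z hz v hv
    have h1 := (hΓ z hz v hv).sub (tendsto_finsetSum Finset.univ fun β _ =>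
      (z1c_clim ha0 hu (plane_asymp β) z hz.2 v hv).const_mul (q β : ℂ))
    refine h1.congr fun k => ?_
    beta_reduce
    rw [z1c_fld, Finset.mul_sum]
    congr 1
    exact Finset.sum_congr rfl fun β _ => by ring
  obtain ⟨c, hc, -⟩ := reg_lim ha ha0 hδ (d := fun k => s k - z1c_sing (a k) (u k) q) (by
    filter_upwards [hsol] with k hk p hp β
    rw [DU.opA_sub, hk p β hp, z1c_opA, sub_self]) (z1c_bulk ha hu hyU q hb) hlim
  have h0 : Tendsto (fun z : ℂ => z - y) (𝓝[≠] y) (𝓝 0) := by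
    have : Tendsto (fun z : ℂ => z - y) (𝓝 y) (𝓝 (y - y)) := (continuous_id.sub continuous_const).tendsto y
    rw [sub_self] at this
    exact this.mono_left nhdsWithin_le_nhds
  have h2 := (h0.mul hc).add_const (Complex.I * lam0 * ∑ β, (q β : ℂ) * bA β)
  rw [zero_mul, zero_add] at h2
  refine h2.congr' ?_
  filter_upwards [self_mem_nhdsWithin] with z hz
  have hz' : z - y ≠ 0 := sub_ne_zero.2 hz
  simp only [Fin.sum_univ_four]
  field_simp
  ring

end Crest.Agent.R165.C
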